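import Mathlib

set_option autoImplicit false

/-!
Schatten-Hoelder for dyadic words, by iterated Cauchy-Schwarz (no interpolation).
-/

namespace Crest.Agent.Lib.Thorp

open Matrix

variable {n : Type*} [Fintype n] [DecidableEq n]

theorem trace_pow_comm (P Q : Matrix n n ℝ) (N : ℕ) :
    trace ((P * Q) ^ N) = trace ((Q * P) ^ N) := by
  cases N with
  | zero => simp
  | succ N =>
    have h : ∀ N : ℕ, (P * Q) ^ (N + 1) = P * ((Q * P) ^ N * Q) := by
      intro N
      induction N with
      | zero => simp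
      | succ N ih =>
        rw [pow_succ, ih, pow_succ]
        simp only [mul_assoc]
    have h' : ∀ N : ℕ, (Q * P) ^ (N + 1) = ((Q * P) ^ N * Q) * P := by
      intro N
      rw [pow_succ, mul_assoc]
    rw [h, h', Matrix.trace_mul_comm]

theorem trace_mul_le_of_sq (X Y : Matrix n n ℝ) (M : ℝ)
    (hX : trace (Xᵀ * X) ≤ M) (hY : trace (Yᵀ * Y) ≤ M) : trace (X * Y) ≤ M := by
  have h1 : trace (X * Y) = ∑ i, ∑ j, X i j * Y j i := by
    simp [Matrix.trace, Matrix.mul_apply]
  have h2 : trace (Xᵀ * X) = ∑ i, ∑ j, X i j ^ 2 := by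
    simp only [Matrix.trace, Matrix.mul_apply, Matrix.diag_apply, Matrix.transpose_apply]
    rw [Finset.sum_comm]
    simp [sq]
  have h3 : trace (Yᵀ * Y) = ∑ i, ∑ j, Y j i ^ 2 := by
    simp only [Matrix.trace, Matrix.mul_apply, Matrix.diag_apply, Matrix.transpose_apply]
    simp [sq]
  have h4 : ∑ i, ∑ j, X i j * Y j i ≤ (∑ i, ∑ j, X i j ^ 2) / 2 + (∑ i, ∑ j, Y j i ^ 2) / 2 := by
    rw [Finset.sum_div, Finset.sum_div, ← Finset.sum_add_distrib]
    apply Finset.sum_le_sum
    intro i _
    rw [Finset.sum_div, Finset.sum_div, ← Finset.sum_add_distrib]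
    apply Finset.sum_le_sum
    intro j _
    nlinarith [sq_nonneg (X i j - Y j i)]
  rw [h1]
  rw [h2] at hX
  rw [h3] at hY
  linarith

/-- adjacent pairing of a list -/
def pairUp {α : Type*} [Mul α] : List α → List α
  | a :: b :: t => (a * b) :: pairUp t
  | l => l

theorem pairUp_spec {α : Type*} [Monoid α] (m : ℕ) : ∀ (L : List α), L.length = 2 * m →
    (pairUp L).length = m ∧ (pairUp L).prod = L.prod ∧
      ∀ B ∈ pairUp L, ∃ a ∈ L, ∃ b ∈ L, B = a * b := by
  induction m with
  | zero =>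
    intro L hL
    have : L = [] := List.length_eq_zero_iff.mp (by omega)
    subst this
    simp [pairUp]
  | succ m ih =>
    intro L hL
    match L, hL with
    | [], h => simp at h
    | [a], h => simp at h; omega
    | a :: b :: t, h =>
      have ht : t.length = 2 * m := by simp at h; omega
      obtain ⟨h1, h2, h3⟩ := ih t ht
      refine ⟨by simp [pairUp, h1], by simp [pairUp, h2, mul_assoc], ?_⟩
      intro B hB
      simp only [pairUp, List.mem_cons] at hB
      rcases hB with hB | hB
      · exact ⟨a, by simp, b, by simp, hB⟩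
      · obtain ⟨a', ha', b', hb', e⟩ := h3 B hB
        exact ⟨a', by simp [ha'], b', by simp [hb'], e⟩

/-- The alternating word. -/
def altWord {α : Type*} (E F : α) (N : ℕ) : List α := (List.replicate N [E, F]).flatten

theorem altWord_spec {α : Type*} [Monoid α] (E F : α) (N : ℕ) :
    (altWord E F N).length = 2 * N ∧ (altWord E F N).prod = (E * F) ^ N ∧
      ∀ X ∈ altWord E F N, X = E ∨ X = F := by
  induction N with
  | zero => simp [altWord]
  | succ N ih =>
    obtain ⟨h1, h2, h3⟩ := ih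
    unfold altWord at *
    rw [List.replicate_succ, List.flatten_cons]
    refine ⟨by simp at h1 ⊢; omega, ?_, ?_⟩
    · simp only [List.prod_append, h2]
      rw [pow_succ']
      simp [mul_assoc]
    · intro X hX
      simp only [List.mem_append] at hX
      rcases hX with hX | hX
      · simpa using hX
      · exact h3 X hX

theorem trace_symm_pow_eq (b : Matrix n n ℝ) (N : ℕ) :
    trace ((b * bᵀ) ^ N) = trace ((bᵀ * b) ^ N) := trace_pow_comm b bᵀ N

/-- **Dyadic Schatten-Hoelder** -/
theorem word_bound (r : ℕ) : ∀ (M : ℝ) (L : List (Matrix n n ℝ)), L.length = 2 ^ (r + 1) →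
    (∀ X ∈ L, trace ((Xᵀ * X) ^ (2 ^ r)) ≤ M) → trace L.prod ≤ M := by
  induction r with
  | zero =>
    intro M L hL h
    match L, hL with
    | [], h' => simp at h'
    | [a], h' => simp at h'
    | a :: b :: c :: t, h' => simp at h'
    | [a, b], _ =>
      have h1 := h a (by simp)
      have h2 := h b (by simp)
      simp only [pow_zero, pow_one] at h1 h2
      simpa using trace_mul_le_of_sq a b M h1 h2
  | succ r ih =>
    intro M L hL h
    obtain ⟨h1, h2, h3⟩ := pairUp_spec (2 ^ (r + 1)) L (by rw [hL]; ring)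
    rw [← h2]
    apply ih M (pairUp L) h1
    intro B hB
    obtain ⟨a, ha, b, hb, rfl⟩ := h3 B hB
    -- the trace of the symmetric power is an alternating word
    have e1 : trace (((a * b)ᵀ * (a * b)) ^ (2 ^ r)) = trace ((aᵀ * a * (b * bᵀ)) ^ (2 ^ r)) := by
      rw [Matrix.transpose_mul]
      have : bᵀ * aᵀ * (a * b) = bᵀ * (aᵀ * a * b) := by simp only [mul_assoc]
      rw [this, trace_pow_comm]
      simp only [mul_assoc]
    rw [e1]
    obtain ⟨w1, w2, w3⟩ := altWord_spec (aᵀ * a) (b * bᵀ) (2 ^ r)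
    rw [← w2]
    apply ih M _ (by rw [w1]; ring)
    intro X hX
    have hpa := h a ha
    have hpb := h b hb
    rcases w3 X hX with rfl | rfl
    · have : (aᵀ * a)ᵀ * (aᵀ * a) = (aᵀ * a) ^ 2 := by
        rw [Matrix.transpose_mul, Matrix.transpose_transpose, sq]
      rw [this, ← pow_mul, show 2 * 2 ^ r = 2 ^ (r + 1) by ring]
      exact hpa
    · have : (b * bᵀ)ᵀ * (b * bᵀ) = (b * bᵀ) ^ 2 := by
        rw [Matrix.transpose_mul, Matrix.transpose_transpose, sq]
      rw [this, ← pow_mul, show 2 * 2 ^ r = 2 ^ (r + 1) by ring, trace_symm_pow_eq]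
      exact hpb

/-- The form used: `tr (A^K (Aᵀ)^K) ≤ tr ((Aᵀ A)^K)` for `K = 2^r`. -/
theorem trace_pow_mul_transpose_pow_le (A : Matrix n n ℝ) (r : ℕ) :
    trace (A ^ (2 ^ r) * (Aᵀ) ^ (2 ^ r)) ≤ trace ((Aᵀ * A) ^ (2 ^ r)) := by
  have hp : (List.replicate (2 ^ r) A ++ List.replicate (2 ^ r) Aᵀ).prod
      = A ^ (2 ^ r) * (Aᵀ) ^ (2 ^ r) := by
    simp [List.prod_append, List.prod_replicate]
  rw [← hp]
  apply word_bound r
  · simp; ring
  · intro X hX
    simp only [List.mem_append, List.mem_replicate] at hX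
    rcases hX with ⟨_, rfl⟩ | ⟨_, rfl⟩
    · exact le_rfl
    · rw [Matrix.transpose_transpose, trace_symm_pow_eq]

end Crest.Agent.Lib.Thorp
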