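import Mathlib
import Crest.Agent.Lib.Thorp.Schatten

set_option autoImplicit false

/-!
Laws on a finite group as elements of the group algebra; the regular representation as matrices.
-/

namespace Crest.Agent.Lib.Thorp

open MonoidAlgebra Finset Matrix

variable {G : Type*} [Group G] [Fintype G] [DecidableEq G]

/-- the group algebra -/
abbrev RG (G : Type*) [Group G] := MonoidAlgebra ℝ G

/-- coefficient -/
noncomputable def cf (x : RG G) (g : G) : ℝ := x.coeff g

omit [Fintype G] [DecidableEq G] in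
@[ext] theorem RG_ext {x y : RG G} (h : ∀ g, cf x g = cf y g) : x = y := by
  ext g; exact h g

omit [Fintype G] in
theorem cf_single (g h : G) (r : ℝ) : cf (single g r : RG G) h = if h = g then r else 0 := by
  unfold cf
  rw [MonoidAlgebra.coeff_single, Finsupp.single_apply]
  simp [eq_comm]

omit [Fintype G] [DecidableEq G] in
@[simp] theorem cf_add (x y : RG G) (g : G) : cf (x + y) g = cf x g + cf y g := rfl

omit [Fintype G] [DecidableEq G] in
@[simp] theorem cf_smul (r : ℝ) (x : RG G) (g : G) : cf (r • x) g = r * cf x g := rfl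

omit [Fintype G] [DecidableEq G] in
@[simp] theorem cf_zero (g : G) : cf (0 : RG G) g = 0 := rfl

omit [Fintype G] [DecidableEq G] in
theorem cf_sum {ι : Type*} (s : Finset ι) (f : ι → RG G) (g : G) :
    cf (∑ i ∈ s, f i) g = ∑ i ∈ s, cf (f i) g := by
  classical
  induction s using Finset.induction_on with
  | empty => simp
  | insert a s ha ih => rw [Finset.sum_insert ha, Finset.sum_insert ha, cf_add, ih]

omit [Fintype G] in
theorem cf_one (g : G) : cf (1 : RG G) g = if g = 1 then 1 else 0 := by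
  rw [MonoidAlgebra.one_def, cf_single]

/-- convolution formula -/
theorem cf_mul (x y : RG G) (g : G) : cf (x * y) g = ∑ h, cf x h * cf y (h⁻¹ * g) := by
  unfold cf
  rw [MonoidAlgebra.coeff_mul_apply_left]
  rw [Finsupp.sum_fintype]
  · intro i; simp

/-- from a function -/
noncomputable def ofFun (a : G → ℝ) : RG G := ∑ g, single g (a g)

theorem cf_ofFun (a : G → ℝ) (g : G) : cf (ofFun a) g = a g := by
  unfold ofFun
  rw [cf_sum]
  simp [cf_single]

theorem ofFun_cf (x : RG G) : ofFun (cf x) = x := by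
  apply RG_ext; intro g; rw [cf_ofFun]

/-- expectation of a test function -/
noncomputable def Ev (φ : G → ℝ) (x : RG G) : ℝ := ∑ g, cf x g * φ g

theorem Ev_single (φ : G → ℝ) (g : G) (r : ℝ) : Ev φ (single g r) = r * φ g := by
  unfold Ev
  simp [cf_single]

theorem Ev_add (φ : G → ℝ) (x y : RG G) : Ev φ (x + y) = Ev φ x + Ev φ y := by
  unfold Ev
  simp [add_mul, Finset.sum_add_distrib]

theorem Ev_smul (φ : G → ℝ) (r : ℝ) (x : RG G) : Ev φ (r • x) = r * Ev φ x := by
  unfold Ev
  simp [Finset.mul_sum, mul_assoc]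

theorem Ev_sum {ι : Type*} (φ : G → ℝ) (s : Finset ι) (f : ι → RG G) :
    Ev φ (∑ i ∈ s, f i) = ∑ i ∈ s, Ev φ (f i) := by
  classical
  induction s using Finset.induction_on with
  | empty => simp [Ev]
  | insert a s ha ih => rw [Finset.sum_insert ha, Finset.sum_insert ha, Ev_add, ih]

/-- reversal -/
noncomputable def rev (x : RG G) : RG G := ofFun fun g => cf x g⁻¹

theorem cf_rev (x : RG G) (g : G) : cf (rev x) g = cf x g⁻¹ := cf_ofFun _ _

theorem rev_mul (x y : RG G) : rev (x * y) = rev y * rev x := by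
  apply RG_ext; intro g
  rw [cf_rev, cf_mul, cf_mul]
  simp only [cf_rev]
  apply Fintype.sum_equiv (Equiv.mulLeft g)
  intro h
  simp only [Equiv.coe_mulLeft, _root_.mul_inv_rev, inv_inv, inv_mul_cancel_left]
  rw [mul_comm]

theorem rev_rev (x : RG G) : rev (rev x) = x := by
  apply RG_ext; intro g
  simp [cf_rev]

theorem rev_single (g : G) (r : ℝ) : rev (single g r : RG G) = single g⁻¹ r := by
  apply RG_ext; intro h
  rw [cf_rev, cf_single, cf_single]
  simp [inv_eq_iff_eq_inv]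

theorem rev_one : rev (1 : RG G) = 1 := by
  rw [MonoidAlgebra.one_def, rev_single, inv_one]

theorem rev_add (x y : RG G) : rev (x + y) = rev x + rev y := by
  apply RG_ext; intro g; simp [cf_rev]

theorem rev_smul (r : ℝ) (x : RG G) : rev (r • x) = r • rev x := by
  apply RG_ext; intro g; simp [cf_rev]

theorem rev_sum {ι : Type*} (s : Finset ι) (f : ι → RG G) : rev (∑ i ∈ s, f i) = ∑ i ∈ s, rev (f i) := by
  classical
  induction s using Finset.induction_on with
  | empty =>
    apply RG_ext; intro g; simp [cf_rev]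
  | insert a s ha ih => rw [Finset.sum_insert ha, Finset.sum_insert ha, rev_add, ih]

theorem rev_pow (x : RG G) (n : ℕ) : rev (x ^ n) = (rev x) ^ n := by
  induction n with
  | zero => simp [rev_one]
  | succ n ih =>
    rw [pow_succ, rev_mul, ih, pow_succ']

/-- regular representation -/
noncomputable def Reg (x : RG G) : Matrix G G ℝ := Matrix.of fun u v => cf x (u * v⁻¹)

theorem Reg_apply (x : RG G) (u v : G) : Reg x u v = cf x (u * v⁻¹) := rfl

theorem Reg_mul (x y : RG G) : Reg (x * y) = Reg x * Reg y := by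
  ext u w
  rw [Matrix.mul_apply, Reg_apply, cf_mul]
  simp only [Reg_apply]
  apply Fintype.sum_equiv ((Equiv.inv G).trans (Equiv.mulRight u))
  intro h
  simp only [Equiv.trans_apply, Equiv.inv_apply, Equiv.coe_mulRight, _root_.mul_inv_rev, inv_inv,
    mul_inv_cancel_left, mul_assoc]

theorem Reg_one : Reg (1 : RG G) = 1 := by
  ext u v
  rw [Reg_apply, cf_one, Matrix.one_apply]
  simp [mul_inv_eq_one]

theorem Reg_pow (x : RG G) (n : ℕ) : Reg (x ^ n) = (Reg x) ^ n := by
  induction n with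
  | zero => simp [Reg_one]
  | succ n ih => rw [pow_succ, Reg_mul, ih, pow_succ]

theorem Reg_rev (x : RG G) : Reg (rev x) = (Reg x)ᵀ := by
  ext u v
  rw [Matrix.transpose_apply, Reg_apply, Reg_apply, cf_rev]
  simp

theorem trace_Reg (x : RG G) : trace (Reg x) = (Fintype.card G : ℝ) * cf x 1 := by
  simp [Matrix.trace, Reg_apply]

/-- The basic L² form -/
theorem cf_mul_rev_one (x : RG G) : cf (x * rev x) 1 = ∑ g, (cf x g) ^ 2 := by
  rw [cf_mul]
  apply Finset.sum_congr rfl
  intro h _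
  rw [cf_rev]
  simp [sq]

/-- Schatten-Hoelder in the group algebra. -/
theorem sum_sq_pow_le (x : RG G) (r : ℕ) :
    ∑ g, (cf (x ^ (2 ^ r)) g) ^ 2 ≤ cf ((rev x * x) ^ (2 ^ r)) 1 := by
  have hG : (0 : ℝ) < (Fintype.card G : ℝ) := by
    exact_mod_cast Fintype.card_pos
  have h := trace_pow_mul_transpose_pow_le (Reg x) r
  have e1 : trace ((Reg x) ^ (2 ^ r) * ((Reg x)ᵀ) ^ (2 ^ r))
      = (Fintype.card G : ℝ) * ∑ g, (cf (x ^ (2 ^ r)) g) ^ 2 := by
    rw [← cf_mul_rev_one, ← trace_Reg, Reg_mul, Reg_rev, Reg_pow, Matrix.transpose_pow]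
  have e2 : trace (((Reg x)ᵀ * Reg x) ^ (2 ^ r))
      = (Fintype.card G : ℝ) * cf ((rev x * x) ^ (2 ^ r)) 1 := by
    rw [← trace_Reg, Reg_pow, Reg_mul, Reg_rev]
  rw [e1, e2] at h
  exact le_of_mul_le_mul_left h hG

/-- probability laws -/
structure IsLaw (x : RG G) : Prop where
  nonneg : ∀ g, 0 ≤ cf x g
  sum_one : ∑ g, cf x g = 1

/-- Convolving with a law does not increase the `L²` mass (Jensen). -/
theorem sum_sq_mul_law_le (x y : RG G) (hy : IsLaw y) :
    ∑ g, (cf (x * y) g) ^ 2 ≤ ∑ g, (cf x g) ^ 2 := by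
  have h1 : ∀ g, cf (x * y) g = ∑ h, cf y h * cf x (g * h⁻¹) := by
    intro g
    rw [cf_mul]
    apply Fintype.sum_equiv ((Equiv.inv G).trans (Equiv.mulRight g))
    intro h
    simp only [Equiv.trans_apply, Equiv.inv_apply, Equiv.coe_mulRight, _root_.mul_inv_rev, inv_inv,
      mul_inv_cancel_left]
    rw [mul_comm]
  have h2 : ∀ g, (cf (x * y) g) ^ 2 ≤ ∑ h, cf y h * (cf x (g * h⁻¹)) ^ 2 := by
    intro g
    rw [h1]
    have := Finset.sum_mul_sq_le_sq_mul_sq Finset.univ (fun h => Real.sqrt (cf y h))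
      (fun h => Real.sqrt (cf y h) * cf x (g * h⁻¹))
    have e1 : ∀ h, Real.sqrt (cf y h) * (Real.sqrt (cf y h) * cf x (g * h⁻¹))
        = cf y h * cf x (g * h⁻¹) := by
      intro h
      rw [← mul_assoc, Real.mul_self_sqrt (hy.nonneg h)]
    have e2 : ∀ h, (Real.sqrt (cf y h)) ^ 2 = cf y h := fun h => Real.sq_sqrt (hy.nonneg h)
    have e3 : ∀ h, (Real.sqrt (cf y h) * cf x (g * h⁻¹)) ^ 2 = cf y h * (cf x (g * h⁻¹)) ^ 2 := by
      intro h; rw [mul_pow, e2]
    simp only [e1, e2, e3, hy.sum_one, one_mul] at this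
    exact this
  calc ∑ g, (cf (x * y) g) ^ 2 ≤ ∑ g, ∑ h, cf y h * (cf x (g * h⁻¹)) ^ 2 :=
        Finset.sum_le_sum fun g _ => h2 g
    _ = ∑ h, cf y h * ∑ g, (cf x (g * h⁻¹)) ^ 2 := by
        rw [Finset.sum_comm]
        apply Finset.sum_congr rfl
        intro h _
        rw [Finset.mul_sum]
    _ = ∑ h, cf y h * ∑ g, (cf x g) ^ 2 := by
        apply Finset.sum_congr rfl
        intro h _
        congr 1
        exact Fintype.sum_equiv (Equiv.mulRight h⁻¹) _ _ (fun g => rfl)
    _ = ∑ g, (cf x g) ^ 2 := by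
        rw [← Finset.sum_mul, hy.sum_one, one_mul]

theorem IsLaw.mul {x y : RG G} (hx : IsLaw x) (hy : IsLaw y) : IsLaw (x * y) := by
  constructor
  · intro g
    rw [cf_mul]
    exact Finset.sum_nonneg fun h _ => mul_nonneg (hx.nonneg h) (hy.nonneg _)
  · simp_rw [cf_mul]
    rw [Finset.sum_comm]
    simp_rw [← Finset.mul_sum]
    have : ∀ h : G, ∑ g, cf y (h⁻¹ * g) = 1 := by
      intro h
      rw [← hy.sum_one]
      exact Fintype.sum_equiv (Equiv.mulLeft h⁻¹) _ _ (fun g => rfl)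
    simp only [this, mul_one, hx.sum_one]

theorem isLaw_one : IsLaw (1 : RG G) := by
  constructor
  · intro g; rw [cf_one]; split_ifs <;> norm_num
  · simp [cf_one]

theorem IsLaw.pow {x : RG G} (hx : IsLaw x) (n : ℕ) : IsLaw (x ^ n) := by
  induction n with
  | zero => simpa using isLaw_one
  | succ n ih => rw [pow_succ]; exact ih.mul hx

/-- uniform average over a finite sample space -/
noncomputable def avgS {Ω : Type*} [Fintype Ω] (F : Ω → G) : RG G :=
  (Fintype.card Ω : ℝ)⁻¹ • ∑ ω, (single (F ω) 1 : RG G)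

theorem Ev_avgS {Ω : Type*} [Fintype Ω] (F : Ω → G) (φ : G → ℝ) :
    Ev φ (avgS F) = (Fintype.card Ω : ℝ)⁻¹ * ∑ ω, φ (F ω) := by
  unfold avgS
  rw [Ev_smul, Ev_sum]
  simp [Ev_single]

theorem cf_avgS {Ω : Type*} [Fintype Ω] (F : Ω → G) (g : G) :
    cf (avgS F) g = (Fintype.card Ω : ℝ)⁻¹ * ∑ ω, (if g = F ω then 1 else 0) := by
  unfold avgS
  rw [cf_smul, cf_sum]
  simp [cf_single]

theorem avgS_mul {Ω Ω' : Type*} [Fintype Ω] [Fintype Ω'] (F : Ω → G) (F' : Ω' → G) :
    avgS F * avgS F' = avgS (fun p : Ω × Ω' => F p.1 * F' p.2) := by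
  unfold avgS
  rw [smul_mul_smul_comm, Finset.sum_mul_sum]
  rw [Fintype.card_prod]
  push_cast
  rw [mul_inv]
  congr 1
  rw [Fintype.sum_prod_type]
  simp [MonoidAlgebra.single_mul_single]

theorem avgS_congr_equiv {Ω Ω' : Type*} [Fintype Ω] [Fintype Ω'] (e : Ω ≃ Ω') (F : Ω' → G) :
    avgS (fun ω => F (e ω)) = avgS F := by
  unfold avgS
  rw [Fintype.card_congr e]
  congr 1
  exact Fintype.sum_equiv e _ _ (fun _ => rfl)

end Crest.Agent.Lib.Thorp
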