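import Mathlib
import Crest.Agent.Lib.Thorp.Law

set_option autoImplicit false

/-!
The doubling step of the Benes law: gates, the two-block map, `Ten`, and the tower `Pos k`.
-/

namespace Crest.Agent.Lib.Thorp

open MonoidAlgebra Finset Equiv

section generic

variable {V : Type*}

/-- The gate layer with coins `c`: on column `v` the two rows are swapped iff `c v`. -/
def gate (c : V → Bool) : Perm (Bool × V) where
  toFun x := (xor x.1 (c x.2), x.2)
  invFun x := (xor x.1 (c x.2), x.2)
  left_inv x := by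
    rcases x with ⟨r, v⟩
    simp
  right_inv x := by
    rcases x with ⟨r, v⟩
    simp

@[simp] theorem gate_apply (c : V → Bool) (r : Bool) (v : V) : gate c (r, v) = (xor r (c v), v) := rfl

theorem gate_inv (c : V → Bool) : (gate c)⁻¹ = gate c := rfl

/-- Independent permutations of the two rows: row `false` by `σ`, row `true` by `τ`. -/
def two (σ τ : Perm V) : Perm (Bool × V) where
  toFun x := (x.1, if x.1 then τ x.2 else σ x.2)
  invFun x := (x.1, if x.1 then τ⁻¹ x.2 else σ⁻¹ x.2)
  left_inv x := by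
    rcases x with ⟨r, v⟩
    cases r <;> simp
  right_inv x := by
    rcases x with ⟨r, v⟩
    cases r <;> simp

@[simp] theorem two_false (σ τ : Perm V) (v : V) : two σ τ (false, v) = (false, σ v) := rfl
@[simp] theorem two_true (σ τ : Perm V) (v : V) : two σ τ (true, v) = (true, τ v) := rfl

theorem two_apply (σ τ : Perm V) (x : Bool × V) :
    two σ τ x = (x.1, if x.1 then τ x.2 else σ x.2) := rfl

theorem two_mul (σ τ σ' τ' : Perm V) : two σ τ * two σ' τ' = two (σ * σ') (τ * τ') := by
  ext x
  · rcases x with ⟨r, v⟩; cases r <;> rfl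
  · rcases x with ⟨r, v⟩; cases r <;> rfl

theorem two_one : two (1 : Perm V) 1 = 1 := by
  ext x
  · rcases x with ⟨r, v⟩; cases r <;> rfl
  · rcases x with ⟨r, v⟩; cases r <;> rfl

theorem two_inv (σ τ : Perm V) : (two σ τ)⁻¹ = two σ⁻¹ τ⁻¹ := rfl

/-- left block embedding -/
def twoL : Perm V →* Perm (Bool × V) where
  toFun σ := two σ 1
  map_one' := two_one
  map_mul' a b := by rw [two_mul, one_mul]

/-- right block embedding -/
def twoR : Perm V →* Perm (Bool × V) where
  toFun σ := two 1 σ
  map_one' := two_one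
  map_mul' a b := by rw [two_mul, one_mul]

theorem twoL_mul_twoR (σ τ : Perm V) : twoL σ * twoR τ = two σ τ := by
  show two σ 1 * two 1 τ = two σ τ
  rw [two_mul, mul_one, one_mul]

theorem twoR_mul_twoL (σ τ : Perm V) : twoR τ * twoL σ = two σ τ := by
  show two 1 τ * two σ 1 = two σ τ
  rw [two_mul, mul_one, one_mul]

end generic

section alg

variable {G H : Type*} [Group G] [Group H] [Fintype G] [DecidableEq G] [Fintype H] [DecidableEq H]

/-- image of an element of the group algebra along a group homomorphism -/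
theorem map_eq_sum (f : G →* H) (x : RG G) :
    mapDomainRingHom ℝ f x = ∑ g, (single (f g) (cf x g) : RG H) := by
  conv_lhs => rw [← ofFun_cf x]
  unfold ofFun
  rw [map_sum]
  apply Finset.sum_congr rfl
  intro g _
  simp [mapDomain_single]

theorem map_single' (f : G →* H) (g : G) (r : ℝ) :
    mapDomainRingHom ℝ f (single g r : RG G) = single (f g) r := by
  simp [mapDomain_single]

end alg

section ten

variable {V : Type*} [Fintype V] [DecidableEq V]

/-- The two-block tensor: independent copies of a law on each row. -/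
noncomputable def Ten (a : RG (Perm V)) : RG (Perm (Bool × V)) :=
  mapDomainRingHom ℝ twoL a * mapDomainRingHom ℝ twoR a

theorem Ten_eq_sum (a : RG (Perm V)) :
    Ten a = ∑ σ, ∑ τ, (single (two σ τ) (cf a σ * cf a τ) : RG (Perm (Bool × V))) := by
  unfold Ten
  rw [map_eq_sum, map_eq_sum, Finset.sum_mul_sum]
  apply Finset.sum_congr rfl
  intro σ _
  apply Finset.sum_congr rfl
  intro τ _
  rw [single_mul_single, twoL_mul_twoR]

theorem map_twoL_comm_twoR (x y : RG (Perm V)) :
    mapDomainRingHom ℝ twoL x * mapDomainRingHom ℝ twoR y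
      = mapDomainRingHom ℝ twoR y * mapDomainRingHom ℝ twoL x := by
  rw [map_eq_sum, map_eq_sum, Finset.sum_mul_sum, Finset.sum_mul_sum]
  rw [Finset.sum_comm]
  apply Finset.sum_congr rfl
  intro σ _
  apply Finset.sum_congr rfl
  intro τ _
  rw [single_mul_single, single_mul_single, twoL_mul_twoR, twoR_mul_twoL, mul_comm]

theorem Ten_mul (a b : RG (Perm V)) : Ten (a * b) = Ten a * Ten b := by
  unfold Ten
  rw [map_mul, map_mul]
  calc _ = mapDomainRingHom ℝ twoL a * (mapDomainRingHom ℝ twoL b * mapDomainRingHom ℝ twoR a)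
        * mapDomainRingHom ℝ twoR b := by simp only [mul_assoc]
    _ = _ := by
      rw [map_twoL_comm_twoR b a]
      simp only [mul_assoc]

theorem Ten_one : Ten (1 : RG (Perm V)) = 1 := by
  unfold Ten
  simp

/-- `Ten` as a monoid homomorphism. -/
noncomputable def TenHom : RG (Perm V) →* RG (Perm (Bool × V)) where
  toFun := Ten
  map_one' := Ten_one
  map_mul' := Ten_mul

theorem Ev_Ten (φ : Perm (Bool × V) → ℝ) (a : RG (Perm V)) :
    Ev φ (Ten a) = ∑ σ, ∑ τ, cf a σ * cf a τ * φ (two σ τ) := by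
  rw [Ten_eq_sum, Ev_sum]
  apply Finset.sum_congr rfl
  intro σ _
  rw [Ev_sum]
  apply Finset.sum_congr rfl
  intro τ _
  rw [Ev_single]

theorem rev_Ten (a : RG (Perm V)) : rev (Ten a) = Ten (rev a) := by
  rw [Ten_eq_sum, Ten_eq_sum, rev_sum]
  rw [← Equiv.sum_comp (Equiv.inv (Perm V))]
  apply Finset.sum_congr rfl
  intro σ _
  rw [rev_sum, ← Equiv.sum_comp (Equiv.inv (Perm V))]
  apply Finset.sum_congr rfl
  intro τ _
  rw [rev_single, two_inv]
  simp only [Equiv.inv_apply, inv_inv, cf_rev]

/-- the uniform gate layer -/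
noncomputable def GateA : RG (Perm (Bool × V)) := avgS (gate (V := V))

theorem rev_avgS {G Ω : Type*} [Group G] [Fintype G] [DecidableEq G] [Fintype Ω] (F : Ω → G) :
    rev (avgS F) = avgS (fun ω => (F ω)⁻¹) := by
  unfold avgS
  rw [rev_smul, rev_sum]
  simp [rev_single]

theorem rev_GateA : rev (GateA : RG (Perm (Bool × V))) = GateA := by
  unfold GateA
  rw [rev_avgS]
  rfl

/-- one doubling step of the symmetric (Benes) law -/
noncomputable def dbl (a : RG (Perm V)) : RG (Perm (Bool × V)) := GateA * Ten a * GateA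

omit [Fintype V] [DecidableEq V] in
theorem Ev_single_mul_mul {G : Type*} [Group G] [Fintype G] [DecidableEq G]
    (φ : G → ℝ) (g h : G) (Y : RG G) :
    Ev φ ((single g 1 : RG G) * Y * single h 1) = Ev (fun u => φ (g * u * h)) Y := by
  conv_lhs => rw [← ofFun_cf Y]
  unfold ofFun
  rw [Finset.mul_sum, Finset.sum_mul, Ev_sum]
  unfold Ev
  apply Finset.sum_congr rfl
  intro u _
  rw [single_mul_single, single_mul_single]
  have := Ev_single φ (g * u * h) (1 * cf Y u * 1)
  unfold Ev at this
  rw [this]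
  ring

omit [Fintype V] [DecidableEq V] in
theorem Ev_avgS_mul_mul {G Ω Ω' : Type*} [Group G] [Fintype G] [DecidableEq G] [Fintype Ω]
    [Fintype Ω'] (φ : G → ℝ) (F : Ω → G) (F' : Ω' → G) (Y : RG G) :
    Ev φ (avgS F * Y * avgS F') = (Fintype.card Ω : ℝ)⁻¹ * (Fintype.card Ω' : ℝ)⁻¹ *
      ∑ ω, ∑ ω', Ev (fun u => φ (F ω * u * F' ω')) Y := by
  unfold avgS
  rw [smul_mul_assoc, mul_smul_comm, smul_mul_assoc, Ev_smul, Ev_smul, Finset.sum_mul,
    Finset.sum_mul, Ev_sum, ← mul_assoc, mul_comm ((Fintype.card Ω' : ℝ)⁻¹)]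
  congr 1
  apply Finset.sum_congr rfl
  intro ω _
  rw [Finset.mul_sum, Ev_sum]
  apply Finset.sum_congr rfl
  intro ω' _
  exact Ev_single_mul_mul φ (F ω) (F' ω') Y

theorem Ev_dbl (φ : Perm (Bool × V) → ℝ) (a : RG (Perm V)) :
    Ev φ (dbl a) = ((2 : ℝ) ^ Fintype.card V)⁻¹ * ((2 : ℝ) ^ Fintype.card V)⁻¹ *
      ∑ c : V → Bool, ∑ c' : V → Bool, ∑ σ, ∑ τ,
        cf a σ * cf a τ * φ (gate c * two σ τ * gate c') := by
  have hcard : (Fintype.card (V → Bool) : ℝ) = (2 : ℝ) ^ Fintype.card V := by
    simp [Fintype.card_fun]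
  unfold dbl GateA
  rw [Ev_avgS_mul_mul, hcard]
  simp only [Ev_Ten]

theorem dbl_rev_mul (ν : RG (Perm V)) :
    dbl (rev ν * ν) = rev (Ten ν * GateA) * (Ten ν * GateA) := by
  rw [rev_mul, rev_GateA, rev_Ten]
  unfold dbl
  rw [Ten_mul]
  simp only [mul_assoc]

theorem rev_dbl (a : RG (Perm V)) : rev (dbl a) = dbl (rev a) := by
  unfold dbl
  rw [rev_mul, rev_mul, rev_GateA, rev_Ten, mul_assoc]

end ten

/-! ### The tower -/

/-- positions at depth `k` -/
def Pos : ℕ → Type
  | 0 => Unit
  | k + 1 => Bool × Pos k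

/-- `Fintype` of the tower -/
instance instFintypePos : ∀ k, Fintype (Pos k)
  | 0 => inferInstanceAs (Fintype Unit)
  | k + 1 => by
    haveI := instFintypePos k
    exact inferInstanceAs (Fintype (Bool × Pos k))

/-- decidable equality of the tower -/
instance instDecEqPos : ∀ k, DecidableEq (Pos k)
  | 0 => inferInstanceAs (DecidableEq Unit)
  | k + 1 => by
    haveI := instDecEqPos k
    exact inferInstanceAs (DecidableEq (Bool × Pos k))

theorem card_Pos : ∀ k, Fintype.card (Pos k) = 2 ^ k
  | 0 => rfl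
  | k + 1 => by
    have h := card_Pos k
    have : Fintype.card (Pos (k + 1)) = Fintype.card (Bool × Pos k) := rfl
    rw [this, Fintype.card_prod, h, Fintype.card_bool]
    ring

/-- the random-Benes law `T_k = Q* Q` in the group algebra of `Perm (Pos k)` -/
noncomputable def bA : (k : ℕ) → RG (Perm (Pos k))
  | 0 => 1
  | k + 1 => dbl (bA k)

/-- the random-Benes law as a real function -/
noncomputable def beta (k : ℕ) (g : Perm (Pos k)) : ℝ := cf (bA k) g

/-- one forward sweep -/
noncomputable def nu : (k : ℕ) → RG (Perm (Pos k))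
  | 0 => 1
  | k + 1 => Ten (nu k) * GateA

theorem bA_eq (k : ℕ) : bA k = rev (nu k) * nu k := by
  induction k with
  | zero =>
    show (1 : RG (Perm (Pos 0))) = rev 1 * 1
    rw [rev_one, one_mul]
  | succ k ih =>
    have h := dbl_rev_mul (nu k)
    rw [← ih] at h
    exact h

end Crest.Agent.Lib.Thorp
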