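import Mathlib
import Crest.Agent.Lib.Thorp.Tower

set_option autoImplicit false

/-!
# The Kraft step of the warm start (S0222)

One doubling step of the Benes recursion: if the child network satisfies the Kraft inequality with
weights `w`, then so does the doubled network, with weights multiplied by `NodeN` (the number of
subsets of doubled gates with equal images under the two child permutations).
-/

namespace Crest.Agent.Lib.Thorp

open Finset Equiv

section generic

variable {V : Type} [Fintype V] [DecidableEq V]

/-- gates with both cards tracked -/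
def Dbl (S : Finset (Bool × V)) : Finset V :=
  univ.filter fun v => (false, v) ∈ S ∧ (true, v) ∈ S

/-- tracked set entering the upper child, after the in-gate `a` -/
def SU (S : Finset (Bool × V)) (a : V → Bool) : Finset V :=
  univ.filter fun v => (a v, v) ∈ S

/-- tracked set entering the lower child, after the in-gate `a` -/
def SL (S : Finset (Bool × V)) (a : V → Bool) : Finset V :=
  univ.filter fun v => ((!a v), v) ∈ S

/-- number of subsets of `D` on which the two child permutations have equal images -/
def NodeN (D : Finset V) (su sl : Perm V) : ℕ :=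
  (D.powerset.filter fun I => I.map su.toEmbedding = I.map sl.toEmbedding).card

theorem NodeN_pos (D : Finset V) (su sl : Perm V) : 0 < NodeN D su sl := by
  unfold NodeN
  apply Finset.card_pos.mpr
  exact ⟨∅, by simp⟩

/-- sign of a bit -/
def sgnB (b : Bool) : ℝ := if b then -1 else 1

@[simp] theorem sgnB_false : sgnB false = 1 := rfl
@[simp] theorem sgnB_true : sgnB true = -1 := by simp [sgnB]

theorem sgnB_xor (a b : Bool) : sgnB (xor a b) = sgnB a * sgnB b := by
  cases a <;> cases b <;> simp [sgnB]

theorem sgnB_not (b : Bool) : sgnB (!b) = - sgnB b := by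
  cases b <;> simp [sgnB]

theorem one_add_sgnB (b : Bool) : 1 + sgnB b = if b = false then 2 else 0 := by
  cases b <;> simp [sgnB] <;> norm_num

theorem abs_sgnB (b : Bool) : |sgnB b| = 1 := by
  cases b <;> simp [sgnB]

theorem sum_eq_zero_of_flip {α : Type*} [Fintype α] (e : α ≃ α) (F : α → ℝ)
    (h : ∀ x, F (e x) = - F x) : ∑ x, F x = 0 := by
  have h1 := Equiv.sum_comp e F
  simp only [h, Finset.sum_neg_distrib] at h1
  linarith

/-- flipping one bit -/
def flipAt (v : V) : (V → Bool) ≃ (V → Bool) where
  toFun a := Function.update a v (!a v)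
  invFun a := Function.update a v (!a v)
  left_inv a := by
    ext u
    by_cases h : u = v
    · subst h; simp
    · simp [Function.update_of_ne h]
  right_inv a := by
    ext u
    by_cases h : u = v
    · subst h; simp
    · simp [Function.update_of_ne h]

theorem flipAt_apply_self (v : V) (a : V → Bool) : flipAt v a v = !a v := by
  simp [flipAt]

theorem flipAt_apply_ne (v u : V) (h : u ≠ v) (a : V → Bool) : flipAt v a u = a u := by
  simp [flipAt, Function.update_of_ne h]

variable {ι : Type} [Fintype ι] [DecidableEq ι]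

/-- product of signs over `J` of `c (x j)` when flipping at `v` -/
theorem prod_flip (J : Finset ι) (x : ι → V) (ε : ι → ℝ) (v : V) (a : V → Bool)
    (hodd : Odd (J.filter fun j => x j = v).card) :
    ∏ j ∈ J, (ε j * sgnB (flipAt v a (x j))) = - ∏ j ∈ J, (ε j * sgnB (a (x j))) := by
  have h1 : ∀ j ∈ J, ε j * sgnB (flipAt v a (x j))
      = (if x j = v then (-1 : ℝ) else 1) * (ε j * sgnB (a (x j))) := by
    intro j _
    by_cases h : x j = v
    · rw [h, flipAt_apply_self, sgnB_not]; simp
    · rw [flipAt_apply_ne v (x j) h]; simp [h]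
  rw [Finset.prod_congr rfl h1, Finset.prod_mul_distrib]
  have h2 : ∏ j ∈ J, (if x j = v then (-1 : ℝ) else 1) = -1 := by
    rw [Finset.prod_ite]
    simp only [Finset.prod_const, one_pow, mul_one, Finset.card_filter]
    have : (∑ j ∈ J, if x j = v then 1 else 0) = (J.filter fun j => x j = v).card := by
      rw [Finset.card_filter]
    rw [this]
    exact hodd.neg_one_pow
  rw [h2]; ring

/-- The even subsets: each in-gate and out-gate is touched an even number of times. -/
def EvenSets (x z : ι → V) : Finset (Finset ι) :=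
  (univ : Finset (Finset ι)).filter fun J =>
    (∀ v, Even (J.filter fun j => x j = v).card) ∧ (∀ w, Even (J.filter fun j => z j = w).card)

theorem empty_mem_EvenSets (x z : ι → V) : ∅ ∈ EvenSets x z := by
  simp [EvenSets]

theorem EvenSets_card_pos (x z : ι → V) : 0 < (EvenSets x z).card :=
  Finset.card_pos.mpr ⟨∅, empty_mem_EvenSets x z⟩

/-- the parity system: count of solutions -/
theorem count_compat (x z : ι → V) (ε : ι → Bool) :
    (((univ : Finset ((V → Bool) × (V → Bool))).filter fun p =>
        ∀ j, xor (xor (p.1 (x j)) (p.2 (z j))) (ε j) = false).card : ℝ) * 2 ^ Fintype.card ι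
      ≤ (2 : ℝ) ^ Fintype.card V * 2 ^ Fintype.card V * (EvenSets x z).card := by
  classical
  set e : (V → Bool) × (V → Bool) → ι → Bool :=
    fun p j => xor (xor (p.1 (x j)) (p.2 (z j))) (ε j) with he
  have h1 : ∀ p : (V → Bool) × (V → Bool),
      (if (∀ j, e p j = false) then (1 : ℝ) else 0) * 2 ^ Fintype.card ι
        = ∑ J ∈ (univ : Finset ι).powerset, ∏ j ∈ J, sgnB (e p j) := by
    intro p
    rw [← Finset.prod_one_add]
    simp only [one_add_sgnB]
    by_cases h : ∀ j, e p j = false
    · simp [h, Finset.card_univ]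
    · push Not at h
      obtain ⟨j, hj⟩ := h
      have : ¬ ∀ j, e p j = false := fun h' => hj (h' j)
      rw [if_neg this, zero_mul]
      symm
      apply Finset.prod_eq_zero (Finset.mem_univ j)
      simp [hj]
  have h2 : ((univ : Finset ((V → Bool) × (V → Bool))).filter fun p =>
        ∀ j, e p j = false).card
      = ∑ p : (V → Bool) × (V → Bool), (if (∀ j, e p j = false) then (1 : ℝ) else 0) := by
    rw [Finset.card_filter]; push_cast; rfl
  have h3 : ∀ J : Finset ι, ∑ p : (V → Bool) × (V → Bool), ∏ j ∈ J, sgnB (e p j)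
      ≤ if J ∈ EvenSets x z then (2 : ℝ) ^ Fintype.card V * 2 ^ Fintype.card V else 0 := by
    intro J
    split_ifs with hJ
    · calc ∑ p : (V → Bool) × (V → Bool), ∏ j ∈ J, sgnB (e p j)
          ≤ ∑ _p : (V → Bool) × (V → Bool), (1 : ℝ) := by
            apply Finset.sum_le_sum
            intro p _
            have : |∏ j ∈ J, sgnB (e p j)| = 1 := by
              rw [Finset.abs_prod]
              simp [abs_sgnB]
            exact (le_abs_self _).trans this.le
        _ = (2 : ℝ) ^ Fintype.card V * 2 ^ Fintype.card V := by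
            simp [Fintype.card_prod, Fintype.card_fun]
    · -- an odd gate
      have hJ' : ¬ ((∀ v, Even (J.filter fun j => x j = v).card) ∧
          (∀ w, Even (J.filter fun j => z j = w).card)) := by
        intro h
        apply hJ
        simp [EvenSets, h.1, h.2]
      rw [not_and_or] at hJ'
      apply le_of_eq
      rcases hJ' with hv | hw
      · push Not at hv
        obtain ⟨v, hv⟩ := hv
        rw [Nat.not_even_iff_odd] at hv
        rw [Fintype.sum_prod_type, Finset.sum_comm]
        apply Finset.sum_eq_zero
        intro b _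
        apply sum_eq_zero_of_flip (flipAt v)
        intro a
        have := prod_flip J x (fun j => sgnB (b (z j)) * sgnB (ε j)) v a hv
        simp only [he, sgnB_xor]
        calc ∏ j ∈ J, (sgnB (flipAt v a (x j)) * sgnB (b (z j)) * sgnB (ε j))
            = ∏ j ∈ J, (sgnB (b (z j)) * sgnB (ε j) * sgnB (flipAt v a (x j))) := by
              apply Finset.prod_congr rfl; intros; ring
          _ = - ∏ j ∈ J, (sgnB (b (z j)) * sgnB (ε j) * sgnB (a (x j))) := this
          _ = _ := by
              congr 1
              apply Finset.prod_congr rfl; intros; ring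
      · push Not at hw
        obtain ⟨w, hw⟩ := hw
        rw [Nat.not_even_iff_odd] at hw
        rw [Fintype.sum_prod_type]
        apply Finset.sum_eq_zero
        intro a _
        apply sum_eq_zero_of_flip (flipAt w)
        intro b
        have := prod_flip J z (fun j => sgnB (a (x j)) * sgnB (ε j)) w b hw
        simp only [he, sgnB_xor]
        calc ∏ j ∈ J, (sgnB (a (x j)) * sgnB (flipAt w b (z j)) * sgnB (ε j))
            = ∏ j ∈ J, (sgnB (a (x j)) * sgnB (ε j) * sgnB (flipAt w b (z j))) := by
              apply Finset.prod_congr rfl; intros; ring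
          _ = - ∏ j ∈ J, (sgnB (a (x j)) * sgnB (ε j) * sgnB (b (z j))) := this
          _ = _ := by
              congr 1
              apply Finset.prod_congr rfl; intros; ring
  rw [h2, Finset.sum_mul]
  calc ∑ p : (V → Bool) × (V → Bool),
        (if (∀ j, e p j = false) then (1 : ℝ) else 0) * 2 ^ Fintype.card ι
      = ∑ p : (V → Bool) × (V → Bool), ∑ J ∈ (univ : Finset ι).powerset, ∏ j ∈ J, sgnB (e p j) :=
        Finset.sum_congr rfl fun p _ => h1 p
    _ = ∑ J ∈ (univ : Finset ι).powerset, ∑ p : (V → Bool) × (V → Bool), ∏ j ∈ J, sgnB (e p j) :=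
        Finset.sum_comm
    _ ≤ ∑ J ∈ (univ : Finset ι).powerset,
          (if J ∈ EvenSets x z then (2 : ℝ) ^ Fintype.card V * 2 ^ Fintype.card V else 0) :=
        Finset.sum_le_sum fun J _ => h3 J
    _ = (2 : ℝ) ^ Fintype.card V * 2 ^ Fintype.card V * (EvenSets x z).card := by
        rw [Finset.powerset_univ, Finset.sum_ite_mem]
        simp [mul_comm]

theorem exists_partner {α : Type*} [DecidableEq α] (s : Finset ι) (f : ι → α) (j : ι) (hj : j ∈ s)
    (h : Even (s.filter fun i => f i = f j).card) : ∃ j' ∈ s, j' ≠ j ∧ f j' = f j := by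
  have h0 : (s.filter fun i => f i = f j).card ≠ 0 := by
    apply Finset.card_ne_zero.mpr
    exact ⟨j, by simp [hj]⟩
  have h1 : 1 < (s.filter fun i => f i = f j).card := by
    rcases h with ⟨m, hm⟩
    omega
  obtain ⟨j', hj', hne⟩ := Finset.exists_mem_ne h1 j
  rw [Finset.mem_filter] at hj'
  exact ⟨j', hj'.1, hne, hj'.2⟩

theorem not_eq_of_ne_snd {X : ι → Bool × V} (hX : Function.Injective X) {j j' : ι} (hne : j' ≠ j)
    (hv : (X j').2 = (X j).2) : (X j').1 = !(X j).1 := by
  have : (X j').1 ≠ (X j).1 := by
    intro h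
    exact hne (hX (Prod.ext h hv))
  cases h1 : (X j').1 <;> cases h2 : (X j).1 <;> simp_all

/-- The even sets inject into the subsets of doubled gates with equal images. -/
theorem EvenSets_card_le (X Z : ι → Bool × V) (hX : Function.Injective X) (a b : V → Bool)
    (su sl : Perm V) (hE : ∀ j, gate b (two su sl (gate a (X j))) = Z j) :
    (EvenSets (fun j => (X j).2) (fun j => (Z j).2)).card
      ≤ NodeN (Dbl (univ.image X)) su sl := by
  classical
  -- basic facts
  set row : ι → Bool := fun j => xor (X j).1 (a (X j).2) with hrow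
  have hZ2 : ∀ j, (Z j).2 = if row j then sl (X j).2 else su (X j).2 := by
    intro j
    rw [← hE j]
    rcases hXj : X j with ⟨r, v⟩
    simp only [hrow, hXj, gate_apply]
    cases h : xor r (a v) <;> simp
  have hZ1 : ∀ j, (Z j).1 = xor (row j) (b (Z j).2) := by
    intro j
    rw [← hE j]
    rcases hXj : X j with ⟨r, v⟩
    simp only [hrow, hXj, gate_apply]
    cases h : xor r (a v) <;> simp
  have hZinj : Function.Injective Z := by
    intro j j' h
    apply hX
    rw [← hE j, ← hE j'] at h
    have h1 := (gate b).injective h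
    have h2 := (two su sl).injective h1
    exact (gate a).injective h2
  have hrowne : ∀ j j', j' ≠ j → (X j').2 = (X j).2 → row j' = !row j := by
    intro j j' hne hv
    have := not_eq_of_ne_snd hX hne hv
    simp only [hrow, this, hv]
    cases (X j).1 <;> cases a (X j).2 <;> rfl
  have hrowne' : ∀ j j', j' ≠ j → (Z j').2 = (Z j).2 → row j' = !row j := by
    intro j j' hne hw
    have h1 := not_eq_of_ne_snd hZinj hne hw
    rw [hZ1 j', hZ1 j, hw] at h1
    have key : ∀ p p' q : Bool, xor p' q = !(xor p q) → p' = !p := by decide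
    exact key _ _ _ h1
  unfold NodeN
  apply Finset.card_le_card_of_injOn (fun J => J.image fun j => (X j).2)
  · intro J hJ
    have hJ' : J ∈ EvenSets (fun j => (X j).2) (fun j => (Z j).2) := hJ
    simp only [EvenSets, Finset.mem_filter, Finset.mem_univ, true_and] at hJ'
    obtain ⟨hev, hew⟩ := hJ'
    simp only [Finset.coe_filter, Set.mem_setOf_eq, Finset.mem_powerset]
    constructor
    · intro v hv
      rw [Finset.mem_image] at hv
      obtain ⟨j, hj, rfl⟩ := hv
      obtain ⟨j', hj', hne, hv'⟩ := exists_partner J (fun j => (X j).2) j hj (hev _)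
      have hr := not_eq_of_ne_snd hX hne hv'
      have hm1 : X j ∈ (univ.image X : Finset (Bool × V)) :=
        Finset.mem_image_of_mem _ (Finset.mem_univ _)
      have hm2 : X j' ∈ (univ.image X : Finset (Bool × V)) :=
        Finset.mem_image_of_mem _ (Finset.mem_univ _)
      refine Finset.mem_filter.mpr ⟨Finset.mem_univ _, ?_⟩
      cases h : (X j).1
      · have e1 : X j = (false, (X j).2) := Prod.ext h rfl
        have e2 : X j' = (true, (X j).2) := Prod.ext (by simp [hr, h]) hv'
        rw [← e1, ← e2]
        exact ⟨hm1, hm2⟩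
      · have e1 : X j = (true, (X j).2) := Prod.ext h rfl
        have e2 : X j' = (false, (X j).2) := Prod.ext (by simp [hr, h]) hv'
        rw [← e1, ← e2]
        exact ⟨hm2, hm1⟩
    · apply Finset.eq_of_subset_of_card_le
      · intro w hw
        rw [Finset.mem_map] at hw
        obtain ⟨v, hv, rfl⟩ := hw
        rw [Finset.mem_image] at hv
        obtain ⟨j, hj, rfl⟩ := hv
        obtain ⟨j', hj', hne, hv'⟩ := exists_partner J (fun j => (X j).2) j hj (hev _)
        have hrr := hrowne j j' hne hv'
        -- pick the card going up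
        obtain ⟨j0, hj0, hrow0, hv0⟩ : ∃ j0 ∈ J, row j0 = false ∧ (X j0).2 = (X j).2 := by
          cases h : row j
          · exact ⟨j, hj, h, rfl⟩
          · exact ⟨j', hj', by simp [hrr, h], hv'⟩
        have hw0 : (Z j0).2 = su (X j).2 := by
          rw [hZ2 j0, hrow0, hv0]; simp
        obtain ⟨j1, hj1, hne1, hw1⟩ := exists_partner J (fun j => (Z j).2) j0 hj0 (hew _)
        have hr1 := hrowne' j0 j1 hne1 hw1
        have hr1' : row j1 = true := by simp [hr1, hrow0]
        have hw2 : (Z j1).2 = sl (X j1).2 := by
          rw [hZ2 j1, hr1']; simp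
        rw [Finset.mem_map]
        refine ⟨(X j1).2, Finset.mem_image_of_mem _ hj1, ?_⟩
        show sl (X j1).2 = su (X j).2
        rw [← hw2, hw1, hw0]
      · simp
  · intro J hJ J' hJ' hEq
    have hJ1 : J ∈ EvenSets (fun j => (X j).2) (fun j => (Z j).2) := hJ
    have hJ2 : J' ∈ EvenSets (fun j => (X j).2) (fun j => (Z j).2) := hJ'
    simp only [EvenSets, Finset.mem_filter, Finset.mem_univ, true_and] at hJ1 hJ2
    have hEq' : J.image (fun j => (X j).2) = J'.image (fun j => (X j).2) := hEq
    have key : ∀ {A B : Finset ι}, (∀ v, Even (B.filter fun j => (X j).2 = v).card) →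
        A.image (fun j => (X j).2) = B.image (fun j => (X j).2) → A ⊆ B := by
      intro A B hB hAB j hj
      have h1 : (X j).2 ∈ B.image (fun j => (X j).2) := by
        rw [← hAB]; exact Finset.mem_image_of_mem _ hj
      rw [Finset.mem_image] at h1
      obtain ⟨j2, hj2, hv2⟩ := h1
      obtain ⟨j3, hj3, hne3, hv3⟩ := exists_partner B (fun j => (X j).2) j2 hj2 (hB _)
      have hr3 := not_eq_of_ne_snd hX hne3 hv3
      by_cases h : (X j).1 = (X j2).1
      · have : X j = X j2 := Prod.ext h hv2.symm
        rw [hX this]; exact hj2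
      · have h' : (X j).1 = (X j3).1 := by
          rw [hr3]
          cases h4 : (X j).1 <;> cases h5 : (X j2).1 <;> simp_all
        have : X j = X j3 := Prod.ext h' (by
          have hv3' : (X j3).2 = (X j2).2 := hv3
          have hv2' : (X j2).2 = (X j).2 := hv2
          rw [hv3', hv2'])
        rw [hX this]; exact hj3
    exact Finset.Subset.antisymm (key hJ2.1 hEq') (key hJ1.1 hEq'.symm)

/-- The Kraft inequality with weights `w` for a random permutation `π` on a finite sample space. -/
def KraftAt {Ω : Type} [Fintype Ω] (π : Ω → Perm V) (w : Finset V → Ω → ℝ) : Prop :=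
  ∀ (ι : Type) [Fintype ι] [DecidableEq ι] (X : ι → V), Function.Injective X → ∀ Z : ι → V,
    ∑ ω, (w (univ.image X) ω)⁻¹ * (if ∀ j, π ω (X j) = Z j then (1 : ℝ) else 0)
      ≤ (Fintype.card Ω : ℝ) * ((Fintype.card V : ℝ) ^ Fintype.card ι)⁻¹

theorem event_iff (X Z : ι → Bool × V) (a b : V → Bool) (su sl : Perm V) (j : ι) :
    (gate b * two su sl * gate a) (X j) = Z j ↔
      (xor (xor (a (X j).2) (b (Z j).2)) (xor (X j).1 (Z j).1) = false) ∧
      (if xor (X j).1 (a (X j).2) = false then su (X j).2 = (Z j).2 else sl (X j).2 = (Z j).2) := by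
  rcases hXj : X j with ⟨r, v⟩
  rcases hZj : Z j with ⟨r', w⟩
  simp only [Perm.coe_mul, Function.comp_apply, gate_apply]
  cases h : xor r (a v)
  · have hr : r = a v := by
      cases r <;> cases hav : a v <;> simp_all
    subst hr
    simp only [two_false, gate_apply, Prod.mk.injEq]
    by_cases hw : su v = w
    · subst hw
      cases a v <;> cases b (su v) <;> cases r' <;> simp
    · simp [hw]
  · have hr : r = !a v := by
      cases r <;> cases hav : a v <;> simp_all
    subst hr
    simp only [two_true, gate_apply, Prod.mk.injEq]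
    by_cases hw : sl v = w
    · subst hw
      cases a v <;> cases b (sl v) <;> cases r' <;> simp
    · simp [hw]

theorem image_XU (X : ι → Bool × V) (a : V → Bool) :
    (univ.image (fun j : {j // xor (X j).1 (a (X j).2) = false} => (X j.1).2) : Finset V)
      = SU (univ.image X) a := by
  ext v
  simp only [Finset.mem_image, Finset.mem_univ, true_and, SU, Finset.mem_filter]
  constructor
  · rintro ⟨⟨j, hj⟩, rfl⟩
    refine ⟨j, Prod.ext ?_ rfl⟩
    have key : ∀ p q : Bool, xor p q = false → p = q := by decide
    exact key _ _ hj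
  · rintro ⟨j, hj⟩
    refine ⟨⟨j, ?_⟩, by simp [hj]⟩
    simp [hj]

theorem image_XL (X : ι → Bool × V) (a : V → Bool) :
    (univ.image (fun j : {j // ¬ xor (X j).1 (a (X j).2) = false} => (X j.1).2) : Finset V)
      = SL (univ.image X) a := by
  ext v
  simp only [Finset.mem_image, Finset.mem_univ, true_and, SL, Finset.mem_filter]
  constructor
  · rintro ⟨⟨j, hj⟩, rfl⟩
    refine ⟨j, Prod.ext ?_ rfl⟩
    have key : ∀ p q : Bool, ¬ xor p q = false → p = !q := by decide
    exact key _ _ hj
  · rintro ⟨j, hj⟩
    refine ⟨⟨j, ?_⟩, by simp [hj]⟩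
    simp [hj]

theorem inj_XU (X : ι → Bool × V) (hX : Function.Injective X) (a : V → Bool) :
    Function.Injective (fun j : {j // xor (X j).1 (a (X j).2) = false} => (X j.1).2) := by
  rintro ⟨j, hj⟩ ⟨j', hj'⟩ h
  simp only at h
  apply Subtype.ext
  apply hX
  refine Prod.ext ?_ h
  rw [← h] at hj'
  have key : ∀ p p' q : Bool, xor p q = false → xor p' q = false → p = p' := by decide
  exact key _ _ _ hj hj'

theorem inj_XL (X : ι → Bool × V) (hX : Function.Injective X) (a : V → Bool) :
    Function.Injective (fun j : {j // ¬ xor (X j).1 (a (X j).2) = false} => (X j.1).2) := by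
  rintro ⟨j, hj⟩ ⟨j', hj'⟩ h
  simp only at h
  apply Subtype.ext
  apply hX
  refine Prod.ext ?_ h
  rw [← h] at hj'
  have key : ∀ p p' q : Bool, ¬ xor p q = false → ¬ xor p' q = false → p = p' := by decide
  exact key _ _ _ hj hj'

/-- One doubling step of the Kraft inequality. -/
theorem kraft_step {Ω : Type} [Fintype Ω] (π : Ω → Perm V) (w : Finset V → Ω → ℝ)
    (hw : ∀ S ω, 0 < w S ω) (hK : KraftAt π w) (X : ι → Bool × V) (hX : Function.Injective X)
    (Z : ι → Bool × V) :
    ∑ a : V → Bool, ∑ b : V → Bool, ∑ ωu, ∑ ωl,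
      ((NodeN (Dbl (univ.image X)) (π ωu) (π ωl) : ℝ) * w (SU (univ.image X) a) ωu
          * w (SL (univ.image X) a) ωl)⁻¹ *
        (if ∀ j, (gate b * two (π ωu) (π ωl) * gate a) (X j) = Z j then (1 : ℝ) else 0)
      ≤ ((2 : ℝ) ^ Fintype.card V * 2 ^ Fintype.card V * Fintype.card Ω * Fintype.card Ω) *
          (((2 : ℝ) * Fintype.card V) ^ Fintype.card ι)⁻¹ := by
  classical
  set x : ι → V := fun j => (X j).2 with hx
  set z : ι → V := fun j => (Z j).2 with hz
  set ε : ι → Bool := fun j => xor (X j).1 (Z j).1 with hε
  set C : ℝ := ((EvenSets x z).card : ℝ) with hC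
  have hCpos : 0 < C := by
    rw [hC]; exact_mod_cast EvenSets_card_pos x z
  set N : ℝ := (Fintype.card V : ℝ) with hN
  set om : ℝ := (Fintype.card Ω : ℝ) with hom
  have hom0 : 0 ≤ om := Nat.cast_nonneg _
  have hN0 : 0 ≤ N := Nat.cast_nonneg _
  let compat : (V → Bool) → (V → Bool) → Prop :=
    fun a b => ∀ j, xor (xor (a (x j)) (b (z j))) (ε j) = false
  have key : ∀ a b : V → Bool,
      ∑ ωu, ∑ ωl,
      ((NodeN (Dbl (univ.image X)) (π ωu) (π ωl) : ℝ) * w (SU (univ.image X) a) ωu
          * w (SL (univ.image X) a) ωl)⁻¹ *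
        (if ∀ j, (gate b * two (π ωu) (π ωl) * gate a) (X j) = Z j then (1 : ℝ) else 0)
      ≤ (if compat a b then (1 : ℝ) else 0) * (C⁻¹ * (om * om * (N ^ Fintype.card ι)⁻¹)) := by
    intro a b
    by_cases hc : compat a b
    · rw [if_pos hc, one_mul]
      -- the two child tuples
      let pU : ι → Prop := fun j => xor (X j).1 (a (X j).2) = false
      let XU : {j // pU j} → V := fun j => (X j.1).2
      let ZU : {j // pU j} → V := fun j => (Z j.1).2
      let XL : {j // ¬ pU j} → V := fun j => (X j.1).2
      let ZL : {j // ¬ pU j} → V := fun j => (Z j.1).2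
      have hU := hK {j // pU j} XU (inj_XU X hX a) ZU
      have hL := hK {j // ¬ pU j} XL (inj_XL X hX a) ZL
      have imU : (univ.image XU : Finset V) = SU (univ.image X) a := image_XU X a
      have imL : (univ.image XL : Finset V) = SL (univ.image X) a := image_XL X a
      rw [imU] at hU
      rw [imL] at hL
      have hcard : Fintype.card {j // pU j} + Fintype.card {j // ¬ pU j} = Fintype.card ι := by
        rw [← Fintype.card_sum]
        exact Fintype.card_congr (Equiv.sumCompl pU)
      set AU : Ω → ℝ := fun ω => (w (SU (univ.image X) a) ω)⁻¹ *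
        (if ∀ j, π ω (XU j) = ZU j then (1 : ℝ) else 0) with hAU
      set AL : Ω → ℝ := fun ω => (w (SL (univ.image X) a) ω)⁻¹ *
        (if ∀ j, π ω (XL j) = ZL j then (1 : ℝ) else 0) with hAL
      have hAU0 : ∀ ω, 0 ≤ AU ω := fun ω => mul_nonneg (inv_nonneg.mpr (hw _ _).le)
        (by split_ifs <;> norm_num)
      have hAL0 : ∀ ω, 0 ≤ AL ω := fun ω => mul_nonneg (inv_nonneg.mpr (hw _ _).le)
        (by split_ifs <;> norm_num)
      have hterm : ∀ ωu ωl,
          ((NodeN (Dbl (univ.image X)) (π ωu) (π ωl) : ℝ) * w (SU (univ.image X) a) ωu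
            * w (SL (univ.image X) a) ωl)⁻¹ *
          (if ∀ j, (gate b * two (π ωu) (π ωl) * gate a) (X j) = Z j then (1 : ℝ) else 0)
          ≤ C⁻¹ * (AU ωu * AL ωl) := by
        intro ωu ωl
        by_cases hE : ∀ j, (gate b * two (π ωu) (π ωl) * gate a) (X j) = Z j
        · rw [if_pos hE, mul_one]
          have hE' := fun j => (event_iff X Z a b (π ωu) (π ωl) j).mp (hE j)
          have hUev : ∀ j, π ωu (XU j) = ZU j := by
            rintro ⟨j, hj⟩
            have := (hE' j).2
            rw [if_pos hj] at this
            exact this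
          have hLev : ∀ j, π ωl (XL j) = ZL j := by
            rintro ⟨j, hj⟩
            have := (hE' j).2
            rw [if_neg hj] at this
            exact this
          simp only [hAU, hAL, if_pos hUev, if_pos hLev, mul_one]
          have hCN : C ≤ (NodeN (Dbl (univ.image X)) (π ωu) (π ωl) : ℝ) := by
            rw [hC]
            have := EvenSets_card_le X Z hX a b (π ωu) (π ωl) (by
              intro j
              have := hE j
              simpa using this)
            exact_mod_cast this
          have hwU := hw (SU (univ.image X) a) ωu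
          have hwL := hw (SL (univ.image X) a) ωl
          rw [← mul_inv, ← mul_inv]
          apply inv_anti₀ (by positivity)
          calc C * (w (SU (univ.image X) a) ωu * w (SL (univ.image X) a) ωl)
              ≤ (NodeN (Dbl (univ.image X)) (π ωu) (π ωl) : ℝ)
                  * (w (SU (univ.image X) a) ωu * w (SL (univ.image X) a) ωl) :=
                mul_le_mul_of_nonneg_right hCN (by positivity)
            _ = _ := by ring
        · rw [if_neg hE, mul_zero]
          exact mul_nonneg (inv_nonneg.mpr hCpos.le) (mul_nonneg (hAU0 _) (hAL0 _))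
      calc _ ≤ ∑ ωu, ∑ ωl, C⁻¹ * (AU ωu * AL ωl) :=
            Finset.sum_le_sum fun ωu _ => Finset.sum_le_sum fun ωl _ => hterm ωu ωl
        _ = C⁻¹ * ((∑ ωu, AU ωu) * (∑ ωl, AL ωl)) := by
            rw [Finset.sum_mul_sum, Finset.mul_sum]
            apply Finset.sum_congr rfl
            intro ωu _
            rw [Finset.mul_sum]
        _ ≤ C⁻¹ * ((om * (N ^ Fintype.card {j // pU j})⁻¹)
              * (om * (N ^ Fintype.card {j // ¬ pU j})⁻¹)) := by
            apply mul_le_mul_of_nonneg_left _ (inv_nonneg.mpr hCpos.le)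
            exact mul_le_mul hU hL (Finset.sum_nonneg fun ω _ => hAL0 ω)
              (mul_nonneg hom0 (inv_nonneg.mpr (pow_nonneg hN0 _)))
        _ = _ := by
            rw [← hcard, pow_add, mul_inv]
            ring
    · rw [if_neg hc, zero_mul]
      apply le_of_eq
      apply Finset.sum_eq_zero
      intro ωu _
      apply Finset.sum_eq_zero
      intro ωl _
      have : ¬ ∀ j, (gate b * two (π ωu) (π ωl) * gate a) (X j) = Z j := by
        intro hE
        apply hc
        intro j
        exact ((event_iff X Z a b (π ωu) (π ωl) j).mp (hE j)).1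
      rw [if_neg this, mul_zero]
  calc _ ≤ ∑ a : V → Bool, ∑ b : V → Bool,
        (if compat a b then (1 : ℝ) else 0) * (C⁻¹ * (om * om * (N ^ Fintype.card ι)⁻¹)) :=
        Finset.sum_le_sum fun a _ => Finset.sum_le_sum fun b _ => key a b
    _ = ((((univ : Finset ((V → Bool) × (V → Bool))).filter fun p =>
        ∀ j, xor (xor (p.1 (x j)) (p.2 (z j))) (ε j) = false).card : ℝ))
          * (C⁻¹ * (om * om * (N ^ Fintype.card ι)⁻¹)) := by
        rw [Finset.card_filter, Nat.cast_sum, Finset.sum_mul, Fintype.sum_prod_type]
        apply Finset.sum_congr rfl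
        intro a _
        apply Finset.sum_congr rfl
        intro b _
        push_cast
        rfl
    _ ≤ _ := by
        have hcc := count_compat x z ε
        have h2t : (0 : ℝ) < 2 ^ Fintype.card ι := by positivity
        have hle : (((univ : Finset ((V → Bool) × (V → Bool))).filter fun p =>
            ∀ j, xor (xor (p.1 (x j)) (p.2 (z j))) (ε j) = false).card : ℝ) * C⁻¹
            ≤ (2 : ℝ) ^ Fintype.card V * 2 ^ Fintype.card V * ((2 : ℝ) ^ Fintype.card ι)⁻¹ := by
          rw [← div_eq_mul_inv, ← div_eq_mul_inv, div_le_div_iff₀ hCpos h2t]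
          exact hcc
        have hK' : 0 ≤ om * om * (N ^ Fintype.card ι)⁻¹ := by positivity
        calc _ = ((((univ : Finset ((V → Bool) × (V → Bool))).filter fun p =>
              ∀ j, xor (xor (p.1 (x j)) (p.2 (z j))) (ε j) = false).card : ℝ) * C⁻¹)
                * (om * om * (N ^ Fintype.card ι)⁻¹) := by ring
          _ ≤ ((2 : ℝ) ^ Fintype.card V * 2 ^ Fintype.card V * ((2 : ℝ) ^ Fintype.card ι)⁻¹)
                * (om * om * (N ^ Fintype.card ι)⁻¹) :=
              mul_le_mul_of_nonneg_right hle hK'
          _ = _ := by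
              rw [mul_pow, mul_inv]
              ring

end generic

end Crest.Agent.Lib.Thorp
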