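import Mathlib
import Crest.Agent.Lib.Thorp.KraftStep

set_option autoImplicit false

/-!
# Coin trees of the Benes network (S0222)

`Coin k` is a tree of gate coins (one layer at each node). An in-tree `i` and an out-tree `o` give
the permutation `cperm k i o = Wp k o * Vp k i`; under uniform coins this has law `bA k`.
`NN k S i o` is the product over all tree nodes of `NodeN` (number of invariant subsets of doubled
gates). The Kraft inequality (`kraft_tower`) and its power mean form (`power_mean_tower`) hold.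
-/

namespace Crest.Agent.Lib.Thorp

open Finset Equiv

/-- a tree of gate coins -/
def Coin : ℕ → Type
  | 0 => Unit
  | k + 1 => (Pos k → Bool) × Coin k × Coin k

/-- `Fintype` of coin trees -/
instance instFintypeCoin : ∀ k, Fintype (Coin k)
  | 0 => inferInstanceAs (Fintype Unit)
  | k + 1 => by
    haveI := instFintypeCoin k
    exact inferInstanceAs (Fintype ((Pos k → Bool) × Coin k × Coin k))

/-- decidable equality of coin trees -/
instance instDecEqCoin : ∀ k, DecidableEq (Coin k)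
  | 0 => inferInstanceAs (DecidableEq Unit)
  | k + 1 => by
    haveI := instDecEqCoin k
    exact inferInstanceAs (DecidableEq ((Pos k → Bool) × Coin k × Coin k))

instance instNonemptyCoin : ∀ k, Nonempty (Coin k)
  | 0 => inferInstanceAs (Nonempty Unit)
  | k + 1 => by
    haveI := instNonemptyCoin k
    exact inferInstanceAs (Nonempty ((Pos k → Bool) × Coin k × Coin k))

theorem card_Coin_pos (k : ℕ) : 0 < Fintype.card (Coin k) := Fintype.card_pos

/-- the in part of the network: gate first, then the children -/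
def Vp : (k : ℕ) → Coin k → Perm (Pos k)
  | 0, _ => 1
  | k + 1, c => two (Vp k c.2.1) (Vp k c.2.2) * gate c.1

/-- the out part of the network: children first, then the gate -/
def Wp : (k : ℕ) → Coin k → Perm (Pos k)
  | 0, _ => 1
  | k + 1, c => gate c.1 * two (Wp k c.2.1) (Wp k c.2.2)

/-- the permutation of the network with in coins `i` and out coins `o` -/
def cperm (k : ℕ) (i o : Coin k) : Perm (Pos k) := Wp k o * Vp k i

theorem cperm_succ (k : ℕ) (i o : Coin (k + 1)) :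
    cperm (k + 1) i o
      = gate o.1 * two (cperm k i.2.1 o.2.1) (cperm k i.2.2 o.2.2) * gate i.1 := by
  show (gate o.1 * two (Wp k o.2.1) (Wp k o.2.2)) * (two (Vp k i.2.1) (Vp k i.2.2) * gate i.1) = _
  unfold cperm
  rw [← two_mul]
  simp only [mul_assoc]

/-- expectation over in and out coins -/
noncomputable def EE (k : ℕ) (f : Coin k → Coin k → ℝ) : ℝ :=
  ((Fintype.card (Coin k) : ℝ))⁻¹ * ((Fintype.card (Coin k) : ℝ))⁻¹ * ∑ i, ∑ o, f i o

theorem card_Coin_succ (k : ℕ) : Fintype.card (Coin (k + 1))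
    = 2 ^ Fintype.card (Pos k) * (Fintype.card (Coin k) * Fintype.card (Coin k)) := by
  have : Fintype.card (Coin (k + 1)) = Fintype.card ((Pos k → Bool) × Coin k × Coin k) := rfl
  rw [this]
  simp [Fintype.card_prod, Fintype.card_fun]

theorem sum5_swap {α β γ δ ε : Type*} [Fintype α] [Fintype β] [Fintype γ] [Fintype δ] [Fintype ε]
    (G : α → β → γ → δ → ε → ℝ) :
    ∑ x, ∑ y, ∑ z, ∑ u, ∑ v, G x y z u v = ∑ z, ∑ x, ∑ u, ∑ y, ∑ v, G x y z u v := by
  calc ∑ x, ∑ y, ∑ z, ∑ u, ∑ v, G x y z u v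
      = ∑ x, ∑ z, ∑ y, ∑ u, ∑ v, G x y z u v :=
        Finset.sum_congr rfl fun x _ => Finset.sum_comm
    _ = ∑ z, ∑ x, ∑ y, ∑ u, ∑ v, G x y z u v := Finset.sum_comm
    _ = ∑ z, ∑ x, ∑ u, ∑ y, ∑ v, G x y z u v :=
        Finset.sum_congr rfl fun z _ => Finset.sum_congr rfl fun x _ => Finset.sum_comm

/-- the sum over a pair of coin trees at level `k+1` -/
theorem sum_coin_succ (k : ℕ) (F : Coin (k + 1) → Coin (k + 1) → ℝ) :
    ∑ i, ∑ o, F i o = ∑ a : Pos k → Bool, ∑ b : Pos k → Bool,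
      ∑ ωu : Coin k × Coin k, ∑ ωl : Coin k × Coin k,
        F (a, ωu.1, ωl.1) (b, ωu.2, ωl.2) := by
  let F' : ((Pos k → Bool) × Coin k × Coin k) → ((Pos k → Bool) × Coin k × Coin k) → ℝ := F
  show ∑ i : (Pos k → Bool) × Coin k × Coin k, ∑ o : (Pos k → Bool) × Coin k × Coin k, F' i o
    = ∑ a : Pos k → Bool, ∑ b : Pos k → Bool,
      ∑ ωu : Coin k × Coin k, ∑ ωl : Coin k × Coin k,
        F' (a, ωu.1, ωl.1) (b, ωu.2, ωl.2)
  simp only [Fintype.sum_prod_type]
  apply Finset.sum_congr rfl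
  intro a _
  exact sum5_swap (fun (iu il : Coin k) (b : Pos k → Bool) (ou ol : Coin k) =>
    F' (a, iu, il) (b, ou, ol))

/-- one doubling step as a permutation of `Pos (k+1)` -/
def stepP (k : ℕ) (a b : Pos k → Bool) (s t : Perm (Pos k)) : Perm (Pos (k + 1)) :=
  gate b * two s t * gate a

theorem cperm_pair (k : ℕ) (a b : Pos k → Bool) (iu il ou ol : Coin k) :
    cperm (k + 1) (a, iu, il) (b, ou, ol) = stepP k a b (cperm k iu ou) (cperm k il ol) :=
  cperm_succ k (a, iu, il) (b, ou, ol)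

/-- the law of the network -/
theorem Ev_bA (k : ℕ) (φ : Perm (Pos k) → ℝ) :
    Ev φ (bA k) = EE k (fun i o => φ (cperm k i o)) := by
  induction k with
  | zero =>
    have hc : Fintype.card (Coin 0) = 1 := rfl
    unfold EE
    rw [hc]
    show Ev φ (1 : RG (Perm (Pos 0))) = _
    have h1 : (1 : RG (Perm (Pos 0))) = MonoidAlgebra.single 1 1 := MonoidAlgebra.one_def
    rw [h1, Ev_single]
    have : ∀ f : Coin 0 → Coin 0 → ℝ, ∑ i, ∑ o, f i o = f () () := by
      intro f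
      let f' : Unit → Unit → ℝ := f
      show ∑ i : Unit, ∑ o : Unit, f' i o = f' () ()
      exact (Fintype.sum_unique _).trans (Fintype.sum_unique _)
    rw [this]
    simp only [Nat.cast_one, inv_one, mul_one, one_mul]
    rfl
  | succ k ih =>
    have h0 : Ev φ (bA (k + 1)) = ((2 : ℝ) ^ Fintype.card (Pos k))⁻¹ * ((2 : ℝ) ^ Fintype.card (Pos k))⁻¹ *
      ∑ c : Pos k → Bool, ∑ c' : Pos k → Bool, ∑ σ, ∑ τ,
        cf (bA k) σ * cf (bA k) τ * φ (stepP k c' c σ τ) := Ev_dbl (V := Pos k) φ (bA k)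
    rw [h0]
    unfold EE
    rw [sum_coin_succ, card_Coin_succ]
    simp only [cperm_pair]
    set c : ℝ := ((Fintype.card (Coin k) : ℝ))⁻¹ with hc
    have inner : ∀ (a b : Pos k → Bool),
        ∑ σ, ∑ τ, cf (bA k) σ * cf (bA k) τ * φ (stepP k a b σ τ)
        = (c * c) * (c * c) * ∑ ωu : Coin k × Coin k, ∑ ωl : Coin k × Coin k,
            φ (stepP k a b (cperm k ωu.1 ωu.2) (cperm k ωl.1 ωl.2)) := by
      intro a b
      have h1 : ∀ σ, ∑ τ, cf (bA k) σ * cf (bA k) τ * φ (stepP k a b σ τ)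
          = cf (bA k) σ * (c * c * ∑ ωl : Coin k × Coin k,
              φ (stepP k a b σ (cperm k ωl.1 ωl.2))) := by
        intro σ
        have := ih (fun τ => φ (stepP k a b σ τ))
        unfold Ev EE at this
        simp only [mul_assoc, ← Finset.mul_sum]
        congr 1
        rw [this, Fintype.sum_prod_type, mul_assoc]
      simp only [h1]
      have h2 := ih (fun σ => ∑ ωl : Coin k × Coin k,
              φ (stepP k a b σ (cperm k ωl.1 ωl.2)))
      unfold Ev EE at h2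
      calc ∑ σ, cf (bA k) σ * (c * c * ∑ ωl : Coin k × Coin k,
              φ (stepP k a b σ (cperm k ωl.1 ωl.2)))
          = (c * c) * ∑ σ, cf (bA k) σ * ∑ ωl : Coin k × Coin k,
              φ (stepP k a b σ (cperm k ωl.1 ωl.2)) := by
            rw [Finset.mul_sum]
            apply Finset.sum_congr rfl
            intros; ring
        _ = _ := by
            rw [h2, Fintype.sum_prod_type]
            ring
    -- match the outer sums (`c` is the out gate and `c'` the in gate in `Ev_dbl`)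
    rw [Finset.sum_comm]
    simp only [inner, ← Finset.mul_sum]
    push_cast
    simp only [hc, mul_inv]
    ring

/-- The weight: product over all tree nodes of `NodeN`. -/
noncomputable def NN : (k : ℕ) → Finset (Pos k) → Coin k → Coin k → ℝ
  | 0, _, _, _ => 1
  | k + 1, S, i, o =>
      (NodeN (V := Pos k) (Dbl (V := Pos k) S) (cperm k i.2.1 o.2.1) (cperm k i.2.2 o.2.2) : ℝ)
        * NN k (SU (V := Pos k) S i.1) i.2.1 o.2.1 * NN k (SL (V := Pos k) S i.1) i.2.2 o.2.2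

theorem NN_pos : ∀ (k : ℕ) (S : Finset (Pos k)) (i o : Coin k), 0 < NN k S i o
  | 0, _, _, _ => one_pos
  | k + 1, S, i, o => by
    have h1 : (0 : ℝ) < NodeN (V := Pos k) (Dbl (V := Pos k) S) (cperm k i.2.1 o.2.1)
        (cperm k i.2.2 o.2.2) := by
      exact_mod_cast NodeN_pos _ _ _
    have h2 := NN_pos k (SU (V := Pos k) S i.1) i.2.1 o.2.1
    have h3 := NN_pos k (SL (V := Pos k) S i.1) i.2.2 o.2.2
    show 0 < _ * _ * _
    positivity

/-- The Kraft inequality for the network. -/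
theorem kraft_tower (k : ℕ) :
    KraftAt (V := Pos k) (Ω := Coin k × Coin k) (fun p => cperm k p.1 p.2)
      (fun S p => NN k S p.1 p.2) := by
  induction k with
  | zero =>
    intro ι _ _ X hX Z
    have hc : Fintype.card (Coin 0 × Coin 0) = 1 := rfl
    have hp : Fintype.card (Pos 0) = 1 := rfl
    rw [hc, hp]
    simp only [Nat.cast_one, one_pow, inv_one, mul_one]
    have hs : ∀ f : Coin 0 × Coin 0 → ℝ, ∑ p, f p = f ((), ()) := by
      intro f
      let f' : Unit × Unit → ℝ := f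
      show ∑ p : Unit × Unit, f' p = f' ((), ())
      rw [Fintype.sum_prod_type]
      exact (Fintype.sum_unique _).trans (Fintype.sum_unique _)
    rw [hs]
    show (1 : ℝ)⁻¹ * _ ≤ 1
    split_ifs <;> norm_num
  | succ k ih =>
    intro ι _ _ X hX Z
    have hw : ∀ (S : Finset (Pos k)) (p : Coin k × Coin k), 0 < NN k S p.1 p.2 :=
      fun S p => NN_pos k S p.1 p.2
    have hstep := kraft_step (V := Pos k) (Ω := Coin k × Coin k) (fun p => cperm k p.1 p.2)
      (fun S p => NN k S p.1 p.2) hw ih (X : ι → Bool × Pos k) hX (Z : ι → Bool × Pos k)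
    have hcard1 : (Fintype.card (Coin (k + 1) × Coin (k + 1)) : ℝ)
        = (2 : ℝ) ^ Fintype.card (Pos k) * 2 ^ Fintype.card (Pos k)
            * (Fintype.card (Coin k × Coin k) : ℝ) * (Fintype.card (Coin k × Coin k) : ℝ) := by
      rw [Fintype.card_prod, Fintype.card_prod, card_Coin_succ]
      push_cast
      ring
    have hcard2 : (Fintype.card (Pos (k + 1)) : ℝ) = 2 * (Fintype.card (Pos k) : ℝ) := by
      rw [card_Pos, card_Pos, pow_succ]
      push_cast
      ring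
    rw [hcard1, hcard2]
    refine le_trans (le_of_eq ?_) hstep
    rw [Fintype.sum_prod_type, sum_coin_succ (k := k)]
    apply Finset.sum_congr rfl; intro a _
    apply Finset.sum_congr rfl; intro b _
    apply Finset.sum_congr rfl; intro ωu _
    apply Finset.sum_congr rfl; intro ωl _
    have hE : (∀ j, cperm (k + 1) (a, ωu.1, ωl.1) (b, ωu.2, ωl.2) (X j) = Z j) ↔
        (∀ j, (gate b * two (cperm k ωu.1 ωu.2) (cperm k ωl.1 ωl.2) * gate a)
          (X j : Bool × Pos k) = (Z j : Bool × Pos k)) := by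
      rw [cperm_pair]
      rfl
    refine congrArg₂ (· * ·) rfl ?_
    by_cases h : ∀ j, cperm (k + 1) (a, ωu.1, ωl.1) (b, ωu.2, ωl.2) (X j) = Z j
    · rw [if_pos h, if_pos (hE.mp h)]
    · rw [if_neg h, if_neg (mt hE.mpr h)]

/-- A Hoelder counting inequality. -/
theorem holder_count {Ω : Type*} (s : Finset Ω) (w : Ω → ℝ) (hw : ∀ ω, 0 < w ω) (δ : ℝ)
    (hδ : 0 < δ) :
    (s.card : ℝ) ^ (1 + δ) ≤ (∑ ω ∈ s, w ω ^ δ) * (∑ ω ∈ s, (w ω)⁻¹) ^ δ := by
  have hp : (1 + δ).HolderConjugate ((1 + δ) / δ) := by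
    constructor
    · field_simp
    · linarith
    · positivity
  have h1 := Real.inner_le_Lp_mul_Lq_of_nonneg s hp
    (f := fun ω => w ω ^ (δ / (1 + δ))) (g := fun ω => ((w ω)⁻¹) ^ (δ / (1 + δ)))
    (fun ω _ => (Real.rpow_pos_of_pos (hw ω) _).le)
    (fun ω _ => (Real.rpow_pos_of_pos (inv_pos.mpr (hw ω)) _).le)
  have e1 : ∀ ω, w ω ^ (δ / (1 + δ)) * ((w ω)⁻¹) ^ (δ / (1 + δ)) = 1 := by
    intro ω
    rw [← Real.mul_rpow (hw ω).le (inv_pos.mpr (hw ω)).le, mul_inv_cancel₀ (hw ω).ne',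
      Real.one_rpow]
  have e2 : ∀ ω, (w ω ^ (δ / (1 + δ))) ^ (1 + δ) = w ω ^ δ := by
    intro ω
    rw [← Real.rpow_mul (hw ω).le]
    congr 1
    field_simp
  have e3 : ∀ ω, (((w ω)⁻¹) ^ (δ / (1 + δ))) ^ ((1 + δ) / δ) = (w ω)⁻¹ := by
    intro ω
    rw [← Real.rpow_mul (inv_pos.mpr (hw ω)).le]
    have : δ / (1 + δ) * ((1 + δ) / δ) = 1 := by field_simp
    rw [this, Real.rpow_one]
  simp only [e1, e2, e3] at h1
  simp only [Finset.sum_const, nsmul_eq_mul, mul_one] at h1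
  have ha : 0 ≤ ∑ ω ∈ s, w ω ^ δ :=
    Finset.sum_nonneg fun ω _ => (Real.rpow_pos_of_pos (hw ω) _).le
  have hb : 0 ≤ ∑ ω ∈ s, (w ω)⁻¹ :=
    Finset.sum_nonneg fun ω _ => (inv_pos.mpr (hw ω)).le
  have h2 := Real.rpow_le_rpow (Nat.cast_nonneg _) h1 (by positivity : (0 : ℝ) ≤ 1 + δ)
  refine h2.trans (le_of_eq ?_)
  rw [Real.mul_rpow (Real.rpow_nonneg ha _) (Real.rpow_nonneg hb _), ← Real.rpow_mul ha,
    ← Real.rpow_mul hb]
  have e4 : 1 / (1 + δ) * (1 + δ) = 1 := by field_simp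
  have e5 : 1 / ((1 + δ) / δ) * (1 + δ) = δ := by field_simp
  rw [e4, e5, Real.rpow_one]

/-- Power mean form of the Kraft inequality, for a general network. -/
theorem power_mean {V : Type} [Fintype V] [DecidableEq V] {Ω : Type} [Fintype Ω] [Nonempty Ω]
    (π : Ω → Perm V) (w : Finset V → Ω → ℝ) (hw : ∀ S ω, 0 < w S ω) (hK : KraftAt π w)
    {ι : Type} [Fintype ι] [DecidableEq ι] (X : ι → V) (hX : Function.Injective X)
    (δ : ℝ) (hδ : 0 < δ) :
    ∑ Z : ι → V, ((Fintype.card Ω : ℝ)⁻¹ *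
        ∑ ω, (if ∀ j, π ω (X j) = Z j then (1 : ℝ) else 0)) ^ (1 + δ)
      ≤ (((Fintype.card V : ℝ) ^ Fintype.card ι)⁻¹) ^ δ *
        ((Fintype.card Ω : ℝ)⁻¹ * ∑ ω, w (univ.image X) ω ^ δ) := by
  classical
  have hΩ : (0 : ℝ) < (Fintype.card Ω : ℝ) := by exact_mod_cast Fintype.card_pos
  set S := (univ.image X : Finset V) with hS
  set nn : ℝ := ((Fintype.card V : ℝ) ^ Fintype.card ι)⁻¹ with hnn
  have hnn0 : 0 ≤ nn := by positivity
  have per : ∀ Z : ι → V, ((Fintype.card Ω : ℝ)⁻¹ *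
        ∑ ω, (if ∀ j, π ω (X j) = Z j then (1 : ℝ) else 0)) ^ (1 + δ)
      ≤ nn ^ δ * ((Fintype.card Ω : ℝ)⁻¹ *
          ∑ ω, (if ∀ j, π ω (X j) = Z j then w S ω ^ δ else 0)) := by
    intro Z
    set s := (univ : Finset Ω).filter fun ω => ∀ j, π ω (X j) = Z j with hs
    have e1 : ∑ ω, (if ∀ j, π ω (X j) = Z j then (1 : ℝ) else 0) = s.card := by
      rw [Finset.card_filter]; push_cast; rfl
    have e2 : ∑ ω, (if ∀ j, π ω (X j) = Z j then w S ω ^ δ else 0) = ∑ ω ∈ s, w S ω ^ δ := by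
      rw [hs, Finset.sum_filter]
    have h1 := holder_count s (w S) (hw S) δ hδ
    have h2 : ∑ ω ∈ s, (w S ω)⁻¹ ≤ (Fintype.card Ω : ℝ) * nn := by
      have := hK ι X hX Z
      rw [hs, Finset.sum_filter]
      refine le_trans (le_of_eq ?_) this
      apply Finset.sum_congr rfl
      intro ω _
      split_ifs with h
      · rw [mul_one]
      · rw [mul_zero]
    have h3 : 0 ≤ ∑ ω ∈ s, (w S ω)⁻¹ := Finset.sum_nonneg fun ω _ => (inv_pos.mpr (hw S ω)).le
    have h4 : 0 ≤ ∑ ω ∈ s, w S ω ^ δ :=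
      Finset.sum_nonneg fun ω _ => (Real.rpow_pos_of_pos (hw S ω) _).le
    rw [e1, e2]
    have h5 : (∑ ω ∈ s, (w S ω)⁻¹) ^ δ ≤ ((Fintype.card Ω : ℝ) * nn) ^ δ :=
      Real.rpow_le_rpow h3 h2 hδ.le
    set m : ℝ := (Fintype.card Ω : ℝ) with hm
    have h6 : ((m)⁻¹ * (s.card : ℝ)) ^ (1 + δ) = (m⁻¹) ^ (1 + δ) * (s.card : ℝ) ^ (1 + δ) :=
      Real.mul_rpow (inv_nonneg.mpr hΩ.le) (Nat.cast_nonneg _)
    rw [h6]
    have h7 : (m * nn) ^ δ = m ^ δ * nn ^ δ := Real.mul_rpow hΩ.le hnn0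
    have h8 : (m⁻¹) ^ (1 + δ) * m ^ δ = m⁻¹ := by
      rw [Real.rpow_add (inv_pos.mpr hΩ), Real.rpow_one, Real.inv_rpow hΩ.le]
      field_simp [(Real.rpow_pos_of_pos hΩ δ).ne']
    have hmi : 0 ≤ (m⁻¹) ^ (1 + δ) := Real.rpow_nonneg (inv_nonneg.mpr hΩ.le) _
    calc (m⁻¹) ^ (1 + δ) * (s.card : ℝ) ^ (1 + δ)
        ≤ (m⁻¹) ^ (1 + δ) * ((∑ ω ∈ s, w S ω ^ δ) * ((m * nn) ^ δ)) := by
          apply mul_le_mul_of_nonneg_left _ hmi
          exact h1.trans (mul_le_mul_of_nonneg_left h5 h4)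
      _ = ((m⁻¹) ^ (1 + δ) * m ^ δ) * (nn ^ δ * (∑ ω ∈ s, w S ω ^ δ)) := by
          rw [h7]; ring
      _ = _ := by
          rw [h8]; ring
  calc _ ≤ ∑ Z : ι → V, nn ^ δ * ((Fintype.card Ω : ℝ)⁻¹ *
          ∑ ω, (if ∀ j, π ω (X j) = Z j then w S ω ^ δ else 0)) :=
        Finset.sum_le_sum fun Z _ => per Z
    _ = nn ^ δ * ((Fintype.card Ω : ℝ)⁻¹ *
          ∑ Z : ι → V, ∑ ω, (if ∀ j, π ω (X j) = Z j then w S ω ^ δ else 0)) := by
        rw [Finset.mul_sum, Finset.mul_sum]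
        try simp only [Finset.mul_sum]
    _ = _ := by
        congr 2
        rw [Finset.sum_comm]
        apply Finset.sum_congr rfl
        intro ω _
        rw [Finset.sum_eq_single (fun j => π ω (X j))]
        · simp
        · intro Z _ hZ
          rw [if_neg]
          intro h
          exact hZ (funext fun j => (h j).symm)
        · intro h
          exact absurd (Finset.mem_univ _) h

/-- **Power mean for the network**: the bound `Σ_Z P[σ ∘ X = Z]^(1+δ) ≤ n^(-δ t) E[NN^δ]`. -/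
theorem power_mean_tower (k : ℕ) {ι : Type} [Fintype ι] [DecidableEq ι] (X : ι → Pos k)
    (hX : Function.Injective X) (δ : ℝ) (hδ : 0 < δ) :
    ∑ Z : ι → Pos k, (∑ g : Perm (Pos k), cf (bA k) g *
        (if ∀ j, g (X j) = Z j then (1 : ℝ) else 0)) ^ (1 + δ)
      ≤ ((((2 : ℝ) ^ k) ^ Fintype.card ι)⁻¹) ^ δ *
        EE k (fun i o => NN k (univ.image X) i o ^ δ) := by
  have h := power_mean (V := Pos k) (Ω := Coin k × Coin k) (fun p => cperm k p.1 p.2)
    (fun S p => NN k S p.1 p.2) (fun S p => NN_pos k S p.1 p.2) (kraft_tower k) X hX δ hδ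
  have hcardp : (Fintype.card (Pos k) : ℝ) = (2 : ℝ) ^ k := by
    rw [card_Pos]; push_cast; rfl
  rw [hcardp] at h
  have hcardΩ : (Fintype.card (Coin k × Coin k) : ℝ)⁻¹
      = ((Fintype.card (Coin k) : ℝ))⁻¹ * ((Fintype.card (Coin k) : ℝ))⁻¹ := by
    rw [Fintype.card_prod]; push_cast; rw [mul_inv]
  have e1 : ∀ Z : ι → Pos k, ∑ g : Perm (Pos k), cf (bA k) g *
        (if ∀ j, g (X j) = Z j then (1 : ℝ) else 0)
      = (Fintype.card (Coin k × Coin k) : ℝ)⁻¹ * ∑ ω : Coin k × Coin k,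
        (if ∀ j, cperm k ω.1 ω.2 (X j) = Z j then (1 : ℝ) else 0) := by
    intro Z
    have := Ev_bA k (fun g => if ∀ j, g (X j) = Z j then (1 : ℝ) else 0)
    unfold Ev EE at this
    rw [this, hcardΩ, Fintype.sum_prod_type]
  simp only [e1]
  refine h.trans (le_of_eq ?_)
  congr 1
  unfold EE
  rw [hcardΩ, Fintype.sum_prod_type]

end Crest.Agent.Lib.Thorp
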