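import Mathlib
import Crest.Agent.Lib.Thorp.Tower

set_option autoImplicit false

/-!
# The colouring trace `X_k(y)` of the Benes tower and the inequality
`X_{k+1}(y) ≤ X_k(ybar) X_k(ybar/2)` (tool (A) of the S0222 plan).

A colouring of the finite set `W` with `Q + 1` colours has weight `∏_v (if c v = 0 then 1 else y v)`.
`colTr Q y g` is the total weight of the colourings invariant under the permutation `g`
(that is, `tr(U_g D(y)^{⊗})` on `(C^{Q+1})^{⊗ W}`, equal to `∏_{cycles C} (1 + Q ∏_{v ∈ C} y v)`).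
`XX Q a y` is its expectation under the law `a`.
-/

namespace Crest.Agent.Lib.Thorp

open Finset Equiv

section basic

variable {W : Type*} [Fintype W] [DecidableEq W] {Q : ℕ}

/-- colourings -/
abbrev Cfg (W : Type*) (Q : ℕ) := W → Fin (Q + 1)

/-- one-site weight -/
def w1 (col : Fin (Q + 1)) (t : ℝ) : ℝ := if col = 0 then 1 else t

theorem w1_nonneg (col : Fin (Q + 1)) {t : ℝ} (ht : 0 ≤ t) : 0 ≤ w1 col t := by
  unfold w1; split_ifs <;> simp [ht]

theorem w1_le_one (col : Fin (Q + 1)) {t : ℝ} (ht : t ≤ 1) : w1 col t ≤ 1 := by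
  unfold w1; split_ifs <;> simp [ht]

/-- weight of a colouring -/
noncomputable def wt (y : W → ℝ) (c : Cfg W Q) : ℝ := ∏ v, w1 (c v) (y v)

/-- square root of the weight of a colouring -/
noncomputable def sw (y : W → ℝ) (c : Cfg W Q) : ℝ := ∏ v, Real.sqrt (w1 (c v) (y v))

theorem wt_nonneg {y : W → ℝ} (hy : ∀ v, 0 ≤ y v) (c : Cfg W Q) : 0 ≤ wt y c :=
  Finset.prod_nonneg fun v _ => w1_nonneg _ (hy v)

theorem sw_nonneg (y : W → ℝ) (c : Cfg W Q) : 0 ≤ sw y c :=
  Finset.prod_nonneg fun _ _ => Real.sqrt_nonneg _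

theorem sw_mul_self {y : W → ℝ} (hy : ∀ v, 0 ≤ y v) (c : Cfg W Q) : sw y c * sw y c = wt y c := by
  unfold sw wt
  rw [← Finset.prod_mul_distrib]
  exact Finset.prod_congr rfl fun v _ => Real.mul_self_sqrt (w1_nonneg _ (hy v))

variable (Q) in
/-- total weight of the colourings invariant under `g` -/
noncomputable def colTr (y : W → ℝ) (g : Perm W) : ℝ :=
  ∑ c : Cfg W Q, if c ∘ g = c then wt y c else 0

variable (Q) in
/-- the expectation of `colTr` under a law `a` -/
noncomputable def XX (a : RG (Perm W)) (y : W → ℝ) : ℝ := Ev (colTr Q y) a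

theorem colTr_nonneg {y : W → ℝ} (hy : ∀ v, 0 ≤ y v) (g : Perm W) : 0 ≤ colTr Q y g :=
  Finset.sum_nonneg fun c _ => by split_ifs <;> simp [wt_nonneg hy]

/-- merge: `x` where `c` is false, `z` where `c` is true -/
def mrg (c : W → Bool) (x z : Cfg W Q) : Cfg W Q := fun v => if c v then z v else x v

@[simp] theorem mrg_apply (c : W → Bool) (x z : Cfg W Q) (v : W) :
    mrg c x z v = if c v then z v else x v := rfl

theorem mrg_mrg_left (c : W → Bool) (x z : Cfg W Q) : mrg c (mrg c x z) (mrg c z x) = x := by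
  funext v; by_cases h : c v <;> simp [h]

/-- the bound of the partial trace of one permutation -/
noncomputable def rho (y : W → ℝ) (c : W → Bool) (τ : Perm W) : ℝ :=
  ∑ d : Cfg W Q, if (d ∘ τ = d ∧ ∀ v, c v = true → d v = 0) then wt y d else 0

theorem rho_inv (y : W → ℝ) (c : W → Bool) (τ : Perm W) :
    rho (Q := Q) y c τ⁻¹ = rho (Q := Q) y c τ := by
  unfold rho
  apply Finset.sum_congr rfl
  intro d _
  have : d ∘ ⇑τ⁻¹ = d ↔ d ∘ τ = d := by
    constructor
    · intro h; funext v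
      have := congrFun h (τ v)
      simpa using this.symm
    · intro h; funext v
      have := congrFun h (τ⁻¹ v)
      simpa using this.symm
  simp only [this]

/-- the orbit of `v` (backwards) meets the set `c` -/
def Meets (τ : Perm W) (c : W → Bool) (v : W) : Prop := ∃ n : ℕ, c (((τ⁻¹) ^ (n + 1)) v) = true

theorem meets_of_true (τ : Perm W) (c : W → Bool) {v : W} (h : c v = true) : Meets τ c v := by
  have hpos : 0 < orderOf (τ⁻¹) := orderOf_pos _
  refine ⟨orderOf (τ⁻¹) - 1, ?_⟩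
  have : orderOf (τ⁻¹) - 1 + 1 = orderOf (τ⁻¹) := by omega
  rw [this, pow_orderOf_eq_one]
  simpa using h

theorem meets_map_iff (τ : Perm W) (c : W → Bool) (v : W) : Meets τ c (τ v) ↔ Meets τ c v := by
  constructor
  · rintro ⟨n, hn⟩
    have h1 : ((τ⁻¹) ^ (n + 1)) (τ v) = ((τ⁻¹) ^ n) v := by
      rw [pow_succ]; simp
    rw [h1] at hn
    cases n with
    | zero => exact meets_of_true τ c (by simpa using hn)
    | succ m => exact ⟨m, hn⟩
  · rintro ⟨n, hn⟩
    refine ⟨n + 1, ?_⟩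
    have h1 : ((τ⁻¹) ^ (n + 1 + 1)) (τ v) = ((τ⁻¹) ^ (n + 1)) v := by
      rw [pow_succ ((τ⁻¹)) (n + 1)]; simp
    rw [h1]; exact hn

open Classical in
/-- the map from solutions to invariant colourings -/
noncomputable def dmap (τ : Perm W) (c : W → Bool) (c1 : Cfg W Q) : Cfg W Q :=
  fun v => if Meets τ c v then 0 else c1 v

/-- Key combinatorial bound (partial trace of one permutation, row sums). -/
theorem sol_sum_le {y : W → ℝ} (hy0 : ∀ v, 0 ≤ y v) (hy1 : ∀ v, y v ≤ 1) (τ : Perm W)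
    (c : W → Bool) (c0 : Cfg W Q) :
    ∑ c1 : Cfg W Q, (if mrg c c1 c0 = c1 ∘ τ then sw y c1 * sw y (mrg c c1 c0) else 0)
      ≤ rho (Q := Q) y c τ := by
  classical
  set Sol : Finset (Cfg W Q) := Finset.univ.filter fun c1 => mrg c c1 c0 = c1 ∘ τ with hSol
  set D : Finset (Cfg W Q) :=
    Finset.univ.filter fun d => d ∘ τ = d ∧ ∀ v, c v = true → d v = 0 with hD
  have hL : ∑ c1 : Cfg W Q, (if mrg c c1 c0 = c1 ∘ τ then sw y c1 * sw y (mrg c c1 c0) else 0)
      = ∑ c1 ∈ Sol, sw y c1 * sw y (mrg c c1 c0) := by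
    rw [hSol, Finset.sum_filter]
  have hR : rho (Q := Q) y c τ = ∑ d ∈ D, wt y d := by
    rw [hD, Finset.sum_filter]; rfl
  rw [hL, hR]
  -- the equations for a solution
  have hsol : ∀ c1 ∈ Sol, ∀ v, (if c v then c0 v else c1 v) = c1 (τ v) := by
    intro c1 h1 v
    have h := (Finset.mem_filter.mp h1).2
    have := congrFun h v
    simpa using this
  -- maps into D
  have hmaps : ∀ c1 ∈ Sol, dmap τ c c1 ∈ D := by
    intro c1 h1
    refine Finset.mem_filter.mpr ⟨Finset.mem_univ _, ?_, ?_⟩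
    · funext v
      simp only [Function.comp, dmap]
      by_cases hm : Meets τ c v
      · rw [if_pos ((meets_map_iff τ c v).2 hm), if_pos hm]
      · rw [if_neg (fun h => hm ((meets_map_iff τ c v).1 h)), if_neg hm]
        have hcv : c v ≠ true := fun h => hm (meets_of_true τ c h)
        have := hsol c1 h1 v
        simp only [hcv, if_false] at this
        exact this.symm
    · intro v hv
      simp only [dmap]
      rw [if_pos (meets_of_true τ c hv)]
  -- weight comparison
  have hweight : ∀ c1 ∈ Sol, sw y c1 * sw y (mrg c c1 c0) ≤ wt y (dmap τ c c1) := by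
    intro c1 _
    unfold sw wt
    rw [← Finset.prod_mul_distrib]
    apply Finset.prod_le_prod
    · intro v _; exact mul_nonneg (Real.sqrt_nonneg _) (Real.sqrt_nonneg _)
    · intro v _
      simp only [dmap]
      by_cases hm : Meets τ c v
      · rw [if_pos hm]
        have h0 : w1 (0 : Fin (Q + 1)) (y v) = 1 := by simp [w1]
        rw [h0]
        have h2 : Real.sqrt (w1 (c1 v) (y v)) ≤ 1 := by
          exact Real.sqrt_le_one.2 (w1_le_one _ (hy1 v))
        have h3 : Real.sqrt (w1 (mrg c c1 c0 v) (y v)) ≤ 1 := by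
          exact Real.sqrt_le_one.2 (w1_le_one _ (hy1 v))
        calc _ ≤ (1 : ℝ) * 1 := mul_le_mul h2 h3 (Real.sqrt_nonneg _) (by norm_num)
          _ = 1 := by norm_num
      · rw [if_neg hm]
        have hcv : c v ≠ true := fun h => hm (meets_of_true τ c h)
        have : mrg c c1 c0 v = c1 v := by simp [hcv]
        rw [this]
        exact le_of_eq (Real.mul_self_sqrt (w1_nonneg _ (hy0 v)))
  -- injective
  have hinj : Set.InjOn (dmap (Q := Q) τ c) (Sol : Set (Cfg W Q)) := by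
    intro c1 h1 c1' h1' hd
    have hτ : ∀ v, τ (τ⁻¹ v) = v := fun v => τ.apply_symm_apply v
    have hclaim : ∀ (n : ℕ) (v : W), c (((τ⁻¹) ^ (n + 1)) v) = true → c1 v = c1' v := by
      intro n
      induction n with
      | zero =>
        intro v hv
        have hv' : c (τ⁻¹ v) = true := by simpa using hv
        have e1 := hsol c1 h1 (τ⁻¹ v)
        have e2 := hsol c1' h1' (τ⁻¹ v)
        simp only [hv', if_true, hτ] at e1 e2
        rw [← e1, ← e2]
      | succ n ih =>
        intro v hv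
        have h2 : ((τ⁻¹) ^ (n + 1 + 1)) v = ((τ⁻¹) ^ (n + 1)) (τ⁻¹ v) := by
          rw [pow_succ ((τ⁻¹)) (n + 1)]; rfl
        rw [h2] at hv
        have hu := ih (τ⁻¹ v) hv
        have e1 := hsol c1 h1 (τ⁻¹ v)
        have e2 := hsol c1' h1' (τ⁻¹ v)
        simp only [hτ] at e1 e2
        rw [← e1, ← e2]
        by_cases hc : c (τ⁻¹ v) = true
        · rw [if_pos hc, if_pos hc]
        · rw [if_neg hc, if_neg hc, hu]
    funext v
    by_cases hm : Meets τ c v
    · obtain ⟨n, hn⟩ := hm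
      exact hclaim n v hn
    · have := congrFun hd v
      simpa [dmap, hm] using this
  -- conclude
  calc ∑ c1 ∈ Sol, sw y c1 * sw y (mrg c c1 c0)
      ≤ ∑ c1 ∈ Sol, wt y (dmap τ c c1) := Finset.sum_le_sum hweight
    _ = ∑ d ∈ Sol.image (dmap τ c), wt y d := by
        rw [Finset.sum_image hinj]
    _ ≤ ∑ d ∈ D, wt y d := by
        apply Finset.sum_le_sum_of_subset_of_nonneg
        · intro d hd
          obtain ⟨c1, h1, rfl⟩ := Finset.mem_image.mp hd
          exact hmaps c1 h1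
        · intro d _ _; exact wt_nonneg hy0 d

end basic

section pairs

variable {V : Type*} [Fintype V] [DecidableEq V] {Q : ℕ}

/-- the swap of the merged pair -/
def swp (c : V → Bool) : (Cfg V Q × Cfg V Q) ≃ (Cfg V Q × Cfg V Q) :=
  Function.Involutive.toPerm (fun p => (mrg c p.1 p.2, mrg c p.2 p.1)) (by
    intro p
    ext v
    · simp only [mrg_mrg_left]
    · simp only [mrg_mrg_left])

/-- AM-GM core: the Schur test in the form needed. -/
theorem core_quad (c : V → Bool) (u : Cfg V Q → ℝ) (β : Cfg V Q → Cfg V Q → ℝ) (ρ : ℝ)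
    (hβ0 : ∀ x z, 0 ≤ β x z)
    (h1 : ∀ c0, ∑ c1, β c0 c1 ≤ ρ)
    (h2 : ∀ c0, ∑ c1, β (mrg c c0 c1) (mrg c c1 c0) ≤ ρ) :
    ∑ c0, ∑ c1, u c0 * u (mrg c c0 c1) * β c0 c1 ≤ ρ * ∑ x, u x ^ 2 := by
  have hterm : ∀ c0 c1, u c0 * u (mrg c c0 c1) * β c0 c1
      ≤ (1 / 2) * (u c0 ^ 2 * β c0 c1) + (1 / 2) * (u (mrg c c0 c1) ^ 2 * β c0 c1) := by
    intro c0 c1
    have hb := hβ0 c0 c1
    nlinarith [mul_nonneg (sq_nonneg (u c0 - u (mrg c c0 c1))) hb]
  have hA : ∑ c0, ∑ c1, (u c0 ^ 2 * β c0 c1) ≤ ρ * ∑ x, u x ^ 2 := by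
    rw [Finset.mul_sum]
    apply Finset.sum_le_sum
    intro c0 _
    rw [← Finset.mul_sum, mul_comm ρ]
    exact mul_le_mul_of_nonneg_left (h1 c0) (sq_nonneg _)
  have hB : ∑ c0, ∑ c1, (u (mrg c c0 c1) ^ 2 * β c0 c1) ≤ ρ * ∑ x, u x ^ 2 := by
    have hrw : ∑ c0, ∑ c1, (u (mrg c c0 c1) ^ 2 * β c0 c1)
        = ∑ c0, ∑ c1, (u c0 ^ 2 * β (mrg c c0 c1) (mrg c c1 c0)) := by
      rw [← Fintype.sum_prod_type', ← Fintype.sum_prod_type']
      rw [← Equiv.sum_comp (swp (Q := Q) c)]
      apply Finset.sum_congr rfl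
      intro p _
      show u (mrg c (mrg c p.1 p.2) (mrg c p.2 p.1)) ^ 2 * β (mrg c p.1 p.2) (mrg c p.2 p.1) = _
      rw [mrg_mrg_left]
    rw [hrw, Finset.mul_sum]
    apply Finset.sum_le_sum
    intro c0 _
    rw [← Finset.mul_sum, mul_comm ρ]
    exact mul_le_mul_of_nonneg_left (h2 c0) (sq_nonneg _)
  calc ∑ c0, ∑ c1, u c0 * u (mrg c c0 c1) * β c0 c1
      ≤ ∑ c0, ∑ c1, ((1 / 2) * (u c0 ^ 2 * β c0 c1) + (1 / 2) * (u (mrg c c0 c1) ^ 2 * β c0 c1)) :=
        Finset.sum_le_sum fun c0 _ => Finset.sum_le_sum fun c1 _ => hterm c0 c1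
    _ = (1 / 2) * ∑ c0, ∑ c1, (u c0 ^ 2 * β c0 c1)
          + (1 / 2) * ∑ c0, ∑ c1, (u (mrg c c0 c1) ^ 2 * β c0 c1) := by
        simp only [Finset.sum_add_distrib, Finset.mul_sum]
    _ ≤ ρ * ∑ x, u x ^ 2 := by linarith

/-- the square-root weights split along a merge -/
theorem sw_mrg {y : V → ℝ} (hy : ∀ v, 0 ≤ y v) (c : V → Bool) (c0 c1 : Cfg V Q) :
    (sw y c0 * sw y (mrg c c0 c1)) * (sw y c1 * sw y (mrg c c1 c0)) = wt y c0 * wt y c1 := by
  unfold sw wt
  simp only [← Finset.prod_mul_distrib]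
  apply Finset.prod_congr rfl
  intro v _
  have h0 := Real.mul_self_sqrt (w1_nonneg (c0 v) (hy v))
  have h1 := Real.mul_self_sqrt (w1_nonneg (c1 v) (hy v))
  by_cases h : c v = true
  · simp only [mrg_apply, h, if_true]
    calc _ = (Real.sqrt (w1 (c0 v) (y v)) * Real.sqrt (w1 (c0 v) (y v)))
          * (Real.sqrt (w1 (c1 v) (y v)) * Real.sqrt (w1 (c1 v) (y v))) := by ring
      _ = _ := by rw [h0, h1]
  · simp only [mrg_apply, h, Bool.false_eq_true, if_false]
    calc _ = (Real.sqrt (w1 (c0 v) (y v)) * Real.sqrt (w1 (c0 v) (y v)))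
          * (Real.sqrt (w1 (c1 v) (y v)) * Real.sqrt (w1 (c1 v) (y v))) := by ring
      _ = _ := by rw [h0, h1]

/-- the sweep matrix -/
noncomputable def Nv (ν : RG (Perm V)) (j x : Cfg V Q) : ℝ :=
  ∑ k, cf ν k * (if x = j ∘ k then 1 else 0)

/-- `T = Nᵀ N` -/
theorem T_eq (ν : RG (Perm V)) (x z : Cfg V Q) :
    ∑ σ, cf (rev ν * ν) σ * (if z = x ∘ σ then (1 : ℝ) else 0) = ∑ j, Nv ν j x * Nv ν j z := by
  -- the right side
  have hR : ∑ j, Nv ν j x * Nv ν j z
      = ∑ k, ∑ l, cf ν k * cf ν l * (if z = x ∘ ⇑(k⁻¹ * l) then (1 : ℝ) else 0) := by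
    unfold Nv
    simp_rw [Finset.sum_mul_sum]
    rw [Finset.sum_comm]
    apply Finset.sum_congr rfl
    intro k _
    rw [Finset.sum_comm]
    apply Finset.sum_congr rfl
    intro l _
    have hj : ∀ j : Cfg V Q, (x = j ∘ k) ↔ j = x ∘ ⇑(k⁻¹) := by
      intro j
      constructor
      · intro h; funext v
        rw [h]; simp
      · intro h; funext v
        rw [h]; simp
    have hz : ∀ j : Cfg V Q, cf ν k * (if x = j ∘ k then (1 : ℝ) else 0)
        * (cf ν l * (if z = j ∘ l then 1 else 0))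
        = if j = x ∘ ⇑(k⁻¹) then cf ν k * cf ν l * (if z = j ∘ l then 1 else 0) else 0 := by
      intro j
      by_cases h : j = x ∘ ⇑(k⁻¹)
      · rw [if_pos h, if_pos ((hj j).2 h)]; ring
      · rw [if_neg h, if_neg (fun h' => h ((hj j).1 h'))]; ring
    simp_rw [hz]
    rw [Finset.sum_ite_eq' Finset.univ (x ∘ ⇑(k⁻¹))]
    simp only [Finset.mem_univ, if_true]
    rfl
  rw [hR]
  -- the left side
  have hL : ∀ σ, cf (rev ν * ν) σ = ∑ k, cf ν k * cf ν (k * σ) := by
    intro σ
    rw [cf_mul]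
    rw [← Equiv.sum_comp (Equiv.inv (Perm V))]
    apply Finset.sum_congr rfl
    intro k _
    simp only [Equiv.inv_apply, inv_inv, cf_rev]
  simp_rw [hL, Finset.sum_mul]
  rw [Finset.sum_comm]
  apply Finset.sum_congr rfl
  intro k _
  rw [← Equiv.sum_comp (Equiv.mulLeft k⁻¹)]
  apply Finset.sum_congr rfl
  intro l _
  simp only [Equiv.coe_mulLeft, mul_inv_cancel_left]
  split_ifs <;> rfl

/-- the diagonal of `T` -/
theorem sum_Nv_sq (ν : RG (Perm V)) (x : Cfg V Q) :
    ∑ j, Nv ν j x ^ 2 = ∑ σ, cf (rev ν * ν) σ * (if x = x ∘ σ then (1 : ℝ) else 0) := by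
  rw [T_eq]
  exact Finset.sum_congr rfl fun j _ => by ring

/-- the kernel of one permutation -/
noncomputable def bet (y : V → ℝ) (c : V → Bool) (τ : Perm V) (c0 c1 : Cfg V Q) : ℝ :=
  if mrg c c1 c0 = c1 ∘ τ then sw y c1 * sw y (mrg c c1 c0) else 0

theorem bet_nonneg (y : V → ℝ) (c : V → Bool) (τ : Perm V) (c0 c1 : Cfg V Q) :
    0 ≤ bet y c τ c0 c1 := by
  unfold bet
  split_ifs
  · exact mul_nonneg (sw_nonneg _ _) (sw_nonneg _ _)
  · exact le_rfl

theorem bet_swap (y : V → ℝ) (c : V → Bool) (τ : Perm V) (c0 c1 : Cfg V Q) :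
    bet y c τ (mrg c c0 c1) (mrg c c1 c0) = bet y c τ⁻¹ c0 c1 := by
  unfold bet
  rw [mrg_mrg_left]
  have hiff : (c1 = mrg c c1 c0 ∘ τ) ↔ (mrg c c1 c0 = c1 ∘ ⇑τ⁻¹) := by
    constructor
    · intro h; funext v
      have := congrFun h (τ⁻¹ v)
      simpa using this.symm
    · intro h; funext v
      have := congrFun h (τ v)
      simpa using this.symm
  by_cases h : mrg c c1 c0 = c1 ∘ ⇑τ⁻¹
  · rw [if_pos h, if_pos (hiff.2 h), mul_comm]
  · rw [if_neg h, if_neg (fun h' => h (hiff.1 h'))]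

/-- Main estimate for one gate pattern: uses `a = rev ν * ν`. -/
theorem phi_le (ν : RG (Perm V)) (ha : ∀ g, 0 ≤ cf (rev ν * ν) g) {y : V → ℝ}
    (hy0 : ∀ v, 0 ≤ y v) (hy1 : ∀ v, y v ≤ 1) (c : V → Bool) :
    ∑ σ, ∑ τ, cf (rev ν * ν) σ * cf (rev ν * ν) τ *
        (∑ c0 : Cfg V Q, ∑ c1 : Cfg V Q,
          if (mrg c c0 c1 = c0 ∘ σ ∧ mrg c c1 c0 = c1 ∘ τ) then wt y c0 * wt y c1 else 0)
      ≤ (∑ τ, cf (rev ν * ν) τ * rho (Q := Q) y c τ) * XX Q (rev ν * ν) y := by
  classical
  set a := rev ν * ν with ha_def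
  -- for each τ
  have hτ : ∀ τ : Perm V, ∑ σ, cf a σ *
        (∑ c0 : Cfg V Q, ∑ c1 : Cfg V Q,
          if (mrg c c0 c1 = c0 ∘ σ ∧ mrg c c1 c0 = c1 ∘ τ) then wt y c0 * wt y c1 else 0)
      ≤ rho (Q := Q) y c τ * XX Q a y := by
    intro τ
    -- step 1: rewrite with T
    have h1 : ∑ σ, cf a σ *
        (∑ c0 : Cfg V Q, ∑ c1 : Cfg V Q,
          if (mrg c c0 c1 = c0 ∘ σ ∧ mrg c c1 c0 = c1 ∘ τ) then wt y c0 * wt y c1 else 0)
        = ∑ c0 : Cfg V Q, ∑ c1 : Cfg V Q,
            (∑ σ, cf a σ * (if mrg c c0 c1 = c0 ∘ σ then (1 : ℝ) else 0)) *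
              (if mrg c c1 c0 = c1 ∘ τ then wt y c0 * wt y c1 else 0) := by
      simp_rw [Finset.mul_sum]
      rw [Finset.sum_comm]
      apply Finset.sum_congr rfl
      intro c0 _
      rw [Finset.sum_comm]
      apply Finset.sum_congr rfl
      intro c1 _
      rw [Finset.sum_mul]
      apply Finset.sum_congr rfl
      intro σ _
      by_cases h1 : mrg c c0 c1 = c0 ∘ σ <;> by_cases h2 : mrg c c1 c0 = c1 ∘ τ <;>
        simp [h1, h2]
    rw [h1]
    -- step 2: factor with N
    have h2 : ∀ c0 c1 : Cfg V Q,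
        (∑ σ, cf a σ * (if mrg c c0 c1 = c0 ∘ σ then (1 : ℝ) else 0)) *
              (if mrg c c1 c0 = c1 ∘ τ then wt y c0 * wt y c1 else 0)
        = ∑ j, (Nv ν j c0 * sw y c0) * (Nv ν j (mrg c c0 c1) * sw y (mrg c c0 c1)) *
            bet y c τ c0 c1 := by
      intro c0 c1
      rw [T_eq ν c0 (mrg c c0 c1), Finset.sum_mul]
      apply Finset.sum_congr rfl
      intro j _
      unfold bet
      by_cases h : mrg c c1 c0 = c1 ∘ τ
      · rw [if_pos h, if_pos h, ← sw_mrg hy0 c c0 c1]; ring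
      · rw [if_neg h, if_neg h]; ring
    simp_rw [h2]
    -- step 3: exchange and use the core estimate
    have h3' : ∑ c0 : Cfg V Q, ∑ c1 : Cfg V Q, ∑ j : Cfg V Q,
          (Nv ν j c0 * sw y c0) * (Nv ν j (mrg c c0 c1) * sw y (mrg c c0 c1)) * bet y c τ c0 c1
        = ∑ j : Cfg V Q, ∑ c0 : Cfg V Q, ∑ c1 : Cfg V Q,
          (Nv ν j c0 * sw y c0) * (Nv ν j (mrg c c0 c1) * sw y (mrg c c0 c1)) * bet y c τ c0 c1 := by
      calc _ = ∑ c0 : Cfg V Q, ∑ j : Cfg V Q, ∑ c1 : Cfg V Q,
          (Nv ν j c0 * sw y c0) * (Nv ν j (mrg c c0 c1) * sw y (mrg c c0 c1)) * bet y c τ c0 c1 := by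
            apply Finset.sum_congr rfl
            intro c0 _
            rw [Finset.sum_comm]
        _ = _ := by rw [Finset.sum_comm]
    rw [h3']
    have h4 : ∀ j : Cfg V Q, ∑ c0 : Cfg V Q, ∑ c1 : Cfg V Q,
          (Nv ν j c0 * sw y c0) * (Nv ν j (mrg c c0 c1) * sw y (mrg c c0 c1)) * bet y c τ c0 c1
        ≤ rho (Q := Q) y c τ * ∑ x, (Nv ν j x * sw y x) ^ 2 := by
      intro j
      apply core_quad c (fun x => Nv ν j x * sw y x) (bet y c τ) (rho (Q := Q) y c τ)
        (fun x z => bet_nonneg y c τ x z)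
      · intro c0
        exact sol_sum_le hy0 hy1 τ c c0
      · intro c0
        simp_rw [bet_swap]
        have := sol_sum_le hy0 hy1 τ⁻¹ c c0
        rw [rho_inv] at this
        exact this
    calc _ ≤ ∑ j : Cfg V Q, rho (Q := Q) y c τ * ∑ x, (Nv ν j x * sw y x) ^ 2 :=
          Finset.sum_le_sum fun j _ => h4 j
      _ = rho (Q := Q) y c τ * XX Q a y := by
        rw [← Finset.mul_sum]
        congr 1
        rw [Finset.sum_comm]
        unfold XX Ev colTr
        have hx : ∀ x : Cfg V Q, ∑ j : Cfg V Q, (Nv ν j x * sw y x) ^ 2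
            = wt y x * ∑ σ, cf a σ * (if x = x ∘ σ then (1 : ℝ) else 0) := by
          intro x
          rw [← sum_Nv_sq ν x, ← sw_mul_self hy0 x, Finset.mul_sum]
          apply Finset.sum_congr rfl
          intro j _
          ring
        simp_rw [hx, Finset.mul_sum]
        rw [Finset.sum_comm]
        apply Finset.sum_congr rfl
        intro σ _
        apply Finset.sum_congr rfl
        intro x _
        by_cases h : x ∘ σ = x
        · rw [if_pos h, if_pos h.symm]; ring
        · rw [if_neg h, if_neg (fun h' => h h'.symm)]; ring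
  -- assemble over τ
  calc _ = ∑ τ, cf a τ * (∑ σ, cf a σ *
        (∑ c0 : Cfg V Q, ∑ c1 : Cfg V Q,
          if (mrg c c0 c1 = c0 ∘ σ ∧ mrg c c1 c0 = c1 ∘ τ) then wt y c0 * wt y c1 else 0)) := by
        rw [Finset.sum_comm]
        apply Finset.sum_congr rfl
        intro τ _
        rw [Finset.mul_sum]
        apply Finset.sum_congr rfl
        intro σ _
        ring
    _ ≤ ∑ τ, cf a τ * (rho (Q := Q) y c τ * XX Q a y) :=
        Finset.sum_le_sum fun τ _ => mul_le_mul_of_nonneg_left (hτ τ) (ha τ)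
    _ = _ := by
        rw [Finset.sum_mul]
        apply Finset.sum_congr rfl
        intro τ _
        ring

/-- the average of `rho` over the gate patterns -/
theorem sum_rho (y : V → ℝ) (τ : Perm V) :
    ∑ c : V → Bool, rho (Q := Q) y c τ
      = (2 : ℝ) ^ Fintype.card V * colTr Q (fun v => y v / 2) τ := by
  classical
  unfold rho colTr
  rw [Finset.sum_comm, Finset.mul_sum]
  apply Finset.sum_congr rfl
  intro d _
  have hcount : ∑ c : V → Bool, (if ∀ v, c v = true → d v = 0 then (1 : ℝ) else 0)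
      = ∏ v, (if d v = 0 then (2 : ℝ) else 1) := by
    have h1 : ∀ c : V → Bool, (if ∀ v, c v = true → d v = 0 then (1 : ℝ) else 0)
        = ∏ v, (if c v = true → d v = 0 then (1 : ℝ) else 0) := by
      intro c
      by_cases h : ∀ v, c v = true → d v = 0
      · rw [if_pos h, Finset.prod_eq_one]
        intro v _; rw [if_pos (h v)]
      · rw [if_neg h]
        push Not at h
        obtain ⟨v, hv1, hv2⟩ := h
        symm
        apply Finset.prod_eq_zero (Finset.mem_univ v)
        rw [if_neg]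
        intro h'; exact hv2 (h' hv1)
    simp_rw [h1]
    have h2 := (Finset.prod_univ_sum (fun _ : V => (Finset.univ : Finset Bool))
      (fun v b => (if b = true → d v = 0 then (1 : ℝ) else 0))).symm
    rw [Fintype.piFinset_univ] at h2
    rw [h2]
    apply Finset.prod_congr rfl
    intro v _
    rw [Fintype.sum_bool]
    by_cases hd : d v = 0 <;> simp [hd] <;> norm_num
  by_cases hinv : d ∘ τ = d
  · simp only [hinv, true_and, if_true]
    have h5 : ∀ c : V → Bool, (if ∀ v, c v = true → d v = 0 then wt y d else 0)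
        = wt y d * (if ∀ v, c v = true → d v = 0 then (1 : ℝ) else 0) := by
      intro c; split_ifs <;> simp
    simp_rw [h5]
    rw [← Finset.mul_sum, hcount]
    unfold wt
    have hcard : (2 : ℝ) ^ Fintype.card V = ∏ _v : V, (2 : ℝ) := by
      rw [Finset.prod_const, Finset.card_univ]
    rw [hcard, ← Finset.prod_mul_distrib, ← Finset.prod_mul_distrib]
    apply Finset.prod_congr rfl
    intro v _
    unfold w1
    by_cases hd : d v = 0 <;> simp [hd]
    ring
  · simp [hinv]

end pairs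

section gates

variable {V : Type*} [Fintype V] [DecidableEq V] {Q : ℕ}

/-- joining two colourings -/
def joinE : (Cfg V Q × Cfg V Q) ≃ Cfg (Bool × V) Q where
  toFun p := fun x => if x.1 then p.2 x.2 else p.1 x.2
  invFun ξ := (fun v => ξ (false, v), fun v => ξ (true, v))
  left_inv p := by
    ext v <;> simp
  right_inv ξ := by
    funext x
    rcases x with ⟨r, v⟩
    cases r <;> simp

theorem wt_join (y : V → ℝ) (p : Cfg V Q × Cfg V Q) :
    wt (fun x : Bool × V => y x.2) (joinE p) = wt y p.1 * wt y p.2 := by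
  unfold wt
  rw [Fintype.prod_prod_type, Fintype.prod_bool, mul_comm]
  rfl

theorem cond_join (σ τ : Perm V) (c : V → Bool) (c0 c1 : Cfg V Q) :
    (joinE (c0, c1) : Cfg (Bool × V) Q) ∘ (two σ τ * gate c) = joinE (c0, c1)
      ↔ (mrg c c0 c1 = c0 ∘ σ ∧ mrg c c1 c0 = c1 ∘ τ) := by
  constructor
  · intro h
    have hF : ∀ v, (joinE (c0, c1) : Cfg (Bool × V) Q) ((two σ τ * gate c) (false, v)) = c0 v := by
      intro v
      have := congrFun h (false, v)
      simpa [joinE] using this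
    have hT : ∀ v, (joinE (c0, c1) : Cfg (Bool × V) Q) ((two σ τ * gate c) (true, v)) = c1 v := by
      intro v
      have := congrFun h (true, v)
      simpa [joinE] using this
    constructor
    · funext v
      by_cases hc : c v = true
      · have := hT v
        simp [joinE, hc] at this
        simp [hc, this]
      · have := hF v
        simp [joinE, hc] at this
        simp [hc, this]
    · funext v
      by_cases hc : c v = true
      · have := hF v
        simp [joinE, hc] at this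
        simp [hc, this]
      · have := hT v
        simp [joinE, hc] at this
        simp [hc, this]
  · rintro ⟨h1, h2⟩
    funext x
    rcases x with ⟨r, v⟩
    have e1 := congrFun h1 v
    have e2 := congrFun h2 v
    cases r
    · by_cases hc : c v = true
      · simp [hc] at e2
        simp [joinE, hc, e2]
      · simp [hc] at e1
        simp [joinE, hc, e1]
    · by_cases hc : c v = true
      · simp [hc] at e1
        simp [joinE, hc, e1]
      · simp [hc] at e2
        simp [joinE, hc, e2]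

/-- the sum over colourings of the doubled set, as a double sum -/
theorem phi_eq (σ τ : Perm V) (c : V → Bool) (y : V → ℝ) :
    (∑ ξ : Cfg (Bool × V) Q, if ξ ∘ (two σ τ * gate c) = ξ then
        wt (fun x : Bool × V => y x.2) ξ else 0)
      = ∑ c0 : Cfg V Q, ∑ c1 : Cfg V Q,
          if (mrg c c0 c1 = c0 ∘ σ ∧ mrg c c1 c0 = c1 ∘ τ) then wt y c0 * wt y c1 else 0 := by
  rw [← Equiv.sum_comp (joinE (Q := Q) (V := V)), Fintype.sum_prod_type]
  apply Finset.sum_congr rfl
  intro c0 _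
  apply Finset.sum_congr rfl
  intro c1 _
  by_cases h : mrg c c0 c1 = c0 ∘ σ ∧ mrg c c1 c0 = c1 ∘ τ
  · rw [if_pos h, if_pos ((cond_join σ τ c c0 c1).2 h), wt_join]
  · rw [if_neg h, if_neg (fun h' => h ((cond_join σ τ c c0 c1).1 h'))]

theorem gate_gate (c : V → Bool) (x : Bool × V) : gate c (gate c x) = x := by
  rcases x with ⟨r, v⟩
  simp

theorem gate_mul_gate (c c' : V → Bool) :
    gate c' * gate c = gate (fun v => xor (c' v) (c v)) := by
  ext x
  · rcases x with ⟨r, v⟩
    simp only [Perm.mul_apply, gate_apply]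
    cases r <;> cases c v <;> cases c' v <;> rfl
  · rcases x with ⟨r, v⟩
    simp

/-- precomposition by a permutation -/
def preE {W : Type*} (h : Perm W) : Cfg W Q ≃ Cfg W Q where
  toFun ξ := ξ ∘ h
  invFun ξ := ξ ∘ ⇑h⁻¹
  left_inv ξ := by funext v; simp
  right_inv ξ := by funext v; simp

/-- trace through conjugation by the first gate layer -/
theorem colTr_gate (y : Bool × V → ℝ) (c c' : V → Bool) (t : Perm (Bool × V)) :
    colTr Q y (gate c * t * gate c')
      = ∑ ξ : Cfg (Bool × V) Q, if ξ ∘ (t * gate (fun v => xor (c' v) (c v))) = ξ then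
          wt y (ξ ∘ gate c) else 0 := by
  unfold colTr
  rw [← Equiv.sum_comp (preE (Q := Q) (gate c))]
  apply Finset.sum_congr rfl
  intro ξ _
  have hiff : ((preE (Q := Q) (gate c)) ξ) ∘ (gate c * t * gate c') = (preE (Q := Q) (gate c)) ξ
      ↔ ξ ∘ (t * gate (fun v => xor (c' v) (c v))) = ξ := by
    show (ξ ∘ gate c) ∘ (gate c * t * gate c') = ξ ∘ gate c ↔ _
    rw [← gate_mul_gate]
    constructor
    · intro h
      funext x
      have := congrFun h (gate c x)
      simpa [gate_gate] using this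
    · intro h
      funext x
      have := congrFun h (gate c x)
      simp only [Function.comp, Perm.mul_apply, gate_gate] at this ⊢
      exact this
  by_cases h : ξ ∘ (t * gate (fun v => xor (c' v) (c v))) = ξ
  · rw [if_pos h, if_pos (hiff.2 h)]
    rfl
  · rw [if_neg h, if_neg (fun h' => h (hiff.1 h'))]

theorem col_le (a b : Fin (Q + 1)) {y0 y1 : ℝ} (h0 : 0 ≤ y0) (h1 : 0 ≤ y1) :
    w1 b y0 * w1 a y1 + w1 a y0 * w1 b y1 ≤ 2 * (w1 a ((y0 + y1) / 2) * w1 b ((y0 + y1) / 2)) := by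
  unfold w1
  by_cases ha : a = 0 <;> by_cases hb : b = 0 <;> simp only [ha, hb, if_true, if_false]
  · norm_num
  · linarith
  · linarith
  · nlinarith [sq_nonneg (y0 - y1)]

/-- the gate average of the product weight -/
theorem sum_wt_gate {y : Bool × V → ℝ} (h0 : ∀ x, 0 ≤ y x) (ξ : Cfg (Bool × V) Q) :
    ∑ c : V → Bool, wt y (ξ ∘ gate c)
      ≤ (2 : ℝ) ^ Fintype.card V
        * wt (fun x : Bool × V => (y (false, x.2) + y (true, x.2)) / 2) ξ := by
  classical
  have h1 : ∀ c : V → Bool, wt y (ξ ∘ gate c)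
      = ∏ v, (w1 (ξ (c v, v)) (y (false, v)) * w1 (ξ (!(c v), v)) (y (true, v))) := by
    intro c
    unfold wt
    rw [Fintype.prod_prod_type_right]
    apply Finset.prod_congr rfl
    intro v _
    rw [Fintype.prod_bool, mul_comm]
    simp [Function.comp, gate_apply]
  simp_rw [h1]
  have h2 := (Finset.prod_univ_sum (fun _ : V => (Finset.univ : Finset Bool))
      (fun v b => w1 (ξ (b, v)) (y (false, v)) * w1 (ξ (!b, v)) (y (true, v)))).symm
  rw [Fintype.piFinset_univ] at h2
  rw [h2]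
  have hcard : (2 : ℝ) ^ Fintype.card V = ∏ _v : V, (2 : ℝ) := by
    rw [Finset.prod_const, Finset.card_univ]
  have h3 : wt (fun x : Bool × V => (y (false, x.2) + y (true, x.2)) / 2) ξ
      = ∏ v, (w1 (ξ (false, v)) ((y (false, v) + y (true, v)) / 2)
          * w1 (ξ (true, v)) ((y (false, v) + y (true, v)) / 2)) := by
    unfold wt
    rw [Fintype.prod_prod_type_right]
    apply Finset.prod_congr rfl
    intro v _
    rw [Fintype.prod_bool, mul_comm]
  rw [h3, hcard, ← Finset.prod_mul_distrib]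
  apply Finset.prod_le_prod
  · intro v _
    exact Finset.sum_nonneg fun b _ => mul_nonneg (w1_nonneg _ (h0 _)) (w1_nonneg _ (h0 _))
  · intro v _
    rw [Fintype.sum_bool]
    exact col_le (ξ (false, v)) (ξ (true, v)) (h0 _) (h0 _)

/-- **Tool (A)**: `X_{k+1}(y) ≤ X_k(ybar) X_k(ybar/2)`, gate means `ybar`. -/
theorem XX_dbl_le (ν : RG (Perm V)) (ha : ∀ g, 0 ≤ cf (rev ν * ν) g) {y : Bool × V → ℝ}
    (hy0 : ∀ x, 0 ≤ y x) (hy1 : ∀ x, y x ≤ 1) :
    XX Q (dbl (rev ν * ν)) y
      ≤ XX Q (rev ν * ν) (fun v => (y (false, v) + y (true, v)) / 2)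
        * XX Q (rev ν * ν) (fun v => (y (false, v) + y (true, v)) / 2 / 2) := by
  classical
  set a := rev ν * ν with ha_def
  set ybar : V → ℝ := fun v => (y (false, v) + y (true, v)) / 2 with hybar
  have hb0 : ∀ v, 0 ≤ ybar v := fun v => by
    have := hy0 (false, v); have := hy0 (true, v); simp only [hybar]; linarith
  have hb1 : ∀ v, ybar v ≤ 1 := fun v => by
    have := hy1 (false, v); have := hy1 (true, v); simp only [hybar]; linarith
  set κ : ℝ := (2 : ℝ) ^ Fintype.card V with hκ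
  have hκ0 : 0 < κ := by positivity
  -- the bound for fixed `t`
  have hstep : ∀ t : Perm (Bool × V), ∑ c : V → Bool, ∑ c' : V → Bool, colTr Q y (gate c * t * gate c')
      ≤ κ * ∑ c'' : V → Bool, ∑ ξ : Cfg (Bool × V) Q,
          if ξ ∘ (t * gate c'') = ξ then wt (fun x : Bool × V => ybar x.2) ξ else 0 := by
    intro t
    have h1 : ∀ c : V → Bool, ∑ c' : V → Bool, colTr Q y (gate c * t * gate c')
        = ∑ c'' : V → Bool, ∑ ξ : Cfg (Bool × V) Q,
            if ξ ∘ (t * gate c'') = ξ then wt y (ξ ∘ gate c) else 0 := by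
      intro c
      simp_rw [colTr_gate]
      let e : (V → Bool) ≃ (V → Bool) :=
        Function.Involutive.toPerm (fun c' v => xor (c' v) (c v)) (by
          intro c'; funext v; simp)
      exact Fintype.sum_equiv e _ _ (fun c' => rfl)
    simp_rw [h1]
    rw [Finset.sum_comm, Finset.mul_sum]
    apply Finset.sum_le_sum
    intro c'' _
    rw [Finset.sum_comm, Finset.mul_sum]
    apply Finset.sum_le_sum
    intro ξ _
    by_cases h : ξ ∘ (t * gate c'') = ξ
    · simp only [h, if_true]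
      exact sum_wt_gate hy0 ξ
    · simp only [if_neg h, Finset.sum_const_zero, mul_zero]; exact le_rfl
  -- assemble
  have hcoef : ∀ σ τ, 0 ≤ cf a σ * cf a τ := fun σ τ => mul_nonneg (ha σ) (ha τ)
  have hmain : XX Q (dbl a) y ≤ κ⁻¹ * ∑ c'' : V → Bool, ∑ σ, ∑ τ, cf a σ * cf a τ *
        (∑ c0 : Cfg V Q, ∑ c1 : Cfg V Q,
          if (mrg c'' c0 c1 = c0 ∘ σ ∧ mrg c'' c1 c0 = c1 ∘ τ) then wt ybar c0 * wt ybar c1 else 0) := by
    unfold XX
    rw [Ev_dbl]
    have hE : (∑ c : V → Bool, ∑ c' : V → Bool, ∑ σ, ∑ τ,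
          cf a σ * cf a τ * colTr Q y (gate c * two σ τ * gate c'))
        = ∑ σ, ∑ τ, cf a σ * cf a τ *
            ∑ c : V → Bool, ∑ c' : V → Bool, colTr Q y (gate c * two σ τ * gate c') := by
      simp_rw [Finset.mul_sum]
      calc _ = ∑ c : V → Bool, ∑ σ, ∑ τ, ∑ c' : V → Bool,
            cf a σ * cf a τ * colTr Q y (gate c * two σ τ * gate c') := by
              apply Finset.sum_congr rfl; intro c _
              rw [Finset.sum_comm]
              apply Finset.sum_congr rfl; intro σ _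
              rw [Finset.sum_comm]
        _ = ∑ σ, ∑ c : V → Bool, ∑ τ, ∑ c' : V → Bool,
            cf a σ * cf a τ * colTr Q y (gate c * two σ τ * gate c') := by
              rw [Finset.sum_comm]
        _ = _ := by
              apply Finset.sum_congr rfl; intro σ _
              rw [Finset.sum_comm]
    rw [hE]
    have hcardF : ((2 : ℝ) ^ Fintype.card V)⁻¹ = κ⁻¹ := rfl
    rw [hcardF]
    have hle : ∑ σ, ∑ τ, cf a σ * cf a τ *
            ∑ c : V → Bool, ∑ c' : V → Bool, colTr Q y (gate c * two σ τ * gate c')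
        ≤ ∑ σ, ∑ τ, cf a σ * cf a τ * (κ * ∑ c'' : V → Bool, ∑ c0 : Cfg V Q, ∑ c1 : Cfg V Q,
          if (mrg c'' c0 c1 = c0 ∘ σ ∧ mrg c'' c1 c0 = c1 ∘ τ) then wt ybar c0 * wt ybar c1 else 0) := by
      apply Finset.sum_le_sum; intro σ _
      apply Finset.sum_le_sum; intro τ _
      apply mul_le_mul_of_nonneg_left _ (hcoef σ τ)
      refine (hstep (two σ τ)).trans (le_of_eq ?_)
      congr 1
      apply Finset.sum_congr rfl; intro c'' _
      exact phi_eq σ τ c'' ybar
    have hre : ∑ σ, ∑ τ, cf a σ * cf a τ * (κ * ∑ c'' : V → Bool, ∑ c0 : Cfg V Q, ∑ c1 : Cfg V Q,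
          if (mrg c'' c0 c1 = c0 ∘ σ ∧ mrg c'' c1 c0 = c1 ∘ τ) then wt ybar c0 * wt ybar c1 else 0)
        = κ * ∑ c'' : V → Bool, ∑ σ, ∑ τ, cf a σ * cf a τ *
        (∑ c0 : Cfg V Q, ∑ c1 : Cfg V Q,
          if (mrg c'' c0 c1 = c0 ∘ σ ∧ mrg c'' c1 c0 = c1 ∘ τ) then wt ybar c0 * wt ybar c1 else 0) := by
      simp_rw [Finset.mul_sum]
      calc _ = ∑ σ, ∑ c'' : V → Bool, ∑ τ, ∑ c0 : Cfg V Q, ∑ c1 : Cfg V Q,
            cf a σ * cf a τ * (κ * if (mrg c'' c0 c1 = c0 ∘ σ ∧ mrg c'' c1 c0 = c1 ∘ τ) then wt ybar c0 * wt ybar c1 else 0) := by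
              apply Finset.sum_congr rfl; intro σ _
              rw [Finset.sum_comm]
        _ = _ := by
              rw [Finset.sum_comm]
              apply Finset.sum_congr rfl; intro c'' _
              apply Finset.sum_congr rfl; intro σ _
              apply Finset.sum_congr rfl; intro τ _
              apply Finset.sum_congr rfl; intro c0 _
              apply Finset.sum_congr rfl; intro c1 _
              ring
    rw [hre] at hle
    calc _ ≤ κ⁻¹ * κ⁻¹ * (κ * ∑ c'' : V → Bool, ∑ σ, ∑ τ, cf a σ * cf a τ *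
        (∑ c0 : Cfg V Q, ∑ c1 : Cfg V Q,
          if (mrg c'' c0 c1 = c0 ∘ σ ∧ mrg c'' c1 c0 = c1 ∘ τ) then wt ybar c0 * wt ybar c1 else 0)) :=
          mul_le_mul_of_nonneg_left hle (by positivity)
      _ = _ := by field_simp
  refine hmain.trans ?_
  have hphi : ∀ c'' : V → Bool, ∑ σ, ∑ τ, cf a σ * cf a τ *
        (∑ c0 : Cfg V Q, ∑ c1 : Cfg V Q,
          if (mrg c'' c0 c1 = c0 ∘ σ ∧ mrg c'' c1 c0 = c1 ∘ τ) then wt ybar c0 * wt ybar c1 else 0)
      ≤ (∑ τ, cf a τ * rho (Q := Q) ybar c'' τ) * XX Q a ybar :=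
    fun c'' => phi_le ν ha hb0 hb1 c''
  calc κ⁻¹ * _ ≤ κ⁻¹ * ∑ c'' : V → Bool, (∑ τ, cf a τ * rho (Q := Q) ybar c'' τ) * XX Q a ybar :=
        mul_le_mul_of_nonneg_left (Finset.sum_le_sum fun c'' _ => hphi c'') (by positivity)
    _ = XX Q a ybar * XX Q a (fun v => ybar v / 2) := by
        rw [← Finset.sum_mul, Finset.sum_comm]
        simp_rw [← Finset.mul_sum, sum_rho]
        unfold XX Ev
        have : ∀ τ : Perm V, cf a τ * (κ * colTr Q (fun v => ybar v / 2) τ)
            = κ * (cf a τ * colTr Q (fun v => ybar v / 2) τ) := fun τ => by ring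
        simp_rw [hκ] at this ⊢
        simp_rw [this, ← Finset.mul_sum]
        field_simp

end gates

section tower

/-- the product bound, defined by the recursion of tool (A) from `X_0(Y) = 1 + Q Y` -/
noncomputable def FF (Q : ℕ) : ℕ → ℝ → ℝ
  | 0, Y => 1 + Q * Y
  | k + 1, Y => FF Q k Y * FF Q k (Y / 2)

/-- the product bound with the exact base `X_1`, `1 + Q Y + (Q² + Q)/2 Y²` -/
noncomputable def GG (Q : ℕ) : ℕ → ℝ → ℝ
  | 0, Y => 1 + Q * Y + ((Q : ℝ) ^ 2 + Q) / 2 * Y ^ 2
  | k + 1, Y => GG Q k Y * GG Q k (Y / 2)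

theorem FF_nonneg (Q k : ℕ) {Y : ℝ} (hY : 0 ≤ Y) : 0 ≤ FF Q k Y := by
  induction k generalizing Y with
  | zero => show 0 ≤ 1 + (Q : ℝ) * Y; positivity
  | succ k ih => exact mul_nonneg (ih hY) (ih (by positivity))

theorem cf_GateA_nonneg {V : Type*} [Fintype V] [DecidableEq V] (g : Perm (Bool × V)) :
    0 ≤ cf (GateA : RG (Perm (Bool × V))) g := by
  unfold GateA
  rw [cf_avgS]
  apply mul_nonneg (by positivity)
  apply Finset.sum_nonneg
  intro ω _
  split_ifs <;> norm_num

theorem cf_Ten_nonneg {V : Type*} [Fintype V] [DecidableEq V] {a : RG (Perm V)}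
    (ha : ∀ g, 0 ≤ cf a g) (g : Perm (Bool × V)) : 0 ≤ cf (Ten a) g := by
  rw [Ten_eq_sum, cf_sum]
  apply Finset.sum_nonneg
  intro σ _
  rw [cf_sum]
  apply Finset.sum_nonneg
  intro τ _
  rw [cf_single]
  split_ifs
  · exact mul_nonneg (ha σ) (ha τ)
  · exact le_rfl

theorem cf_dbl_nonneg {V : Type*} [Fintype V] [DecidableEq V] {a : RG (Perm V)}
    (ha : ∀ g, 0 ≤ cf a g) (g : Perm (Bool × V)) : 0 ≤ cf (dbl a) g := by
  unfold dbl
  rw [cf_mul]
  apply Finset.sum_nonneg
  intro h _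
  apply mul_nonneg _ (cf_GateA_nonneg _)
  rw [cf_mul]
  apply Finset.sum_nonneg
  intro h' _
  exact mul_nonneg (cf_GateA_nonneg _) (cf_Ten_nonneg ha _)

theorem cf_bA_nonneg : ∀ (k : ℕ) (g : Perm (Pos k)), 0 ≤ cf (bA k) g
  | 0, g => by
    show 0 ≤ cf (1 : RG (Perm (Pos 0))) g
    rw [cf_one]; split_ifs <;> norm_num
  | k + 1, g => cf_dbl_nonneg (cf_bA_nonneg k) g

/-- sum over colours -/
theorem sum_w1 (Q : ℕ) (t : ℝ) : ∑ col : Fin (Q + 1), w1 col t = 1 + Q * t := by
  rw [Fin.sum_univ_succ]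
  have h0 : w1 (0 : Fin (Q + 1)) t = 1 := by simp [w1]
  have hs : ∀ i : Fin Q, w1 (Fin.succ i) t = t := by
    intro i; simp [w1, Fin.succ_ne_zero]
  simp [h0, hs]

/-- the identity permutation -/
theorem colTr_one {W : Type*} [Fintype W] [DecidableEq W] (Q : ℕ) (y : W → ℝ) :
    colTr Q y (1 : Perm W) = ∏ v, (1 + Q * y v) := by
  unfold colTr
  have h : ∀ c : Cfg W Q, c ∘ (1 : Perm W) = c := fun c => by funext v; simp
  simp only [h, if_true]
  have h2 := (Finset.prod_univ_sum (fun _ : W => (Finset.univ : Finset (Fin (Q + 1))))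
      (fun v col => w1 col (y v))).symm
  rw [Fintype.piFinset_univ] at h2
  unfold wt
  rw [h2]
  exact Finset.prod_congr rfl fun v _ => sum_w1 Q (y v)

/-- the mean over the tower -/
noncomputable def meanP {k : ℕ} (y : Pos k → ℝ) : ℝ := ((2 : ℝ) ^ k)⁻¹ * ∑ v, y v

theorem meanP_succ {k : ℕ} (y : Pos (k + 1) → ℝ) :
    meanP (k := k) (fun v => (y (false, v) + y (true, v)) / 2) = meanP y := by
  unfold meanP
  have h : ∑ v : Pos (k + 1), y v = ∑ v : Pos k, (y (false, v) + y (true, v)) := by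
    show ∑ v : Bool × Pos k, y v = _
    rw [Fintype.sum_prod_type_right]
    apply Finset.sum_congr rfl
    intro v _
    rw [Fintype.sum_bool, add_comm]
  rw [h, ← Finset.sum_div]
  rw [pow_succ]
  field_simp

theorem meanP_half {k : ℕ} (y : Pos k → ℝ) :
    meanP (k := k) (fun v => y v / 2) = meanP y / 2 := by
  unfold meanP
  rw [← Finset.sum_div]
  ring

theorem meanP_nonneg {k : ℕ} {y : Pos k → ℝ} (h : ∀ v, 0 ≤ y v) : 0 ≤ meanP y :=
  mul_nonneg (by positivity) (Finset.sum_nonneg fun v _ => h v)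

/-- **Tower bound**: `X_k(y) ≤ FF Q k (mean y)`, i.e. `∏_j (1 + Q Y 2^{-j})^{C(k,j)}`. -/
theorem XX_bA_le (Q k : ℕ) {y : Pos k → ℝ} (h0 : ∀ v, 0 ≤ y v) (h1 : ∀ v, y v ≤ 1) :
    XX Q (bA k) y ≤ FF Q k (meanP y) := by
  induction k with
  | zero =>
    have : XX Q (bA 0) y = colTr Q y 1 := by
      show Ev (colTr Q y) (1 : RG (Perm (Pos 0))) = _
      unfold Ev
      simp [cf_one]
    rw [this, colTr_one]
    haveI : Unique (Pos 0) := inferInstanceAs (Unique Unit)
    show ∏ v : Pos 0, (1 + (Q : ℝ) * y v) ≤ 1 + (Q : ℝ) * meanP y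
    unfold meanP
    rw [Fintype.prod_unique, Fintype.sum_unique]
    simp
  | succ k ih =>
    have hb := bA_eq k
    have hdbl : bA (k + 1) = dbl (rev (nu k) * nu k) := by
      show dbl (bA k) = _
      rw [hb]
    have hnn : ∀ g, 0 ≤ cf (rev (nu k) * nu k) g := by
      intro g; rw [← hb]; exact cf_bA_nonneg k g
    rw [hdbl]
    refine (XX_dbl_le (nu k) hnn h0 h1).trans ?_
    rw [← hb]
    set ybar : Pos k → ℝ := fun v => (y (false, v) + y (true, v)) / 2 with hybar
    have hb0 : ∀ v, 0 ≤ ybar v := fun v => by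
      have := h0 (false, v); have := h0 (true, v); simp only [hybar]; linarith
    have hb1 : ∀ v, ybar v ≤ 1 := fun v => by
      have := h1 (false, v); have := h1 (true, v); simp only [hybar]; linarith
    have hb0' : ∀ v, 0 ≤ ybar v / 2 := fun v => by have := hb0 v; linarith
    have hb1' : ∀ v, ybar v / 2 ≤ 1 := fun v => by have := hb1 v; have := hb0 v; linarith
    have e1 := ih hb0 hb1
    have e2 := ih hb0' hb1'
    rw [meanP_half] at e2
    have hX0 : 0 ≤ XX Q (bA k) (fun v => ybar v / 2) :=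
      Finset.sum_nonneg fun g _ => mul_nonneg (cf_bA_nonneg k g) (colTr_nonneg hb0' g)
    have hmean : meanP ybar = meanP y := meanP_succ y
    rw [hmean] at e1 e2
    show XX Q (bA k) ybar * XX Q (bA k) (fun v => ybar v / 2) ≤ FF Q k (meanP y) * FF Q k (meanP y / 2)
    exact mul_le_mul e1 e2 hX0 (FF_nonneg Q k (by rw [← hmean]; exact meanP_nonneg hb0))

/-- closed form of the log of the product bound -/
theorem log_FF (Q k : ℕ) {Y : ℝ} (hY : 0 ≤ Y) :
    Real.log (FF Q k Y) = ∑ j ∈ Finset.range (k + 1), (k.choose j : ℝ) * Real.log (1 + Q * (Y / 2 ^ j)) := by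
  induction k generalizing Y with
  | zero =>
    simp [FF]
  | succ k ih =>
    have hpos : ∀ {Z : ℝ}, 0 ≤ Z → FF Q k Z ≠ 0 := by
      intro Z hZ
      have : ∀ (k : ℕ) (Z : ℝ), 0 ≤ Z → 0 < FF Q k Z := by
        intro k
        induction k with
        | zero => intro Z hZ; show 0 < 1 + (Q : ℝ) * Z; positivity
        | succ k ih' => intro Z hZ; exact mul_pos (ih' Z hZ) (ih' (Z / 2) (by positivity))
      exact (this k Z hZ).ne'
    show Real.log (FF Q k Y * FF Q k (Y / 2)) = _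
    rw [Real.log_mul (hpos hY) (hpos (by positivity)), ih hY, ih (by positivity : 0 ≤ Y / 2)]
    rw [Finset.sum_range_succ' _ (k + 1)]
    have hshift : ∑ j ∈ Finset.range (k + 1), ((k + 1).choose (j + 1) : ℝ) * Real.log (1 + Q * (Y / 2 ^ (j + 1)))
        = ∑ j ∈ Finset.range (k + 1), ((k.choose j : ℝ) + (k.choose (j + 1) : ℝ)) * Real.log (1 + Q * (Y / 2 ^ (j + 1))) := by
      apply Finset.sum_congr rfl
      intro j _
      rw [Nat.choose_succ_succ]
      push_cast
      ring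
    rw [hshift]
    simp only [add_mul, Finset.sum_add_distrib]
    have h3 : ∀ j : ℕ, Y / 2 / 2 ^ j = Y / 2 ^ (j + 1) := by
      intro j; rw [pow_succ]; field_simp
    simp only [h3]
    have h4 := Finset.sum_range_succ' (fun j => (k.choose j : ℝ) * Real.log (1 + Q * (Y / 2 ^ j))) k
    have h5 := Finset.sum_range_succ (fun j => (k.choose (j + 1) : ℝ) * Real.log (1 + Q * (Y / 2 ^ (j + 1)))) k
    simp only [Nat.choose_succ_self, Nat.cast_zero, zero_mul, add_zero] at h5
    have h6 : (k + 1).choose 0 = k.choose 0 := by simp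
    rw [h6]
    rw [h4] at *
    simp only [Nat.choose_zero_right, Nat.cast_one] at *
    linarith

end tower

end Crest.Agent.Lib.Thorp
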