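import Mathlib
import Crest.Agent.Lib.Thorp.Coins
import Crest.Agent.Lib.Thorp.XBound

set_option autoImplicit false

/-!
# Bridges between `NodeN`, `colTr` and the levels of `NN` (S0222)

* `NodeN_pow`: `(NodeN D su sl)^s = colTr (2^s-1) 1_D (sl⁻¹ * su)`.
* `NNlev`, `DblLev`: the part of `NN` at height `m`, the number of doubled in-gates at height `m`;
  `NN_eq_prod`: `NN k S i o = ∏_{m ∈ Icc 1 k} NNlev k m S i o`.
-/

namespace Crest.Agent.Lib.Thorp

open Finset Equiv

section bridge

variable {W : Type*} [Fintype W] [DecidableEq W]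

/-- indicator of a finite set as a real function -/
def indF (D : Finset W) (v : W) : ℝ := if v ∈ D then 1 else 0

/-- number of pointed colourings supported in `D` and invariant under `g` -/
def cnt {K : Type*} [Fintype K] [DecidableEq K] (k0 : K) (D : Finset W) (g : Perm W) : ℕ :=
  ((univ : Finset (W → K)).filter fun c => c ∘ g = c ∧ ∀ v, v ∉ D → c v = k0).card

theorem wt_indF {Q : ℕ} (D : Finset W) (c : Cfg W Q) :
    wt (indF D) c = if ∀ v, v ∉ D → c v = 0 then 1 else 0 := by
  unfold wt
  split_ifs with h
  · apply Finset.prod_eq_one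
    intro v _
    unfold w1 indF
    by_cases hv : v ∈ D
    · simp [hv]
    · simp [hv, h v hv]
  · push Not at h
    obtain ⟨v, hv, hc⟩ := h
    apply Finset.prod_eq_zero (Finset.mem_univ v)
    unfold w1 indF
    simp [hv, hc]

theorem colTr_indF (Q : ℕ) (D : Finset W) (g : Perm W) :
    colTr Q (indF D) g = (cnt (0 : Fin (Q + 1)) D g : ℝ) := by
  unfold colTr cnt
  rw [Finset.card_filter]
  push_cast
  apply Finset.sum_congr rfl
  intro c _
  rw [wt_indF]
  by_cases h1 : c ∘ g = c <;> by_cases h2 : ∀ v, v ∉ D → c v = 0 <;> simp [h1, h2]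

/-- transport along a pointed bijection -/
theorem cnt_congr {K L : Type*} [Fintype K] [DecidableEq K] [Fintype L] [DecidableEq L]
    (e : K ≃ L) (k0 : K) (D : Finset W) (g : Perm W) :
    cnt k0 D g = cnt (e k0) D g := by
  unfold cnt
  apply Finset.card_bij (fun c _ => fun v => e (c v))
  · intro c hc
    simp only [Finset.mem_filter, Finset.mem_univ, true_and] at hc ⊢
    refine ⟨?_, fun v hv => by rw [hc.2 v hv]⟩
    funext v
    have := congrFun hc.1 v
    simp only [Function.comp_apply] at this ⊢
    rw [this]
  · intro c _ c' _ h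
    funext v
    exact e.injective (congrFun h v)
  · intro c hc
    simp only [Finset.mem_filter, Finset.mem_univ, true_and] at hc
    refine ⟨fun v => e.symm (c v), ?_, ?_⟩
    · simp only [Finset.mem_filter, Finset.mem_univ, true_and]
      refine ⟨?_, fun v hv => by rw [hc.2 v hv]; simp⟩
      funext v
      have := congrFun hc.1 v
      simp only [Function.comp_apply] at this ⊢
      rw [this]
    · funext v; simp

/-- `s`-tuples of bits -/
theorem cnt_pi (s : ℕ) (D : Finset W) (g : Perm W) :
    cnt (fun _ : Fin s => false) D g = (cnt false D g) ^ s := by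
  unfold cnt
  rw [← Fintype.card_piFinset_const]
  apply Finset.card_bij (fun c _ => fun t v => c v t)
  · intro c hc
    simp only [Finset.mem_filter, Finset.mem_univ, true_and] at hc
    rw [Fintype.mem_piFinset]
    intro t
    simp only [Finset.mem_filter, Finset.mem_univ, true_and]
    refine ⟨?_, fun v hv => by rw [hc.2 v hv]⟩
    funext v
    have := congrFun hc.1 v
    simp only [Function.comp_apply] at this ⊢
    rw [this]
  · intro c _ c' _ h
    funext v t
    exact congrFun (congrFun h t) v
  · intro F hF
    rw [Fintype.mem_piFinset] at hF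
    refine ⟨fun v t => F t v, ?_, rfl⟩
    simp only [Finset.mem_filter, Finset.mem_univ, true_and] at hF ⊢
    refine ⟨?_, fun v hv => ?_⟩
    · funext v t
      have := congrFun (hF t).1 v
      simpa using this
    · funext t
      exact (hF t).2 v hv

/-- the pointed bijection between `Fin (2^s - 1 + 1)` and bit tuples -/
theorem exists_pointed_equiv (s : ℕ) :
    ∃ e : Fin (2 ^ s - 1 + 1) ≃ (Fin s → Bool), e 0 = fun _ => false := by
  have hc : Fintype.card (Fin (2 ^ s - 1 + 1)) = Fintype.card (Fin s → Bool) := by
    have : 1 ≤ 2 ^ s := Nat.one_le_two_pow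
    simp [Fintype.card_fin]
    omega
  let e0 := Fintype.equivOfCardEq hc
  refine ⟨e0.trans (Equiv.swap (e0 0) (fun _ => false)), ?_⟩
  simp

/-- `NodeN` in terms of bit colourings -/
theorem NodeN_eq_cnt {V : Type} [Fintype V] [DecidableEq V] (D : Finset V) (su sl : Perm V) :
    NodeN D su sl = cnt false D (sl⁻¹ * su) := by
  unfold NodeN cnt
  apply Finset.card_bij (fun I _ => fun v => decide (v ∈ I))
  · intro I hI
    simp only [Finset.mem_filter, Finset.mem_powerset] at hI
    obtain ⟨hID, hmap⟩ := hI
    simp only [Finset.mem_filter, Finset.mem_univ, true_and]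
    constructor
    · funext v
      simp only [Function.comp_apply, Perm.coe_mul, decide_eq_decide]
      constructor
      · intro h
        have h1 : su v ∈ I.map sl.toEmbedding := by
          rw [Finset.mem_map]
          exact ⟨sl⁻¹ (su v), h, by simp⟩
        rw [← hmap, Finset.mem_map] at h1
        obtain ⟨u, hu, hue⟩ := h1
        have : u = v := su.injective hue
        rwa [← this]
      · intro h
        have h1 : su v ∈ I.map su.toEmbedding := by
          rw [Finset.mem_map]
          exact ⟨v, h, rfl⟩
        rw [hmap, Finset.mem_map] at h1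
        obtain ⟨u, hu, hue⟩ := h1
        have : u = sl⁻¹ (su v) := by
          rw [← hue]; simp
        rwa [← this]
    · intro v hv
      simp only [decide_eq_false_iff_not]
      exact fun h => hv (hID h)
  · intro I _ I' _ h
    ext v
    have := congrFun h v
    simpa using this
  · intro c hc
    simp only [Finset.mem_filter, Finset.mem_univ, true_and] at hc
    obtain ⟨hinv, hsupp⟩ := hc
    have hinv' : ∀ v, c (sl⁻¹ (su v)) = c v := by
      intro v
      exact congrFun hinv v
    refine ⟨univ.filter fun v => c v = true, ?_, ?_⟩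
    · simp only [Finset.mem_filter, Finset.mem_powerset]
      constructor
      · intro v hv
        by_contra hD
        simp only [Finset.mem_filter, Finset.mem_univ, true_and] at hv
        rw [hsupp v hD] at hv
        exact absurd hv (by simp)
      · ext w
        simp only [Finset.mem_map, Finset.mem_filter, Finset.mem_univ, true_and]
        constructor
        · rintro ⟨v, hv, rfl⟩
          refine ⟨sl⁻¹ (su v), ?_, by simp⟩
          rw [hinv']
          exact hv
        · rintro ⟨u, hu, rfl⟩
          refine ⟨su⁻¹ (sl u), ?_, by simp⟩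
          have := hinv' (su⁻¹ (sl u))
          have e : sl⁻¹ (su (su⁻¹ (sl u))) = u := by simp
          rw [e] at this
          rw [← this]
          exact hu
    · funext v
      simp

/-- **Bridge**: powers of `NodeN` are colouring traces. -/
theorem NodeN_pow {V : Type} [Fintype V] [DecidableEq V] (D : Finset V) (su sl : Perm V) (s : ℕ) :
    (NodeN D su sl : ℝ) ^ s = colTr (2 ^ s - 1) (indF D) (sl⁻¹ * su) := by
  obtain ⟨e, he⟩ := exists_pointed_equiv s
  rw [colTr_indF, cnt_congr e, he, cnt_pi, ← NodeN_eq_cnt]
  push_cast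
  rfl

end bridge

section levels

/-- the part of `NN` at height `m` (a node of height `m` has `2^m` positions) -/
noncomputable def NNlev : (k : ℕ) → (m : ℕ) → Finset (Pos k) → Coin k → Coin k → ℝ
  | 0, _, _, _, _ => 1
  | k + 1, m, S, i, o =>
      if m = k + 1 then
        (NodeN (V := Pos k) (Dbl (V := Pos k) S) (cperm k i.2.1 o.2.1) (cperm k i.2.2 o.2.2) : ℝ)
      else
        NNlev k m (SU (V := Pos k) S i.1) i.2.1 o.2.1 * NNlev k m (SL (V := Pos k) S i.1) i.2.2 o.2.2

/-- number of doubled in-gates at height `m` -/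
def DblLev : (k : ℕ) → (m : ℕ) → Finset (Pos k) → Coin k → ℕ
  | 0, _, _, _ => 0
  | k + 1, m, S, i =>
      if m = k + 1 then
        (Dbl (V := Pos k) S).card
      else
        DblLev k m (SU (V := Pos k) S i.1) i.2.1 + DblLev k m (SL (V := Pos k) S i.1) i.2.2

theorem NNlev_eq_one_of_lt : ∀ (k m : ℕ) (S : Finset (Pos k)) (i o : Coin k), k < m →
    NNlev k m S i o = 1
  | 0, _, _, _, _, _ => rfl
  | k + 1, m, S, i, o, h => by
    show (if m = k + 1 then _ else _) = _
    rw [if_neg (by omega), NNlev_eq_one_of_lt k m _ _ _ (by omega),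
      NNlev_eq_one_of_lt k m _ _ _ (by omega), one_mul]

theorem NNlev_zero : ∀ (k : ℕ) (S : Finset (Pos k)) (i o : Coin k), NNlev k 0 S i o = 1
  | 0, _, _, _ => rfl
  | k + 1, S, i, o => by
    show (if 0 = k + 1 then _ else _) = _
    rw [if_neg (by omega), NNlev_zero k, NNlev_zero k, one_mul]

theorem NNlev_pos : ∀ (k m : ℕ) (S : Finset (Pos k)) (i o : Coin k), 0 < NNlev k m S i o
  | 0, _, _, _, _ => one_pos
  | k + 1, m, S, i, o => by
    show 0 < (if m = k + 1 then _ else _)
    split_ifs with h
    · exact_mod_cast NodeN_pos _ _ _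
    · exact mul_pos (NNlev_pos k m _ _ _) (NNlev_pos k m _ _ _)

theorem one_le_NNlev : ∀ (k m : ℕ) (S : Finset (Pos k)) (i o : Coin k), 1 ≤ NNlev k m S i o
  | 0, _, _, _, _ => le_refl _
  | k + 1, m, S, i, o => by
    show 1 ≤ (if m = k + 1 then _ else _)
    split_ifs with h
    · exact_mod_cast NodeN_pos _ _ _
    · exact one_le_mul_of_one_le_of_one_le (one_le_NNlev k m _ _ _) (one_le_NNlev k m _ _ _)

/-- `NN` is the product of its levels -/
theorem NN_eq_prod : ∀ (k : ℕ) (S : Finset (Pos k)) (i o : Coin k),
    NN k S i o = ∏ m ∈ Finset.Icc 1 k, NNlev k m S i o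
  | 0, _, _, _ => by simp [NN]
  | k + 1, S, i, o => by
    show _ * _ * _ = _
    rw [NN_eq_prod k, NN_eq_prod k]
    rw [Finset.prod_Icc_succ_top (by omega)]
    have h1 : ∀ m ∈ Finset.Icc 1 k, NNlev (k + 1) m S i o
        = NNlev k m (SU (V := Pos k) S i.1) i.2.1 o.2.1
          * NNlev k m (SL (V := Pos k) S i.1) i.2.2 o.2.2 := by
      intro m hm
      rw [Finset.mem_Icc] at hm
      show (if m = k + 1 then _ else _) = _
      rw [if_neg (by omega)]
    rw [Finset.prod_congr rfl h1, Finset.prod_mul_distrib]
    have h2 : NNlev (k + 1) (k + 1) S i o = (NodeN (V := Pos k) (Dbl (V := Pos k) S)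
        (cperm k i.2.1 o.2.1) (cperm k i.2.2 o.2.2) : ℝ) := by
      show (if k + 1 = k + 1 then _ else _) = _
      rw [if_pos rfl]
    rw [h2]
    ring

/-- an empty-height statement: `DblLev` vanishes above the top -/
theorem DblLev_eq_zero_of_lt : ∀ (k m : ℕ) (S : Finset (Pos k)) (i : Coin k), k < m →
    DblLev k m S i = 0
  | 0, _, _, _, _ => rfl
  | k + 1, m, S, i, h => by
    show (if m = k + 1 then _ else _) = _
    rw [if_neg (by omega), DblLev_eq_zero_of_lt k m _ _ (by omega),
      DblLev_eq_zero_of_lt k m _ _ (by omega)]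

end levels

end Crest.Agent.Lib.Thorp
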