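import Mathlib
import Crest.Agent.Lib.Thorp.Tower

set_option autoImplicit false

/-!
# Negative correlation for stirring networks (S0222)

A law on `Perm X` is *stirring* if it is a product of independent single gates
`(1 + swap u v) / 2`. For a stirring law and any set of cards `A`, the random image `g A`
is negatively correlated: `P(B ⊆ g A) ≤ ∏_{x ∈ B} P(x ∈ g A)`.
`GateA`, `Ten a` (for stirring `a`), hence `nu k` and `bA k`, are stirring.
-/

namespace Crest.Agent.Lib.Thorp

open MonoidAlgebra Finset Equiv

section generic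

variable {X : Type*} [Fintype X] [DecidableEq X]

/-- a single fair gate on the positions `u, v` -/
noncomputable def swapLaw (u v : X) : RG (Perm X) :=
  (1 / 2 : ℝ) • ((1 : RG (Perm X)) + single (Equiv.swap u v) 1)

/-- products of independent single gates -/
inductive IsStirring : RG (Perm X) → Prop
  | one : IsStirring 1
  | gate (u v : X) (huv : u ≠ v) (a : RG (Perm X)) (ha : IsStirring a) :
      IsStirring (swapLaw u v * a)

omit [Fintype X] in
theorem IsStirring.mul {a b : RG (Perm X)} (ha : IsStirring a) (hb : IsStirring b) :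
    IsStirring (a * b) := by
  induction ha with
  | one => simpa using hb
  | gate u v huv a _ ih =>
    rw [mul_assoc]
    exact IsStirring.gate u v huv _ ih

omit [Fintype X] in
theorem IsStirring.pow {a : RG (Perm X)} (ha : IsStirring a) (n : ℕ) : IsStirring (a ^ n) := by
  induction n with
  | zero => simpa using IsStirring.one
  | succ n ih => rw [pow_succ]; exact ih.mul ha

omit [Fintype X] [DecidableEq X] in
theorem single_one_eq_one_perm [DecidableEq X] :
    (single (1 : Perm X) (1 : ℝ) : RG (Perm X)) = 1 := rfl

theorem Ev_swapLaw_mul (φ : Perm X → ℝ) (u v : X) (a : RG (Perm X)) :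
    Ev φ (swapLaw u v * a) = (1 / 2) * Ev φ a + (1 / 2) * Ev (fun g => φ (Equiv.swap u v * g)) a := by
  unfold swapLaw
  rw [smul_mul_assoc, Ev_smul, add_mul, one_mul, Ev_add]
  have h := Ev_single_mul_mul φ (Equiv.swap u v) 1 a
  rw [show (single (1 : Perm X) (1 : ℝ) : RG (Perm X)) = 1 from rfl, mul_one] at h
  rw [h]
  simp only [mul_one]
  ring

theorem IsStirring.isLaw {a : RG (Perm X)} (ha : IsStirring a) : IsLaw a := by
  induction ha with
  | one => exact isLaw_one
  | gate u v huv a _ ih =>
    refine IsLaw.mul ?_ ih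
    constructor
    · intro g
      unfold swapLaw
      rw [cf_smul, cf_add, cf_one, cf_single]
      split_ifs <;> norm_num
    · unfold swapLaw
      simp only [cf_smul, cf_add, cf_one, cf_single]
      rw [← Finset.mul_sum, Finset.sum_add_distrib]
      simp
      norm_num

/-- `P(B ⊆ g A)` -/
noncomputable def pInc (a : RG (Perm X)) (A B : Finset X) : ℝ :=
  Ev (fun g : Perm X => if B ⊆ A.image g then (1 : ℝ) else 0) a

/-- the marginal `P(x ∈ g A)` -/
noncomputable def marg (a : RG (Perm X)) (A : Finset X) (x : X) : ℝ :=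
  Ev (fun g : Perm X => if x ∈ A.image g then (1 : ℝ) else 0) a

theorem Ev_nonneg_of_law {a : RG (Perm X)} (ha : IsLaw a) {φ : Perm X → ℝ} (hφ : ∀ g, 0 ≤ φ g) :
    0 ≤ Ev φ a :=
  Finset.sum_nonneg fun g _ => mul_nonneg (ha.nonneg g) (hφ g)

theorem marg_nonneg {a : RG (Perm X)} (ha : IsLaw a) (A : Finset X) (x : X) : 0 ≤ marg a A x :=
  Ev_nonneg_of_law ha (fun g => by split_ifs <;> norm_num)

theorem pInc_swap (a : RG (Perm X)) (A B : Finset X) (u v : X) :
    Ev (fun g : Perm X => if B ⊆ A.image (Equiv.swap u v * g) then (1 : ℝ) else 0) a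
      = pInc a A (B.image (Equiv.swap u v)) := by
  unfold pInc
  congr 1
  funext g
  have : (B ⊆ A.image (Equiv.swap u v * g)) ↔ (B.image (Equiv.swap u v) ⊆ A.image g) := by
    constructor
    · intro h x hx
      obtain ⟨y, hy, rfl⟩ := Finset.mem_image.mp hx
      obtain ⟨z, hz, hzy⟩ := Finset.mem_image.mp (h hy)
      refine Finset.mem_image.mpr ⟨z, hz, ?_⟩
      rw [← hzy]
      simp
    · intro h x hx
      have h1 : Equiv.swap u v x ∈ A.image g := h (Finset.mem_image_of_mem _ hx)
      obtain ⟨z, hz, hzy⟩ := Finset.mem_image.mp h1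
      refine Finset.mem_image.mpr ⟨z, hz, ?_⟩
      simp [hzy]
  simp only [this]

theorem marg_swapLaw (a : RG (Perm X)) (A : Finset X) (u v x : X) :
    marg (swapLaw u v * a) A x
      = (1 / 2) * marg a A x + (1 / 2) * marg a A (Equiv.swap u v x) := by
  unfold marg
  rw [Ev_swapLaw_mul]
  congr 2
  congr 1
  funext g
  have : (x ∈ A.image (Equiv.swap u v * g)) ↔ (Equiv.swap u v x ∈ A.image g) := by
    constructor
    · intro h
      obtain ⟨z, hz, hzy⟩ := Finset.mem_image.mp h
      refine Finset.mem_image.mpr ⟨z, hz, ?_⟩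
      rw [← hzy]
      simp
    · intro h
      obtain ⟨z, hz, hzy⟩ := Finset.mem_image.mp h
      refine Finset.mem_image.mpr ⟨z, hz, ?_⟩
      simp [hzy]
  simp only [this]

theorem pInc_swapLaw (a : RG (Perm X)) (A B : Finset X) (u v : X) :
    pInc (swapLaw u v * a) A B
      = (1 / 2) * pInc a A B + (1 / 2) * pInc a A (B.image (Equiv.swap u v)) := by
  unfold pInc
  rw [Ev_swapLaw_mul]
  congr 2
  exact pInc_swap a A B u v

/-- **Negative correlation**: `P(B ⊆ g A) ≤ ∏_{x ∈ B} P(x ∈ g A)`. -/
theorem pInc_le_prod_marg {a : RG (Perm X)} (ha : IsStirring a) (A B : Finset X) :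
    pInc a A B ≤ ∏ x ∈ B, marg a A x := by
  induction ha generalizing B with
  | one =>
    have h1 : ∀ φ : Perm X → ℝ, Ev φ (1 : RG (Perm X)) = φ 1 := by
      intro φ
      have := Ev_single φ (1 : Perm X) (1 : ℝ)
      rw [show (single (1 : Perm X) (1 : ℝ) : RG (Perm X)) = 1 from rfl] at this
      simpa using this
    unfold pInc marg
    rw [h1]
    simp only [h1]
    simp only [Equiv.Perm.coe_one, Finset.image_id]
    split_ifs with hB
    · rw [Finset.prod_eq_one]
      intro x hx
      simp [hB hx]
    · obtain ⟨x, hx, hxA⟩ := Finset.not_subset.mp hB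
      exact Finset.prod_nonneg fun y _ => by split_ifs <;> norm_num
  | gate u v huv a ha ih =>
    have hlaw := ha.isLaw
    have hm : ∀ x, 0 ≤ marg a A x := marg_nonneg hlaw A
    rw [pInc_swapLaw]
    -- marginals after the gate
    have hu : marg (swapLaw u v * a) A u = (marg a A u + marg a A v) / 2 := by
      rw [marg_swapLaw]; simp; ring
    have hv : marg (swapLaw u v * a) A v = (marg a A u + marg a A v) / 2 := by
      rw [marg_swapLaw]; simp; ring
    have hx : ∀ x, x ≠ u → x ≠ v → marg (swapLaw u v * a) A x = marg a A x := by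
      intro x h1 h2
      rw [marg_swapLaw, Equiv.swap_apply_of_ne_of_ne h1 h2]; ring
    -- split off `u`, `v`
    by_cases huB : u ∈ B <;> by_cases hvB : v ∈ B
    · -- both in `B`: the image is `B` itself
      have himg : B.image (Equiv.swap u v) = B := by
        ext y
        simp only [Finset.mem_image]
        constructor
        · rintro ⟨z, hz, rfl⟩
          by_cases h1 : z = u
          · subst h1; simpa using hvB
          by_cases h2 : z = v
          · subst h2; simpa using huB
          rwa [Equiv.swap_apply_of_ne_of_ne h1 h2]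
        · intro hy
          refine ⟨Equiv.swap u v y, ?_, by simp⟩
          by_cases h1 : y = u
          · subst h1; simpa using hvB
          by_cases h2 : y = v
          · subst h2; simpa using huB
          rwa [Equiv.swap_apply_of_ne_of_ne h1 h2]
      rw [himg]
      set C := (B.erase u).erase v with hC
      have hB1 : ∀ f : X → ℝ, ∏ x ∈ B, f x = f u * (f v * ∏ x ∈ C, f x) := by
        intro f
        rw [← Finset.mul_prod_erase B f huB, ← Finset.mul_prod_erase (B.erase u) f
          (Finset.mem_erase.mpr ⟨huv.symm, hvB⟩)]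
      have h1 := ih B
      rw [hB1] at h1 ⊢
      have hC' : ∀ x ∈ C, marg (swapLaw u v * a) A x = marg a A x := by
        intro x hxC
        have h2 := Finset.mem_erase.mp hxC
        have h3 := Finset.mem_erase.mp h2.2
        exact hx x h3.1 h2.1
      rw [Finset.prod_congr rfl hC', hu, hv]
      have hP : 0 ≤ ∏ x ∈ C, marg a A x := Finset.prod_nonneg fun x _ => hm x
      have hh : marg a A u * marg a A v ≤ (marg a A u + marg a A v) / 2 * ((marg a A u + marg a A v) / 2) := by
        nlinarith [sq_nonneg (marg a A u - marg a A v)]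
      have hh2 := mul_le_mul_of_nonneg_right hh hP
      nlinarith
    · -- `u ∈ B`, `v ∉ B`
      set C := B.erase u with hC
      have hB1 : ∀ f : X → ℝ, ∏ x ∈ B, f x = f u * ∏ x ∈ C, f x := by
        intro f; rw [← Finset.mul_prod_erase B f huB]
      have hB2 : ∀ f : X → ℝ, ∏ x ∈ B.image (Equiv.swap u v), f x = f v * ∏ x ∈ C, f x := by
        intro f
        rw [Finset.prod_image (by intro x _ y _ h; exact (Equiv.swap u v).injective h), hB1]
        congr 1
        · simp
        · apply Finset.prod_congr rfl
          intro x hxC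
          have h2 := Finset.mem_erase.mp hxC
          have h3 : x ≠ v := by rintro rfl; exact hvB h2.2
          rw [Equiv.swap_apply_of_ne_of_ne h2.1 h3]
      have h1 := ih B
      have h2 := ih (B.image (Equiv.swap u v))
      rw [hB1] at h1 ⊢
      rw [hB2] at h2
      have hC' : ∀ x ∈ C, marg (swapLaw u v * a) A x = marg a A x := by
        intro x hxC
        have hxC' := Finset.mem_erase.mp hxC
        have h3 : x ≠ v := by rintro rfl; exact hvB hxC'.2
        exact hx x hxC'.1 h3
      rw [Finset.prod_congr rfl hC', hu]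
      nlinarith
    · -- `v ∈ B`, `u ∉ B`
      set C := B.erase v with hC
      have hB1 : ∀ f : X → ℝ, ∏ x ∈ B, f x = f v * ∏ x ∈ C, f x := by
        intro f; rw [← Finset.mul_prod_erase B f hvB]
      have hB2 : ∀ f : X → ℝ, ∏ x ∈ B.image (Equiv.swap u v), f x = f u * ∏ x ∈ C, f x := by
        intro f
        rw [Finset.prod_image (by intro x _ y _ h; exact (Equiv.swap u v).injective h), hB1]
        congr 1
        · simp
        · apply Finset.prod_congr rfl
          intro x hxC
          have h2 := Finset.mem_erase.mp hxC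
          have h3 : x ≠ u := by rintro rfl; exact huB h2.2
          rw [Equiv.swap_apply_of_ne_of_ne h3 h2.1]
      have h1 := ih B
      have h2 := ih (B.image (Equiv.swap u v))
      rw [hB1] at h1 ⊢
      rw [hB2] at h2
      have hC' : ∀ x ∈ C, marg (swapLaw u v * a) A x = marg a A x := by
        intro x hxC
        have hxC' := Finset.mem_erase.mp hxC
        have h3 : x ≠ u := by rintro rfl; exact huB hxC'.2
        exact hx x h3 hxC'.1
      rw [Finset.prod_congr rfl hC', hv]
      nlinarith
    · -- neither
      have himg : B.image (Equiv.swap u v) = B := by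
        ext y
        simp only [Finset.mem_image]
        constructor
        · rintro ⟨z, hz, rfl⟩
          have h1 : z ≠ u := by rintro rfl; exact huB hz
          have h2 : z ≠ v := by rintro rfl; exact hvB hz
          rwa [Equiv.swap_apply_of_ne_of_ne h1 h2]
        · intro hy
          have h1 : y ≠ u := by rintro rfl; exact huB hy
          have h2 : y ≠ v := by rintro rfl; exact hvB hy
          exact ⟨y, hy, Equiv.swap_apply_of_ne_of_ne h1 h2⟩
      rw [himg]
      have h1 := ih B
      have hC' : ∀ x ∈ B, marg (swapLaw u v * a) A x = marg a A x := by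
        intro x hxB
        have h1 : x ≠ u := by rintro rfl; exact huB hxB
        have h2 : x ≠ v := by rintro rfl; exact hvB hxB
        exact hx x h1 h2
      rw [Finset.prod_congr rfl hC']
      linarith

/-! ### Exponential moments of the number of doubled gates -/

omit [Fintype X] in
/-- `P(all pairs in Q are doubled)` as an inclusion: the union of a disjoint family of pairs. -/
theorem prod_pair_indicator {ι : Type*} [DecidableEq ι] (Q : Finset ι) (u v : ι → X) (S : Finset X) :
    (∏ p ∈ Q, (if u p ∈ S ∧ v p ∈ S then (1 : ℝ) else 0))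
      = if Q.biUnion (fun p => ({u p, v p} : Finset X)) ⊆ S then 1 else 0 := by
  induction Q using Finset.induction_on with
  | empty => simp
  | insert a Q ha ih =>
    rw [Finset.prod_insert ha, ih, Finset.biUnion_insert]
    have : ({u a, v a} ∪ Q.biUnion (fun p => ({u p, v p} : Finset X))) ⊆ S ↔
        ((u a ∈ S ∧ v a ∈ S) ∧ Q.biUnion (fun p => ({u p, v p} : Finset X)) ⊆ S) := by
      rw [Finset.union_subset_iff, Finset.insert_subset_iff, Finset.singleton_subset_iff]
    simp only [this]
    by_cases h1 : u a ∈ S ∧ v a ∈ S <;> by_cases h2 : Q.biUnion (fun p => ({u p, v p} : Finset X)) ⊆ S <;>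
      simp [h1, h2]

omit [Fintype X] in
/-- product of `f` over the union of a disjoint family of pairs -/
theorem prod_biUnion_pairs {ι : Type*} [DecidableEq ι] (Q : Finset ι) (u v : ι → X)
    (huv : ∀ p ∈ Q, u p ≠ v p)
    (hd : ∀ p ∈ Q, ∀ q ∈ Q, p ≠ q →
      Disjoint ({u p, v p} : Finset X) ({u q, v q} : Finset X)) (f : X → ℝ) :
    ∏ x ∈ Q.biUnion (fun p => ({u p, v p} : Finset X)), f x = ∏ p ∈ Q, (f (u p) * f (v p)) := by
  rw [Finset.prod_biUnion (fun p hp q hq hpq => hd p hp q hq hpq)]
  apply Finset.prod_congr rfl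
  intro p hp
  rw [Finset.prod_pair (huv p hp)]

/-- **Exponential moment bound** for the doubled pairs of a disjoint family: for `t ≥ 0`,
`E ∏_{p ∈ P} (1 + t 1[p doubled]) ≤ ∏_p (1 + t y(u p) y(v p))`, `y = marg a A`. -/
theorem Ev_prod_one_add_le {a : RG (Perm X)} (ha : IsStirring a) (A : Finset X)
    {ι : Type*} [DecidableEq ι] (P : Finset ι) (u v : ι → X) (huv : ∀ p ∈ P, u p ≠ v p)
    (hd : ∀ p ∈ P, ∀ q ∈ P, p ≠ q →
      Disjoint ({u p, v p} : Finset X) ({u q, v q} : Finset X)) {t : ℝ} (ht : 0 ≤ t) :
    Ev (fun g : Perm X => ∏ p ∈ P,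
        (1 + t * (if u p ∈ A.image g ∧ v p ∈ A.image g then (1 : ℝ) else 0))) a
      ≤ ∏ p ∈ P, (1 + t * (marg a A (u p) * marg a A (v p))) := by
  -- expand both products
  have e1 : ∀ g : Perm X, ∏ p ∈ P,
        (1 + t * (if u p ∈ A.image g ∧ v p ∈ A.image g then (1 : ℝ) else 0))
      = ∑ Q ∈ P.powerset, t ^ Q.card *
          (if Q.biUnion (fun p => ({u p, v p} : Finset X)) ⊆ A.image g then (1 : ℝ) else 0) := by
    intro g
    have := Finset.prod_one_add (s := P)
      (f := fun p => t * (if u p ∈ A.image g ∧ v p ∈ A.image g then (1 : ℝ) else 0))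
    rw [this]
    apply Finset.sum_congr rfl
    intro Q _
    rw [Finset.prod_mul_distrib, Finset.prod_const, prod_pair_indicator]
  have e2 : ∏ p ∈ P, (1 + t * (marg a A (u p) * marg a A (v p)))
      = ∑ Q ∈ P.powerset, t ^ Q.card * ∏ p ∈ Q, (marg a A (u p) * marg a A (v p)) := by
    have := Finset.prod_one_add (s := P)
      (f := fun p => t * (marg a A (u p) * marg a A (v p)))
    rw [this]
    apply Finset.sum_congr rfl
    intro Q _
    rw [Finset.prod_mul_distrib, Finset.prod_const]
  simp only [e1]
  rw [e2]
  have e3 : Ev (fun g : Perm X => ∑ Q ∈ P.powerset, t ^ Q.card *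
          (if Q.biUnion (fun p => ({u p, v p} : Finset X)) ⊆ A.image g then (1 : ℝ) else 0)) a
      = ∑ Q ∈ P.powerset, t ^ Q.card *
          pInc a A (Q.biUnion (fun p => ({u p, v p} : Finset X))) := by
    unfold Ev pInc Ev
    simp_rw [Finset.mul_sum]
    rw [Finset.sum_comm]
    apply Finset.sum_congr rfl
    intro Q _
    apply Finset.sum_congr rfl
    intro g _
    ring
  rw [e3]
  apply Finset.sum_le_sum
  intro Q hQ
  have hQP := Finset.mem_powerset.mp hQ
  apply mul_le_mul_of_nonneg_left _ (pow_nonneg ht _)
  have h1 := pInc_le_prod_marg ha A (Q.biUnion (fun p => ({u p, v p} : Finset X)))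
  rwa [prod_biUnion_pairs Q u v (fun p hp => huv p (hQP hp))
    (fun p hp q hq hpq => hd p (hQP hp) q (hQP hq) hpq)] at h1

/-- **Exponential moment of the number of doubled pairs.** -/
theorem Ev_exp_dbl_le {a : RG (Perm X)} (ha : IsStirring a) (A : Finset X)
    {ι : Type*} [DecidableEq ι] (P : Finset ι) (u v : ι → X) (huv : ∀ p ∈ P, u p ≠ v p)
    (hd : ∀ p ∈ P, ∀ q ∈ P, p ≠ q →
      Disjoint ({u p, v p} : Finset X) ({u q, v q} : Finset X)) {α : ℝ} (hα : 0 ≤ α) :
    Ev (fun g : Perm X => Real.exp (α *
        ((P.filter fun p => u p ∈ A.image g ∧ v p ∈ A.image g).card : ℝ))) a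
      ≤ ∏ p ∈ P, (1 + (Real.exp α - 1) * (marg a A (u p) * marg a A (v p))) := by
  have ht : 0 ≤ Real.exp α - 1 := by
    have := Real.add_one_le_exp α
    linarith
  refine le_trans (le_of_eq ?_) (Ev_prod_one_add_le ha A P u v huv hd ht)
  congr 1
  funext g
  rw [Finset.card_filter]
  push_cast
  rw [Finset.mul_sum, Real.exp_sum]
  apply Finset.prod_congr rfl
  intro p _
  split_ifs with h
  · simp
  · simp

/-- The logarithmic-free form: `E exp(α Dbl) ≤ exp((e^α-1) Σ_p y(u p) y(v p))`. -/
theorem Ev_exp_dbl_le_exp {a : RG (Perm X)} (ha : IsStirring a) (A : Finset X)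
    {ι : Type*} [DecidableEq ι] (P : Finset ι) (u v : ι → X) (huv : ∀ p ∈ P, u p ≠ v p)
    (hd : ∀ p ∈ P, ∀ q ∈ P, p ≠ q →
      Disjoint ({u p, v p} : Finset X) ({u q, v q} : Finset X)) {α : ℝ} (hα : 0 ≤ α) :
    Ev (fun g : Perm X => Real.exp (α *
        ((P.filter fun p => u p ∈ A.image g ∧ v p ∈ A.image g).card : ℝ))) a
      ≤ Real.exp ((Real.exp α - 1) * ∑ p ∈ P, marg a A (u p) * marg a A (v p)) := by
  refine (Ev_exp_dbl_le ha A P u v huv hd hα).trans ?_
  rw [Finset.mul_sum, Real.exp_sum]
  apply Finset.prod_le_prod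
  · intro p _
    have h1 := marg_nonneg ha.isLaw A (u p)
    have h2 := marg_nonneg ha.isLaw A (v p)
    have ht : 0 ≤ Real.exp α - 1 := by
      have := Real.add_one_le_exp α
      linarith
    have := mul_nonneg ht (mul_nonneg h1 h2)
    linarith
  · intro p _
    have := Real.add_one_le_exp ((Real.exp α - 1) * (marg a A (u p) * marg a A (v p)))
    linarith

end generic

/-! ### Gate layers, `Ten`, and the tower laws are stirring -/

section tower

variable {V : Type*} [Fintype V] [DecidableEq V]

theorem map_swapLaw {X Y : Type*} [Fintype X] [DecidableEq X] [Fintype Y] [DecidableEq Y]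
    (f : Perm X →* Perm Y) (u v : X) (u' v' : Y) (hf : f (Equiv.swap u v) = Equiv.swap u' v') :
    mapDomainRingHom ℝ f (swapLaw u v) = swapLaw u' v' := by
  unfold swapLaw
  rw [show (1 / 2 : ℝ) • ((1 : RG (Perm X)) + single (Equiv.swap u v) 1)
      = (single (1 : Perm X) (1 / 2 : ℝ) : RG (Perm X)) + single (Equiv.swap u v) (1 / 2 : ℝ) from ?_]
  · rw [map_add, map_single', map_single', map_one, hf]
    rw [smul_add]
    congr 1
    · rw [MonoidAlgebra.one_def, MonoidAlgebra.smul_single]
      simp
    · rw [MonoidAlgebra.smul_single]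
      simp
  · rw [smul_add]
    congr 1
    · rw [MonoidAlgebra.one_def, MonoidAlgebra.smul_single]
      simp
    · rw [MonoidAlgebra.smul_single]
      simp

omit [Fintype V] in
theorem twoL_swap (u v : V) :
    twoL (Equiv.swap u v) = Equiv.swap ((false, u) : Bool × V) (false, v) := by
  ext x
  · rcases x with ⟨r, w⟩
    cases r
    · show (two (Equiv.swap u v) 1 (false, w)).1 = _
      by_cases h1 : w = u
      · subst h1; simp
      by_cases h2 : w = v
      · subst h2; simp
      · rw [Equiv.swap_apply_of_ne_of_ne (by simpa using h1) (by simpa using h2)]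
        simp
    · show (two (Equiv.swap u v) 1 (true, w)).1 = _
      rw [Equiv.swap_apply_of_ne_of_ne (by simp) (by simp)]
      simp
  · rcases x with ⟨r, w⟩
    cases r
    · show (two (Equiv.swap u v) 1 (false, w)).2 = _
      by_cases h1 : w = u
      · subst h1; simp
      by_cases h2 : w = v
      · subst h2; simp
      · rw [Equiv.swap_apply_of_ne_of_ne (by simpa using h1) (by simpa using h2)]
        simp [Equiv.swap_apply_of_ne_of_ne h1 h2]
    · show (two (Equiv.swap u v) 1 (true, w)).2 = _
      rw [Equiv.swap_apply_of_ne_of_ne (by simp) (by simp)]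
      simp

omit [Fintype V] in
theorem twoR_swap (u v : V) :
    twoR (Equiv.swap u v) = Equiv.swap ((true, u) : Bool × V) (true, v) := by
  ext x
  · rcases x with ⟨r, w⟩
    cases r
    · show (two 1 (Equiv.swap u v) (false, w)).1 = _
      rw [Equiv.swap_apply_of_ne_of_ne (by simp) (by simp)]
      simp
    · show (two 1 (Equiv.swap u v) (true, w)).1 = _
      by_cases h1 : w = u
      · subst h1; simp
      by_cases h2 : w = v
      · subst h2; simp
      · rw [Equiv.swap_apply_of_ne_of_ne (by simpa using h1) (by simpa using h2)]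
        simp
  · rcases x with ⟨r, w⟩
    cases r
    · show (two 1 (Equiv.swap u v) (false, w)).2 = _
      rw [Equiv.swap_apply_of_ne_of_ne (by simp) (by simp)]
      simp
    · show (two 1 (Equiv.swap u v) (true, w)).2 = _
      by_cases h1 : w = u
      · subst h1; simp
      by_cases h2 : w = v
      · subst h2; simp
      · rw [Equiv.swap_apply_of_ne_of_ne (by simpa using h1) (by simpa using h2)]
        simp [Equiv.swap_apply_of_ne_of_ne h1 h2]

theorem IsStirring.map_twoL {a : RG (Perm V)} (ha : IsStirring a) :
    IsStirring (mapDomainRingHom ℝ twoL a) := by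
  induction ha with
  | one => simpa using IsStirring.one
  | gate u v huv a _ ih =>
    rw [map_mul, map_swapLaw twoL u v _ _ (twoL_swap u v)]
    exact IsStirring.gate _ _ (by simpa using huv) _ ih

theorem IsStirring.map_twoR {a : RG (Perm V)} (ha : IsStirring a) :
    IsStirring (mapDomainRingHom ℝ twoR a) := by
  induction ha with
  | one => simpa using IsStirring.one
  | gate u v huv a _ ih =>
    rw [map_mul, map_swapLaw twoR u v _ _ (twoR_swap u v)]
    exact IsStirring.gate _ _ (by simpa using huv) _ ih

theorem IsStirring.Ten {a : RG (Perm V)} (ha : IsStirring a) : IsStirring (Ten a) :=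
  IsStirring.mul ha.map_twoL ha.map_twoR

/-- partial gate layer: only the columns in `s` are active -/
noncomputable def gateOn (s : Finset V) : RG (Perm (Bool × V)) :=
  avgS (fun c : V → Bool => gate (fun v => c v && decide (v ∈ s)))

omit [Fintype V] [DecidableEq V] in
theorem gate_false_nc : gate (fun _ : V => false) = 1 := by
  ext x
  · rcases x with ⟨r, w⟩; simp
  · rcases x with ⟨r, w⟩; simp

theorem avgS_const {G Ω : Type*} [Group G] [Fintype G] [DecidableEq G] [Fintype Ω] [Nonempty Ω]
    (g : G) : avgS (fun _ : Ω => g) = single g 1 := by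
  apply RG_ext
  intro h
  rw [cf_avgS, cf_single]
  have hc : (Fintype.card Ω : ℝ) ≠ 0 := by
    exact_mod_cast Fintype.card_ne_zero
  by_cases hg : h = g
  · simp [hg, hc]
  · simp [hg]

theorem gateOn_empty : gateOn (∅ : Finset V) = 1 := by
  unfold gateOn
  simp only [Finset.notMem_empty, decide_false, Bool.and_false]
  rw [gate_false_nc, avgS_const]
  rfl

/-- the effect of the column `w` alone -/
noncomputable def swIf (w : V) (b : Bool) : Perm (Bool × V) :=
  if b then Equiv.swap ((false, w) : Bool × V) (true, w) else 1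

omit [Fintype V] in
theorem gate_insert (w : V) (s : Finset V) (hw : w ∉ s) (c : V → Bool) :
    gate (fun v => c v && decide (v ∈ insert w s))
      = swIf w (c w) * gate (fun v => c v && decide (v ∈ s)) := by
  apply Equiv.ext
  rintro ⟨r, x⟩
  by_cases hx : x = w
  · subst hx
    have h1 : (x ∈ insert x s) = True := by simp
    have h2 : decide (x ∈ s) = false := by simpa using hw
    simp only [Equiv.Perm.coe_mul, Function.comp_apply, gate_apply, h2, Bool.and_false,
      Bool.xor_false]
    simp only [Finset.mem_insert_self, decide_true, Bool.and_true]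
    unfold swIf
    cases hc : c x <;> cases r <;> simp
  · have h1 : decide (x ∈ insert w s) = decide (x ∈ s) := by
      simp [Finset.mem_insert, hx]
    simp only [Equiv.Perm.coe_mul, Function.comp_apply, gate_apply, h1]
    unfold swIf
    split_ifs with hc
    · rw [Equiv.swap_apply_of_ne_of_ne]
      · simp [hx]
      · simp [hx]
    · simp

theorem gateOn_insert (w : V) (s : Finset V) (hw : w ∉ s) :
    gateOn (insert w s) = swapLaw ((false, w) : Bool × V) (true, w) * gateOn s := by
  classical
  unfold gateOn
  set G : (V → Bool) → Perm (Bool × V) := fun c => gate (fun v => c v && decide (v ∈ s)) with hG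
  have hF : ∀ c : V → Bool, gate (fun v => c v && decide (v ∈ insert w s)) = swIf w (c w) * G c :=
    fun c => gate_insert w s hw c
  simp only [hF]
  -- the flip involution
  let ι : (V → Bool) ≃ (V → Bool) :=
    { toFun := fun c => Function.update c w (!c w)
      invFun := fun c => Function.update c w (!c w)
      left_inv := by
        intro c; funext v
        by_cases hv : v = w
        · subst hv; simp
        · simp [Function.update_of_ne hv]
      right_inv := by
        intro c; funext v
        by_cases hv : v = w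
        · subst hv; simp
        · simp [Function.update_of_ne hv] }
  have hGι : ∀ c, G (ι c) = G c := by
    intro c
    show gate _ = gate _
    congr 1
    funext v
    by_cases hv : v = w
    · subst hv
      have : decide (v ∈ s) = false := by simpa using hw
      simp [this]
    · show (Function.update c w (!c w) v && _) = _
      rw [Function.update_of_ne hv]
  have hιw : ∀ c, (ι c) w = !c w := by
    intro c; show Function.update c w (!c w) w = _; simp
  -- two expressions of the sum
  have hsum : (∑ c : V → Bool, (single (swIf w (c w) * G c) (1 : ℝ) : RG (Perm (Bool × V))))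
      = ∑ c : V → Bool, (single (swIf w (!c w) * G c) (1 : ℝ) : RG (Perm (Bool × V))) := by
    rw [← Equiv.sum_comp ι]
    apply Finset.sum_congr rfl
    intro c _
    rw [hGι, hιw]
  have hpair : ∀ c : V → Bool,
      (single (swIf w (c w) * G c) (1 : ℝ) : RG (Perm (Bool × V)))
        + single (swIf w (!c w) * G c) (1 : ℝ)
      = ((1 : RG (Perm (Bool × V))) + single (Equiv.swap ((false, w) : Bool × V) (true, w)) 1)
          * single (G c) 1 := by
    intro c
    rw [add_mul, one_mul, single_mul_single, mul_one]
    unfold swIf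
    cases c w <;> simp [add_comm]
  unfold avgS swapLaw
  rw [smul_mul_assoc, mul_smul_comm, Finset.mul_sum]
  simp only [← hpair]
  rw [Finset.sum_add_distrib, ← hsum, ← two_smul ℝ, smul_smul, smul_smul]
  congr 1
  ring

theorem isStirring_gateOn (s : Finset V) : IsStirring (gateOn s) := by
  induction s using Finset.induction_on with
  | empty => rw [gateOn_empty]; exact IsStirring.one
  | insert w s hw ih =>
    rw [gateOn_insert w s hw]
    exact IsStirring.gate _ _ (by simp) _ ih

theorem gateOn_univ : gateOn (Finset.univ : Finset V) = GateA := by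
  unfold gateOn GateA
  simp

theorem isStirring_GateA : IsStirring (GateA : RG (Perm (Bool × V))) := by
  rw [← gateOn_univ]; exact isStirring_gateOn _

theorem isStirring_dbl {a : RG (Perm V)} (ha : IsStirring a) : IsStirring (dbl a) :=
  (isStirring_GateA.mul ha.Ten).mul isStirring_GateA

theorem isStirring_nu : ∀ k, IsStirring (nu k)
  | 0 => IsStirring.one
  | k + 1 => (isStirring_nu k).Ten.mul isStirring_GateA

theorem isStirring_bA : ∀ k, IsStirring (bA k)
  | 0 => IsStirring.one
  | k + 1 => isStirring_dbl (isStirring_bA k)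

/-- the first `j` in-layers of the tower: partial sweep -/
noncomputable def inPart : (k j : ℕ) → RG (Perm (Pos k))
  | _, 0 => 1
  | 0, _ + 1 => 1
  | k + 1, j + 1 => Ten (inPart k j) * GateA

theorem isStirring_inPart : ∀ k j, IsStirring (inPart k j)
  | 0, 0 => IsStirring.one
  | _ + 1, 0 => IsStirring.one
  | 0, _ + 1 => IsStirring.one
  | k + 1, j + 1 => (isStirring_inPart k j).Ten.mul isStirring_GateA

theorem inPart_self : ∀ k, inPart k k = nu k
  | 0 => rfl
  | k + 1 => by
    show Ten (inPart k k) * GateA = Ten (nu k) * GateA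
    rw [inPart_self k]

end tower

/-! ### Exact single-card marginals -/

section pt

variable {X : Type*} [Fintype X] [DecidableEq X]

/-- `P(g c = x)` -/
noncomputable def pt (a : RG (Perm X)) (c x : X) : ℝ :=
  Ev (fun g : Perm X => if g c = x then (1 : ℝ) else 0) a

/-- a law sending every card to a uniform position -/
def UnifPt (a : RG (Perm X)) : Prop := ∀ c x, pt a c x = (Fintype.card X : ℝ)⁻¹

theorem sum_pt {a : RG (Perm X)} (ha : IsLaw a) (d : X) : ∑ z, pt a z d = 1 := by
  unfold pt Ev
  rw [Finset.sum_comm]
  simp_rw [← Finset.mul_sum]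
  have : ∀ g : Perm X, ∑ z, (if g z = d then (1 : ℝ) else 0) = 1 := by
    intro g
    rw [Finset.sum_eq_single (g⁻¹ d)]
    · simp
    · intro z _ hz
      rw [if_neg]
      intro h
      apply hz
      rw [← h]
      simp
    · intro h; exact absurd (Finset.mem_univ _) h
  simp only [this, mul_one]
  exact ha.sum_one

theorem Ev_mul_nc (φ : Perm X → ℝ) (x y : RG (Perm X)) :
    Ev φ (x * y) = ∑ h, ∑ h', cf x h * cf y h' * φ (h * h') := by
  unfold Ev
  simp_rw [cf_mul]
  simp_rw [Finset.sum_mul]
  rw [Finset.sum_comm]
  apply Finset.sum_congr rfl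
  intro h _
  apply Fintype.sum_equiv (Equiv.mulLeft h⁻¹)
  intro g
  simp

theorem pt_mul (x y : RG (Perm X)) (c z : X) :
    pt (x * y) c z = ∑ d, pt y c d * pt x d z := by
  unfold pt
  rw [Ev_mul_nc]
  unfold Ev
  have h1 : ∀ (h h' : Perm X), (if (h * h') c = z then (1 : ℝ) else 0)
      = ∑ d, (if h' c = d then (1 : ℝ) else 0) * (if h d = z then (1 : ℝ) else 0) := by
    intro h h'
    rw [Finset.sum_eq_single (h' c)]
    · simp only [if_true, one_mul]
      rfl
    · intro d _ hd
      rw [if_neg (Ne.symm hd)]
      simp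
    · intro h; exact absurd (Finset.mem_univ _) h
  simp only [h1]
  have e : ∀ d, (∑ g, cf y g * (if g c = d then (1 : ℝ) else 0))
        * (∑ g, cf x g * (if g d = z then (1 : ℝ) else 0))
      = ∑ h, ∑ h', cf x h * cf y h' * ((if h' c = d then (1 : ℝ) else 0) * (if h d = z then (1 : ℝ) else 0)) := by
    intro d
    rw [mul_comm, Finset.sum_mul_sum]
    apply Finset.sum_congr rfl
    intro h _
    apply Finset.sum_congr rfl
    intro h' _
    ring
  simp only [e]
  conv_rhs => rw [Finset.sum_comm]
  apply Finset.sum_congr rfl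
  intro h _
  conv_rhs => rw [Finset.sum_comm]
  apply Finset.sum_congr rfl
  intro h' _
  rw [Finset.mul_sum]

/-- A law followed by any law is still uniform. -/
theorem UnifPt.mul_left {x y : RG (Perm X)} (hx : IsLaw x) (hy : UnifPt y) : UnifPt (x * y) := by
  intro c z
  rw [pt_mul]
  simp only [hy c]
  rw [← Finset.mul_sum, sum_pt hx z, mul_one]

theorem marg_eq_sum_pt (a : RG (Perm X)) (A : Finset X) (x : X) :
    marg a A x = ∑ c ∈ A, pt a c x := by
  unfold marg pt Ev
  rw [Finset.sum_comm]
  simp_rw [← Finset.mul_sum]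
  apply Finset.sum_congr rfl
  intro g _
  congr 1
  by_cases hx : x ∈ A.image g
  · obtain ⟨c, hc, hcx⟩ := Finset.mem_image.mp hx
    rw [if_pos hx, Finset.sum_eq_single c]
    · simp [hcx]
    · intro d _ hd
      rw [if_neg]
      intro h
      apply hd
      exact g.injective (h.trans hcx.symm)
    · intro h; exact absurd hc h
  · rw [if_neg hx]
    symm
    apply Finset.sum_eq_zero
    intro c hc
    rw [if_neg]
    intro h
    exact hx (Finset.mem_image.mpr ⟨c, hc, h⟩)

theorem UnifPt.marg {a : RG (Perm X)} (ha : UnifPt a) (A : Finset X) (x : X) :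
    marg a A x = (A.card : ℝ) / (Fintype.card X : ℝ) := by
  rw [marg_eq_sum_pt]
  simp only [ha _ _]
  rw [Finset.sum_const, nsmul_eq_mul]
  rw [div_eq_mul_inv]

end pt

section ptTower

variable {V : Type*} [Fintype V] [DecidableEq V]

theorem card_coins_eq (w : V) (b : Bool) :
    ∑ c : V → Bool, (if c w = b then (1 : ℝ) else 0) = (2 : ℝ) ^ Fintype.card V / 2 := by
  -- flip involution
  let ι : (V → Bool) ≃ (V → Bool) :=
    { toFun := fun c => Function.update c w (!c w)
      invFun := fun c => Function.update c w (!c w)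
      left_inv := by
        intro c; funext v
        by_cases hv : v = w
        · subst hv; simp
        · simp [Function.update_of_ne hv]
      right_inv := by
        intro c; funext v
        by_cases hv : v = w
        · subst hv; simp
        · simp [Function.update_of_ne hv] }
  have h1 : ∑ c : V → Bool, (if c w = b then (1 : ℝ) else 0)
      = ∑ c : V → Bool, (if c w = !b then (1 : ℝ) else 0) := by
    rw [← Equiv.sum_comp ι]
    apply Finset.sum_congr rfl
    intro c _
    have : (ι c) w = !c w := by
      show Function.update c w (!c w) w = _; simp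
    rw [this]
    cases c w <;> cases b <;> simp
  have h2 : ∑ c : V → Bool, (if c w = b then (1 : ℝ) else 0)
      + ∑ c : V → Bool, (if c w = !b then (1 : ℝ) else 0) = (2 : ℝ) ^ Fintype.card V := by
    rw [← Finset.sum_add_distrib]
    have : ∀ c : V → Bool, (if c w = b then (1 : ℝ) else 0) + (if c w = !b then (1 : ℝ) else 0) = 1 := by
      intro c
      cases c w <;> cases b <;> simp
    simp only [this]
    simp
  linarith

theorem Ev_mul_GateA (φ : Perm (Bool × V) → ℝ) (Y : RG (Perm (Bool × V))) :
    Ev φ (Y * GateA) = ((2 : ℝ) ^ Fintype.card V)⁻¹ *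
      ∑ c : V → Bool, Ev (fun u => φ (u * gate c)) Y := by
  have hcard : (Fintype.card (V → Bool) : ℝ) = (2 : ℝ) ^ Fintype.card V := by
    simp
  have h := Ev_avgS_mul_mul φ (fun _ : Unit => (1 : Perm (Bool × V))) (gate (V := V)) Y
  rw [avgS_const] at h
  rw [show (single (1 : Perm (Bool × V)) (1 : ℝ) : RG (Perm (Bool × V))) = 1 from rfl, one_mul] at h
  unfold GateA
  rw [h, hcard]
  simp

theorem pt_Ten_GateA {a : RG (Perm V)} (ha : IsLaw a) (r r' : Bool) (w x : V) :
    pt (Ten a * GateA) (r, w) (r', x) = (1 / 2) * pt a w x := by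
  unfold pt
  rw [Ev_mul_GateA]
  have h2 : ((2 : ℝ) ^ Fintype.card V) ≠ 0 := by positivity
  have e1 : ∀ c : V → Bool,
      Ev (fun u : Perm (Bool × V) => if (u * gate c) (r, w) = (r', x) then (1 : ℝ) else 0) (Ten a)
      = (if c w = xor r r' then (1 : ℝ) else 0) *
          Ev (fun g : Perm V => if g w = x then (1 : ℝ) else 0) a := by
    intro c
    rw [Ev_Ten]
    have hsum : ∑ g, cf a g = 1 := ha.sum_one
    by_cases hc : c w = xor r r'
    · rw [if_pos hc, one_mul]
      have hr : xor r (c w) = r' := by rw [hc]; cases r <;> cases r' <;> rfl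
      have e2 : ∀ σ τ : Perm V,
          (if (two σ τ * gate c) (r, w) = (r', x) then (1 : ℝ) else 0)
            = if (if r' then τ w else σ w) = x then 1 else 0 := by
        intro σ τ
        have : (two σ τ * gate c) (r, w) = (r', if r' then τ w else σ w) := by
          show two σ τ (gate c (r, w)) = _
          rw [gate_apply, hr, two_apply]
        rw [this]
        simp
      simp only [e2]
      unfold Ev
      cases r'
      · simp only [Bool.false_eq_true, if_false]
        apply Finset.sum_congr rfl
        intro σ _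
        have : ∀ τ : Perm V, cf a σ * cf a τ * (if σ w = x then (1 : ℝ) else 0)
            = cf a τ * (cf a σ * (if σ w = x then (1 : ℝ) else 0)) := by
          intro τ; ring
        simp only [this]
        rw [← Finset.sum_mul, hsum, one_mul]
      · simp only [if_true]
        rw [Finset.sum_comm]
        apply Finset.sum_congr rfl
        intro τ _
        rw [← Finset.sum_mul, ← Finset.sum_mul, hsum, one_mul]
    · rw [if_neg hc, zero_mul]
      apply Finset.sum_eq_zero
      intro σ _
      apply Finset.sum_eq_zero
      intro τ _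
      have : (two σ τ * gate c) (r, w) ≠ (r', x) := by
        intro h
        have h3 : (two σ τ * gate c) (r, w) = (xor r (c w), if xor r (c w) then τ w else σ w) := by
          show two σ τ (gate c (r, w)) = _
          rw [gate_apply, two_apply]
        rw [h3] at h
        have h4 := (Prod.ext_iff.mp h).1
        apply hc
        simp only at h4
        rw [← h4]
        cases r <;> cases c w <;> rfl
      rw [if_neg this, mul_zero]
  simp only [e1]
  rw [← Finset.sum_mul, card_coins_eq]
  field_simp

omit [DecidableEq V] in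
theorem card_bool_prod : (Fintype.card (Bool × V) : ℝ) = 2 * (Fintype.card V : ℝ) := by
  simp [Fintype.card_prod]

theorem UnifPt.Ten_GateA {a : RG (Perm V)} (ha : IsLaw a) (h : UnifPt a) :
    UnifPt (Ten a * GateA) := by
  rintro ⟨r, w⟩ ⟨r', x⟩
  rw [pt_Ten_GateA ha, h, card_bool_prod]
  rw [mul_inv]
  norm_num

end ptTower

theorem unifPt_nu : ∀ k, UnifPt (nu k)
  | 0 => by
    intro c x
    have h1 : ∀ φ : Perm (Pos 0) → ℝ, Ev φ (1 : RG (Perm (Pos 0))) = φ 1 := by
      intro φ
      have := Ev_single φ (1 : Perm (Pos 0)) (1 : ℝ)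
      rw [show (single (1 : Perm (Pos 0)) (1 : ℝ) : RG (Perm (Pos 0))) = 1 from rfl] at this
      simpa using this
    show pt (1 : RG (Perm (Pos 0))) c x = _
    unfold pt
    rw [h1, card_Pos]
    have : c = x := Subsingleton.elim (α := Unit) c x
    simp [this]
  | k + 1 => (unifPt_nu k).Ten_GateA (isStirring_nu k).isLaw

theorem isLaw_rev {G : Type*} [Group G] [Fintype G] [DecidableEq G] {a : RG G} (ha : IsLaw a) :
    IsLaw (rev a) := by
  constructor
  · intro g; rw [cf_rev]; exact ha.nonneg _
  · simp_rw [cf_rev]
    rw [← ha.sum_one]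
    exact Fintype.sum_equiv (Equiv.inv G) _ _ (fun g => rfl)

theorem unifPt_bA (k : ℕ) : UnifPt (bA k) := by
  rw [bA_eq]
  exact (unifPt_nu k).mul_left (isLaw_rev (isStirring_nu k).isLaw)

/-- **Exact marginals after a full pass.** After a full Beneš pass and any further law, each
position is tracked with probability exactly `|A|/n`. -/
theorem marg_mul_bA {k : ℕ} {x : RG (Perm (Pos k))} (hx : IsLaw x) (A : Finset (Pos k)) (z : Pos k) :
    marg (x * bA k) A z = (A.card : ℝ) / 2 ^ k := by
  have h := (unifPt_bA k).mul_left hx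
  rw [h.marg, card_Pos]
  push_cast
  rfl

/-- Tracked set at in-layer `j` of a second pass: negative correlation with all marginals `|A|/n`. -/
theorem pInc_inPart_bA_le (k j : ℕ) (A B : Finset (Pos k)) :
    pInc (inPart k j * bA k) A B ≤ ((A.card : ℝ) / 2 ^ k) ^ B.card := by
  have hst : IsStirring (inPart k j * bA k) := (isStirring_inPart k j).mul (isStirring_bA k)
  refine (pInc_le_prod_marg hst A B).trans (le_of_eq ?_)
  rw [Finset.prod_congr rfl (fun z _ => marg_mul_bA (isStirring_inPart k j).isLaw A z)]
  rw [Finset.prod_const]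

end Crest.Agent.Lib.Thorp
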