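import Mathlib
import Crest.Agent.Lib.Thorp.NegCorr
import Crest.Agent.Lib.Thorp.NNBridge

set_option autoImplicit false

/-!
# The in coins: flattening `DblLev`, exponential moments (S0222)

`DblLev k m S i` (doubled in-gates at height `m`) equals the number of doubled pairs
`(x, flipH k m x)`, `x` in a fixed transversal `lowSet k m`, of the image of `S` under the
in-gates above height `m` (`partV`). Under the coins the law of `partV` is the stirring law `inH`,
so negative correlation gives the exponential moment bound `moment_le`.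
-/

namespace Crest.Agent.Lib.Thorp

open MonoidAlgebra Finset Equiv

/-- the partner of a position at height `m`: flips the gate bit of height `m` -/
def flipH : (k m : ℕ) → Pos k → Pos k
  | 0, _, x => x
  | k + 1, m, x =>
      if m = k + 1 then ((!(x : Bool × Pos k).1, (x : Bool × Pos k).2) : Bool × Pos k)
      else (((x : Bool × Pos k).1, flipH k m (x : Bool × Pos k).2) : Bool × Pos k)

/-- positions with gate bit `false` at height `m`; `false` off the range of heights -/
def lowH : (k m : ℕ) → Pos k → Bool
  | 0, _, _ => false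
  | k + 1, m, x =>
      if m = k + 1 then !(x : Bool × Pos k).1 else lowH k m (x : Bool × Pos k).2

theorem flipH_top (k : ℕ) (r : Bool) (x : Pos k) :
    flipH (k + 1) (k + 1) ((r, x) : Bool × Pos k) = ((!r, x) : Bool × Pos k) := by
  exact if_pos rfl

theorem flipH_sub (k m : ℕ) (hm : m ≠ k + 1) (r : Bool) (x : Pos k) :
    flipH (k + 1) m ((r, x) : Bool × Pos k) = ((r, flipH k m x) : Bool × Pos k) := by
  exact if_neg hm

theorem lowH_top (k : ℕ) (r : Bool) (x : Pos k) :
    lowH (k + 1) (k + 1) ((r, x) : Bool × Pos k) = !r := by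
  exact if_pos rfl

theorem lowH_sub (k m : ℕ) (hm : m ≠ k + 1) (r : Bool) (x : Pos k) :
    lowH (k + 1) m ((r, x) : Bool × Pos k) = lowH k m x := by
  exact if_neg hm

/-- the transversal of the gates at height `m` -/
def lowSet (k m : ℕ) : Finset (Pos k) := univ.filter fun x => lowH k m x = true

theorem mem_lowSet (k m : ℕ) (x : Pos k) : x ∈ lowSet k m ↔ lowH k m x = true := by
  simp [lowSet]

/-- the number of doubled gates of a set at height `m` -/
def dblF (k m : ℕ) (S : Finset (Pos k)) : ℕ :=
  ((lowSet k m).filter fun x => x ∈ S ∧ flipH k m x ∈ S).card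

theorem flipH_ne_of_low : ∀ (k m : ℕ) (x : Pos k), lowH k m x = true → x ≠ flipH k m x
  | 0, _, _, h => by simp [lowH] at h
  | k + 1, m, x, h => by
    obtain ⟨r, x⟩ : Bool × Pos k := x
    by_cases hm : m = k + 1
    · subst hm
      rw [flipH_top]
      intro h'
      have := (Prod.ext_iff.mp h').1
      cases r <;> simp at this
    · rw [flipH_sub k m hm]
      rw [lowH_sub k m hm] at h
      intro h'
      exact flipH_ne_of_low k m x h (Prod.ext_iff.mp h').2

theorem flipH_flipH : ∀ (k m : ℕ) (x : Pos k), flipH k m (flipH k m x) = x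
  | 0, _, _ => rfl
  | k + 1, m, x => by
    obtain ⟨r, x⟩ : Bool × Pos k := x
    by_cases hm : m = k + 1
    · subst hm
      rw [flipH_top, flipH_top]
      simp only [Bool.not_not]
      try rfl
    · rw [flipH_sub k m hm, flipH_sub k m hm, flipH_flipH k m x]

theorem not_low_flipH : ∀ (k m : ℕ) (x : Pos k), lowH k m x = true → lowH k m (flipH k m x) = false
  | 0, _, _, _ => rfl
  | k + 1, m, x, h => by
    obtain ⟨r, x⟩ : Bool × Pos k := x
    by_cases hm : m = k + 1
    · subst hm
      rw [flipH_top, lowH_top]
      rw [lowH_top] at h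
      simpa using h
    · rw [flipH_sub k m hm, lowH_sub k m hm]
      rw [lowH_sub k m hm] at h
      exact not_low_flipH k m x h

theorem sum_pos_succ {M : Type*} [AddCommMonoid M] (k : ℕ) (f : Pos (k + 1) → M) :
    ∑ x, f x = ∑ r : Bool, ∑ x : Pos k, f ((r, x) : Bool × Pos k) := by
  let f' : Bool × Pos k → M := f
  show ∑ x : Bool × Pos k, f' x = ∑ r : Bool, ∑ x : Pos k, f' (r, x)
  exact Fintype.sum_prod_type _

theorem card_lowSet_eq (k m : ℕ) :
    (lowSet k m).card = ∑ x, (if lowH k m x = true then 1 else 0) := by
  unfold lowSet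
  rw [Finset.card_filter]

/-- the size of the transversal -/
theorem card_lowSet_le : ∀ (k m : ℕ), (lowSet k m).card ≤ 2 ^ (k - 1)
  | 0, _ => by simp [lowSet, lowH]
  | k + 1, m => by
    by_cases hm : m = k + 1
    · subst hm
      rw [card_lowSet_eq, sum_pos_succ]
      simp only [lowH_top]
      simp [card_Pos]
    · have hcard : (lowSet (k + 1) m).card = 2 * (lowSet k m).card := by
        rw [card_lowSet_eq, sum_pos_succ]
        simp only [lowH_sub k m hm]
        rw [card_lowSet_eq]
        simp
      rw [hcard]
      have := card_lowSet_le k m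
      cases k with
      | zero =>
        have h0 : (lowSet 0 m).card = 0 := by simp [lowSet, lowH]
        rw [h0]; simp
      | succ k =>
        simp only [Nat.add_sub_cancel] at this ⊢
        rw [pow_succ]
        omega

/-- the part of the in-network above height `m` -/
def partV : (k m : ℕ) → Coin k → Perm (Pos k)
  | 0, _, _ => 1
  | k + 1, m, i =>
      if m = k + 1 then 1 else two (partV k m i.2.1) (partV k m i.2.2) * gate i.1

/-- the law of `partV` -/
noncomputable def inH : (k m : ℕ) → RG (Perm (Pos k))
  | 0, _ => 1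
  | k + 1, m => if m = k + 1 then 1 else Ten (inH k m) * GateA

theorem isStirring_inH : ∀ k m, IsStirring (inH k m)
  | 0, _ => IsStirring.one
  | k + 1, m => by
    show IsStirring (if m = k + 1 then 1 else Ten (inH k m) * GateA)
    split_ifs
    · exact IsStirring.one
    · exact (isStirring_inH k m).Ten.mul isStirring_GateA

/-- average over a coin tree -/
noncomputable def EC (k : ℕ) (f : Coin k → ℝ) : ℝ := ((Fintype.card (Coin k) : ℝ))⁻¹ * ∑ i, f i

theorem Ev_one_perm {X : Type*} [Fintype X] [DecidableEq X] (φ : Perm X → ℝ) :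
    Ev φ (1 : RG (Perm X)) = φ 1 := by
  have := Ev_single φ (1 : Perm X) (1 : ℝ)
  rw [show (single (1 : Perm X) (1 : ℝ) : RG (Perm X)) = 1 from rfl] at this
  simpa using this

theorem EC_partV : ∀ (k m : ℕ) (φ : Perm (Pos k) → ℝ),
    EC k (fun i => φ (partV k m i)) = Ev φ (inH k m)
  | 0, m, φ => by
    unfold EC
    have hc : Fintype.card (Coin 0) = 1 := rfl
    rw [hc]
    show _ = Ev φ (1 : RG (Perm (Pos 0)))
    rw [Ev_one_perm]
    have : ∀ f : Coin 0 → ℝ, ∑ i, f i = f () := by
      intro f
      let f' : Unit → ℝ := f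
      show ∑ i : Unit, f' i = f' ()
      exact Fintype.sum_unique _
    rw [this]
    simp
    rfl
  | k + 1, m, φ => by
    by_cases hm : m = k + 1
    · subst hm
      have h1 : inH (k + 1) (k + 1) = 1 := by
        exact if_pos rfl
      rw [h1, Ev_one_perm]
      have h2 : ∀ i, partV (k + 1) (k + 1) i = 1 := by
        intro i
        exact if_pos rfl
      simp only [h2]
      unfold EC
      have hc : (Fintype.card (Coin (k + 1)) : ℝ) ≠ 0 := by
        exact_mod_cast Fintype.card_ne_zero
      simp [hc]
    · have h1 : inH (k + 1) m = Ten (inH k m) * GateA := by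
        exact if_neg hm
      have h2 : ∀ i : Coin (k + 1), partV (k + 1) m i
          = two (partV k m i.2.1) (partV k m i.2.2) * gate i.1 := by
        intro i
        exact if_neg hm
      simp only [h2]
      rw [h1]
      refine Eq.trans ?_ (Ev_mul_GateA (V := Pos k) φ (Ten (inH k m))).symm
      -- expand the expectation over the coin tree
      have hIH : ∀ c : Pos k → Bool,
          Ev (fun u : Perm (Bool × Pos k) => φ (u * gate c)) (Ten (inH k m))
            = EC k (fun i1 => EC k (fun i2 => φ (two (partV k m i1) (partV k m i2) * gate c))) := by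
        intro c
        rw [Ev_Ten]
        have e1 : ∀ σ : Perm (Pos k), EC k (fun i2 => φ (two σ (partV k m i2) * gate c))
            = ∑ τ, cf (inH k m) τ * φ (two σ τ * gate c) := by
          intro σ
          have := EC_partV k m (fun τ => φ (two σ τ * gate c))
          exact this
        simp only [e1]
        have e2 := EC_partV k m (fun σ => ∑ τ, cf (inH k m) τ * φ (two σ τ * gate c))
        rw [e2]
        unfold Ev
        apply Finset.sum_congr rfl
        intro σ _
        rw [Finset.mul_sum]
        apply Finset.sum_congr rfl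
        intro τ _
        ring
      simp only [hIH]
      unfold EC
      have hcard : (Fintype.card (Coin (k + 1)) : ℝ)
          = (2 : ℝ) ^ Fintype.card (Pos k)
            * ((Fintype.card (Coin k) : ℝ) * (Fintype.card (Coin k) : ℝ)) := by
        rw [card_Coin_succ]
        push_cast
        ring
      rw [hcard]
      have hsum : ∀ F : Coin (k + 1) → ℝ, ∑ i, F i
          = ∑ c : Pos k → Bool, ∑ i1 : Coin k, ∑ i2 : Coin k, F (c, i1, i2) := by
        intro F
        let F' : ((Pos k → Bool) × Coin k × Coin k) → ℝ := F
        show ∑ i : (Pos k → Bool) × Coin k × Coin k, F' i = _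
        simp only [Fintype.sum_prod_type]
        rfl
      rw [hsum]
      simp only [Finset.mul_sum]
      rw [mul_inv]
      simp only [mul_inv]
      apply Finset.sum_congr rfl
      intro c _
      apply Finset.sum_congr rfl
      intro i1 _
      apply Finset.sum_congr rfl
      intro i2 _
      ring

theorem mem_image_two_gate {V : Type} [Fintype V] [DecidableEq V]
    (S : Finset (Bool × V)) (a : V → Bool) (p q : Perm V) (x : V) :
    ((false, x) ∈ S.image (two p q * gate a)) ↔ x ∈ (SU S a).image p := by
  simp only [Finset.mem_image, SU, Finset.mem_filter, Finset.mem_univ, true_and]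
  constructor
  · rintro ⟨⟨r, v⟩, hv, h⟩
    have h1 : (two p q * gate a) (r, v) = (xor r (a v), if xor r (a v) then q v else p v) := by
      show two p q (gate a (r, v)) = _
      rw [gate_apply, two_apply]
    rw [h1] at h
    have h2 := (Prod.ext_iff.mp h).1
    have h3 := (Prod.ext_iff.mp h).2
    simp only at h2 h3
    have hr : r = a v := by
      cases r <;> cases hav : a v <;> simp_all
    rw [h2] at h3
    simp only [Bool.false_eq_true, if_false] at h3
    exact ⟨v, hr ▸ hv, h3⟩
  · rintro ⟨v, hv, h⟩
    refine ⟨(a v, v), hv, ?_⟩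
    have h1 : (two p q * gate a) (a v, v) = (false, p v) := by
      show two p q (gate a (a v, v)) = _
      rw [gate_apply]
      simp
    rw [h1, h]

theorem mem_image_two_gate' {V : Type} [Fintype V] [DecidableEq V]
    (S : Finset (Bool × V)) (a : V → Bool) (p q : Perm V) (x : V) :
    ((true, x) ∈ S.image (two p q * gate a)) ↔ x ∈ (SL S a).image q := by
  simp only [Finset.mem_image, SL, Finset.mem_filter, Finset.mem_univ, true_and]
  constructor
  · rintro ⟨⟨r, v⟩, hv, h⟩
    have h1 : (two p q * gate a) (r, v) = (xor r (a v), if xor r (a v) then q v else p v) := by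
      show two p q (gate a (r, v)) = _
      rw [gate_apply, two_apply]
    rw [h1] at h
    have h2 := (Prod.ext_iff.mp h).1
    have h3 := (Prod.ext_iff.mp h).2
    simp only at h2 h3
    have hr : r = !a v := by
      cases r <;> cases hav : a v <;> simp_all
    rw [h2] at h3
    simp only [if_true] at h3
    exact ⟨v, hr ▸ hv, h3⟩
  · rintro ⟨v, hv, h⟩
    refine ⟨(!a v, v), hv, ?_⟩
    have h1 : (two p q * gate a) (!a v, v) = (true, q v) := by
      show two p q (gate a (!a v, v)) = _
      rw [gate_apply]
      simp
    rw [h1, h]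

/-- a row of a set -/
def sec {V : Type} [Fintype V] [DecidableEq V] (r : Bool) (S : Finset (Bool × V)) : Finset V :=
  univ.filter fun x => (r, x) ∈ S

theorem mem_sec {V : Type} [Fintype V] [DecidableEq V] (r : Bool) (S : Finset (Bool × V)) (x : V) :
    x ∈ sec r S ↔ (r, x) ∈ S := by
  simp [sec]

theorem sec_false_image {V : Type} [Fintype V] [DecidableEq V]
    (S : Finset (Bool × V)) (a : V → Bool) (p q : Perm V) :
    sec false (S.image (two p q * gate a)) = (SU S a).image p := by
  ext x
  rw [mem_sec]
  exact mem_image_two_gate S a p q x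

theorem sec_true_image {V : Type} [Fintype V] [DecidableEq V]
    (S : Finset (Bool × V)) (a : V → Bool) (p q : Perm V) :
    sec true (S.image (two p q * gate a)) = (SL S a).image q := by
  ext x
  rw [mem_sec]
  exact mem_image_two_gate' S a p q x

theorem ite_congr_iff {b c : Prop} (d1 : Decidable b) (d2 : Decidable c) (h : b ↔ c) (x y : ℕ) :
    @ite _ b d1 x y = @ite _ c d2 x y := by
  by_cases hb : b
  · rw [if_pos hb, if_pos (h.mp hb)]
  · rw [if_neg hb, if_neg (fun hc => hb (h.mpr hc))]

theorem dblF_eq_sum (k m : ℕ) (S : Finset (Pos k)) :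
    dblF k m S = ∑ x, if (lowH k m x = true ∧ x ∈ S ∧ flipH k m x ∈ S) then 1 else 0 := by
  unfold dblF lowSet
  rw [Finset.filter_filter, Finset.card_filter]

theorem dblF_sub (k m : ℕ) (hm : m ≠ k + 1) (S : Finset (Pos (k + 1))) :
    dblF (k + 1) m S = dblF k m (sec (V := Pos k) false S) + dblF k m (sec (V := Pos k) true S) := by
  rw [dblF_eq_sum, sum_pos_succ, dblF_eq_sum, dblF_eq_sum]
  rw [Fintype.sum_bool, add_comm]
  congr 1
  · apply Finset.sum_congr rfl
    intro x _
    refine ite_congr_iff _ _ ?_ _ _
    have e1 := lowH_sub k m hm false x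
    have e2 := flipH_sub k m hm false x
    rw [e1, e2]
    exact and_congr Iff.rfl (and_congr (mem_sec (V := Pos k) false S x).symm
      (mem_sec (V := Pos k) false S (flipH k m x)).symm)
  · apply Finset.sum_congr rfl
    intro x _
    refine ite_congr_iff _ _ ?_ _ _
    have e1 := lowH_sub k m hm true x
    have e2 := flipH_sub k m hm true x
    rw [e1, e2]
    exact and_congr Iff.rfl (and_congr (mem_sec (V := Pos k) true S x).symm
      (mem_sec (V := Pos k) true S (flipH k m x)).symm)

theorem dblF_top (k : ℕ) (S : Finset (Pos (k + 1))) :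
    dblF (k + 1) (k + 1) S = (Dbl (V := Pos k) S).card := by
  rw [dblF_eq_sum, sum_pos_succ]
  rw [Fintype.sum_bool]
  have key : ∀ (A B c : ℕ), A = 0 → B = c → A + B = c := by omega
  apply key
  · apply Finset.sum_eq_zero
    intro x _
    apply if_neg
    rintro ⟨h, _⟩
    have e1 := lowH_top k true x
    rw [e1] at h
    exact Bool.false_ne_true h
  · unfold Dbl
    rw [Finset.card_filter]
    apply Finset.sum_congr rfl
    intro x _
    refine ite_congr_iff _ _ ?_ _ _
    have e1 : lowH (k + 1) (k + 1) ((false, x) : Bool × Pos k) = true := lowH_top k false x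
    have e2 : flipH (k + 1) (k + 1) ((false, x) : Bool × Pos k) = ((true, x) : Bool × Pos k) :=
      flipH_top k false x
    constructor
    · rintro ⟨_, h2, h3⟩
      exact ⟨h2, e2 ▸ h3⟩
    · rintro ⟨h2, h3⟩
      exact ⟨e1, h2, e2.symm ▸ h3⟩

/-- **Flattening**: `DblLev` is the number of doubled pairs of the image under `partV`. -/
theorem DblLev_eq : ∀ (k m : ℕ) (S : Finset (Pos k)) (i : Coin k),
    DblLev k m S i = dblF k m (S.image (partV k m i))
  | 0, m, S, i => by
    show 0 = _
    unfold dblF lowSet
    simp [lowH]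
  | k + 1, m, S, i => by
    by_cases hm : m = k + 1
    · subst hm
      have h1 : DblLev (k + 1) (k + 1) S i = (Dbl (V := Pos k) S).card := by
        exact if_pos rfl
      have h2 : partV (k + 1) (k + 1) i = 1 := by
        exact if_pos rfl
      rw [h1, h2, dblF_top]
      simp only [Equiv.Perm.coe_one, Finset.image_id]
    · have h1 : DblLev (k + 1) m S i = DblLev k m (SU (V := Pos k) S i.1) i.2.1
          + DblLev k m (SL (V := Pos k) S i.1) i.2.2 := by
        exact if_neg hm
      have h2 : partV (k + 1) m i = two (partV k m i.2.1) (partV k m i.2.2) * gate i.1 := by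
        exact if_neg hm
      rw [h1, h2, DblLev_eq k m, DblLev_eq k m, dblF_sub k m hm]
      have e1 := sec_false_image (V := Pos k) S i.1 (partV k m i.2.1) (partV k m i.2.2)
      have e2 := sec_true_image (V := Pos k) S i.1 (partV k m i.2.1) (partV k m i.2.2)
      congr 2
      · exact e1.symm
      · exact e2.symm

/-- the number of doubled pairs in the form of `NegCorr` -/
theorem dblF_eq_filter (k m : ℕ) (S : Finset (Pos k)) :
    dblF k m S = ((lowSet k m).filter fun x => x ∈ S ∧ flipH k m x ∈ S).card := rfl

/-- **Exponential moment at height `m` under a stirring law.** -/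
theorem Ev_exp_dblF_le {k : ℕ} (m : ℕ) {a : RG (Perm (Pos k))} (ha : IsStirring a)
    (A : Finset (Pos k)) {α : ℝ} (hα : 0 ≤ α) :
    Ev (fun g : Perm (Pos k) => Real.exp (α * (dblF k m (A.image g) : ℝ))) a
      ≤ ∏ x ∈ lowSet k m, (1 + (Real.exp α - 1) * (marg a A x * marg a A (flipH k m x))) := by
  refine Ev_exp_dbl_le ha A (lowSet k m) (fun x => x) (flipH k m) ?_ ?_ hα
  · intro x hx
    exact flipH_ne_of_low k m x ((mem_lowSet k m x).mp hx)
  · intro x hx y hy hxy
    have hlx := (mem_lowSet k m x).mp hx
    have hly := (mem_lowSet k m y).mp hy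
    rw [Finset.disjoint_left]
    intro z hz1 hz2
    simp only [Finset.mem_insert, Finset.mem_singleton] at hz1 hz2
    have hfx := not_low_flipH k m x hlx
    have hfy := not_low_flipH k m y hly
    rcases hz1 with rfl | rfl <;> rcases hz2 with h | h
    · exact hxy h
    · rw [h] at hlx; rw [hfy] at hlx; exact Bool.false_ne_true hlx
    · rw [h] at hfx; rw [hly] at hfx; exact Bool.noConfusion hfx
    · apply hxy
      have := congrArg (flipH k m) h
      rwa [flipH_flipH, flipH_flipH] at this

/-- **Exponential moment of `DblLev` after a full pass.** For `g ∼ bA k`, and the in coins. -/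
theorem moment_le (k m : ℕ) (A : Finset (Pos k)) {α : ℝ} (hα : 0 ≤ α) :
    ∑ g, cf (bA k) g * EC k (fun i => Real.exp (α * (DblLev k m (A.image g) i : ℝ)))
      ≤ (1 + (Real.exp α - 1) * ((A.card : ℝ) / 2 ^ k) ^ 2) ^ (2 ^ (k - 1)) := by
  set y : ℝ := (A.card : ℝ) / 2 ^ k with hy
  have hy0 : 0 ≤ y := by positivity
  have hbase : 1 ≤ 1 + (Real.exp α - 1) * y ^ 2 := by
    have h1 : 0 ≤ Real.exp α - 1 := by linarith [Real.add_one_le_exp α]
    have := mul_nonneg h1 (sq_nonneg y)
    linarith
  have hst : IsStirring (inH k m * bA k) := (isStirring_inH k m).mul (isStirring_bA k)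
  have hmarg : ∀ z, marg (inH k m * bA k) A z = y := by
    intro z
    exact marg_mul_bA (isStirring_inH k m).isLaw A z
  have h1 : ∀ g : Perm (Pos k), EC k (fun i => Real.exp (α * (DblLev k m (A.image g) i : ℝ)))
      = Ev (fun h : Perm (Pos k) => Real.exp (α * (dblF k m (A.image (h * g)) : ℝ))) (inH k m) := by
    intro g
    have := EC_partV k m (fun h : Perm (Pos k) => Real.exp (α * (dblF k m (A.image (h * g)) : ℝ)))
    rw [← this]
    congr 1
    funext i
    rw [DblLev_eq, Finset.image_image]
    rfl
  simp only [h1]
  have h2 : ∑ g, cf (bA k) g * Ev (fun h : Perm (Pos k) =>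
        Real.exp (α * (dblF k m (A.image (h * g)) : ℝ))) (inH k m)
      = Ev (fun g : Perm (Pos k) => Real.exp (α * (dblF k m (A.image g) : ℝ))) (inH k m * bA k) := by
    rw [Ev_mul_nc]
    unfold Ev
    simp_rw [Finset.mul_sum]
    rw [Finset.sum_comm]
    apply Finset.sum_congr rfl
    intro h _
    apply Finset.sum_congr rfl
    intro g _
    ring
  rw [h2]
  refine (Ev_exp_dblF_le m hst A hα).trans ?_
  simp only [hmarg]
  rw [Finset.prod_const]
  have : (1 + (Real.exp α - 1) * (y * y)) = 1 + (Real.exp α - 1) * y ^ 2 := by ring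
  rw [this]
  exact pow_le_pow_right₀ hbase (card_lowSet_le k m)

end Crest.Agent.Lib.Thorp
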