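import Mathlib

set_option autoImplicit false

/-!
# Hoelder over levels and residue chains (S0222, part (P3b) of the (B) core)

Abstract inequalities, independent of the coin trees:

* `holder_weighted`: `E ∏ f_j^{w_j} ≤ ∏ (E f_j)^{w_j}` for positive `f_j`, `∑ w_j = 1`;
* `tail_bound`: the product over the tail levels, by Hoelder over the residue chains;
* `out_bound`: the bound over the out coins for fixed in coins;
* `in_bound`: the bound over the in coins.
-/

namespace Crest.Agent.Lib.Thorp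

open Finset

theorem one_le_prod_real {ι : Type*} (s : Finset ι) (F : ι → ℝ) (h : ∀ i ∈ s, 1 ≤ F i) :
    1 ≤ ∏ i ∈ s, F i := by
  classical
  induction s using Finset.induction_on with
  | empty => simp
  | insert a s ha ih =>
    rw [Finset.prod_insert ha]
    have h1 := h a (Finset.mem_insert_self _ _)
    have h2 := ih (fun i hi => h i (Finset.mem_insert_of_mem hi))
    nlinarith

section holder

variable {Ω ι : Type*} [Fintype Ω]

/-- Weighted Hoelder for positive functions, by weighted AM-GM. -/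
theorem holder_weighted (p : Ω → ℝ) (hp : ∀ ω, 0 ≤ p ω)
    (s : Finset ι) (w : ι → ℝ) (hw : ∀ j ∈ s, 0 ≤ w j) (hw1 : ∑ j ∈ s, w j = 1)
    (f : ι → Ω → ℝ) (hf : ∀ j ∈ s, ∀ ω, 0 < f j ω) (hE : ∀ j ∈ s, 0 < ∑ ω, p ω * f j ω) :
    ∑ ω, p ω * ∏ j ∈ s, (f j ω) ^ (w j) ≤ ∏ j ∈ s, (∑ ω, p ω * f j ω) ^ (w j) := by
  set E : ι → ℝ := fun j => ∑ ω, p ω * f j ω with hEdef
  have hprodE : 0 < ∏ j ∈ s, (E j) ^ (w j) :=
    Finset.prod_pos fun j hj => Real.rpow_pos_of_pos (hE j hj) _
  -- pointwise AM-GM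
  have h1 : ∀ ω, ∏ j ∈ s, (f j ω) ^ (w j)
      ≤ (∏ j ∈ s, (E j) ^ (w j)) * ∑ j ∈ s, w j * (f j ω / E j) := by
    intro ω
    have h3 := Real.geom_mean_le_arith_mean_weighted s w (fun j => f j ω / E j) hw hw1
      (fun j hj => (div_pos (hf j hj ω) (hE j hj)).le)
    have h4 : ∏ j ∈ s, (f j ω) ^ (w j)
        = (∏ j ∈ s, (E j) ^ (w j)) * ∏ j ∈ s, (f j ω / E j) ^ (w j) := by
      rw [← Finset.prod_mul_distrib]
      apply Finset.prod_congr rfl
      intro j hj
      rw [Real.div_rpow (hf j hj ω).le (hE j hj).le]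
      have := Real.rpow_pos_of_pos (hE j hj) (w j)
      field_simp
      rfl
    rw [h4]
    exact mul_le_mul_of_nonneg_left h3 hprodE.le
  have h2 : ∑ ω, p ω * ∑ j ∈ s, w j * (f j ω / E j) = 1 := by
    simp_rw [Finset.mul_sum]
    rw [Finset.sum_comm, ← hw1]
    apply Finset.sum_congr rfl
    intro j hj
    have hEj : E j ≠ 0 := (hE j hj).ne'
    have : ∀ ω, p ω * (w j * (f j ω / E j)) = (w j / E j) * (p ω * f j ω) := by
      intro ω; field_simp
    simp_rw [this]
    rw [← Finset.mul_sum]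
    show w j / E j * E j = w j
    field_simp
  calc ∑ ω, p ω * ∏ j ∈ s, (f j ω) ^ (w j)
      ≤ ∑ ω, p ω * ((∏ j ∈ s, (E j) ^ (w j)) * ∑ j ∈ s, w j * (f j ω / E j)) :=
        Finset.sum_le_sum fun ω _ => mul_le_mul_of_nonneg_left (h1 ω) (hp ω)
    _ = (∏ j ∈ s, (E j) ^ (w j)) * ∑ ω, p ω * ∑ j ∈ s, w j * (f j ω / E j) := by
        rw [Finset.mul_sum]
        apply Finset.sum_congr rfl
        intro ω _
        ring
    _ = ∏ j ∈ s, (E j) ^ (w j) := by rw [h2, mul_one]

end holder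

section tail

variable {Ω α : Type*} [Fintype Ω]

/-- **Hoelder over residue chains.** -/
theorem tail_bound (p : Ω → ℝ) (hp : ∀ ω, 0 ≤ p ω) (hp1 : ∑ ω, p ω = 1)
    (A : ℕ → Ω → ℝ) (hA : ∀ h ω, 1 ≤ A h ω) (D : ℕ → ℝ)
    (L : Finset ℕ) (θ : ℝ) (hθ : 0 ≤ θ)
    (g s : ℕ → ℕ) (hg : ∀ h ∈ L, 0 < g h) (hs : ∀ h ∈ L, θ * g h ≤ s h)
    (T : Finset α) (hT : T.Nonempty) (chain : α → Finset ℕ) (hch : ∀ a ∈ T, chain a ⊆ L)
    (hcount : ∀ h ∈ L, ((T.filter fun a => h ∈ chain a).card : ℝ) * g h = T.card)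
    (b : ℕ → ℝ)
    (h2 : ∀ a ∈ T, ∑ ω, p ω * ∏ h ∈ chain a, (A h ω) ^ (s h) ≤ Real.exp (∑ h ∈ chain a, b h * D h)) :
    ∑ ω, p ω * ∏ h ∈ L, (A h ω) ^ θ ≤ Real.exp (∑ h ∈ L, (b h / g h) * D h) := by
  classical
  have hTc : (0 : ℝ) < T.card := by exact_mod_cast hT.card_pos
  have hApos : ∀ h ω, 0 < A h ω := fun h ω => lt_of_lt_of_le one_pos (hA h ω)
  set f : α → Ω → ℝ := fun a ω => ∏ h ∈ chain a, (A h ω) ^ (θ * g h) with hf
  have hfpos : ∀ a ω, 0 < f a ω := fun a ω =>
    Finset.prod_pos fun h _ => Real.rpow_pos_of_pos (hApos h ω) _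
  -- the product identity
  have hid : ∀ ω, ∏ h ∈ L, (A h ω) ^ θ = ∏ a ∈ T, (f a ω) ^ ((T.card : ℝ)⁻¹) := by
    intro ω
    have e1 : ∀ a ∈ T, (f a ω) ^ ((T.card : ℝ)⁻¹)
        = ∏ h ∈ L, (if h ∈ chain a then (A h ω) ^ (θ * g h * (T.card : ℝ)⁻¹) else 1) := by
      intro a ha
      rw [hf]
      simp only
      rw [← Real.finsetProd_rpow _ _ (fun h _ => (Real.rpow_pos_of_pos (hApos h ω) _).le)]
      have : chain a = L.filter (fun h => h ∈ chain a) := by
        ext h
        simp only [Finset.mem_filter]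
        exact ⟨fun h' => ⟨hch a ha h', h'⟩, fun h' => h'.2⟩
      rw [Finset.prod_ite]
      simp only [Finset.prod_const_one, mul_one]
      rw [← this]
      apply Finset.prod_congr rfl
      intro h _
      rw [← Real.rpow_mul (hApos h ω).le]
    rw [Finset.prod_congr rfl e1, Finset.prod_comm]
    apply Finset.prod_congr rfl
    intro h hh
    rw [Finset.prod_ite]
    simp only [Finset.prod_const_one, mul_one, Finset.prod_const]
    rw [← Real.rpow_natCast, ← Real.rpow_mul (hApos h ω).le]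
    congr 1
    have := hcount h hh
    rw [← this]
    have hgp : (0 : ℝ) < g h := by exact_mod_cast hg h hh
    have hne : (((T.filter fun a => h ∈ chain a).card : ℝ)) ≠ 0 := by
      intro h0
      rw [h0, zero_mul] at this
      exact hTc.ne' this.symm
    field_simp
  -- expectations at least one
  have hf1 : ∀ a ω, h2 = h2 → 1 ≤ f a ω := by
    intro a ω _
    exact one_le_prod_real _ _ fun h _ =>
      Real.one_le_rpow (hA h ω) (by
        have : (0 : ℝ) ≤ g h := Nat.cast_nonneg _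
        positivity)
  have hE : ∀ a ∈ T, 0 < ∑ ω, p ω * f a ω := by
    intro a _
    have : (1 : ℝ) ≤ ∑ ω, p ω * f a ω := by
      calc (1 : ℝ) = ∑ ω, p ω * 1 := by simp [hp1]
        _ ≤ _ := by
          apply Finset.sum_le_sum
          intro ω _
          exact mul_le_mul_of_nonneg_left (hf1 a ω rfl) (hp ω)
    linarith
  -- Hoelder over the chains
  have hw1 : ∑ a ∈ T, (T.card : ℝ)⁻¹ = 1 := by
    rw [Finset.sum_const, nsmul_eq_mul]
    field_simp
  have hH := holder_weighted p hp T (fun _ => (T.card : ℝ)⁻¹) (fun _ _ => (inv_pos.mpr hTc).le) hw1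
    f (fun a _ ω => hfpos a ω) hE
  simp_rw [hid]
  refine hH.trans ?_
  -- each chain
  have hE2 : ∀ a ∈ T, ∑ ω, p ω * f a ω ≤ Real.exp (∑ h ∈ chain a, b h * D h) := by
    intro a ha
    refine le_trans ?_ (h2 a ha)
    apply Finset.sum_le_sum
    intro ω _
    apply mul_le_mul_of_nonneg_left _ (hp ω)
    apply Finset.prod_le_prod
    · intro h _
      exact (Real.rpow_pos_of_pos (hApos h ω) _).le
    · intro h hh
      rw [← Real.rpow_natCast]
      exact Real.rpow_le_rpow_of_exponent_le (hA h ω) (hs h (hch a ha hh))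
  calc ∏ a ∈ T, (∑ ω, p ω * f a ω) ^ ((T.card : ℝ)⁻¹)
      ≤ ∏ a ∈ T, (Real.exp (∑ h ∈ chain a, b h * D h)) ^ ((T.card : ℝ)⁻¹) := by
        apply Finset.prod_le_prod
        · intro a ha
          exact (Real.rpow_pos_of_pos (hE a ha) _).le
        · intro a ha
          exact Real.rpow_le_rpow (hE a ha).le (hE2 a ha) (inv_pos.mpr hTc).le
    _ = Real.exp (∑ a ∈ T, (∑ h ∈ chain a, b h * D h) * (T.card : ℝ)⁻¹) := by
        rw [Real.exp_sum]
        apply Finset.prod_congr rfl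
        intro a _
        rw [← Real.exp_mul]
    _ = Real.exp (∑ h ∈ L, (b h / g h) * D h) := by
        congr 1
        have e1 : ∀ a ∈ T, (∑ h ∈ chain a, b h * D h) * (T.card : ℝ)⁻¹
            = ∑ h ∈ L, (if h ∈ chain a then b h * D h * (T.card : ℝ)⁻¹ else 0) := by
          intro a ha
          rw [Finset.sum_mul]
          have : chain a = L.filter (fun h => h ∈ chain a) := by
            ext h
            simp only [Finset.mem_filter]
            exact ⟨fun h' => ⟨hch a ha h', h'⟩, fun h' => h'.2⟩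
          rw [Finset.sum_ite]
          simp only [Finset.sum_const_zero, add_zero]
          rw [← this]
        rw [Finset.sum_congr rfl e1, Finset.sum_comm]
        apply Finset.sum_congr rfl
        intro h hh
        rw [Finset.sum_ite]
        simp only [Finset.sum_const_zero, add_zero, Finset.sum_const, nsmul_eq_mul]
        have := hcount h hh
        have hgp : (0 : ℝ) < g h := by exact_mod_cast hg h hh
        rw [← this]
        have hne : (((T.filter fun a => h ∈ chain a).card : ℝ)) ≠ 0 := by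
          intro h0
          rw [h0, zero_mul] at this
          exact hTc.ne' this.symm
        field_simp

end tail

section outin

variable {Ω α : Type*} [Fintype Ω]

/-- **The bound over the out coins, fixed in coins.** -/
theorem out_bound (p : Ω → ℝ) (hp : ∀ ω, 0 ≤ p ω) (hp1 : ∑ ω, p ω = 1)
    (A : ℕ → Ω → ℝ) (hA : ∀ h ω, 1 ≤ A h ω) (D : ℕ → ℝ)
    (H L : Finset ℕ) (δ θ W : ℝ) (hδ : 0 ≤ δ) (hθ : 0 ≤ θ) (hW : 0 ≤ W)
    (hsum : (H.card : ℝ) * δ + W = 1) (hWθ : W * θ = δ)
    (η : ℕ → ℝ) (h1 : ∀ h ∈ H, ∑ ω, p ω * A h ω ≤ Real.exp (η h * D h))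
    (g s : ℕ → ℕ) (hg : ∀ h ∈ L, 0 < g h) (hs : ∀ h ∈ L, θ * g h ≤ s h)
    (T : Finset α) (hT : T.Nonempty) (chain : α → Finset ℕ) (hch : ∀ a ∈ T, chain a ⊆ L)
    (hcount : ∀ h ∈ L, ((T.filter fun a => h ∈ chain a).card : ℝ) * g h = T.card)
    (b : ℕ → ℝ)
    (h2 : ∀ a ∈ T, ∑ ω, p ω * ∏ h ∈ chain a, (A h ω) ^ (s h) ≤ Real.exp (∑ h ∈ chain a, b h * D h)) :
    ∑ ω, p ω * ((∏ h ∈ H, (A h ω) ^ δ) * ∏ h ∈ L, (A h ω) ^ δ)
      ≤ Real.exp (δ * ∑ h ∈ H, η h * D h + W * ∑ h ∈ L, (b h / g h) * D h) := by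
  classical
  have hApos : ∀ h ω, 0 < A h ω := fun h ω => lt_of_lt_of_le one_pos (hA h ω)
  set Tail : Ω → ℝ := fun ω => ∏ h ∈ L, (A h ω) ^ θ with hTail
  have hTailpos : ∀ ω, 0 < Tail ω := fun ω =>
    Finset.prod_pos fun h _ => Real.rpow_pos_of_pos (hApos h ω) _
  have hTail1 : ∀ ω, 1 ≤ Tail ω := fun ω =>
    one_le_prod_real _ _ fun h _ => Real.one_le_rpow (hA h ω) hθ
  have htb := tail_bound p hp hp1 A hA D L θ hθ g s hg hs T hT chain hch hcount b h2
  -- index set
  set I : Finset (Option ℕ) := insertNone H with hI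
  set w : Option ℕ → ℝ := fun j => match j with
    | some _ => δ
    | none => W with hw
  set f : Option ℕ → Ω → ℝ := fun j ω => match j with
    | some h => A h ω
    | none => Tail ω with hf
  have hEone : ∀ F : Ω → ℝ, (∀ ω, 1 ≤ F ω) → 1 ≤ ∑ ω, p ω * F ω := by
    intro F hF
    calc (1 : ℝ) = ∑ ω, p ω * 1 := by simp [hp1]
      _ ≤ _ := Finset.sum_le_sum fun ω _ => mul_le_mul_of_nonneg_left (hF ω) (hp ω)
  have hH := holder_weighted p hp I w
    (by
      intro j _
      cases j with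
      | none => exact hW
      | some h => exact hδ)
    (by
      rw [hI, Finset.sum_insertNone]
      simp only [hw, Finset.sum_const, nsmul_eq_mul]
      linarith)
    f
    (by
      intro j _ ω
      cases j with
      | none => exact hTailpos ω
      | some h => exact hApos h ω)
    (by
      intro j _
      cases j with
      | none => exact lt_of_lt_of_le one_pos (hEone _ hTail1)
      | some h => exact lt_of_lt_of_le one_pos (hEone _ (hA h)))
  have hL : ∀ ω, ((∏ h ∈ H, (A h ω) ^ δ) * ∏ h ∈ L, (A h ω) ^ δ) = ∏ j ∈ I, (f j ω) ^ (w j) := by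
    intro ω
    rw [hI, Finset.prod_insertNone]
    simp only [hf, hw]
    rw [mul_comm]
    congr 1
    rw [hTail]
    simp only
    rw [← Real.finsetProd_rpow _ _ (fun h _ => (Real.rpow_pos_of_pos (hApos h ω) _).le)]
    apply Finset.prod_congr rfl
    intro h _
    rw [← Real.rpow_mul (hApos h ω).le, mul_comm θ W, hWθ]
  simp_rw [hL]
  refine hH.trans ?_
  rw [hI, Finset.prod_insertNone]
  simp only [hf, hw]
  have e1 : (∑ ω, p ω * Tail ω) ^ W ≤ Real.exp (W * ∑ h ∈ L, (b h / g h) * D h) := by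
    have h0 : 0 ≤ ∑ ω, p ω * Tail ω :=
      le_trans zero_le_one (hEone _ hTail1)
    calc (∑ ω, p ω * Tail ω) ^ W ≤ (Real.exp (∑ h ∈ L, (b h / g h) * D h)) ^ W :=
          Real.rpow_le_rpow h0 htb hW
      _ = _ := by rw [← Real.exp_mul, mul_comm]
  have e2 : ∏ h ∈ H, (∑ ω, p ω * A h ω) ^ δ ≤ Real.exp (δ * ∑ h ∈ H, η h * D h) := by
    rw [Finset.mul_sum, Real.exp_sum]
    apply Finset.prod_le_prod
    · intro h _
      exact Real.rpow_nonneg (le_trans zero_le_one (hEone _ (hA h))) _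
    · intro h hh
      calc (∑ ω, p ω * A h ω) ^ δ ≤ (Real.exp (η h * D h)) ^ δ :=
            Real.rpow_le_rpow (le_trans zero_le_one (hEone _ (hA h))) (h1 h hh) hδ
        _ = _ := by rw [← Real.exp_mul, mul_comm]
  rw [Real.exp_add]
  have e3 : 0 ≤ (∑ ω, p ω * Tail ω) ^ W :=
    Real.rpow_nonneg (le_trans zero_le_one (hEone _ hTail1)) _
  have e4 : 0 ≤ Real.exp (δ * ∑ h ∈ H, η h * D h) := (Real.exp_pos _).le
  calc (∑ ω, p ω * Tail ω) ^ W * ∏ h ∈ H, (∑ ω, p ω * A h ω) ^ δ
      ≤ Real.exp (W * ∑ h ∈ L, (b h / g h) * D h) * Real.exp (δ * ∑ h ∈ H, η h * D h) :=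
        mul_le_mul e1 e2 (Finset.prod_nonneg fun h _ =>
          Real.rpow_nonneg (le_trans zero_le_one (hEone _ (hA h))) _) (Real.exp_pos _).le
    _ = _ := mul_comm _ _

/-- **The bound over the in coins.** Here `D h ω ≥ 0` and for each level `E exp(α D_h) ≤ Λ α`. -/
theorem in_bound (μ : Ω → ℝ) (hμ : ∀ ω, 0 ≤ μ ω) (hμ1 : ∑ ω, μ ω = 1)
    (D : ℕ → Ω → ℝ) (hD : ∀ h ω, 0 ≤ D h ω)
    (H L : Finset ℕ) (δ W : ℝ) (hδ : 0 ≤ δ) (hW : 0 ≤ W)
    (hsum : (H.card : ℝ) * δ + W = 1)
    (η : ℕ → ℝ) (hη : ∀ h, 0 ≤ η h) (c : ℕ → ℝ) (hc : ∀ h, 0 ≤ c h) (β : ℝ) (hβ : 0 < β)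
    (hcβ : ∑ h ∈ L, c h ≤ β)
    (Λ : ℕ → ℝ → ℝ)
    (hΛ : ∀ h ∈ H, ∑ ω, μ ω * Real.exp (η h * D h ω) ≤ Λ h (η h))
    (Λ' : ℝ) (hΛ' : ∀ h ∈ L, ∑ ω, μ ω * Real.exp (β * D h ω) ≤ Λ') (hΛ'1 : 1 ≤ Λ') :
    ∑ ω, μ ω * Real.exp (δ * ∑ h ∈ H, η h * D h ω + W * ∑ h ∈ L, c h * D h ω)
      ≤ (∏ h ∈ H, (Λ h (η h)) ^ δ) * Λ' ^ W := by
  classical
  have hexp1 : ∀ (a : ℝ) (h : ℕ) (ω : Ω), 0 ≤ a → 1 ≤ Real.exp (a * D h ω) := by
    intro a h ω ha
    exact Real.one_le_exp (mul_nonneg ha (hD h ω))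
  have hEone : ∀ F : Ω → ℝ, (∀ ω, 1 ≤ F ω) → 1 ≤ ∑ ω, μ ω * F ω := by
    intro F hF
    calc (1 : ℝ) = ∑ ω, μ ω * 1 := by simp [hμ1]
      _ ≤ _ := Finset.sum_le_sum fun ω _ => mul_le_mul_of_nonneg_left (hF ω) (hμ ω)
  -- the tail: Hoelder with weights c_h/β and a remainder
  set Tail : Ω → ℝ := fun ω => Real.exp (∑ h ∈ L, c h * D h ω) with hTail
  have hTail1 : ∀ ω, 1 ≤ Tail ω := fun ω =>
    Real.one_le_exp (Finset.sum_nonneg fun h _ => mul_nonneg (hc h) (hD h ω))
  have hTailE : ∑ ω, μ ω * Tail ω ≤ Λ' := by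
    set I : Finset (Option ℕ) := insertNone L with hI
    set w : Option ℕ → ℝ := fun j => match j with
      | some h => c h / β
      | none => 1 - (∑ h ∈ L, c h) / β with hw
    set f : Option ℕ → Ω → ℝ := fun j ω => match j with
      | some h => Real.exp (β * D h ω)
      | none => 1 with hf
    have hw0 : 0 ≤ 1 - (∑ h ∈ L, c h) / β := by
      have : (∑ h ∈ L, c h) / β ≤ 1 := (div_le_one hβ).mpr hcβ
      linarith
    have hHh := holder_weighted μ hμ I w
      (by
        intro j _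
        cases j with
        | none => exact hw0
        | some h => exact div_nonneg (hc h) hβ.le)
      (by
        rw [hI, Finset.sum_insertNone]
        simp only [hw]
        rw [← Finset.sum_div]
        ring)
      f
      (by
        intro j _ ω
        cases j with
        | none => exact one_pos
        | some h => exact Real.exp_pos _)
      (by
        intro j _
        cases j with
        | none =>
          show 0 < ∑ ω, μ ω * (1 : ℝ)
          simp [hμ1]
        | some h =>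
          exact lt_of_lt_of_le one_pos (hEone _ fun ω => hexp1 β h ω hβ.le))
    have hL : ∀ ω, Tail ω = ∏ j ∈ I, (f j ω) ^ (w j) := by
      intro ω
      rw [hI, Finset.prod_insertNone]
      simp only [hf, hw, Real.one_rpow, one_mul]
      rw [hTail]
      simp only
      rw [Real.exp_sum]
      apply Finset.prod_congr rfl
      intro h _
      rw [← Real.exp_mul]
      congr 1
      field_simp
    simp_rw [hL]
    refine hHh.trans ?_
    rw [hI, Finset.prod_insertNone]
    simp only [hf, hw]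
    have e0 : ∑ ω, μ ω * (1 : ℝ) = 1 := by simp [hμ1]
    rw [e0, Real.one_rpow, one_mul]
    have e1 : ∏ h ∈ L, (∑ ω, μ ω * Real.exp (β * D h ω)) ^ (c h / β)
        ≤ ∏ h ∈ L, Λ' ^ (c h / β) := by
      apply Finset.prod_le_prod
      · intro h _
        exact Real.rpow_nonneg (le_trans zero_le_one (hEone _ fun ω => hexp1 β h ω hβ.le)) _
      · intro h hh
        exact Real.rpow_le_rpow (le_trans zero_le_one (hEone _ fun ω => hexp1 β h ω hβ.le))
          (hΛ' h hh) (div_nonneg (hc h) hβ.le)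
    refine e1.trans ?_
    have hΛ0 : 0 < Λ' := lt_of_lt_of_le one_pos hΛ'1
    rw [← Real.rpow_sum_of_pos hΛ0, ← Finset.sum_div]
    calc Λ' ^ ((∑ h ∈ L, c h) / β) ≤ Λ' ^ (1 : ℝ) :=
          Real.rpow_le_rpow_of_exponent_le hΛ'1 ((div_le_one hβ).mpr hcβ)
      _ = Λ' := Real.rpow_one _
  -- Hoelder over the levels
  set I : Finset (Option ℕ) := insertNone H with hI
  set w : Option ℕ → ℝ := fun j => match j with
    | some _ => δ
    | none => W with hw
  set f : Option ℕ → Ω → ℝ := fun j ω => match j with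
    | some h => Real.exp (η h * D h ω)
    | none => Tail ω with hf
  have hH := holder_weighted μ hμ I w
    (by
      intro j _
      cases j with
      | none => exact hW
      | some h => exact hδ)
    (by
      rw [hI, Finset.sum_insertNone]
      simp only [hw, Finset.sum_const, nsmul_eq_mul]
      linarith)
    f
    (by
      intro j _ ω
      cases j with
      | none => exact lt_of_lt_of_le one_pos (hTail1 ω)
      | some h => exact Real.exp_pos _)
    (by
      intro j _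
      cases j with
      | none => exact lt_of_lt_of_le one_pos (hEone _ hTail1)
      | some h => exact lt_of_lt_of_le one_pos (hEone _ fun ω => hexp1 (η h) h ω (hη h)))
  have hL : ∀ ω, Real.exp (δ * ∑ h ∈ H, η h * D h ω + W * ∑ h ∈ L, c h * D h ω)
      = ∏ j ∈ I, (f j ω) ^ (w j) := by
    intro ω
    rw [hI, Finset.prod_insertNone]
    simp only [hf, hw]
    rw [Real.exp_add, mul_comm]
    congr 1
    · rw [hTail]
      simp only
      rw [← Real.exp_mul, mul_comm]
    · rw [Finset.mul_sum, Real.exp_sum]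
      apply Finset.prod_congr rfl
      intro h _
      rw [← Real.exp_mul, mul_comm]
  simp_rw [hL]
  refine hH.trans ?_
  rw [hI, Finset.prod_insertNone]
  simp only [hf, hw]
  rw [mul_comm]
  apply mul_le_mul
  · apply Finset.prod_le_prod
    · intro h _
      exact Real.rpow_nonneg (le_trans zero_le_one (hEone _ fun ω => hexp1 (η h) h ω (hη h))) _
    · intro h hh
      exact Real.rpow_le_rpow (le_trans zero_le_one (hEone _ fun ω => hexp1 (η h) h ω (hη h)))
        (hΛ h hh) hδ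
  · exact Real.rpow_le_rpow (le_trans zero_le_one (hEone _ hTail1)) hTailE hW
  · exact Real.rpow_nonneg (le_trans zero_le_one (hEone _ hTail1)) _
  · refine Finset.prod_nonneg fun h hh => Real.rpow_nonneg ?_ _
    exact le_trans (le_trans zero_le_one (hEone _ fun ω => hexp1 (η h) h ω (hη h))) (hΛ h hh)

end outin

end Crest.Agent.Lib.Thorp
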