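import Mathlib
import Crest.Agent.Lib.Thorp.Tower

set_option autoImplicit false

/-!
Layers on bit strings, the rotation, and the identification of the sweep with the tower.
-/

namespace Crest.Agent.Lib.Thorp

open MonoidAlgebra Finset Equiv

/-! ### generic transport -/

section transport

variable {V W : Type*} [Fintype V] [DecidableEq V] [Fintype W] [DecidableEq W]

/-- conjugation by an equivalence as a group isomorphism -/
def permMap (e : V ≃ W) : Perm V →* Perm W := (Equiv.permCongrHom e).toMonoidHom

theorem permMap_apply (e : V ≃ W) (σ : Perm V) (w : W) : permMap e σ w = e (σ (e.symm w)) := rfl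

/-- transport of laws -/
noncomputable def mapE (e : V ≃ W) : RG (Perm V) →+* RG (Perm W) := mapDomainRingHom ℝ (permMap e)

theorem mapE_single (e : V ≃ W) (σ : Perm V) (r : ℝ) :
    mapE e (single σ r) = single (permMap e σ) r := by
  simp [mapE, mapDomain_single]

theorem mapE_smul (e : V ≃ W) (r : ℝ) (x : RG (Perm V)) : mapE e (r • x) = r • mapE e x := by
  conv_lhs => rw [← ofFun_cf x]
  conv_rhs => rw [← ofFun_cf x]
  unfold ofFun
  rw [Finset.smul_sum, map_sum, map_sum, Finset.smul_sum]
  apply Finset.sum_congr rfl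
  intro g _
  rw [smul_single, mapE_single, mapE_single, smul_single]

theorem mapE_avgS {Ω : Type*} [Fintype Ω] (e : V ≃ W) (F : Ω → Perm V) :
    mapE e (avgS F) = avgS (fun ω => permMap e (F ω)) := by
  unfold avgS
  rw [mapE_smul, map_sum]
  simp only [mapE_single]

theorem permMap_injective (e : V ≃ W) : Function.Injective (permMap e) :=
  (Equiv.permCongrHom e).injective

theorem cf_mapE (e : V ≃ W) (x : RG (Perm V)) (g : Perm V) :
    cf (mapE e x) (permMap e g) = cf x g := by
  conv_lhs => rw [← ofFun_cf x]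
  unfold ofFun
  rw [map_sum, cf_sum]
  simp only [mapE_single, cf_single, (permMap_injective e).eq_iff]
  simp

/-- the `L²` mass is invariant -/
theorem sum_sq_mapE (e : V ≃ W) (x : RG (Perm V)) :
    ∑ g, (cf (mapE e x) g) ^ 2 = ∑ g, (cf x g) ^ 2 := by
  symm
  apply Fintype.sum_equiv (Equiv.permCongrHom e).toEquiv
  intro g
  have := cf_mapE e x g
  show _ = (cf (mapE e x) (permMap e g)) ^ 2
  rw [this]

theorem mapE_trans {U : Type*} [Fintype U] [DecidableEq U] (e : V ≃ W) (f : W ≃ U)
    (x : RG (Perm V)) : mapE (e.trans f) x = mapE f (mapE e x) := by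
  conv_lhs => rw [← ofFun_cf x]
  conv_rhs => rw [← ofFun_cf x]
  unfold ofFun
  simp only [map_sum, mapE_single]
  rfl

theorem mapE_symm_self (e : V ≃ W) (x : RG (Perm V)) : mapE e.symm (mapE e x) = x := by
  conv_lhs => rw [← ofFun_cf x]
  conv_rhs => rw [← ofFun_cf x]
  unfold ofFun
  simp only [map_sum, mapE_single]
  apply Finset.sum_congr rfl
  intro g _
  congr 1
  ext v
  simp [permMap_apply]

omit [Fintype V] [DecidableEq V] in
theorem avgS_fst {Ω Ω' G : Type*} [Group G] [Fintype G] [DecidableEq G] [Fintype Ω] [Fintype Ω']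
    [Nonempty Ω'] (F : Ω → G) : avgS (fun p : Ω × Ω' => F p.1) = avgS F := by
  apply RG_ext
  intro g
  rw [cf_avgS, cf_avgS, Fintype.card_prod, Fintype.sum_prod_type]
  have hc : (Fintype.card Ω' : ℝ) ≠ 0 := by
    exact_mod_cast Fintype.card_ne_zero
  have h1 : ∀ x : Ω, ∑ _y : Ω', (if g = F x then (1 : ℝ) else 0)
      = (Fintype.card Ω' : ℝ) * (if g = F x then (1 : ℝ) else 0) := by
    intro x
    simp [Finset.sum_const, Finset.card_univ]
  simp only [h1]
  rw [← Finset.mul_sum]
  push_cast
  rw [mul_inv, mul_assoc, ← mul_assoc _ (Fintype.card Ω' : ℝ)]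
  rw [inv_mul_cancel₀ hc, one_mul]

end transport

section tenmap

variable {V W : Type*} [Fintype V] [DecidableEq V] [Fintype W] [DecidableEq W]

theorem map_twoL_avgS {Ω : Type*} [Fintype Ω] (F : Ω → Perm V) :
    mapDomainRingHom ℝ twoL (avgS F) = avgS (fun ω => twoL (F ω)) := by
  unfold avgS
  have : ∀ (r : ℝ) (x : RG (Perm V)), mapDomainRingHom ℝ twoL (r • x) = r • mapDomainRingHom ℝ twoL x := by
    intro r x
    conv_lhs => rw [← ofFun_cf x]
    conv_rhs => rw [← ofFun_cf x]
    unfold ofFun
    rw [Finset.smul_sum, map_sum, map_sum, Finset.smul_sum]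
    apply Finset.sum_congr rfl
    intro g _
    rw [smul_single, map_single', map_single', smul_single]
  rw [this, map_sum]
  simp only [map_single']

theorem map_twoR_avgS {Ω : Type*} [Fintype Ω] (F : Ω → Perm V) :
    mapDomainRingHom ℝ twoR (avgS F) = avgS (fun ω => twoR (F ω)) := by
  unfold avgS
  have : ∀ (r : ℝ) (x : RG (Perm V)), mapDomainRingHom ℝ twoR (r • x) = r • mapDomainRingHom ℝ twoR x := by
    intro r x
    conv_lhs => rw [← ofFun_cf x]
    conv_rhs => rw [← ofFun_cf x]
    unfold ofFun
    rw [Finset.smul_sum, map_sum, map_sum, Finset.smul_sum]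
    apply Finset.sum_congr rfl
    intro g _
    rw [smul_single, map_single', map_single', smul_single]
  rw [this, map_sum]
  simp only [map_single']

theorem Ten_avgS {Ω : Type*} [Fintype Ω] (F : Ω → Perm V) :
    Ten (avgS F) = avgS (fun p : Ω × Ω => two (F p.1) (F p.2)) := by
  unfold Ten
  rw [map_twoL_avgS, map_twoR_avgS, avgS_mul]
  congr 1
  funext p
  exact twoL_mul_twoR _ _

/-- product with the identity on the row bit -/
def rowE (e : V ≃ W) : Bool × V ≃ Bool × W := Equiv.prodCongr (Equiv.refl Bool) e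

theorem permMap_rowE_two (e : V ≃ W) (σ τ : Perm V) :
    permMap (rowE e) (two σ τ) = two (permMap e σ) (permMap e τ) := by
  ext x
  · rcases x with ⟨r, v⟩; cases r <;> rfl
  · rcases x with ⟨r, v⟩; cases r <;> rfl

theorem permMap_rowE_gate (e : V ≃ W) (c : V → Bool) :
    permMap (rowE e) (gate c) = gate (c ∘ e.symm) := by
  ext x
  · rcases x with ⟨r, v⟩; simp [permMap_apply, rowE]
  · rcases x with ⟨r, v⟩; simp [permMap_apply, rowE]

theorem mapE_rowE_Ten (e : V ≃ W) (a : RG (Perm V)) : mapE (rowE e) (Ten a) = Ten (mapE e a) := by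
  rw [Ten_eq_sum, Ten_eq_sum, map_sum]
  simp only [map_sum, mapE_single, permMap_rowE_two]
  symm
  rw [← Equiv.sum_comp (Equiv.permCongrHom e).toEquiv]
  apply Finset.sum_congr rfl
  intro σ _
  rw [← Equiv.sum_comp (Equiv.permCongrHom e).toEquiv]
  apply Finset.sum_congr rfl
  intro τ _
  have h1 := cf_mapE e a σ
  have h2 := cf_mapE e a τ
  show single (two (permMap e σ) (permMap e τ)) (cf (mapE e a) (permMap e σ) * cf (mapE e a) (permMap e τ)) = _
  rw [h1, h2]

theorem mapE_rowE_GateA (e : V ≃ W) :
    mapE (rowE e) (GateA : RG (Perm (Bool × V))) = GateA := by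
  unfold GateA
  rw [mapE_avgS]
  simp only [permMap_rowE_gate]
  exact avgS_congr_equiv (Equiv.arrowCongr e (Equiv.refl Bool)) (gate (V := W))

end tenmap


/-! ### bit strings -/

section bits

/-- bit strings; coordinate `0` is the top bit -/
abbrev Bits (k : ℕ) := Fin k → Bool

/-- flip coordinate `i` iff the coin of the edge (read at the representative with bit `i` cleared)
is heads -/
def layFun {k : ℕ} (i : Fin k) (c : Bits k → Bool) (x : Bits k) : Bits k :=
  if c (Function.update x i false) then Function.update x i (!x i) else x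

theorem layFun_invol {k : ℕ} (i : Fin k) (c : Bits k → Bool) :
    Function.Involutive (layFun i c) := by
  intro x
  unfold layFun
  by_cases h : c (Function.update x i false) = true
  · simp [h]
  · simp [h]

/-- the layer permutation -/
def layPerm {k : ℕ} (i : Fin k) (c : Bits k → Bool) : Perm (Bits k) := (layFun_invol i c).toPerm

theorem layPerm_apply {k : ℕ} (i : Fin k) (c : Bits k → Bool) (x : Bits k) :
    layPerm i c x = if c (Function.update x i false) then Function.update x i (!x i) else x := rfl

/-- uniform layer -/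
noncomputable def Lay {k : ℕ} (i : Fin k) : RG (Perm (Bits k)) := avgS (layPerm i)

/-- The rotation: the new coordinate `j` is the old coordinate `j + 1`. -/
def rotB (k : ℕ) : Perm (Bits (k + 1)) where
  toFun x := fun j => x (j + 1)
  invFun x := fun j => x (j - 1)
  left_inv x := by funext j; simp
  right_inv x := by funext j; simp

theorem rotB_apply (k : ℕ) (x : Bits (k + 1)) (j : Fin (k + 1)) : rotB k x j = x (j + 1) := rfl

theorem rotB_update (k : ℕ) (x : Bits (k + 1)) (i : Fin (k + 1)) (b : Bool) :
    rotB k (Function.update x (i + 1) b) = Function.update (rotB k x) i b := by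
  funext j
  rw [rotB_apply]
  by_cases h : j = i
  · subst h; simp
  · have : j + 1 ≠ i + 1 := fun e => h (add_right_cancel e)
    rw [Function.update_of_ne this, Function.update_of_ne h, rotB_apply]

theorem rot_mul_lay (k : ℕ) (i : Fin (k + 1)) (c : Bits (k + 1) → Bool) :
    rotB k * layPerm (i + 1) (c ∘ rotB k) = layPerm i c * rotB k := by
  apply Equiv.ext
  intro x
  show rotB k (layPerm (i + 1) (c ∘ rotB k) x) = layPerm i c (rotB k x)
  rw [layPerm_apply, layPerm_apply]
  have e : (c ∘ rotB k) (Function.update x (i + 1) false) = c (Function.update (rotB k x) i false) := by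
    show c (rotB k (Function.update x (i + 1) false)) = _
    rw [rotB_update]
  rw [e]
  by_cases h : c (Function.update (rotB k x) i false) = true
  · rw [if_pos h, if_pos h, rotB_update]
    rfl
  · rw [if_neg h, if_neg h]

theorem rot_pow_apply (k j : ℕ) (x : Bits (k + 1)) (i : Fin (k + 1)) :
    ((rotB k) ^ j) x i = x (i + Fin.ofNat (k + 1) j) := by
  induction j generalizing x i with
  | zero =>
    have : Fin.ofNat (k + 1) 0 = 0 := rfl
    simp [this]
  | succ j ih =>
    rw [pow_succ, Perm.mul_apply, ih, rotB_apply]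
    congr 1
    have : Fin.ofNat (k + 1) (j + 1) = Fin.ofNat (k + 1) j + 1 := by
      apply Fin.ext
      simp [Fin.val_add, Fin.ofNat]
    rw [this]
    abel

theorem rot_pow_self (k : ℕ) : (rotB k) ^ (k + 1) = 1 := by
  apply Equiv.ext
  intro x
  funext i
  rw [rot_pow_apply]
  have : Fin.ofNat (k + 1) (k + 1) = 0 := by
    apply Fin.ext
    simp [Fin.ofNat]
  rw [this, add_zero]
  rfl

theorem single_mul_avgS {G Ω : Type*} [Group G] [Fintype Ω] (g : G) (F : Ω → G) :
    (single g 1 : RG G) * avgS F = avgS (fun ω => g * F ω) := by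
  unfold avgS
  rw [mul_smul_comm, Finset.mul_sum]
  simp [single_mul_single]

theorem avgS_mul_single {G Ω : Type*} [Group G] [Fintype Ω] (g : G) (F : Ω → G) :
    avgS F * (single g 1 : RG G) = avgS (fun ω => F ω * g) := by
  unfold avgS
  rw [smul_mul_assoc, Finset.sum_mul]
  simp [single_mul_single]

theorem single_rot_mul_Lay (k : ℕ) (i : Fin (k + 1)) :
    (single (rotB k) 1 : RG (Perm (Bits (k + 1)))) * Lay (i + 1) = Lay i * single (rotB k) 1 := by
  unfold Lay
  rw [single_mul_avgS, avgS_mul_single]
  rw [← avgS_congr_equiv (Equiv.arrowCongr (rotB k).symm (Equiv.refl Bool))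
    (fun c => rotB k * layPerm (i + 1) c)]
  congr 1
  funext c
  exact rot_mul_lay k i c

/-- layer with natural number index -/
noncomputable def LayN (k i : ℕ) : RG (Perm (Bits k)) :=
  if h : i < k then Lay ⟨i, h⟩ else 1

/-- partial sweep -/
noncomputable def Pj (k : ℕ) : ℕ → RG (Perm (Bits k))
  | 0 => 1
  | j + 1 => LayN k j * Pj k j

theorem single_rot_pow_mul_LayN (k j : ℕ) (hj : j < k + 1) :
    (single ((rotB k) ^ j) 1 : RG (Perm (Bits (k + 1)))) * LayN (k + 1) j
      = LayN (k + 1) 0 * single ((rotB k) ^ j) 1 := by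
  induction j with
  | zero =>
    simp only [pow_zero]
    rw [← MonoidAlgebra.one_def]
    simp
  | succ j ih =>
    have ih' := ih (by omega)
    have h1 : LayN (k + 1) (j + 1) = Lay ((⟨j, by omega⟩ : Fin (k + 1)) + 1) := by
      unfold LayN
      rw [dif_pos hj]
      congr 1
      apply Fin.ext
      simp only [Fin.val_add]
      simp
      exact (Nat.mod_eq_of_lt hj).symm
    have h2 : LayN (k + 1) j = Lay (⟨j, by omega⟩ : Fin (k + 1)) := by
      unfold LayN
      rw [dif_pos (by omega)]
    have e : (single ((rotB k) ^ (j + 1)) 1 : RG (Perm (Bits (k + 1))))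
        = single ((rotB k) ^ j) 1 * single (rotB k) 1 := by
      rw [single_mul_single, pow_succ, one_mul]
    rw [e, mul_assoc, h1, single_rot_mul_Lay, ← mul_assoc, ← h2, ih', mul_assoc]

theorem rot_Lay_pow (k j : ℕ) (hj : j ≤ k + 1) :
    ((single (rotB k) 1 : RG (Perm (Bits (k + 1)))) * LayN (k + 1) 0) ^ j
      = single ((rotB k) ^ j) 1 * Pj (k + 1) j := by
  induction j with
  | zero =>
    simp only [pow_zero, Pj, mul_one]
    rw [MonoidAlgebra.one_def]
  | succ j ih =>
    have ih' := ih (by omega)
    rw [pow_succ', ih']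
    have := single_rot_pow_mul_LayN k j (by omega)
    calc _ = single (rotB k) 1 * (LayN (k + 1) 0 * single ((rotB k) ^ j) 1) * Pj (k + 1) j := by
          simp only [mul_assoc]
      _ = single (rotB k) 1 * (single ((rotB k) ^ j) 1 * LayN (k + 1) j) * Pj (k + 1) j := by
          rw [this]
      _ = _ := by
          simp only [Pj]
          rw [← mul_assoc, ← mul_assoc, single_mul_single, pow_succ', one_mul]

/-- A full sweep of rotated top layers is the layered sweep. -/
theorem rot_Lay_pow_full (k : ℕ) :
    ((single (rotB k) 1 : RG (Perm (Bits (k + 1)))) * LayN (k + 1) 0) ^ (k + 1)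
      = Pj (k + 1) (k + 1) := by
  rw [rot_Lay_pow k (k + 1) le_rfl, rot_pow_self, ← MonoidAlgebra.one_def, one_mul]

/-! ### the tower on bit strings -/

/-- split off the top bit -/
def consE (k : ℕ) : Bool × Bits k ≃ Bits (k + 1) where
  toFun p := Fin.cons p.1 p.2
  invFun x := (x 0, Fin.tail x)
  left_inv p := by simp
  right_inv x := by simp

theorem consE_apply (k : ℕ) (r : Bool) (y : Bits k) : consE k (r, y) = Fin.cons r y := rfl

/-- `Ten` on bit strings -/
noncomputable def Ten' {k : ℕ} (a : RG (Perm (Bits k))) : RG (Perm (Bits (k + 1))) :=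
  mapE (consE k) (Ten a)

theorem Ten'_mul {k : ℕ} (a b : RG (Perm (Bits k))) : Ten' (a * b) = Ten' a * Ten' b := by
  unfold Ten'
  rw [Ten_mul, map_mul]

theorem Ten'_one {k : ℕ} : Ten' (1 : RG (Perm (Bits k))) = 1 := by
  unfold Ten'
  rw [Ten_one, map_one]

/-- coin split -/
def coinSplit (k : ℕ) : (Bits (k + 1) → Bool) ≃ (Bits k → Bool) × (Bits k → Bool) where
  toFun c := (fun y => c (Fin.cons false y), fun y => c (Fin.cons true y))
  invFun p := fun x => if x 0 then p.2 (Fin.tail x) else p.1 (Fin.tail x)
  left_inv c := by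
    funext x
    obtain ⟨r, y, rfl⟩ : ∃ r y, x = Fin.cons r y := ⟨x 0, Fin.tail x, by simp⟩
    cases r <;> simp [Fin.tail_cons]
  right_inv p := by
    ext y <;> simp [Fin.tail_cons]

theorem layPerm_succ {k : ℕ} (i : Fin k) (c : Bits (k + 1) → Bool) :
    layPerm i.succ c = permMap (consE k) (two (layPerm i (coinSplit k c).1) (layPerm i (coinSplit k c).2)) := by
  apply Equiv.ext
  intro x
  rw [permMap_apply]
  obtain ⟨r, y, rfl⟩ : ∃ r y, x = Fin.cons r y := ⟨x 0, Fin.tail x, by simp⟩
  have hsymm : (consE k).symm (Fin.cons r y) = (r, y) := by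
    apply (consE k).symm_apply_eq.mpr
    rfl
  rw [hsymm, layPerm_apply]
  have hu : ∀ b : Bool, Function.update (Fin.cons r y : Bits (k + 1)) i.succ b
      = Fin.cons r (Function.update y i b) := by
    intro b
    rw [← Fin.cons_update]
  have hv : (Fin.cons r y : Bits (k + 1)) i.succ = y i := by simp
  rw [hv, hu false, hu (!y i)]
  cases r
  · show _ = consE k (false, layPerm i (coinSplit k c).1 y)
    rw [layPerm_apply]
    show _ = consE k (false, if c (Fin.cons false (Function.update y i false)) then _ else y)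
    by_cases h : c (Fin.cons false (Function.update y i false)) = true
    · rw [if_pos h, if_pos h]; rfl
    · rw [if_neg h, if_neg h]; rfl
  · show _ = consE k (true, layPerm i (coinSplit k c).2 y)
    rw [layPerm_apply]
    show _ = consE k (true, if c (Fin.cons true (Function.update y i false)) then _ else y)
    by_cases h : c (Fin.cons true (Function.update y i false)) = true
    · rw [if_pos h, if_pos h]; rfl
    · rw [if_neg h, if_neg h]; rfl

theorem layPerm_zero {k : ℕ} (c : Bits (k + 1) → Bool) :
    layPerm 0 c = permMap (consE k) (gate (coinSplit k c).1) := by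
  apply Equiv.ext
  intro x
  rw [permMap_apply]
  obtain ⟨r, y, rfl⟩ : ∃ r y, x = Fin.cons r y := ⟨x 0, Fin.tail x, by simp⟩
  have hsymm : (consE k).symm (Fin.cons r y) = (r, y) := by
    apply (consE k).symm_apply_eq.mpr
    rfl
  rw [hsymm, layPerm_apply, gate_apply, consE_apply]
  have hu : ∀ b : Bool, Function.update (Fin.cons r y : Bits (k + 1)) 0 b = Fin.cons b y := by
    intro b
    funext j
    refine Fin.cases ?_ (fun j => ?_) j
    · simp
    · simp
  rw [hu false, hu (!(Fin.cons r y : Bits (k + 1)) 0)]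
  show (if c (Fin.cons false y : Bits (k + 1)) = true then _ else _)
    = (Fin.cons (xor r (c (Fin.cons false y : Bits (k + 1)))) y : Bits (k + 1))
  by_cases h : c (Fin.cons false y : Bits (k + 1)) = true
  · simp [h]
  · have h' : c (Fin.cons false y : Bits (k + 1)) = false := by simpa using h
    simp [h']

theorem Lay_succ {k : ℕ} (i : Fin k) : Lay i.succ = Ten' (Lay i) := by
  unfold Lay Ten'
  rw [Ten_avgS, mapE_avgS]
  rw [← avgS_congr_equiv (coinSplit k)]
  congr 1
  funext c
  exact layPerm_succ i c

theorem Lay_zero {k : ℕ} : Lay (0 : Fin (k + 1)) = mapE (consE k) GateA := by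
  unfold Lay GateA
  rw [mapE_avgS]
  have h : avgS (fun ω : Bits k → Bool => permMap (consE k) (gate ω))
      = avgS (fun p : (Bits k → Bool) × (Bits k → Bool) => permMap (consE k) (gate p.1)) :=
    (avgS_fst (fun ω : Bits k → Bool => permMap (consE k) (gate ω))).symm
  rw [h, ← avgS_congr_equiv (coinSplit k)]
  congr 1
  funext c
  exact layPerm_zero c

theorem LayN_zero {k : ℕ} : LayN (k + 1) 0 = mapE (consE k) GateA := by
  unfold LayN
  rw [dif_pos (by omega)]
  exact Lay_zero

theorem LayN_succ {k j : ℕ} (hj : j < k) : LayN (k + 1) (j + 1) = Ten' (LayN k j) := by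
  unfold LayN
  rw [dif_pos hj, dif_pos (by omega)]
  exact Lay_succ (⟨j, hj⟩ : Fin k)

theorem Pj_succ {k j : ℕ} (hj : j ≤ k) :
    Pj (k + 1) (j + 1) = Ten' (Pj k j) * LayN (k + 1) 0 := by
  induction j with
  | zero =>
    simp [Pj, Ten'_one]
  | succ j ih =>
    have ih' := ih (by omega)
    show LayN (k + 1) (j + 1) * Pj (k + 1) (j + 1) = Ten' (LayN k j * Pj k j) * _
    rw [ih', LayN_succ (by omega), Ten'_mul, mul_assoc]

/-- tower coordinates to bit strings -/
def posE : (k : ℕ) → Pos k ≃ Bits k
  | 0 => { toFun := fun _ => Fin.elim0, invFun := fun _ => (), left_inv := fun _ => rfl,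
           right_inv := fun _ => funext fun i => i.elim0 }
  | k + 1 => (rowE (posE k)).trans (consE k)

theorem mapE_posE_nu (k : ℕ) : mapE (posE k) (nu k) = Pj k k := by
  induction k with
  | zero =>
    show mapE (posE 0) 1 = 1
    rw [map_one]
  | succ k ih =>
    show mapE ((rowE (posE k)).trans (consE k)) (Ten (nu k) * GateA) = _
    rw [mapE_trans, map_mul, map_mul, mapE_rowE_Ten, mapE_rowE_GateA, ih, Pj_succ le_rfl, LayN_zero]
    rfl

end bits

end Crest.Agent.Lib.Thorp
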