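import Mathlib
import Crest.Agent.Lib.Thorp.Bits

set_option autoImplicit false

/-!
# Bit reversal of a window of butterfly layers (S0222)

`winN j r` is the sweep of the top `r` layers on `Pos (j + r)`, top layer first.  Reversing the
order of the top `r` coordinates conjugates `winN j r` to its reversal `rev (winN j r)`, because
every layer is self-reverse.  Consequently the law of `W⁻¹ W'` (top gates in the middle) is
conjugate to the law of `dbl^r 1` (top gates outside).
-/

namespace Crest.Agent.Lib.Thorp

open MonoidAlgebra Finset Equiv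

/-! ### transport and reversal -/

section

variable {V W : Type*} [Fintype V] [DecidableEq V] [Fintype W] [DecidableEq W]

theorem mapE_rev (e : V ≃ W) (x : RG (Perm V)) : mapE e (rev x) = rev (mapE e x) := by
  apply RG_ext
  intro g
  obtain ⟨h, rfl⟩ : ∃ h, permMap e h = g := ⟨permMap e.symm g, by
    ext w; simp [permMap_apply]⟩
  rw [cf_mapE, cf_rev, cf_rev]
  rw [← map_inv, cf_mapE]

theorem Ev_mapE (e : V ≃ W) (φ : Perm W → ℝ) (x : RG (Perm V)) :
    Ev φ (mapE e x) = Ev (fun g => φ (permMap e g)) x := by
  conv_lhs => rw [← ofFun_cf x]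
  unfold ofFun
  rw [map_sum, Ev_sum]
  simp only [mapE_single, Ev_single]
  rfl

end

/-! ### coordinate permutations on bit strings -/

section coord

variable {k : ℕ}

/-- permuting the coordinates of a bit string -/
def coordE (π : Perm (Fin k)) : Bits k ≃ Bits k where
  toFun x := x ∘ π.symm
  invFun x := x ∘ π
  left_inv x := by funext i; simp
  right_inv x := by funext i; simp

theorem coordE_apply (π : Perm (Fin k)) (x : Bits k) (i : Fin k) : coordE π x (π i) = x i := by
  simp [coordE]

theorem coordE_update (π : Perm (Fin k)) (x : Bits k) (i : Fin k) (b : Bool) :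
    coordE π (Function.update x i b) = Function.update (coordE π x) (π i) b := by
  funext l
  obtain ⟨m, rfl⟩ := π.surjective l
  rw [coordE_apply]
  by_cases h : m = i
  · subst h; simp
  · have : π m ≠ π i := fun e => h (π.injective e)
    rw [Function.update_of_ne h, Function.update_of_ne this, coordE_apply]

theorem permMap_coordE_layPerm (π : Perm (Fin k)) (i : Fin k) (c : Bits k → Bool) :
    permMap (coordE π) (layPerm i c) = layPerm (π i) (c ∘ (coordE π).symm) := by
  apply Equiv.ext
  intro y
  rw [permMap_apply, layPerm_apply, layPerm_apply]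
  obtain ⟨x, rfl⟩ := (coordE π).surjective y
  simp only [Equiv.symm_apply_apply, Function.comp]
  have e1 : Function.update (coordE π x) (π i) false = coordE π (Function.update x i false) := by
    rw [coordE_update]
  simp only [e1, Equiv.symm_apply_apply]
  by_cases h : c (Function.update x i false) = true
  · rw [if_pos h, if_pos h, coordE_update, coordE_apply]
  · rw [if_neg h, if_neg h]

theorem mapE_coordE_Lay (π : Perm (Fin k)) (i : Fin k) :
    mapE (coordE π) (Lay i) = Lay (π i) := by
  unfold Lay
  rw [mapE_avgS]
  simp only [permMap_coordE_layPerm]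
  exact avgS_congr_equiv (Equiv.arrowCongr (coordE π) (Equiv.refl Bool)) (layPerm (π i))

theorem layPerm_inv (i : Fin k) (c : Bits k → Bool) : (layPerm i c)⁻¹ = layPerm i c := by
  apply Equiv.ext
  intro x
  rw [Equiv.Perm.inv_eq_iff_eq]
  exact ((layFun_invol i c) x).symm

theorem rev_Lay (i : Fin k) : rev (Lay i) = Lay i := by
  unfold Lay
  rw [rev_avgS]
  simp only [layPerm_inv]

theorem rev_LayN (k i : ℕ) : rev (LayN k i) = LayN k i := by
  unfold LayN
  split_ifs
  · exact rev_Lay _
  · exact rev_one

/-- the reversed partial sweep -/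
noncomputable def Qj (k : ℕ) : ℕ → RG (Perm (Bits k))
  | 0 => 1
  | j + 1 => Qj k j * LayN k j

theorem rev_Pj (k r : ℕ) : rev (Pj k r) = Qj k r := by
  induction r with
  | zero => exact rev_one
  | succ r ih =>
    show rev (LayN k r * Pj k r) = Qj k r * LayN k r
    rw [rev_mul, ih, rev_LayN]

/-- a coordinate permutation reversing the first `r` coordinates -/
def revCoord (k r : ℕ) (hr : r ≤ k) : Perm (Fin k) where
  toFun i := if h : i.val < r then ⟨r - 1 - i.val, by omega⟩ else i
  invFun i := if h : i.val < r then ⟨r - 1 - i.val, by omega⟩ else i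
  left_inv i := by
    by_cases h : i.val < r
    · simp only [h, dif_pos]
      have h2 : r - 1 - i.val < r := by omega
      simp only [h2, dif_pos]
      apply Fin.ext
      simp only
      omega
    · simp [h]
  right_inv i := by
    by_cases h : i.val < r
    · simp only [h, dif_pos]
      have h2 : r - 1 - i.val < r := by omega
      simp only [h2, dif_pos]
      apply Fin.ext
      simp only
      omega
    · simp [h]

theorem mapE_revCoord_LayN (k r i : ℕ) (hr : r ≤ k) (hi : i < r) :
    mapE (coordE (revCoord k r hr)) (LayN k i) = LayN k (r - 1 - i) := by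
  unfold LayN
  rw [dif_pos (by omega), dif_pos (by omega), mapE_coordE_Lay]
  congr 1
  apply Fin.ext
  simp [revCoord, hi]

theorem Qj_split (k r : ℕ) (hr : r ≤ k) (s : ℕ) (hs : s ≤ r) :
    Qj k r = Qj k (r - s) * mapE (coordE (revCoord k r hr)) (Pj k s) := by
  induction s with
  | zero =>
    simp only [Pj, map_one, mul_one, Nat.sub_zero]
  | succ s ih =>
    have ih' := ih (by omega)
    rw [ih']
    show _ = _ * mapE _ (LayN k s * Pj k s)
    rw [map_mul, mapE_revCoord_LayN k r s hr (by omega), ← mul_assoc]
    congr 1
    have e : r - s = (r - (s + 1)) + 1 := by omega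
    rw [e]
    show Qj k (r - (s + 1)) * LayN k (r - (s + 1)) = _
    congr 2
    omega

theorem mapE_revCoord_Pj (k r : ℕ) (hr : r ≤ k) :
    mapE (coordE (revCoord k r hr)) (Pj k r) = rev (Pj k r) := by
  rw [rev_Pj]
  have := Qj_split k r hr r le_rfl
  rw [Nat.sub_self] at this
  have h0 : Qj k 0 = 1 := rfl
  rw [h0, one_mul] at this
  exact this.symm

end coord

/-! ### the window -/

/-- The sweep of the top `r` layers on `Pos (j + r)`, the top layer acts first. -/
noncomputable def winN (j : ℕ) : (r : ℕ) → RG (Perm (Pos (j + r)))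
  | 0 => 1
  | r + 1 => Ten (winN j r) * GateA

theorem mapE_posE_winN (j r : ℕ) : mapE (posE (j + r)) (winN j r) = Pj (j + r) r := by
  induction r with
  | zero =>
    show mapE (posE j) 1 = 1
    rw [map_one]
  | succ r ih =>
    show mapE ((rowE (posE (j + r))).trans (consE (j + r))) (Ten (winN j r) * GateA) = _
    rw [mapE_trans, map_mul, map_mul, mapE_rowE_Ten, mapE_rowE_GateA, ih]
    have h := Pj_succ (k := j + r) (j := r) (by omega)
    have h2 := LayN_zero (k := j + r)
    rw [h2] at h
    exact h.symm

/-- the coordinate reversal of the window, on the tower -/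
noncomputable def winRev (j r : ℕ) : Pos (j + r) ≃ Pos (j + r) :=
  ((posE (j + r)).trans (coordE (revCoord (j + r) r (by omega)))).trans (posE (j + r)).symm

theorem mapE_winRev (j r : ℕ) : mapE (winRev j r) (winN j r) = rev (winN j r) := by
  unfold winRev
  rw [mapE_trans, mapE_trans, mapE_posE_winN, mapE_revCoord_Pj, ← mapE_posE_winN, mapE_rev,
    mapE_symm_self]

/-- `rev ν * ν` form: the window law with the top gates outside. -/
noncomputable def winB (j : ℕ) (r : ℕ) : RG (Perm (Pos (j + r))) := rev (winN j r) * winN j r

theorem winB_zero (j : ℕ) : winB j 0 = 1 := by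
  show rev 1 * 1 = 1
  rw [rev_one, one_mul]

theorem winB_succ (j r : ℕ) : winB j (r + 1) = dbl (winB j r) := by
  unfold winB
  rw [dbl_rev_mul]
  rfl

/-- The law of `W⁻¹ W'` is conjugate to the law `winB`. -/
theorem mapE_winRev_mid (j r : ℕ) :
    mapE (winRev j r) (winN j r * rev (winN j r)) = winB j r := by
  rw [map_mul, mapE_rev, mapE_winRev, rev_rev]
  rfl

/-- Testing the law of `W⁻¹ W'` against `φ`. -/
theorem Ev_mid (j r : ℕ) (φ : Perm (Pos (j + r)) → ℝ) :
    Ev φ (winN j r * rev (winN j r))
      = Ev (fun g => φ (permMap (winRev j r).symm g)) (winB j r) := by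
  rw [← mapE_winRev_mid, Ev_mapE]
  apply congrArg (fun ψ => Ev ψ (winN j r * rev (winN j r)))
  funext g
  congr 1
  ext v
  simp [permMap_apply]

end Crest.Agent.Lib.Thorp
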