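import Mathlib
import Crest.Agent.Lib.Thorp.BitRev
import Crest.Agent.Lib.Thorp.XBound

set_option autoImplicit false

/-!
# The Cauchy-Schwarz step and the window bound (S0222)

For a law `w` on `Perm V` and any fixed permutations `a, b`:
`E_{W,W'} colTr Q y (b⁻¹ W'⁻¹ W a) ≤ √(XX Q (rev w * w) (y∘a⁻¹)) √(XX Q (rev w * w) (y∘b⁻¹))`.
For `w` the law of the top `r` out-layers on `Pos (j + r)`, `rev w * w` is conjugate by the bit reversal
to `winB j r = dbl^r 1`, whence `X ≤ exp (Q (3/4)^r Σ y)`.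
-/

namespace Crest.Agent.Lib.Thorp

open MonoidAlgebra Finset Equiv

section cs

variable {V : Type*} [Fintype V] [DecidableEq V] {Q : ℕ}

/-- amplitude: probability that `u ∘ g⁻¹ = d` -/
noncomputable def amp (w : RG (Perm V)) (u d : Cfg V Q) : ℝ :=
  ∑ g : Perm V, cf w g * (if u ∘ ⇑(g⁻¹) = d then 1 else 0)

theorem sum_amp_mul (w : RG (Perm V)) (u v : Cfg V Q) :
    ∑ d, amp w u d * amp w v d
      = ∑ g : Perm V, ∑ g' : Perm V, cf w g * cf w g' *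
          (if u ∘ ⇑(g⁻¹) = v ∘ ⇑(g'⁻¹) then 1 else 0) := by
  unfold amp
  simp_rw [Finset.sum_mul_sum]
  rw [Finset.sum_comm]
  apply Finset.sum_congr rfl
  intro g _
  rw [Finset.sum_comm]
  apply Finset.sum_congr rfl
  intro g' _
  have : ∀ d : Cfg V Q, cf w g * (if u ∘ ⇑(g⁻¹) = d then (1 : ℝ) else 0)
      * (cf w g' * (if v ∘ ⇑(g'⁻¹) = d then 1 else 0))
      = cf w g * cf w g' * ((if u ∘ ⇑(g⁻¹) = d then (1 : ℝ) else 0)
        * (if v ∘ ⇑(g'⁻¹) = d then 1 else 0)) := fun d => by ring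
  simp_rw [this]
  rw [← Finset.mul_sum]
  congr 1
  rw [Finset.sum_eq_single (u ∘ ⇑(g⁻¹))]
  · simp [eq_comm]
  · intro d _ hd
    rw [if_neg (Ne.symm hd), zero_mul]
  · simp

/-- the two forms of the invariance event -/
theorem comp_eq_iff (a b g g' : Perm V) (c : Cfg V Q) :
    c ∘ ⇑(b⁻¹ * g'⁻¹ * g * a) = c ↔ (c ∘ ⇑(a⁻¹)) ∘ ⇑(g⁻¹) = (c ∘ ⇑(b⁻¹)) ∘ ⇑(g'⁻¹) := by
  constructor
  · intro h
    funext v
    have h1 := congrFun h (a⁻¹ (g⁻¹ v))
    have e : g (a (a⁻¹ (g⁻¹ v))) = v := by simp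
    simp only [Function.comp, Perm.mul_apply, e] at h1 ⊢
    exact h1.symm
  · intro h
    funext v
    have h1 := congrFun h (g (a v))
    have e : a⁻¹ (g⁻¹ (g (a v))) = v := by simp
    simp only [Function.comp, Perm.mul_apply, e] at h1 ⊢
    exact h1.symm

omit [DecidableEq V] in
/-- the shifted weight -/
theorem wt_comp [DecidableEq V] (y : V → ℝ) (a : Perm V) (u : Cfg V Q) :
    wt y (u ∘ ⇑a) = wt (y ∘ ⇑(a⁻¹)) u := by
  unfold wt
  apply Fintype.prod_equiv a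
  intro v
  simp

theorem Ev_rev_mul (w : RG (Perm V)) (φ : Perm V → ℝ) :
    Ev φ (rev w * w) = ∑ g : Perm V, ∑ g' : Perm V, cf w g * cf w g' * φ (g'⁻¹ * g) := by
  unfold Ev
  simp_rw [cf_mul, cf_rev, Finset.sum_mul]
  rw [Finset.sum_comm]
  rw [← Equiv.sum_comp (Equiv.inv (Perm V))]
  simp only [Equiv.inv_apply, inv_inv]
  have h : ∀ g' : Perm V, ∑ h : Perm V, cf w g' * cf w (g' * h) * φ h
      = ∑ g : Perm V, cf w g * cf w g' * φ (g'⁻¹ * g) := by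
    intro g'
    rw [← Equiv.sum_comp (Equiv.mulLeft g'⁻¹)]
    apply Finset.sum_congr rfl
    intro g _
    simp only [Equiv.coe_mulLeft, mul_inv_cancel_left]
    ring
  simp_rw [h]
  rw [Finset.sum_comm]

/-- `XX` as a sum of squares of amplitudes -/
theorem XX_eq_amp (w : RG (Perm V)) (y : V → ℝ) (a : Perm V) :
    XX Q (rev w * w) (y ∘ ⇑(a⁻¹))
      = ∑ c : Cfg V Q, ∑ d : Cfg V Q, wt y c * (amp w (c ∘ ⇑(a⁻¹)) d * amp w (c ∘ ⇑(a⁻¹)) d) := by
  unfold XX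
  rw [Ev_rev_mul]
  simp_rw [← Finset.mul_sum, sum_amp_mul]
  unfold colTr
  simp_rw [Finset.mul_sum]
  have h : ∀ (g g' : Perm V), ∑ c : Cfg V Q, cf w g * cf w g' *
        (if c ∘ ⇑(g'⁻¹ * g) = c then wt (y ∘ ⇑(a⁻¹)) c else 0)
      = ∑ c : Cfg V Q, wt y c * (cf w g * cf w g' *
          (if (c ∘ ⇑(a⁻¹)) ∘ ⇑(g⁻¹) = (c ∘ ⇑(a⁻¹)) ∘ ⇑(g'⁻¹) then 1 else 0)) := by
    intro g g'
    apply Fintype.sum_equiv (preE a)
    intro u
    have e : (preE a u) ∘ ⇑(a⁻¹) = u := by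
      funext v
      show u (a (a⁻¹ v)) = u v
      simp
    rw [e]
    have e2 : wt y (preE a u) = wt (y ∘ ⇑(a⁻¹)) u := wt_comp y a u
    rw [e2]
    have e3 : u ∘ ⇑(g'⁻¹ * g) = u ↔ u ∘ ⇑(g⁻¹) = u ∘ ⇑(g'⁻¹) := by
      have := comp_eq_iff (Q := Q) 1 1 g g' u
      simpa [mul_assoc] using this
    by_cases h3 : u ∘ ⇑(g'⁻¹ * g) = u
    · rw [if_pos h3, if_pos (e3.mp h3)]; ring
    · rw [if_neg h3, if_neg (fun h' => h3 (e3.mpr h'))]; ring
  simp_rw [h]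
  exact (Finset.sum_congr rfl fun x _ => Finset.sum_comm).trans Finset.sum_comm

/-- The Cauchy-Schwarz step. -/
theorem cs_colTr (w : RG (Perm V)) {y : V → ℝ} (hy : ∀ v, 0 ≤ y v) (a b : Perm V) {B : ℝ}
    (hA : XX Q (rev w * w) (y ∘ ⇑(a⁻¹)) ≤ B) (hB : XX Q (rev w * w) (y ∘ ⇑(b⁻¹)) ≤ B) :
    ∑ g : Perm V, ∑ g' : Perm V, cf w g * cf w g' * colTr Q y (b⁻¹ * g'⁻¹ * g * a) ≤ B := by
  have h1 : ∑ g : Perm V, ∑ g' : Perm V, cf w g * cf w g' * colTr Q y (b⁻¹ * g'⁻¹ * g * a)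
      = ∑ c : Cfg V Q, ∑ d : Cfg V Q, wt y c * (amp w (c ∘ ⇑(a⁻¹)) d * amp w (c ∘ ⇑(b⁻¹)) d) := by
    simp_rw [← Finset.mul_sum, sum_amp_mul]
    unfold colTr
    simp_rw [Finset.mul_sum]
    have h : ∀ (g g' : Perm V), ∑ c : Cfg V Q, cf w g * cf w g' *
          (if c ∘ ⇑(b⁻¹ * g'⁻¹ * g * a) = c then wt y c else 0)
        = ∑ c : Cfg V Q, wt y c * (cf w g * cf w g' *
            (if (c ∘ ⇑(a⁻¹)) ∘ ⇑(g⁻¹) = (c ∘ ⇑(b⁻¹)) ∘ ⇑(g'⁻¹) then 1 else 0)) := by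
      intro g g'
      apply Finset.sum_congr rfl
      intro c _
      have e3 := comp_eq_iff a b g g' c
      by_cases h3 : c ∘ ⇑(b⁻¹ * g'⁻¹ * g * a) = c
      · rw [if_pos h3, if_pos (e3.mp h3)]; ring
      · rw [if_neg h3, if_neg (fun h' => h3 (e3.mpr h'))]; ring
    simp_rw [h]
    exact (Finset.sum_congr rfl fun x _ => Finset.sum_comm).trans Finset.sum_comm
  rw [h1]
  have h2 : ∀ c d : Cfg V Q, wt y c * (amp w (c ∘ ⇑(a⁻¹)) d * amp w (c ∘ ⇑(b⁻¹)) d)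
      ≤ (wt y c * (amp w (c ∘ ⇑(a⁻¹)) d * amp w (c ∘ ⇑(a⁻¹)) d)
        + wt y c * (amp w (c ∘ ⇑(b⁻¹)) d * amp w (c ∘ ⇑(b⁻¹)) d)) / 2 := by
    intro c d
    have hw := wt_nonneg hy c
    nlinarith [mul_nonneg hw (sq_nonneg (amp w (c ∘ ⇑(a⁻¹)) d - amp w (c ∘ ⇑(b⁻¹)) d))]
  calc _ ≤ ∑ c : Cfg V Q, ∑ d : Cfg V Q, (wt y c * (amp w (c ∘ ⇑(a⁻¹)) d * amp w (c ∘ ⇑(a⁻¹)) d)
        + wt y c * (amp w (c ∘ ⇑(b⁻¹)) d * amp w (c ∘ ⇑(b⁻¹)) d)) / 2 :=
        Finset.sum_le_sum fun c _ => Finset.sum_le_sum fun d _ => h2 c d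
    _ = (XX Q (rev w * w) (y ∘ ⇑(a⁻¹)) + XX Q (rev w * w) (y ∘ ⇑(b⁻¹))) / 2 := by
        rw [XX_eq_amp, XX_eq_amp]
        simp_rw [← Finset.sum_add_distrib, Finset.sum_div]
    _ ≤ B := by linarith

end cs

section conj

variable {V W : Type*} [Fintype V] [DecidableEq V] [Fintype W] [DecidableEq W] {Q : ℕ}

/-- `colTr` through conjugation -/
theorem colTr_permMap (e : V ≃ W) (z : W → ℝ) (g : Perm V) :
    colTr Q z (permMap e g) = colTr Q (z ∘ ⇑e) g := by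
  unfold colTr
  apply Fintype.sum_equiv (Equiv.arrowCongr e.symm (Equiv.refl (Fin (Q + 1))))
  intro c
  have hc : (Equiv.arrowCongr e.symm (Equiv.refl (Fin (Q + 1)))) c = c ∘ ⇑e := by
    funext v; rfl
  rw [hc]
  have e1 : c ∘ ⇑(permMap e g) = c ↔ (c ∘ ⇑e) ∘ ⇑g = c ∘ ⇑e := by
    constructor
    · intro h
      funext v
      have := congrFun h (e v)
      simpa [permMap_apply] using this
    · intro h
      funext v
      have := congrFun h (e.symm v)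
      simpa [permMap_apply] using this
  have e2 : wt (z ∘ ⇑e) (c ∘ ⇑e) = wt z c := by
    unfold wt
    apply Fintype.prod_equiv e
    intro v
    rfl
  by_cases h : c ∘ ⇑(permMap e g) = c
  · rw [if_pos h, if_pos (e1.mp h), e2]
  · rw [if_neg h, if_neg (fun h' => h (e1.mpr h'))]

theorem sum_comp_equiv (e : V ≃ W) (z : W → ℝ) : ∑ v, (z ∘ ⇑e) v = ∑ v, z v :=
  Fintype.sum_equiv e _ _ fun _ => rfl

end conj

section window

variable {Q : ℕ}

theorem cf_mul_nonneg {G : Type*} [Group G] [Fintype G] [DecidableEq G] {x y : RG G}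
    (hx : ∀ g, 0 ≤ cf x g) (hy : ∀ g, 0 ≤ cf y g) (g : G) : 0 ≤ cf (x * y) g := by
  rw [cf_mul]
  exact Finset.sum_nonneg fun h _ => mul_nonneg (hx h) (hy _)

theorem cf_one_nonneg {G : Type*} [Group G] [DecidableEq G] (g : G) : 0 ≤ cf (1 : RG G) g := by
  rw [cf_one]; split_ifs <;> norm_num

theorem cf_winN_nonneg (j : ℕ) : ∀ (r : ℕ) (g : Perm (Pos (j + r))), 0 ≤ cf (winN j r) g
  | 0, g => cf_one_nonneg g
  | r + 1, g => cf_mul_nonneg (cf_Ten_nonneg (cf_winN_nonneg j r)) cf_GateA_nonneg g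

theorem cf_rev_nonneg {G : Type*} [Group G] [Fintype G] [DecidableEq G] {x : RG G}
    (hx : ∀ g, 0 ≤ cf x g) (g : G) : 0 ≤ cf (rev x) g := by
  rw [cf_rev]; exact hx _

theorem cf_winB_nonneg (j r : ℕ) (g : Perm (Pos (j + r))) : 0 ≤ cf (winB j r) g :=
  cf_mul_nonneg (cf_rev_nonneg (cf_winN_nonneg j r)) (cf_winN_nonneg j r) g

/-- the sum of the gate means -/
theorem sum_gate_mean {V : Type*} [Fintype V] (y : Bool × V → ℝ) :
    ∑ v, (y (false, v) + y (true, v)) / 2 = (∑ x, y x) / 2 := by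
  rw [Fintype.sum_prod_type_right, Finset.sum_div]
  apply Finset.sum_congr rfl
  intro v _
  rw [Fintype.sum_bool]
  ring

/-- The window bound for the law with the top gates outside. -/
theorem XX_winB_le (j r : ℕ) {y : Pos (j + r) → ℝ} (h0 : ∀ v, 0 ≤ y v) (h1 : ∀ v, y v ≤ 1) :
    XX Q (winB j r) y ≤ Real.exp (Q * (3 / 4) ^ r * ∑ v, y v) := by
  induction r with
  | zero =>
    rw [winB_zero]
    have : XX Q (1 : RG (Perm (Pos (j + 0)))) y = colTr Q y 1 := by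
      show Ev (colTr Q y) (1 : RG (Perm (Pos (j + 0)))) = _
      unfold Ev
      simp [cf_one]
    rw [this, colTr_one]
    simp only [pow_zero, mul_one]
    rw [Finset.mul_sum, Real.exp_sum]
    apply Finset.prod_le_prod
    · intro v _
      have := h0 v
      positivity
    · intro v _
      have := Real.add_one_le_exp ((Q : ℝ) * y v)
      linarith
  | succ r ih =>
    rw [winB_succ]
    have hnn : ∀ g, 0 ≤ cf (rev (winN j r) * winN j r) g := cf_winB_nonneg j r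
    refine (XX_dbl_le (winN j r) hnn h0 h1).trans ?_
    set ybar : Pos (j + r) → ℝ := fun v => (y (false, v) + y (true, v)) / 2 with hybar
    have hb0 : ∀ v, 0 ≤ ybar v := fun v => by
      have := h0 (false, v); have := h0 (true, v); simp only [hybar]; linarith
    have hb1 : ∀ v, ybar v ≤ 1 := fun v => by
      have := h1 (false, v); have := h1 (true, v); simp only [hybar]; linarith
    have hb0' : ∀ v, 0 ≤ ybar v / 2 := fun v => by have := hb0 v; linarith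
    have hb1' : ∀ v, ybar v / 2 ≤ 1 := fun v => by have := hb1 v; have := hb0 v; linarith
    have e1 := ih hb0 hb1
    have e2 := ih hb0' hb1'
    have hX0 : 0 ≤ XX Q (rev (winN j r) * winN j r) (fun v => ybar v / 2) :=
      Finset.sum_nonneg fun g _ => mul_nonneg (hnn g) (colTr_nonneg hb0' g)
    have hS : ∑ v, ybar v = (∑ x, y x) / 2 := sum_gate_mean y
    have hS' : ∑ v, ybar v / 2 = (∑ x, y x) / 4 := by
      rw [← Finset.sum_div, hS]; ring
    refine (mul_le_mul e1 e2 hX0 (Real.exp_pos _).le).trans (le_of_eq ?_)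
    rw [← Real.exp_add, hS, hS']
    congr 1
    rw [pow_succ]
    ring

/-- Window bound on the law of `W⁻¹ W'`. -/
theorem XX_mid_le (j r : ℕ) {y : Pos (j + r) → ℝ} (h0 : ∀ v, 0 ≤ y v) (h1 : ∀ v, y v ≤ 1) :
    XX Q (winN j r * rev (winN j r)) y ≤ Real.exp (Q * (3 / 4) ^ r * ∑ v, y v) := by
  unfold XX
  rw [Ev_mid]
  have : (fun g => colTr Q y (permMap (winRev j r).symm g))
      = colTr Q (y ∘ ⇑(winRev j r).symm) := by
    funext g
    exact colTr_permMap (winRev j r).symm y g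
  rw [this]
  have h := XX_winB_le (Q := Q) j r (y := y ∘ ⇑(winRev j r).symm) (fun v => h0 _) (fun v => h1 _)
  rw [sum_comp_equiv] at h
  exact h

/-- **The window bound.** `W, W'` independent with the law of the top `r` out-layers;
`a, b` arbitrary: `E colTr Q y (b⁻¹ W'⁻¹ W a) ≤ exp (Q (3/4)^r Σ y)`. -/
theorem window_bound (j r : ℕ) {y : Pos (j + r) → ℝ} (h0 : ∀ v, 0 ≤ y v) (h1 : ∀ v, y v ≤ 1)
    (a b : Perm (Pos (j + r))) :
    ∑ g : Perm (Pos (j + r)), ∑ g' : Perm (Pos (j + r)), cf (rev (winN j r)) g * cf (rev (winN j r)) g'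
        * colTr Q y (b⁻¹ * g'⁻¹ * g * a) ≤ Real.exp (Q * (3 / 4) ^ r * ∑ v, y v) := by
  apply cs_colTr (rev (winN j r)) h0 a b
  · rw [rev_rev]
    have := XX_mid_le (Q := Q) j r (y := y ∘ ⇑(a⁻¹)) (fun v => h0 _) (fun v => h1 _)
    have e : ∑ v, (y ∘ ⇑(a⁻¹)) v = ∑ v, y v := Fintype.sum_equiv (a⁻¹) _ _ fun _ => rfl
    rwa [e] at this
  · rw [rev_rev]
    have := XX_mid_le (Q := Q) j r (y := y ∘ ⇑(b⁻¹)) (fun v => h0 _) (fun v => h1 _)
    have e : ∑ v, (y ∘ ⇑(b⁻¹)) v = ∑ v, y v := Fintype.sum_equiv (b⁻¹) _ _ fun _ => rfl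
    rwa [e] at this

/-! ### the full tower -/

/-- the coordinate reversal of the full tower -/
noncomputable def nuRev (k : ℕ) : Pos k ≃ Pos k :=
  ((posE k).trans (coordE (revCoord k k le_rfl))).trans (posE k).symm

theorem mapE_nuRev (k : ℕ) : mapE (nuRev k) (nu k) = rev (nu k) := by
  unfold nuRev
  rw [mapE_trans, mapE_trans, mapE_posE_nu, mapE_revCoord_Pj, ← mapE_posE_nu, mapE_rev,
    mapE_symm_self]

theorem cf_nu_nonneg : ∀ (k : ℕ) (g : Perm (Pos k)), 0 ≤ cf (nu k) g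
  | 0, g => cf_one_nonneg g
  | k + 1, g => cf_mul_nonneg (cf_Ten_nonneg (cf_nu_nonneg k)) cf_GateA_nonneg g

/-- the law of `W⁻¹ W'` for the full tower -/
theorem XX_nu_mid (k : ℕ) (y : Pos k → ℝ) :
    XX Q (nu k * rev (nu k)) y = XX Q (bA k) (y ∘ ⇑(nuRev k).symm) := by
  have h : mapE (nuRev k) (nu k * rev (nu k)) = bA k := by
    rw [map_mul, mapE_rev, mapE_nuRev, rev_rev, bA_eq]
  unfold XX
  rw [← h, Ev_mapE]
  apply congrArg (fun ψ => Ev ψ (nu k * rev (nu k)))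
  funext g
  rw [colTr_permMap]
  apply congrArg (fun z => colTr Q z g)
  funext v
  simp

/-- meanP is invariant under relabelling -/
theorem meanP_comp {k : ℕ} (y : Pos k → ℝ) (e : Pos k ≃ Pos k) : meanP (y ∘ ⇑e) = meanP y := by
  unfold meanP
  congr 1
  exact Fintype.sum_equiv e _ _ fun _ => rfl

/-- **The full tower bound.** -/
theorem tower_bound (k : ℕ) {y : Pos k → ℝ} (h0 : ∀ v, 0 ≤ y v) (h1 : ∀ v, y v ≤ 1)
    (a b : Perm (Pos k)) :
    ∑ g : Perm (Pos k), ∑ g' : Perm (Pos k), cf (rev (nu k)) g * cf (rev (nu k)) g'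
        * colTr Q y (b⁻¹ * g'⁻¹ * g * a) ≤ FF Q k (meanP y) := by
  apply cs_colTr (rev (nu k)) h0 a b
  · rw [rev_rev, XX_nu_mid]
    have := XX_bA_le Q k (y := y ∘ ⇑(a⁻¹) ∘ ⇑(nuRev k).symm) (fun v => h0 _) (fun v => h1 _)
    have e : meanP (y ∘ ⇑(a⁻¹) ∘ ⇑(nuRev k).symm) = meanP y := by
      have e1 := meanP_comp y ((nuRev k).symm.trans (a⁻¹))
      exact e1
    rw [e] at this
    exact this
  · rw [rev_rev, XX_nu_mid]
    have := XX_bA_le Q k (y := y ∘ ⇑(b⁻¹) ∘ ⇑(nuRev k).symm) (fun v => h0 _) (fun v => h1 _)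
    have e : meanP (y ∘ ⇑(b⁻¹) ∘ ⇑(nuRev k).symm) = meanP y := by
      have e1 := meanP_comp y ((nuRev k).symm.trans (b⁻¹))
      exact e1
    rw [e] at this
    exact this

end window

end Crest.Agent.Lib.Thorp
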