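import Mathlib
import Crest.Agent.Lib.Thorp.Window
import Crest.Agent.Lib.Thorp.Coins
import Crest.Agent.Lib.Thorp.NNBridge

set_option autoImplicit false

/-!
# Peeling a chain of levels (S0222)

Fix in-coins `i` and a tracked set `S`. For a set of levels `C` with exponents `s` and windows `r`
such that two levels `m' < m` of `C` satisfy `m' + r m ≤ m`:
`E_o ∏_{nodes v at a level m ∈ C} (NodeN v)^(s m) ≤ exp (∑_v (2^(s m) - 1) (3/4)^(r m) |Dbl v|)`.

No decomposition of the coin tree is needed: the weighted law of the out-permutation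
`A f = E_o f(o) δ_{Wp o}` factors as `rev (winN j t) * B`, `B ≥ 0`, when the weight `f` only involves
levels `≤ j + 1`.
-/

namespace Crest.Agent.Lib.Thorp

open MonoidAlgebra Finset Equiv

/-! ### generic facts on the group algebra -/

section alg

variable {G : Type*} [Group G] [Fintype G] [DecidableEq G]

theorem RG_ext_Ev {x y : RG G} (h : ∀ φ : G → ℝ, Ev φ x = Ev φ y) : x = y := by
  classical
  apply RG_ext
  intro g
  have := h (fun u => if u = g then 1 else 0)
  unfold Ev at this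
  simpa using this

theorem Ev_mul2 (φ : G → ℝ) (x y : RG G) :
    Ev φ (x * y) = ∑ g, ∑ g', cf x g * cf y g' * φ (g * g') := by
  unfold Ev
  simp_rw [cf_mul, Finset.sum_mul]
  rw [Finset.sum_comm]
  apply Finset.sum_congr rfl
  intro g _
  apply Fintype.sum_equiv (Equiv.mulLeft g⁻¹)
  intro u
  simp

theorem Ev_const_one_mul (x y : RG G) :
    Ev (fun _ => 1) (x * y) = Ev (fun _ => 1) x * Ev (fun _ => 1) y := by
  rw [Ev_mul2]
  unfold Ev
  simp only [mul_one]
  rw [Finset.sum_mul_sum]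

end alg

section tp

variable {V : Type*} [Fintype V] [DecidableEq V]

/-- two possibly different laws on the two rows -/
noncomputable def TP (a b : RG (Perm V)) : RG (Perm (Bool × V)) :=
  mapDomainRingHom ℝ twoL a * mapDomainRingHom ℝ twoR b

theorem TP_self (a : RG (Perm V)) : TP a a = Ten a := rfl

theorem TP_eq_sum (a b : RG (Perm V)) :
    TP a b = ∑ σ, ∑ τ, (single (two σ τ) (cf a σ * cf b τ) : RG (Perm (Bool × V))) := by
  unfold TP
  rw [map_eq_sum, map_eq_sum, Finset.sum_mul_sum]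
  apply Finset.sum_congr rfl
  intro σ _
  apply Finset.sum_congr rfl
  intro τ _
  rw [single_mul_single, twoL_mul_twoR]

theorem Ev_TP (φ : Perm (Bool × V) → ℝ) (a b : RG (Perm V)) :
    Ev φ (TP a b) = ∑ σ, ∑ τ, cf a σ * cf b τ * φ (two σ τ) := by
  rw [TP_eq_sum, Ev_sum]
  apply Finset.sum_congr rfl
  intro σ _
  rw [Ev_sum]
  apply Finset.sum_congr rfl
  intro τ _
  rw [Ev_single]

/-- the factor `R` on both rows can be pulled out -/
theorem TP_mul_left (R x y : RG (Perm V)) : TP (R * x) (R * y) = Ten R * TP x y := by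
  unfold TP Ten
  rw [map_mul, map_mul]
  calc _ = mapDomainRingHom ℝ twoL R * (mapDomainRingHom ℝ twoL x * mapDomainRingHom ℝ twoR R)
        * mapDomainRingHom ℝ twoR y := by simp only [mul_assoc]
    _ = _ := by
      rw [map_twoL_comm_twoR x R]
      simp only [mul_assoc]

theorem cf_TP_nonneg {a b : RG (Perm V)} (ha : ∀ g, 0 ≤ cf a g) (hb : ∀ g, 0 ≤ cf b g)
    (g : Perm (Bool × V)) : 0 ≤ cf (TP a b) g := by
  rw [TP_eq_sum, cf_sum]
  apply Finset.sum_nonneg
  intro σ _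
  rw [cf_sum]
  apply Finset.sum_nonneg
  intro τ _
  rw [cf_single]
  split_ifs
  · exact mul_nonneg (ha σ) (hb τ)
  · exact le_rfl

theorem Ev_single_mul' {H : Type*} [Group H] [Fintype H] [DecidableEq H]
    (φ : H → ℝ) (g : H) (Y : RG H) :
    Ev φ ((single g 1 : RG H) * Y) = Ev (fun u => φ (g * u)) Y := by
  have h := Ev_single_mul_mul φ g 1 Y
  rw [show (single (1 : H) (1 : ℝ) : RG H) = 1 from rfl, mul_one] at h
  simpa using h

theorem Ev_avgS_mul {Ω : Type*} [Fintype Ω] {H : Type*} [Group H] [Fintype H] [DecidableEq H]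
    (φ : H → ℝ) (F : Ω → H) (Y : RG H) :
    Ev φ (avgS F * Y) = (Fintype.card Ω : ℝ)⁻¹ * ∑ ω, Ev (fun u => φ (F ω * u)) Y := by
  unfold avgS
  rw [smul_mul_assoc, Ev_smul, Finset.sum_mul, Ev_sum]
  simp_rw [Ev_single_mul']

end tp

/-! ### the weighted law of the out-permutation -/

section weighted

/-- the weighted law of the out-permutation -/
noncomputable def AW (k : ℕ) (f : Coin k → ℝ) : RG (Perm (Pos k)) :=
  ((Fintype.card (Coin k) : ℝ))⁻¹ • ∑ o, (single (Wp k o) (f o) : RG (Perm (Pos k)))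

theorem Ev_AW (k : ℕ) (f : Coin k → ℝ) (φ : Perm (Pos k) → ℝ) :
    Ev φ (AW k f) = ((Fintype.card (Coin k) : ℝ))⁻¹ * ∑ o, f o * φ (Wp k o) := by
  unfold AW
  rw [Ev_smul, Ev_sum]
  simp_rw [Ev_single]

theorem cf_AW_nonneg (k : ℕ) {f : Coin k → ℝ} (hf : ∀ o, 0 ≤ f o) (g : Perm (Pos k)) :
    0 ≤ cf (AW k f) g := by
  unfold AW
  rw [cf_smul, cf_sum]
  apply mul_nonneg (by positivity)
  apply Finset.sum_nonneg
  intro o _
  rw [cf_single]
  split_ifs
  · exact hf o
  · exact le_rfl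

/-- sums over the coin tree at level `k+1` -/
theorem sum_coin1 (k : ℕ) (F : Coin (k + 1) → ℝ) :
    ∑ o, F o = ∑ b : Pos k → Bool, ∑ u : Coin k, ∑ l : Coin k, F (b, u, l) := by
  let F' : ((Pos k → Bool) × Coin k × Coin k) → ℝ := F
  show ∑ o : (Pos k → Bool) × Coin k × Coin k, F' o = _
  simp only [Fintype.sum_prod_type]
  rfl

theorem card_Coin_inv (k : ℕ) : ((Fintype.card (Coin (k + 1)) : ℝ))⁻¹
    = ((Fintype.card (Pos k → Bool) : ℝ))⁻¹ * ((Fintype.card (Coin k) : ℝ))⁻¹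
        * ((Fintype.card (Coin k) : ℝ))⁻¹ := by
  rw [card_Coin_succ, Fintype.card_fun, Fintype.card_bool]
  push_cast
  rw [mul_inv, mul_inv, mul_assoc]

/-- the weighted law at the top: a gate layer on a weighted sum of `two σ τ` -/
noncomputable def YW (k : ℕ) (f : Coin k → Coin k → ℝ) : RG (Perm (Bool × Pos k)) :=
  (((Fintype.card (Coin k) : ℝ))⁻¹ * ((Fintype.card (Coin k) : ℝ))⁻¹) •
    ∑ u, ∑ l, (single (two (Wp k u) (Wp k l)) (f u l) : RG (Perm (Bool × Pos k)))

theorem Ev_YW (k : ℕ) (f : Coin k → Coin k → ℝ) (φ : Perm (Bool × Pos k) → ℝ) :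
    Ev φ (YW k f) = (((Fintype.card (Coin k) : ℝ))⁻¹ * ((Fintype.card (Coin k) : ℝ))⁻¹) *
      ∑ u, ∑ l, f u l * φ (two (Wp k u) (Wp k l)) := by
  unfold YW
  rw [Ev_smul, Ev_sum]
  simp_rw [Ev_sum, Ev_single]

theorem cf_YW_nonneg (k : ℕ) {f : Coin k → Coin k → ℝ} (hf : ∀ u l, 0 ≤ f u l)
    (g : Perm (Bool × Pos k)) : 0 ≤ cf (YW k f) g := by
  unfold YW
  rw [cf_smul, cf_sum]
  apply mul_nonneg (by positivity)
  apply Finset.sum_nonneg
  intro u _
  rw [cf_sum]
  apply Finset.sum_nonneg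
  intro l _
  rw [cf_single]
  split_ifs
  · exact hf u l
  · exact le_rfl

/-- top step: if the weight does not depend on the top gate, the gate factors out -/
theorem AW_succ (k : ℕ) (F : Coin (k + 1) → ℝ) (f : Coin k → Coin k → ℝ)
    (hF : ∀ b u l, F (b, u, l) = f u l) :
    (AW (k + 1) F : RG (Perm (Bool × Pos k))) = GateA * YW k f := by
  apply RG_ext_Ev (G := Perm (Bool × Pos k))
  intro φ
  have h1 : Ev φ (AW (k + 1) F : RG (Perm (Bool × Pos k)))
      = ((Fintype.card (Coin (k + 1)) : ℝ))⁻¹ * ∑ o, F o * φ (Wp (k + 1) o) := Ev_AW (k + 1) F φ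
  have h2 : Ev φ ((GateA : RG (Perm (Bool × Pos k))) * YW k f)
      = ((Fintype.card (Pos k → Bool) : ℝ))⁻¹ *
        ∑ b : Pos k → Bool, Ev (fun u => φ (gate b * u)) (YW k f) := Ev_avgS_mul φ gate (YW k f)
  refine h1.trans (Eq.trans ?_ h2.symm)
  rw [sum_coin1 k (fun o => F o * φ (Wp (k + 1) o)), card_Coin_inv]
  simp_rw [Ev_YW]
  have hW : ∀ (b : Pos k → Bool) (u l : Coin k),
      Wp (k + 1) (b, u, l) = gate b * two (Wp k u) (Wp k l) := fun _ _ _ => rfl
  simp only [Finset.mul_sum]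
  apply Finset.sum_congr rfl
  intro b _
  apply Finset.sum_congr rfl
  intro u _
  apply Finset.sum_congr rfl
  intro l _
  have h3 : F (b, u, l) = f u l := hF b u l
  have h4 := hW b u l
  show _ * (F (b, u, l) * φ (Wp (k + 1) (b, u, l))) = _ * (_ * (f u l * φ (gate b * two (Wp k u) (Wp k l))))
  rw [h3, show φ (Wp (k + 1) (b, u, l)) = φ (gate b * two (Wp k u) (Wp k l)) from congrArg φ h4]
  ring

/-- pulling `R` out of the weighted law at the top, when the weight is a product and no node weight -/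
theorem YW_prod (k : ℕ) (fU fL : Coin k → ℝ) :
    YW k (fun u l => fU u * fL l) = TP (AW k fU) (AW k fL) := by
  apply RG_ext_Ev
  intro φ
  rw [Ev_YW, Ev_TP]
  have h1 : ∀ σ, ∑ τ, cf (AW k fU) σ * cf (AW k fL) τ * φ (two σ τ)
      = cf (AW k fU) σ * (((Fintype.card (Coin k) : ℝ))⁻¹ * ∑ l, fL l * φ (two σ (Wp k l))) := by
    intro σ
    rw [← Ev_AW k fL (fun τ => φ (two σ τ))]
    unfold Ev
    rw [Finset.mul_sum]
    apply Finset.sum_congr rfl
    intro τ _
    ring
  simp_rw [h1]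
  have h2 := Ev_AW k fU (fun σ => ((Fintype.card (Coin k) : ℝ))⁻¹ * ∑ l, fL l * φ (two σ (Wp k l)))
  unfold Ev at h2
  rw [h2]
  rw [mul_comm (((Fintype.card (Coin k) : ℝ))⁻¹), mul_assoc]
  congr 1
  rw [Finset.mul_sum]
  apply Finset.sum_congr rfl
  intro u _
  simp only [Finset.mul_sum]
  apply Finset.sum_congr rfl
  intro l _
  ring

end weighted

/-! ### the chain product -/

section peel

variable (C : Finset ℕ) (s : ℕ → ℕ)

/-- the weight at a node of height `k+1` -/
noncomputable def nodeW (k : ℕ) (D : Finset (Pos k)) (su sl : Perm (Pos k)) : ℝ :=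
  if k + 1 ∈ C then ((NodeN (V := Pos k) D su sl : ℕ) : ℝ) ^ (s (k + 1)) else 1

theorem nodeW_nonneg (k : ℕ) (D : Finset (Pos k)) (su sl : Perm (Pos k)) :
    0 ≤ nodeW C s k D su sl := by
  unfold nodeW
  split_ifs
  · positivity
  · exact zero_le_one

/-- the product over the chain -/
noncomputable def Obj (k : ℕ) (S : Finset (Pos k)) (i o : Coin k) : ℝ :=
  ∏ m ∈ C, (NNlev k m S i o) ^ (s m)

theorem Obj_nonneg (k : ℕ) (S : Finset (Pos k)) (i o : Coin k) : 0 ≤ Obj C s k S i o :=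
  Finset.prod_nonneg fun m _ => pow_nonneg (NNlev_pos k m S i o).le _

theorem Obj_succ (k : ℕ) (S : Finset (Pos (k + 1))) (a b : Pos k → Bool) (iu il ou ol : Coin k) :
    Obj C s (k + 1) S (a, iu, il) (b, ou, ol)
      = nodeW C s k (Dbl (V := Pos k) S) (cperm k iu ou) (cperm k il ol)
        * Obj C s k (SU (V := Pos k) S a) iu ou * Obj C s k (SL (V := Pos k) S a) il ol := by
  unfold Obj nodeW
  have hgen : ∀ m, m ≠ k + 1 → NNlev (k + 1) m S (a, iu, il) (b, ou, ol)
      = NNlev k m (SU (V := Pos k) S a) iu ou * NNlev k m (SL (V := Pos k) S a) il ol := by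
    intro m hm
    show (if m = k + 1 then _ else _) = _
    rw [if_neg hm]
  have htop : NNlev (k + 1) (k + 1) S (a, iu, il) (b, ou, ol)
      = (NodeN (V := Pos k) (Dbl (V := Pos k) S) (cperm k iu ou) (cperm k il ol) : ℝ) := by
    show (if k + 1 = k + 1 then _ else _) = _
    rw [if_pos rfl]
  have hU : NNlev k (k + 1) (SU (V := Pos k) S a) iu ou = 1 := NNlev_eq_one_of_lt k _ _ _ _ (by omega)
  have hL : NNlev k (k + 1) (SL (V := Pos k) S a) il ol = 1 := NNlev_eq_one_of_lt k _ _ _ _ (by omega)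
  by_cases hC : k + 1 ∈ C
  · rw [if_pos hC, ← Finset.mul_prod_erase C _ hC, htop, ← Finset.mul_prod_erase C _ hC,
      ← Finset.mul_prod_erase C (fun m => NNlev k m (SL (V := Pos k) S a) il ol ^ s m) hC, hU, hL]
    simp only [one_pow, one_mul, mul_assoc]
    congr 1
    rw [← Finset.prod_mul_distrib]
    apply Finset.prod_congr rfl
    intro m hm
    rw [hgen m (Finset.ne_of_mem_erase hm), mul_pow]
  · rw [if_neg hC, one_mul, ← Finset.prod_mul_distrib]
    apply Finset.prod_congr rfl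
    intro m hm
    rw [hgen m (fun h => hC (h ▸ hm)), mul_pow]

/-- the exponent of the bound -/
noncomputable def BR (b : ℕ → ℝ) (k : ℕ) (S : Finset (Pos k)) (i : Coin k) : ℝ :=
  ∑ m ∈ C, b m * (DblLev k m S i : ℝ)

theorem BR_succ (b : ℕ → ℝ) (k : ℕ) (S : Finset (Pos (k + 1))) (a : Pos k → Bool) (iu il : Coin k) :
    BR C b (k + 1) S (a, iu, il)
      = (if k + 1 ∈ C then b (k + 1) * ((Dbl (V := Pos k) S).card : ℝ) else 0)
        + BR C b k (SU (V := Pos k) S a) iu + BR C b k (SL (V := Pos k) S a) il := by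
  unfold BR
  have hgen : ∀ m, m ≠ k + 1 → DblLev (k + 1) m S (a, iu, il)
      = DblLev k m (SU (V := Pos k) S a) iu + DblLev k m (SL (V := Pos k) S a) il := by
    intro m hm
    show (if m = k + 1 then _ else _) = _
    rw [if_neg hm]
  have htop : DblLev (k + 1) (k + 1) S (a, iu, il) = (Dbl (V := Pos k) S).card := by
    show (if k + 1 = k + 1 then _ else _) = _
    rw [if_pos rfl]
  have hU : DblLev k (k + 1) (SU (V := Pos k) S a) iu = 0 := DblLev_eq_zero_of_lt k _ _ _ (by omega)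
  have hL : DblLev k (k + 1) (SL (V := Pos k) S a) il = 0 := DblLev_eq_zero_of_lt k _ _ _ (by omega)
  by_cases hC : k + 1 ∈ C
  · rw [if_pos hC, ← Finset.add_sum_erase C _ hC, htop, ← Finset.add_sum_erase C _ hC,
      ← Finset.add_sum_erase C (fun m => b m * (DblLev k m (SL (V := Pos k) S a) il : ℝ)) hC, hU, hL]
    simp only [Nat.cast_zero, mul_zero, zero_add, add_assoc]
    congr 1
    rw [← Finset.sum_add_distrib]
    apply Finset.sum_congr rfl
    intro m hm
    rw [hgen m (Finset.ne_of_mem_erase hm)]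
    push_cast
    ring
  · rw [if_neg hC, zero_add, ← Finset.sum_add_distrib]
    apply Finset.sum_congr rfl
    intro m hm
    rw [hgen m (fun h => hC (h ▸ hm))]
    push_cast
    ring

/-- the weighted law of the chain product -/
noncomputable def AO (k : ℕ) (S : Finset (Pos k)) (i : Coin k) : RG (Perm (Pos k)) :=
  AW k (fun o => Obj C s k S i o)

/-- top layer of `AO` -/
theorem AO_succ (k : ℕ) (S : Finset (Pos (k + 1))) (a : Pos k → Bool) (iu il : Coin k) :
    (AO C s (k + 1) S (a, iu, il) : RG (Perm (Bool × Pos k))) = GateA * YW k (fun u l =>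
      nodeW C s k (Dbl (V := Pos k) S) (cperm k iu u) (cperm k il l)
        * Obj C s k (SU (V := Pos k) S a) iu u * Obj C s k (SL (V := Pos k) S a) il l) := by
  apply AW_succ
  intro b u l
  exact Obj_succ C s k S a b iu il u l

theorem rev_winN_succ (j t : ℕ) :
    (rev (winN j (t + 1)) : RG (Perm (Bool × Pos (j + t))))
      = GateA * Ten (rev (winN j t)) := by
  show rev (Ten (winN j t) * GateA) = _
  rw [rev_mul, rev_GateA, rev_Ten]

/-- factorisation of the weighted law -/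
theorem AO_factor (j : ℕ) : ∀ (t : ℕ) (S : Finset (Pos (j + t))) (i : Coin (j + t)),
    (∀ m ∈ C, j + 2 ≤ m → j + t < m) →
    ∃ B : RG (Perm (Pos (j + t))), (∀ g, 0 ≤ cf B g) ∧ AO C s (j + t) S i = rev (winN j t) * B
  | 0, S, i, _ => by
    refine ⟨AO C s (j + 0) S i, cf_AW_nonneg _ (fun o => Obj_nonneg C s _ S i o), ?_⟩
    have : (rev (winN j 0) : RG (Perm (Pos (j + 0)))) = 1 := rev_one
    rw [this, one_mul]
  | 1, S, i, _ => by
    obtain ⟨a, iu, il⟩ := i
    refine ⟨YW (j + 0) _, cf_YW_nonneg _ ?_ (f := fun u l =>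
      nodeW C s (j + 0) (Dbl (V := Pos (j + 0)) S) (cperm (j + 0) iu u) (cperm (j + 0) il l)
        * Obj C s (j + 0) (SU (V := Pos (j + 0)) S a) iu u
        * Obj C s (j + 0) (SL (V := Pos (j + 0)) S a) il l), ?_⟩
    · intro u l
      exact mul_nonneg (mul_nonneg (nodeW_nonneg _ _ _ _ _ _) (Obj_nonneg _ _ _ _ _ _))
        (Obj_nonneg _ _ _ _ _ _)
    · have e1 := AO_succ C s (j + 0) S a iu il
      have e2 := rev_winN_succ j 0
      have e3 : (rev (winN j 0) : RG (Perm (Pos (j + 0)))) = 1 := rev_one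
      rw [e3, Ten_one, mul_one] at e2
      refine e1.trans ?_
      show (GateA * _ : RG (Perm (Bool × Pos (j + 0))))
        = (rev (winN j (0 + 1)) : RG (Perm (Bool × Pos (j + 0)))) * _
      rw [e2]
  | t + 2, S, i, hC => by
    obtain ⟨a, iu, il⟩ := i
    have hnot : j + (t + 1) + 1 ∉ C := by
      intro h
      have := hC _ h (by omega)
      omega
    have hC' : ∀ m ∈ C, j + 2 ≤ m → j + (t + 1) < m := by
      intro m hm h2
      have := hC m hm h2
      omega
    obtain ⟨BU, hBU, eU⟩ := AO_factor j (t + 1) (SU (V := Pos (j + (t + 1))) S a) iu hC'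
    obtain ⟨BL, hBL, eL⟩ := AO_factor j (t + 1) (SL (V := Pos (j + (t + 1))) S a) il hC'
    refine ⟨TP BU BL, cf_TP_nonneg hBU hBL, ?_⟩
    have e1 := AO_succ C s (j + (t + 1)) S a iu il
    have hf : (fun u l => nodeW C s (j + (t + 1)) (Dbl (V := Pos (j + (t + 1))) S)
          (cperm (j + (t + 1)) iu u) (cperm (j + (t + 1)) il l)
        * Obj C s (j + (t + 1)) (SU (V := Pos (j + (t + 1))) S a) iu u
        * Obj C s (j + (t + 1)) (SL (V := Pos (j + (t + 1))) S a) il l)
        = fun u l => Obj C s (j + (t + 1)) (SU (V := Pos (j + (t + 1))) S a) iu u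
        * Obj C s (j + (t + 1)) (SL (V := Pos (j + (t + 1))) S a) il l := by
      funext u l
      unfold nodeW
      rw [if_neg hnot, one_mul]
    rw [hf, YW_prod] at e1
    refine e1.trans ?_
    have e2 := rev_winN_succ j (t + 1)
    have e3 : TP (AW (j + (t + 1)) fun o => Obj C s (j + (t + 1)) (SU (V := Pos (j + (t + 1))) S a) iu o)
        (AW (j + (t + 1)) fun o => Obj C s (j + (t + 1)) (SL (V := Pos (j + (t + 1))) S a) il o)
        = Ten (rev (winN j (t + 1))) * TP BU BL := by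
      rw [← TP_mul_left, ← eU, ← eL]
      rfl
    show (GateA * _ : RG (Perm (Bool × Pos (j + (t + 1)))))
      = (rev (winN j (t + 1 + 1)) : RG (Perm (Bool × Pos (j + (t + 1))))) * TP BU BL
    rw [e3, e2, mul_assoc]

/-- the total mass of a factorisation -/
theorem mass_factor {H : Type*} [Group H] [Fintype H] [DecidableEq H] {R B : RG H}
    (hR : Ev (fun _ => 1) R = 1) : Ev (fun _ => 1) (R * B) = Ev (fun _ => 1) B := by
  rw [Ev_const_one_mul, hR, one_mul]

theorem mass_rev_winN (j t : ℕ) : Ev (fun _ => (1 : ℝ)) (rev (winN j t)) = 1 := by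
  induction t with
  | zero =>
    show Ev (fun _ => (1 : ℝ)) (rev (1 : RG (Perm (Pos (j + 0))))) = 1
    rw [rev_one]
    unfold Ev
    simp [cf_one]
  | succ t ih =>
    have e := rev_winN_succ j t
    have h1 : Ev (fun _ => (1 : ℝ)) ((GateA : RG (Perm (Bool × Pos (j + t)))) * Ten (rev (winN j t))) = 1 := by
      rw [Ev_const_one_mul]
      have h2 : Ev (fun _ => (1 : ℝ)) (GateA : RG (Perm (Bool × Pos (j + t)))) = 1 := by
        unfold GateA
        rw [Ev_avgS]
        simp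
      have h3 : Ev (fun _ => (1 : ℝ)) (Ten (rev (winN j t))) = 1 := by
        rw [Ev_Ten]
        have : Ev (fun _ => (1 : ℝ)) (rev (winN j t)) = ∑ σ, cf (rev (winN j t)) σ := by
          unfold Ev; simp
        rw [this] at ih
        simp only [mul_one]
        simp_rw [← Finset.mul_sum, ih, mul_one]
        exact ih
      rw [h2, h3, one_mul]
    show Ev (fun _ => (1 : ℝ)) (rev (winN j (t + 1)) : RG (Perm (Bool × Pos (j + t)))) = 1
    rw [e]
    exact h1

theorem Ev_AO_one (k : ℕ) (S : Finset (Pos k)) (i : Coin k) :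
    Ev (fun _ => 1) (AO C s k S i) = ((Fintype.card (Coin k) : ℝ))⁻¹ * ∑ o, Obj C s k S i o := by
  unfold AO
  rw [Ev_AW]
  simp

/-- the step at a chain level -/
theorem top_step (j r : ℕ) (D : Finset (Pos (j + r))) (VU VL : Perm (Pos (j + r))) (sm : ℕ)
    (fU fL : Coin (j + r) → ℝ) (BU BL : RG (Perm (Pos (j + r))))
    (hBU : ∀ g, 0 ≤ cf BU g) (hBL : ∀ g, 0 ≤ cf BL g)
    (eU : AW (j + r) fU = rev (winN j r) * BU) (eL : AW (j + r) fL = rev (winN j r) * BL) :
    ((Fintype.card (Coin (j + r)) : ℝ))⁻¹ * ((Fintype.card (Coin (j + r)) : ℝ))⁻¹ *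
        ∑ u, ∑ l, ((NodeN (V := Pos (j + r)) D (Wp _ u * VU) (Wp _ l * VL) : ℕ) : ℝ) ^ sm * fU u * fL l
      ≤ Real.exp (((2 ^ sm - 1 : ℕ) : ℝ) * (3 / 4) ^ r * (D.card : ℝ))
        * (((Fintype.card (Coin (j + r)) : ℝ))⁻¹ * ∑ o, fU o)
        * (((Fintype.card (Coin (j + r)) : ℝ))⁻¹ * ∑ o, fL o) := by
  set R : RG (Perm (Pos (j + r))) := rev (winN j r) with hR
  set cc : ℝ := ((Fintype.card (Coin (j + r)) : ℝ))⁻¹ with hcc
  set Ψ : Perm (Pos (j + r)) → Perm (Pos (j + r)) → ℝ := fun σ τ =>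
    ((NodeN (V := Pos (j + r)) D (σ * VU) (τ * VL) : ℕ) : ℝ) ^ sm with hΨ
  set E : ℝ := Real.exp (((2 ^ sm - 1 : ℕ) : ℝ) * (3 / 4) ^ r * (D.card : ℝ)) with hE
  have hRnn : ∀ g, 0 ≤ cf R g := cf_rev_nonneg (cf_winN_nonneg j r)
  -- step 1
  have h1 : cc * cc * ∑ u, ∑ l, ((NodeN (V := Pos (j + r)) D (Wp _ u * VU) (Wp _ l * VL) : ℕ) : ℝ) ^ sm * fU u * fL l
      = Ev (fun σ => Ev (fun τ => Ψ σ τ) (AW (j + r) fL)) (AW (j + r) fU) := by
    rw [Ev_AW]
    simp_rw [Ev_AW]
    simp only [Finset.mul_sum]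
    apply Finset.sum_congr rfl
    intro u _
    apply Finset.sum_congr rfl
    intro l _
    simp only [hΨ]
    ring
  rw [h1, eU, eL]
  simp_rw [Ev_mul2]
  -- window bound for fixed lower parts
  have hW : ∀ ρ ρ' : Perm (Pos (j + r)),
      ∑ g, ∑ g', cf R g * cf R g' * Ψ (g * ρ) (g' * ρ') ≤ E := by
    intro ρ ρ'
    have := window_bound (Q := 2 ^ sm - 1) j r (y := indF D)
      (fun v => by unfold indF; split_ifs <;> norm_num)
      (fun v => by unfold indF; split_ifs <;> norm_num) (ρ * VU) (ρ' * VL)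
    have hsum : ∑ v, indF D v = (D.card : ℝ) := by
      unfold indF
      simp
    rw [hsum] at this
    refine le_trans (le_of_eq ?_) this
    apply Finset.sum_congr rfl
    intro g _
    apply Finset.sum_congr rfl
    intro g' _
    simp only [hΨ]
    rw [NodeN_pow]
    have e5 : (g' * ρ' * VL)⁻¹ * (g * ρ * VU) = (ρ' * VL)⁻¹ * g'⁻¹ * g * (ρ * VU) := by
      simp only [mul_inv_rev, mul_assoc]
    rw [e5]
  -- rearrange
  have h2 : ∑ g, ∑ ρ, cf R g * cf BU ρ * ∑ g', ∑ ρ', cf R g' * cf BL ρ' * Ψ (g * ρ) (g' * ρ')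
      = ∑ ρ, ∑ ρ', cf BU ρ * cf BL ρ' * ∑ g, ∑ g', cf R g * cf R g' * Ψ (g * ρ) (g' * ρ') := by
    rw [Finset.sum_comm]
    apply Finset.sum_congr rfl
    intro ρ _
    simp only [Finset.mul_sum]
    calc ∑ g, ∑ g', ∑ ρ', cf R g * cf BU ρ * (cf R g' * cf BL ρ' * Ψ (g * ρ) (g' * ρ'))
        = ∑ g, ∑ ρ', ∑ g', cf R g * cf BU ρ * (cf R g' * cf BL ρ' * Ψ (g * ρ) (g' * ρ')) :=
          Finset.sum_congr rfl fun g _ => Finset.sum_comm
      _ = ∑ ρ', ∑ g, ∑ g', cf R g * cf BU ρ * (cf R g' * cf BL ρ' * Ψ (g * ρ) (g' * ρ')) :=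
          Finset.sum_comm
      _ = _ := by
          apply Finset.sum_congr rfl
          intro ρ' _
          apply Finset.sum_congr rfl
          intro g _
          apply Finset.sum_congr rfl
          intro g' _
          ring
  rw [h2]
  have h3 : ∑ ρ, ∑ ρ', cf BU ρ * cf BL ρ' * ∑ g, ∑ g', cf R g * cf R g' * Ψ (g * ρ) (g' * ρ')
      ≤ ∑ ρ, ∑ ρ', cf BU ρ * cf BL ρ' * E := by
    apply Finset.sum_le_sum
    intro ρ _
    apply Finset.sum_le_sum
    intro ρ' _
    exact mul_le_mul_of_nonneg_left (hW ρ ρ') (mul_nonneg (hBU ρ) (hBL ρ'))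
  refine h3.trans (le_of_eq ?_)
  have hm : ∀ (B : RG (Perm (Pos (j + r)))) (f : Coin (j + r) → ℝ),
      AW (j + r) f = R * B → ∑ ρ, cf B ρ = cc * ∑ o, f o := by
    intro B f he
    have e1 : Ev (fun _ => (1 : ℝ)) (R * B) = Ev (fun _ => (1 : ℝ)) B :=
      mass_factor (mass_rev_winN j r)
    rw [← he, Ev_AW] at e1
    simp only [mul_one] at e1
    rw [e1]
    unfold Ev
    simp
  have hU := hm BU fU eU
  have hL := hm BL fL eL
  rw [← hU, ← hL]
  simp_rw [← Finset.sum_mul, ← Finset.mul_sum]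
  rw [← Finset.sum_mul]
  ring

theorem avg_coin_succ (k : ℕ) (F : Coin (k + 1) → ℝ) (G : Coin k → Coin k → ℝ)
    (hF : ∀ b u l, F (b, u, l) = G u l) :
    ((Fintype.card (Coin (k + 1)) : ℝ))⁻¹ * ∑ o, F o
      = ((Fintype.card (Coin k) : ℝ))⁻¹ * ((Fintype.card (Coin k) : ℝ))⁻¹ * ∑ u, ∑ l, G u l := by
  rw [sum_coin1, card_Coin_inv]
  have h1 : ∀ b : Pos k → Bool, ∑ u, ∑ l, F (b, u, l) = ∑ u, ∑ l, G u l := by
    intro b
    apply Finset.sum_congr rfl
    intro u _
    apply Finset.sum_congr rfl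
    intro l _
    exact hF b u l
  simp_rw [h1]
  rw [Finset.sum_const, nsmul_eq_mul, Finset.card_univ]
  have hc : (Fintype.card (Pos k → Bool) : ℝ) ≠ 0 := by
    exact_mod_cast Fintype.card_ne_zero
  field_simp

theorem sum_two_mul {α β : Type*} [Fintype α] [Fintype β] (c : ℝ) (f : α → ℝ) (g : β → ℝ) :
    c * c * ∑ u, ∑ l, f u * g l = (c * ∑ u, f u) * (c * ∑ l, g l) := by
  have : (c * ∑ u, f u) * (c * ∑ l, g l) = c * c * ((∑ u, f u) * ∑ l, g l) := by ring
  rw [this, Finset.sum_mul_sum]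

/-- **The peeling bound.** -/
theorem peel_main (r : ℕ → ℕ) (hr : ∀ m ∈ C, r m + 1 ≤ m)
    (hgap : ∀ m ∈ C, ∀ m' ∈ C, m' < m → m' + r m ≤ m) :
    ∀ (k : ℕ) (S : Finset (Pos k)) (i : Coin k),
    ((Fintype.card (Coin k) : ℝ))⁻¹ * ∑ o, Obj C s k S i o
      ≤ Real.exp (BR C (fun m => ((2 ^ s m - 1 : ℕ) : ℝ) * (3 / 4) ^ r m) k S i) := by
  intro k
  induction k with
  | zero =>
    intro S i
    have hc : Fintype.card (Coin 0) = 1 := rfl
    have hO : ∀ o, Obj C s 0 S i o = 1 := by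
      intro o
      unfold Obj
      apply Finset.prod_eq_one
      intro m _
      show (1 : ℝ) ^ s m = 1
      rw [one_pow]
    have hB : BR C (fun m => ((2 ^ s m - 1 : ℕ) : ℝ) * (3 / 4) ^ r m) 0 S i = 0 := by
      unfold BR
      apply Finset.sum_eq_zero
      intro m _
      show _ * ((0 : ℕ) : ℝ) = 0
      simp
    rw [hB, Real.exp_zero, hc]
    simp only [hO]
    simp [hc]
  | succ k ih =>
    intro S i
    obtain ⟨a, iu, il⟩ := i
    set b : ℕ → ℝ := fun m => ((2 ^ s m - 1 : ℕ) : ℝ) * (3 / 4) ^ r m with hb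
    rw [BR_succ C b k S a iu il]
    set OU : Coin k → ℝ := fun u => Obj C s k (SU (V := Pos k) S a) iu u with hOU
    set OL : Coin k → ℝ := fun l => Obj C s k (SL (V := Pos k) S a) il l with hOL
    have hIU := ih (SU (V := Pos k) S a) iu
    have hIL := ih (SL (V := Pos k) S a) il
    have hav := avg_coin_succ k (fun o => Obj C s (k + 1) S (a, iu, il) o)
      (fun u l => nodeW C s k (Dbl (V := Pos k) S) (cperm k iu u) (cperm k il l) * OU u * OL l)
      (fun b' u l => Obj_succ C s k S a b' iu il u l)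
    rw [hav]
    have hU0 : 0 ≤ ((Fintype.card (Coin k) : ℝ))⁻¹ * ∑ o, OU o :=
      mul_nonneg (by positivity) (Finset.sum_nonneg fun o _ => Obj_nonneg _ _ _ _ _ _)
    have hL0 : 0 ≤ ((Fintype.card (Coin k) : ℝ))⁻¹ * ∑ o, OL o :=
      mul_nonneg (by positivity) (Finset.sum_nonneg fun o _ => Obj_nonneg _ _ _ _ _ _)
    by_cases hC : k + 1 ∈ C
    · rw [if_pos hC]
      obtain ⟨t, ht⟩ : ∃ t, t = r (k + 1) := ⟨_, rfl⟩
      have hrk : t ≤ k := by
        have := hr _ hC
        omega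
      obtain ⟨j, hj⟩ : ∃ j, k = j + t := ⟨k - t, by omega⟩
      have hlow : ∀ m ∈ C, j + 2 ≤ m → j + t < m := by
        intro m hm hm2
        by_contra hcon
        have h1 : m < k + 1 := by omega
        have := hgap _ hC m hm h1
        omega
      subst hj
      obtain ⟨BU, hBU, eU⟩ := AO_factor C s j t (SU (V := Pos (j + t)) S a) iu hlow
      obtain ⟨BL, hBL, eL⟩ := AO_factor C s j t (SL (V := Pos (j + t)) S a) il hlow
      have hstep := top_step j t (Dbl (V := Pos (j + t)) S) (Vp _ iu) (Vp _ il) (s (j + t + 1))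
        OU OL BU BL hBU hBL eU eL
      have e1 : ∑ u, ∑ l, nodeW C s (j + t) (Dbl (V := Pos (j + t)) S) (cperm (j + t) iu u)
            (cperm (j + t) il l) * OU u * OL l
          = ∑ u, ∑ l, ((NodeN (V := Pos (j + t)) (Dbl (V := Pos (j + t)) S)
            (Wp _ u * Vp _ iu) (Wp _ l * Vp _ il) : ℕ) : ℝ) ^ (s (j + t + 1)) * OU u * OL l := by
        apply Finset.sum_congr rfl
        intro u _
        apply Finset.sum_congr rfl
        intro l _
        unfold nodeW
        rw [if_pos hC]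
        rfl
      rw [e1]
      refine hstep.trans ?_
      rw [Real.exp_add, Real.exp_add]
      have e2 : b (j + t + 1) = ((2 ^ s (j + t + 1) - 1 : ℕ) : ℝ) * (3 / 4) ^ t := by
        show ((2 ^ s (j + t + 1) - 1 : ℕ) : ℝ) * (3 / 4) ^ r (j + t + 1) = _
        rw [← ht]
      rw [e2, mul_assoc (Real.exp _) _ (Real.exp _), mul_assoc (Real.exp _) _ _]
      apply mul_le_mul_of_nonneg_left _ (Real.exp_pos _).le
      exact mul_le_mul hIU hIL hL0 (Real.exp_pos _).le
    · rw [if_neg hC, zero_add, Real.exp_add]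
      have e1 : ∑ u, ∑ l, nodeW C s k (Dbl (V := Pos k) S) (cperm k iu u) (cperm k il l) * OU u * OL l
          = ∑ u, ∑ l, OU u * OL l := by
        apply Finset.sum_congr rfl
        intro u _
        apply Finset.sum_congr rfl
        intro l _
        unfold nodeW
        rw [if_neg hC, one_mul]
      rw [e1, sum_two_mul]
      exact mul_le_mul hIU hIL hL0 (Real.exp_pos _).le

/-- **The peeling bound** in the language of `NNlev`, `DblLev`. -/
theorem peel (C : Finset ℕ) (s r : ℕ → ℕ) (hr : ∀ m ∈ C, r m + 1 ≤ m)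
    (hgap : ∀ m ∈ C, ∀ m' ∈ C, m' < m → m' + r m ≤ m)
    (k : ℕ) (S : Finset (Pos k)) (i : Coin k) :
    ∑ o : Coin k, ((Fintype.card (Coin k) : ℝ))⁻¹ * ∏ m ∈ C, (NNlev k m S i o) ^ (s m)
      ≤ Real.exp (∑ m ∈ C, ((2 ^ s m - 1 : ℕ) : ℝ) * (3 / 4) ^ r m * (DblLev k m S i : ℝ)) := by
  have := peel_main C s r hr hgap k S i
  rw [Finset.mul_sum] at this
  exact this

end peel

end Crest.Agent.Lib.Thorp
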