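import Mathlib
import Crest.Agent.Lib.Thorp.Levels
import Crest.Agent.Lib.Thorp.InCoins
import Crest.Agent.Lib.Thorp.Peel

set_option autoImplicit false

/-!
# The (B) core (S0222): `E_{g ∼ bA} E_{i,o} NN(g S)^δ`

Assembles: `peel` (chains), the head bound (hypothesis `hhead`, helper15's `head_bound`),
`out_bound`, `in_bound` (`Levels`), `moment_le` (`InCoins`).
-/

namespace Crest.Agent.Lib.Thorp

open Finset Equiv

/-- `g(h) = 2^⌈log₂ h⌉` -/
def gOf (h : ℕ) : ℕ := 2 ^ Nat.clog 2 h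

theorem gOf_pos (h : ℕ) : 0 < gOf h := by unfold gOf; positivity

theorem le_gOf (h : ℕ) : h ≤ gOf h := Nat.le_pow_clog (by norm_num) h

theorem gOf_lt (h : ℕ) (hh : 2 ≤ h) : gOf h < 2 * h := by
  unfold gOf
  have h1 : 0 < Nat.clog 2 h := Nat.clog_pos (by norm_num) hh
  have h2 := Nat.pow_pred_clog_lt_self (b := 2) (by norm_num) (x := h) (by omega)
  obtain ⟨c, hc⟩ : ∃ c, Nat.clog 2 h = c + 1 := ⟨Nat.clog 2 h - 1, by omega⟩
  rw [hc] at h2 ⊢
  have h3 : 2 ^ c < h := h2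
  rw [pow_succ]
  omega

theorem gOf_dvd_of_le {h k : ℕ} (hk : h ≤ k) : gOf h ∣ 2 ^ Nat.clog 2 k :=
  pow_dvd_pow 2 (Nat.clog_mono_right 2 hk)

/-- the residue chain -/
def chainA (M k a : ℕ) : Finset ℕ := (Ioc M k).filter fun h => h % gOf h = a % gOf h

theorem count_mod (g L r : ℕ) (hg : 0 < g) (hr : r < g) :
    ((range (g * L)).filter fun a => a % g = r).card = L := by
  have : (range (g * L)).filter (fun a => a % g = r) = (range L).image (fun q => g * q + r) := by
    ext a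
    simp only [Finset.mem_filter, Finset.mem_range, Finset.mem_image]
    constructor
    · rintro ⟨h1, h2⟩
      refine ⟨a / g, ?_, ?_⟩
      · exact Nat.div_lt_of_lt_mul h1
      · rw [← h2]; exact Nat.div_add_mod a g
    · rintro ⟨q, hq, rfl⟩
      constructor
      · have : q + 1 ≤ L := hq
        calc g * q + r < g * q + g := by omega
          _ = g * (q + 1) := by ring
          _ ≤ g * L := Nat.mul_le_mul_left g this
      · rw [Nat.mul_add_mod, Nat.mod_eq_of_lt hr]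
  rw [this, Finset.card_image_of_injective, Finset.card_range]
  intro q q' h
  simp only at h
  have : g * q = g * q' := by omega
  exact Nat.eq_of_mul_eq_mul_left hg this

theorem count_chain (M k h : ℕ) (hh : h ∈ Ioc M k) :
    ((((range (2 ^ Nat.clog 2 k)).filter fun a => h ∈ chainA M k a).card : ℕ) : ℝ) * (gOf h : ℝ)
      = ((range (2 ^ Nat.clog 2 k)).card : ℝ) := by
  have hhk := (Finset.mem_Ioc.mp hh).2
  obtain ⟨L, hL⟩ := gOf_dvd_of_le hhk
  have hf : (range (2 ^ Nat.clog 2 k)).filter (fun a => h ∈ chainA M k a)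
      = (range (gOf h * L)).filter (fun a => a % gOf h = h % gOf h) := by
    rw [← hL]
    apply Finset.filter_congr
    intro a _
    unfold chainA
    rw [Finset.mem_filter]
    exact ⟨fun h' => h'.2.symm, fun h' => ⟨hh, h'.symm⟩⟩
  rw [hf, count_mod _ _ _ (gOf_pos h) (Nat.mod_lt _ (gOf_pos h)), Finset.card_range, hL]
  push_cast
  ring

/-- The window sizes of the chains. -/
def rOf (h : ℕ) : ℕ := gOf h / 2

theorem rOf_succ_le (h : ℕ) (hh : 2 ≤ h) : rOf h + 1 ≤ h := by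
  have := gOf_lt h hh
  unfold rOf
  omega

/-- **Gaps in the residue chains.** -/
theorem chain_gap (M k a m m' : ℕ) (hM : 2 ≤ M) (hm : m ∈ chainA M k a) (hm' : m' ∈ chainA M k a)
    (hlt : m' < m) : m' + rOf m ≤ m := by
  unfold chainA at hm hm'
  rw [Finset.mem_filter, Finset.mem_Ioc] at hm hm'
  obtain ⟨⟨hm1, hm2⟩, hm3⟩ := hm
  obtain ⟨⟨hm1', hm2'⟩, hm3'⟩ := hm'
  have hle : Nat.clog 2 m' ≤ Nat.clog 2 m := Nat.clog_mono_right 2 hlt.le
  have hdvd : gOf m' ∣ gOf m := pow_dvd_pow 2 hle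
  have hgm' : m' ≤ gOf m' := le_gOf m'
  have hgm : m ≤ gOf m := le_gOf m
  have hglt : gOf m < 2 * m := gOf_lt m (by omega)
  have hpos' : 0 < gOf m' := gOf_pos m'
  -- congruence modulo the smaller modulus
  have hcong : m % gOf m' = m' % gOf m' := by
    rw [← Nat.mod_mod_of_dvd m hdvd, hm3, Nat.mod_mod_of_dvd a hdvd, hm3']
  -- the exponents differ
  have hne : Nat.clog 2 m' ≠ Nat.clog 2 m := by
    intro he
    have hgeq : gOf m' = gOf m := by unfold gOf; rw [he]
    rw [hgeq] at hcong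
    have h1 : gOf m ∣ m - m' := (Nat.modEq_iff_dvd' hlt.le).mp hcong.symm
    have h2 : m - m' < gOf m := by omega
    have h3 : 0 < m - m' := by omega
    exact absurd (Nat.le_of_dvd h3 h1) (by omega)
  have hlt' : Nat.clog 2 m' < Nat.clog 2 m := lt_of_le_of_ne hle hne
  obtain ⟨c, hc⟩ : ∃ c, Nat.clog 2 m = c + 1 := ⟨Nat.clog 2 m - 1, by omega⟩
  have hg2 : gOf m = 2 * 2 ^ c := by unfold gOf; rw [hc, pow_succ]; ring
  have hr : rOf m = 2 ^ c := by unfold rOf; rw [hg2]; omega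
  have hdvd2 : gOf m' ∣ 2 ^ c := pow_dvd_pow 2 (by omega)
  obtain ⟨e, he⟩ := hdvd2
  rw [hr]
  set m'' := m - 2 ^ c with hm''
  have hm''pos : 0 < m'' := by omega
  have hmeq : m = m'' + gOf m' * e := by rw [← he]; omega
  have hc2 : m'' % gOf m' = m' % gOf m' := by
    rw [← hcong, hmeq, Nat.add_mul_mod_self_left]
  by_contra hcon
  have hlt2 : m'' < m' := by omega
  have hlt3 : m'' < gOf m' := by omega
  rw [Nat.mod_eq_of_lt hlt3] at hc2
  rcases Nat.lt_or_eq_of_le hgm' with h | h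
  · rw [Nat.mod_eq_of_lt h] at hc2
    omega
  · have h0 : m' % gOf m' = 0 := by
      rw [← h]
      exact Nat.mod_self m'
    omega

/-- `NN` as the product over the head and the tail levels -/
theorem NN_split (M k : ℕ) (S : Finset (Pos k)) (i o : Coin k) :
    NN k S i o = (∏ h ∈ Ioc 0 M, NNlev k h S i o) * ∏ h ∈ Ioc M k, NNlev k h S i o := by
  rw [NN_eq_prod]
  rcases le_total M k with hMk | hkM
  · have h1 : Icc 1 k = Ioc 0 M ∪ Ioc M k := by
      ext h
      simp only [Finset.mem_Icc, Finset.mem_union, Finset.mem_Ioc]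
      omega
    have h2 : Disjoint (Ioc 0 M) (Ioc M k) := by
      rw [Finset.disjoint_left]
      intro h h1 h2
      simp only [Finset.mem_Ioc] at h1 h2
      omega
    rw [h1, Finset.prod_union h2]
  · have h1 : Ioc M k = ∅ := by
      rw [Finset.Ioc_eq_empty_iff]
      omega
    rw [h1, Finset.prod_empty, mul_one]
    have h2 : Icc 1 k ⊆ Ioc 0 M := by
      intro h hh
      simp only [Finset.mem_Icc, Finset.mem_Ioc] at hh ⊢
      omega
    rw [← Finset.prod_subset h2]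
    intro h hh hh'
    apply NNlev_eq_one_of_lt
    simp only [Finset.mem_Icc, Finset.mem_Ioc] at hh hh'
    omega

section core

/-- parameters of the Hoelder scheme -/
structure BPar where
  /-- number of head levels -/
  M : ℕ
  /-- the Hoelder exponent of the head -/
  δ : ℝ
  /-- the Hoelder weight of the tail -/
  W : ℝ
  /-- head exponents -/
  η : ℕ → ℝ
  /-- colours in the tail -/
  s : ℕ → ℕ
  /-- a bound for the tail exponents -/
  β : ℝ
  hM : 2 ≤ M
  hδ : 0 < δ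
  hW : 0 < W
  hsum : (M : ℝ) * δ + W = 1
  hη : ∀ h, 0 ≤ η h
  hs : ∀ h, h ∈ Ioc M (h + 1) → δ / W * gOf h ≤ s h
  hβ : 0 < β

/-- the tail coefficient -/
noncomputable def tailC (P : BPar) (h : ℕ) : ℝ :=
  (((2 ^ P.s h - 1 : ℕ) : ℝ) * (3 / 4) ^ rOf h) / (gOf h : ℝ)

theorem tailC_nonneg (P : BPar) (h : ℕ) : 0 ≤ tailC P h := by
  unfold tailC; positivity

/-- **Out coins, fixed in coins.** -/
theorem EO_NN_le (P : BPar) (k : ℕ) (S : Finset (Pos k)) (i : Coin k)
    (hhead : ∀ h ∈ Ioc 0 P.M, ((Fintype.card (Coin k) : ℝ))⁻¹ * ∑ o, NNlev k h S i o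
        ≤ Real.exp (P.η h * (DblLev k h S i : ℝ))) :
    ((Fintype.card (Coin k) : ℝ))⁻¹ * ∑ o, NN k S i o ^ P.δ
      ≤ Real.exp (P.δ * ∑ h ∈ Ioc 0 P.M, P.η h * (DblLev k h S i : ℝ)
          + P.W * ∑ h ∈ Ioc P.M k, tailC P h * (DblLev k h S i : ℝ)) := by
  have hcard : (0 : ℝ) < (Fintype.card (Coin k) : ℝ) := by exact_mod_cast Fintype.card_pos
  set p : Coin k → ℝ := fun _ => ((Fintype.card (Coin k) : ℝ))⁻¹ with hp
  have hp0 : ∀ o, 0 ≤ p o := fun _ => (inv_pos.mpr hcard).le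
  have hp1 : ∑ o, p o = 1 := by
    rw [hp, Finset.sum_const, Finset.card_univ, nsmul_eq_mul]
    field_simp
  have hT : (range (2 ^ Nat.clog 2 k)).Nonempty := by
    simp
  have hθ : 0 ≤ P.δ / P.W := div_nonneg P.hδ.le P.hW.le
  have hb := out_bound (α := ℕ) p hp0 hp1 (fun h o => NNlev k h S i o)
    (fun h o => one_le_NNlev k h S i o) (fun h => (DblLev k h S i : ℝ))
    (Ioc 0 P.M) (Ioc P.M k) P.δ (P.δ / P.W) P.W P.hδ.le hθ P.hW.le
    (by
      rw [Nat.card_Ioc, Nat.sub_zero]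
      exact P.hsum)
    (by
      have := P.hW.ne'
      field_simp)
    P.η
    (by
      intro h hh
      have := hhead h hh
      rw [Finset.mul_sum] at this
      exact this)
    gOf P.s (fun h _ => gOf_pos h)
    (by
      intro h hh
      have hh' := Finset.mem_Ioc.mp hh
      exact P.hs h (Finset.mem_Ioc.mpr ⟨hh'.1, by omega⟩))
    (range (2 ^ Nat.clog 2 k)) hT (chainA P.M k)
    (by
      intro a _
      exact Finset.filter_subset _ _)
    (by
      intro h hh
      exact count_chain P.M k h hh)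
    (fun h => ((2 ^ P.s h - 1 : ℕ) : ℝ) * (3 / 4) ^ rOf h)
    (by
      intro a _
      have hmem : ∀ m ∈ chainA P.M k a, P.M < m := by
        intro m hm
        exact (Finset.mem_Ioc.mp (Finset.mem_filter.mp hm).1).1
      have hpeel := peel (chainA P.M k a) P.s rOf
        (fun m hm => rOf_succ_le m (by have := hmem m hm; have := P.hM; omega))
        (fun m hm m' hm' hlt => chain_gap P.M k a m m' P.hM hm hm' hlt)
        k S i
      exact hpeel)
  have e1 : ∀ o, NN k S i o ^ P.δ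
      = (∏ h ∈ Ioc 0 P.M, (NNlev k h S i o) ^ P.δ) * ∏ h ∈ Ioc P.M k, (NNlev k h S i o) ^ P.δ := by
    intro o
    have hpos : ∀ h, 0 ≤ NNlev k h S i o := fun h => (NNlev_pos k h S i o).le
    rw [NN_split P.M k S i o, Real.mul_rpow (Finset.prod_nonneg fun h _ => hpos h)
      (Finset.prod_nonneg fun h _ => hpos h),
      Real.finsetProd_rpow _ _ (fun h _ => hpos h), Real.finsetProd_rpow _ _ (fun h _ => hpos h)]
  simp only [e1]
  rw [Finset.mul_sum]
  refine hb.trans (le_of_eq ?_)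
  congr 3

/-- **The (B) core.** `y = |S|/2^k`. -/
theorem bcore (P : BPar) (k : ℕ) (S : Finset (Pos k))
    (hhead : ∀ (S' : Finset (Pos k)) (i : Coin k), ∀ h ∈ Ioc 0 P.M,
      ((Fintype.card (Coin k) : ℝ))⁻¹ * ∑ o, NNlev k h S' i o
        ≤ Real.exp (P.η h * (DblLev k h S' i : ℝ)))
    (hβ : ∑ h ∈ Ioc P.M k, tailC P h ≤ P.β) :
    ∑ g : Perm (Pos k), cf (bA k) g * EE k (fun i o => NN k (S.image g) i o ^ P.δ)
      ≤ (∏ h ∈ Ioc 0 P.M, ((1 + (Real.exp (P.η h) - 1) * ((S.card : ℝ) / 2 ^ k) ^ 2) ^ (2 ^ (k - 1))) ^ P.δ)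
        * ((1 + (Real.exp P.β - 1) * ((S.card : ℝ) / 2 ^ k) ^ 2) ^ (2 ^ (k - 1))) ^ P.W := by
  have hcard : (0 : ℝ) < (Fintype.card (Coin k) : ℝ) := by exact_mod_cast Fintype.card_pos
  set cI : ℝ := ((Fintype.card (Coin k) : ℝ))⁻¹ with hcI
  have hcI0 : 0 < cI := inv_pos.mpr hcard
  have hlaw := (isStirring_bA k).isLaw
  -- the joint law of (g, i)
  set μ : Perm (Pos k) × Coin k → ℝ := fun ω => cf (bA k) ω.1 * cI with hμ
  have hμ0 : ∀ ω, 0 ≤ μ ω := fun ω => mul_nonneg (hlaw.nonneg _) hcI0.le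
  have hμ1 : ∑ ω, μ ω = 1 := by
    rw [Fintype.sum_prod_type]
    have hc1 : (Fintype.card (Coin k) : ℝ) * cI = 1 := by
      rw [hcI]; field_simp
    have e1 : ∀ g : Perm (Pos k), ∑ i : Coin k, μ (g, i) = cf (bA k) g := by
      intro g
      simp only [hμ]
      rw [Finset.sum_const, Finset.card_univ, nsmul_eq_mul]
      calc (Fintype.card (Coin k) : ℝ) * (cf (bA k) g * cI)
          = cf (bA k) g * ((Fintype.card (Coin k) : ℝ) * cI) := by ring
        _ = cf (bA k) g := by rw [hc1, mul_one]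
    simp only [e1]
    exact hlaw.sum_one
  set D : ℕ → Perm (Pos k) × Coin k → ℝ := fun h ω => (DblLev k h (S.image ω.1) ω.2 : ℝ) with hD
  have hD0 : ∀ h ω, 0 ≤ D h ω := fun h ω => Nat.cast_nonneg _
  set y : ℝ := (S.card : ℝ) / 2 ^ k with hy
  have hmom : ∀ (h : ℕ) (α : ℝ), 0 ≤ α → ∑ ω, μ ω * Real.exp (α * D h ω)
      ≤ (1 + (Real.exp α - 1) * y ^ 2) ^ (2 ^ (k - 1)) := by
    intro h α hα
    have := moment_le k h S hα
    refine le_trans (le_of_eq ?_) this
    rw [Fintype.sum_prod_type]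
    apply Finset.sum_congr rfl
    intro g _
    unfold EC
    rw [Finset.mul_sum, Finset.mul_sum]
    apply Finset.sum_congr rfl
    intro i _
    simp only [hμ, hD]
    ring
  have hbase : ∀ α : ℝ, 0 ≤ α → 1 ≤ (1 + (Real.exp α - 1) * y ^ 2) ^ (2 ^ (k - 1)) := by
    intro α hα
    apply one_le_pow₀
    have h1 : 0 ≤ Real.exp α - 1 := by linarith [Real.add_one_le_exp α]
    have := mul_nonneg h1 (sq_nonneg y)
    linarith
  have hib := in_bound μ hμ0 hμ1 D hD0 (Ioc 0 P.M) (Ioc P.M k) P.δ P.W P.hδ.le P.hW.le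
    (by
      rw [Nat.card_Ioc, Nat.sub_zero]
      exact P.hsum)
    P.η P.hη (tailC P) (tailC_nonneg P) P.β P.hβ hβ
    (fun _ α => (1 + (Real.exp α - 1) * y ^ 2) ^ (2 ^ (k - 1)))
    (fun h _ => hmom h (P.η h) (P.hη h))
    ((1 + (Real.exp P.β - 1) * y ^ 2) ^ (2 ^ (k - 1)))
    (fun h _ => hmom h P.β P.hβ.le)
    (hbase P.β P.hβ.le)
  refine le_trans ?_ hib
  rw [Fintype.sum_prod_type]
  apply Finset.sum_le_sum
  intro g _
  have h1 : EE k (fun i o => NN k (S.image g) i o ^ P.δ)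
      = ∑ i, cI * (cI * ∑ o, NN k (S.image g) i o ^ P.δ) := by
    unfold EE
    rw [Finset.mul_sum]
    apply Finset.sum_congr rfl
    intro i _
    rw [hcI, mul_assoc]
  rw [h1, Finset.mul_sum]
  apply Finset.sum_le_sum
  intro i _
  have h2 := EO_NN_le P k (S.image g) i (fun h hh => hhead (S.image g) i h hh)
  have h3 : cf (bA k) g * (cI * (cI * ∑ o, NN k (S.image g) i o ^ P.δ))
      = (cf (bA k) g * cI) * (cI * ∑ o, NN k (S.image g) i o ^ P.δ) := by ring
  rw [h3]
  exact mul_le_mul_of_nonneg_left h2 (mul_nonneg (hlaw.nonneg _) hcI0.le)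

end core

end Crest.Agent.Lib.Thorp
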