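import Mathlib
import Crest.Agent.Lib.Thorp.XBound

set_option autoImplicit false

/-!
# The sharp exponents of the colouring trace (S0222)

`X_k(y) = XX 1 (bA k) y`.  With the exact base `X_2(y) ≤ B(mean y)`, `B u = 1 + u + 5/4 u² + u³ + u⁴`,
and tool (A) `X_{k+1}(y) ≤ X_k(ȳ) X_k(ȳ/2)`:

* `XX_bA_two_le`: `X_2(y) ≤ B (meanP y)`;
* `XX_bA_HH`: `X_{K+2}(y) ≤ HH K (meanP y)` with `HH` the recursion from `B`;
* `XX_bA_sharp`: `X_{K+2}(y) ≤ exp (etaS (K+2) * ∑ y)`, `y ∈ [0,1]`;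
* `XX_bA_eta`: `X_k(y) ≤ exp (etaS k * ∑ y)` for all `k` and `0/1`-valued `y`.
-/

namespace Crest.Agent.Lib.Thorp

open Finset Equiv

section gates

variable {V : Type*} [Fintype V] [DecidableEq V] {Q : ℕ}

/-- the gate-average step of tool (A), for any law `a` -/
theorem XX_dbl_hmain (a : RG (Perm V)) (ha : ∀ g, 0 ≤ cf a g) {y : Bool × V → ℝ}
    (hy0 : ∀ x, 0 ≤ y x) :
    XX Q (dbl a) y ≤ ((2 : ℝ) ^ Fintype.card V)⁻¹ * ∑ c'' : V → Bool, ∑ σ, ∑ τ, cf a σ * cf a τ *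
        (∑ c0 : Cfg V Q, ∑ c1 : Cfg V Q,
          if (mrg c'' c0 c1 = c0 ∘ σ ∧ mrg c'' c1 c0 = c1 ∘ τ) then
            wt (fun v => (y (false, v) + y (true, v)) / 2) c0
              * wt (fun v => (y (false, v) + y (true, v)) / 2) c1 else 0) := by
  classical
  set ybar : V → ℝ := fun v => (y (false, v) + y (true, v)) / 2 with hybar
  set κ : ℝ := (2 : ℝ) ^ Fintype.card V with hκ
  have hκ0 : 0 < κ := by positivity
  -- the bound for fixed `t`
  have hstep : ∀ t : Perm (Bool × V), ∑ c : V → Bool, ∑ c' : V → Bool, colTr Q y (gate c * t * gate c')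
      ≤ κ * ∑ c'' : V → Bool, ∑ ξ : Cfg (Bool × V) Q,
          if ξ ∘ (t * gate c'') = ξ then wt (fun x : Bool × V => ybar x.2) ξ else 0 := by
    intro t
    have h1 : ∀ c : V → Bool, ∑ c' : V → Bool, colTr Q y (gate c * t * gate c')
        = ∑ c'' : V → Bool, ∑ ξ : Cfg (Bool × V) Q,
            if ξ ∘ (t * gate c'') = ξ then wt y (ξ ∘ gate c) else 0 := by
      intro c
      simp_rw [colTr_gate]
      let e : (V → Bool) ≃ (V → Bool) :=
        Function.Involutive.toPerm (fun c' v => xor (c' v) (c v)) (by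
          intro c'; funext v; simp)
      exact Fintype.sum_equiv e _ _ (fun c' => rfl)
    simp_rw [h1]
    rw [Finset.sum_comm, Finset.mul_sum]
    apply Finset.sum_le_sum
    intro c'' _
    rw [Finset.sum_comm, Finset.mul_sum]
    apply Finset.sum_le_sum
    intro ξ _
    by_cases h : ξ ∘ (t * gate c'') = ξ
    · simp only [h, if_true]
      exact sum_wt_gate hy0 ξ
    · simp only [if_neg h, Finset.sum_const_zero, mul_zero]; exact le_rfl
  -- assemble
  have hcoef : ∀ σ τ, 0 ≤ cf a σ * cf a τ := fun σ τ => mul_nonneg (ha σ) (ha τ)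
  unfold XX
  rw [Ev_dbl]
  have hE : (∑ c : V → Bool, ∑ c' : V → Bool, ∑ σ, ∑ τ,
        cf a σ * cf a τ * colTr Q y (gate c * two σ τ * gate c'))
      = ∑ σ, ∑ τ, cf a σ * cf a τ *
          ∑ c : V → Bool, ∑ c' : V → Bool, colTr Q y (gate c * two σ τ * gate c') := by
    simp_rw [Finset.mul_sum]
    calc _ = ∑ c : V → Bool, ∑ σ, ∑ τ, ∑ c' : V → Bool,
          cf a σ * cf a τ * colTr Q y (gate c * two σ τ * gate c') := by
            apply Finset.sum_congr rfl; intro c _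
            rw [Finset.sum_comm]
            apply Finset.sum_congr rfl; intro σ _
            rw [Finset.sum_comm]
      _ = ∑ σ, ∑ c : V → Bool, ∑ τ, ∑ c' : V → Bool,
          cf a σ * cf a τ * colTr Q y (gate c * two σ τ * gate c') := by
            rw [Finset.sum_comm]
      _ = _ := by
            apply Finset.sum_congr rfl; intro σ _
            rw [Finset.sum_comm]
  rw [hE]
  have hcardF : ((2 : ℝ) ^ Fintype.card V)⁻¹ = κ⁻¹ := rfl
  rw [hcardF]
  have hle : ∑ σ, ∑ τ, cf a σ * cf a τ *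
          ∑ c : V → Bool, ∑ c' : V → Bool, colTr Q y (gate c * two σ τ * gate c')
      ≤ ∑ σ, ∑ τ, cf a σ * cf a τ * (κ * ∑ c'' : V → Bool, ∑ c0 : Cfg V Q, ∑ c1 : Cfg V Q,
        if (mrg c'' c0 c1 = c0 ∘ σ ∧ mrg c'' c1 c0 = c1 ∘ τ) then wt ybar c0 * wt ybar c1 else 0) := by
    apply Finset.sum_le_sum; intro σ _
    apply Finset.sum_le_sum; intro τ _
    apply mul_le_mul_of_nonneg_left _ (hcoef σ τ)
    refine (hstep (two σ τ)).trans (le_of_eq ?_)
    congr 1
    apply Finset.sum_congr rfl; intro c'' _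
    exact phi_eq σ τ c'' ybar
  have hre : ∑ σ, ∑ τ, cf a σ * cf a τ * (κ * ∑ c'' : V → Bool, ∑ c0 : Cfg V Q, ∑ c1 : Cfg V Q,
        if (mrg c'' c0 c1 = c0 ∘ σ ∧ mrg c'' c1 c0 = c1 ∘ τ) then wt ybar c0 * wt ybar c1 else 0)
      = κ * ∑ c'' : V → Bool, ∑ σ, ∑ τ, cf a σ * cf a τ *
      (∑ c0 : Cfg V Q, ∑ c1 : Cfg V Q,
        if (mrg c'' c0 c1 = c0 ∘ σ ∧ mrg c'' c1 c0 = c1 ∘ τ) then wt ybar c0 * wt ybar c1 else 0) := by
    simp_rw [Finset.mul_sum]
    calc _ = ∑ σ, ∑ c'' : V → Bool, ∑ τ, ∑ c0 : Cfg V Q, ∑ c1 : Cfg V Q,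
          cf a σ * cf a τ * (κ * if (mrg c'' c0 c1 = c0 ∘ σ ∧ mrg c'' c1 c0 = c1 ∘ τ) then wt ybar c0 * wt ybar c1 else 0) := by
            apply Finset.sum_congr rfl; intro σ _
            rw [Finset.sum_comm]
      _ = _ := by
            rw [Finset.sum_comm]
            apply Finset.sum_congr rfl; intro c'' _
            apply Finset.sum_congr rfl; intro σ _
            apply Finset.sum_congr rfl; intro τ _
            apply Finset.sum_congr rfl; intro c0 _
            apply Finset.sum_congr rfl; intro c1 _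
            ring
  rw [hre] at hle
  calc _ ≤ κ⁻¹ * κ⁻¹ * (κ * ∑ c'' : V → Bool, ∑ σ, ∑ τ, cf a σ * cf a τ *
      (∑ c0 : Cfg V Q, ∑ c1 : Cfg V Q,
        if (mrg c'' c0 c1 = c0 ∘ σ ∧ mrg c'' c1 c0 = c1 ∘ τ) then wt ybar c0 * wt ybar c1 else 0)) :=
        mul_le_mul_of_nonneg_left hle (by positivity)
    _ = _ := by field_simp

end gates

section small

/-- the swap on the two positions at depth one -/
def sw1 : Perm (Pos 1) := gate (fun _ => true)

/-- configurations on the two positions at depth one -/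
def cfg2 {α : Type*} (i j : α) : Pos 1 → α := fun v => if v.1 then j else i

theorem sum_fun_pos1 {α : Type*} [Fintype α] [DecidableEq α] (F : (Pos 1 → α) → ℝ) :
    ∑ c, F c = ∑ i, ∑ j, F (cfg2 i j) := by
  classical
  rw [← Finset.sum_product']
  let e : (α × α) ≃ (Pos 1 → α) :=
    { toFun := fun p => cfg2 p.1 p.2
      invFun := fun c => (c (false, ()), c (true, ()))
      left_inv := by
        rintro ⟨i, j⟩
        simp [cfg2]
      right_inv := by
        intro c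
        funext v
        rcases v with ⟨r, u⟩
        cases r <;> rfl }
  exact (Fintype.sum_equiv e _ _ (fun p => rfl)).symm

theorem prod_pos1 (f : Pos 1 → ℝ) : ∏ v, f v = f (false, ()) * f (true, ()) := by
  show ∏ v : Bool × Pos 0, f v = _
  rw [Fintype.prod_prod_type, Fintype.prod_bool]
  show (∏ u : Unit, f (true, u)) * (∏ u : Unit, f (false, u)) = _
  simp [mul_comm]

theorem wt_cfg2 (y : Pos 1 → ℝ) (i j : Fin 2) :
    wt (Q := 1) y (cfg2 i j) = w1 i (y (false, ())) * w1 j (y (true, ())) := by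
  unfold wt
  rw [prod_pos1]
  rfl

theorem gate_false {V : Type*} : gate (fun _ : V => false) = 1 := by
  ext x
  · rcases x with ⟨r, v⟩; simp
  · rcases x with ⟨r, v⟩; simp

theorem sum_fun_pos0 (F : (Pos 0 → Bool) → ℝ) :
    ∑ c, F c = F (fun _ => false) + F (fun _ => true) := by
  let e : Bool ≃ (Pos 0 → Bool) :=
    { toFun := fun b _ => b
      invFun := fun c => c ()
      left_inv := fun b => rfl
      right_inv := fun c => by funext u; rfl }
  rw [← Fintype.sum_equiv e (fun b => F (e b)) F (fun b => rfl)]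
  rw [Fintype.sum_bool, add_comm]
  rfl

theorem sw1_sw1 : sw1 * sw1 = 1 := by
  show (gate (fun _ : Pos 0 => true) * gate (fun _ : Pos 0 => true) : Perm (Bool × Pos 0)) = 1
  rw [gate_mul_gate]
  have : (fun v : Pos 0 => xor true true) = fun _ => false := rfl
  rw [this, gate_false]

/-- the depth one law -/
theorem Ev_bA_one (F : Perm (Pos 1) → ℝ) : Ev F (bA 1) = (F 1 + F sw1) / 2 := by
  have h0 := Ev_dbl (V := Pos 0) (F : Perm (Bool × Pos 0) → ℝ) (1 : RG (Perm (Pos 0)))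
  refine Eq.trans h0 ?_
  have hcard : ((2 : ℝ) ^ Fintype.card (Pos 0))⁻¹ = 1 / 2 := by
    rw [card_Pos]; norm_num
  rw [hcard]
  have h1 : ∀ c c' : Pos 0 → Bool, ∑ σ, ∑ τ, cf (1 : RG (Perm (Pos 0))) σ * cf (1 : RG (Perm (Pos 0))) τ
      * F (gate c * two σ τ * gate c') = F (gate c * gate c') := by
    intro c c'
    simp [cf_one, two_one]
  simp_rw [h1, sum_fun_pos0]
  have hg : gate (fun _ : Pos 0 => false) = 1 := gate_false
  have hs : gate (fun _ : Pos 0 => true) = sw1 := rfl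
  have hss : (gate (fun _ : Pos 0 => true) * gate (fun _ : Pos 0 => true) : Perm (Bool × Pos 0)) = 1 := sw1_sw1
  rw [hg, hss]
  simp only [one_mul, mul_one]
  show ((1 : ℝ) / 2 * (1 / 2) * (F 1 + F sw1 + (F sw1 + F 1))) = _
  ring

end small

section two

theorem w1_zero (t : ℝ) : w1 (Q := 1) 0 t = 1 := rfl
theorem w1_one (t : ℝ) : w1 (Q := 1) 1 t = t := by simp [w1]

/-- the inner sum of the gate-average step, depth two -/
noncomputable def SS (a b : ℝ) (p q : Bool) (σ τ : Perm (Pos 1)) : ℝ :=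
  ∑ i : Fin 2, ∑ j : Fin 2, ∑ k : Fin 2, ∑ l : Fin 2,
    if (mrg (Q := 1) (cfg2 p q) (cfg2 i j) (cfg2 k l) = (cfg2 i j) ∘ σ ∧
        mrg (Q := 1) (cfg2 p q) (cfg2 k l) (cfg2 i j) = (cfg2 k l) ∘ τ) then
      (w1 (Q := 1) i a * w1 (Q := 1) j b) * (w1 (Q := 1) k a * w1 (Q := 1) l b) else 0

/-- the exact value of `X_2` at gate-uniform weights -/
theorem SS_total (a b : ℝ) :
    (1 / 4 : ℝ) * ∑ p : Bool, ∑ q : Bool,
      ((SS a b p q 1 1 + SS a b p q 1 sw1) / 2 + (SS a b p q sw1 1 + SS a b p q sw1 sw1) / 2) / 2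
      = 1 + (a + b) / 2 + ((a + b) / 2) ^ 2 + a * b / 4 + (a + b) / 2 * (a * b) + (a * b) ^ 2 := by
  unfold SS
  simp (decide := true) only [Fintype.sum_bool, Fin.sum_univ_two, if_true, if_false, w1_zero, w1_one]
  ring

/-- the polynomial of the exact base -/
noncomputable def BB (u : ℝ) : ℝ := 1 + u + 5 / 4 * u ^ 2 + u ^ 3 + u ^ 4

theorem BB_pos {u : ℝ} (hu : 0 ≤ u) : 0 < BB u := by
  unfold BB; positivity

theorem sum_pos1 (f : Pos 1 → ℝ) : ∑ v, f v = f (false, ()) + f (true, ()) := by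
  show ∑ v : Bool × Pos 0, f v = _
  rw [Fintype.sum_prod_type, Fintype.sum_bool]
  show (∑ u : Unit, f (true, u)) + (∑ u : Unit, f (false, u)) = _
  simp [add_comm]

/-- **The exact base**: `X_2(y) ≤ B (mean y)`. -/
theorem XX_bA_two_le {y : Pos 2 → ℝ} (h0 : ∀ v, 0 ≤ y v) : XX 1 (bA 2) y ≤ BB (meanP y) := by
  have hm := XX_dbl_hmain (Q := 1) (V := Pos 1) (bA 1) (cf_bA_nonneg 1) (y := y) h0
  have hX : XX 1 (bA 2) y = XX 1 (dbl (bA 1)) y := rfl
  rw [hX]
  refine hm.trans ?_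
  set ybar : Pos 1 → ℝ := fun v => (y (false, v) + y (true, v)) / 2 with hybar
  set a := ybar (false, ()) with ha
  set b := ybar (true, ()) with hb
  have ha0 : 0 ≤ a := by
    have := h0 (false, (false, ())); have := h0 (true, (false, ()))
    simp only [ha, hybar]; linarith
  have hb0 : 0 ≤ b := by
    have := h0 (false, (true, ())); have := h0 (true, (true, ()))
    simp only [hb, hybar]; linarith
  have hmean : meanP y = (a + b) / 2 := by
    rw [← meanP_succ (k := 1) y]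
    show meanP (k := 1) ybar = _
    unfold meanP
    rw [sum_pos1]
    norm_num
    ring
  rw [hmean]
  have hcard : ((2 : ℝ) ^ Fintype.card (Pos 1))⁻¹ = 1 / 4 := by
    rw [card_Pos]; norm_num
  rw [hcard]
  have hin : ∀ (p q : Bool), ∑ σ, ∑ τ, cf (bA 1) σ * cf (bA 1) τ *
        (∑ c0 : Cfg (Pos 1) 1, ∑ c1 : Cfg (Pos 1) 1,
          if (mrg (cfg2 p q) c0 c1 = c0 ∘ σ ∧ mrg (cfg2 p q) c1 c0 = c1 ∘ τ) then
            wt ybar c0 * wt ybar c1 else 0)
      = ((SS a b p q 1 1 + SS a b p q 1 sw1) / 2 + (SS a b p q sw1 1 + SS a b p q sw1 sw1) / 2) / 2 := by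
    intro p q
    have hS : ∀ σ τ : Perm (Pos 1), (∑ c0 : Cfg (Pos 1) 1, ∑ c1 : Cfg (Pos 1) 1,
          if (mrg (cfg2 p q) c0 c1 = c0 ∘ σ ∧ mrg (cfg2 p q) c1 c0 = c1 ∘ τ) then
            wt ybar c0 * wt ybar c1 else 0) = SS a b p q σ τ := by
      intro σ τ
      unfold SS
      rw [sum_fun_pos1 (α := Fin 2)]
      apply Finset.sum_congr rfl; intro i _
      apply Finset.sum_congr rfl; intro j _
      rw [sum_fun_pos1 (α := Fin 2)]
      apply Finset.sum_congr rfl; intro k _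
      apply Finset.sum_congr rfl; intro l _
      rw [wt_cfg2, wt_cfg2]
    simp_rw [hS]
    have hE : ∑ σ, ∑ τ, cf (bA 1) σ * cf (bA 1) τ * SS a b p q σ τ
        = Ev (fun σ => Ev (fun τ => SS a b p q σ τ) (bA 1)) (bA 1) := by
      unfold Ev
      apply Finset.sum_congr rfl; intro σ _
      rw [Finset.mul_sum]
      apply Finset.sum_congr rfl; intro τ _
      ring
    rw [hE, Ev_bA_one, Ev_bA_one, Ev_bA_one]
  rw [sum_fun_pos1 (α := Bool)]
  simp_rw [Finset.sum_congr rfl (fun p _ => Finset.sum_congr rfl (fun q _ => hin p q))]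
  rw [SS_total]
  unfold BB
  have hdiff : 0 ≤ (((a + b) / 2) ^ 2 - a * b) * (1 / 4 + (a + b) / 2 + ((a + b) / 2) ^ 2 + a * b) := by
    apply mul_nonneg
    · nlinarith [sq_nonneg (a - b)]
    · positivity
  nlinarith [hdiff]

end two

section tower

/-- the recursion of tool (A) from the exact base -/
noncomputable def HH : ℕ → ℝ → ℝ
  | 0, Y => BB Y
  | K + 1, Y => HH K Y * HH K (Y / 2)

theorem HH_pos (K : ℕ) {Y : ℝ} (hY : 0 ≤ Y) : 0 < HH K Y := by
  induction K generalizing Y with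
  | zero => exact BB_pos hY
  | succ K ih => exact mul_pos (ih hY) (ih (by positivity))

/-- `X_{K+2}(y) ≤ HH K (mean y)` -/
theorem XX_bA_HH (K : ℕ) {y : Pos (K + 2) → ℝ} (h0 : ∀ v, 0 ≤ y v) (h1 : ∀ v, y v ≤ 1) :
    XX 1 (bA (K + 2)) y ≤ HH K (meanP y) := by
  induction K with
  | zero => exact XX_bA_two_le h0
  | succ k ih =>
    have hb := bA_eq (k + 2)
    have hdbl : bA (k + 1 + 2) = dbl (rev (nu (k + 2)) * nu (k + 2)) := by
      show dbl (bA (k + 2)) = _
      rw [hb]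
    have hnn : ∀ g, 0 ≤ cf (rev (nu (k + 2)) * nu (k + 2)) g := by
      intro g; rw [← hb]; exact cf_bA_nonneg (k + 2) g
    rw [hdbl]
    refine (XX_dbl_le (Q := 1) (nu (k + 2)) hnn h0 h1).trans ?_
    rw [← hb]
    set ybar : Pos (k + 2) → ℝ := fun v => (y (false, v) + y (true, v)) / 2 with hybar
    have hb0 : ∀ v, 0 ≤ ybar v := fun v => by
      have := h0 (false, v); have := h0 (true, v); simp only [hybar]; linarith
    have hb1 : ∀ v, ybar v ≤ 1 := fun v => by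
      have := h1 (false, v); have := h1 (true, v); simp only [hybar]; linarith
    have hb0' : ∀ v, 0 ≤ ybar v / 2 := fun v => by have := hb0 v; linarith
    have hb1' : ∀ v, ybar v / 2 ≤ 1 := fun v => by have := hb1 v; have := hb0 v; linarith
    have e1 := ih hb0 hb1
    have e2 := ih hb0' hb1'
    rw [meanP_half] at e2
    have hX0 : 0 ≤ XX 1 (bA (k + 2)) (fun v => ybar v / 2) :=
      Finset.sum_nonneg fun g _ => mul_nonneg (cf_bA_nonneg (k + 2) g) (colTr_nonneg hb0' g)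
    have hmean : meanP ybar = meanP y := meanP_succ y
    rw [hmean] at e1 e2
    show XX 1 (bA (k + 2)) ybar * XX 1 (bA (k + 2)) (fun v => ybar v / 2)
      ≤ HH k (meanP y) * HH k (meanP y / 2)
    exact mul_le_mul e1 e2 hX0 (HH_pos k (by rw [← hmean]; exact meanP_nonneg hb0)).le

/-- the star-shaped bound at `u = 1` -/
theorem BB_le_a0 {Y : ℝ} (hY : 0 ≤ Y) (hY1 : Y ≤ 1) : BB Y ≤ Real.exp (83 / 50 * Y) := by
  have hx : 0 ≤ 83 / 50 * Y := by positivity
  have h := Real.sum_le_exp_of_nonneg hx 9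
  have hZ : 0 ≤ 1 - Y := by linarith
  refine le_trans ?_ h
  simp only [Finset.sum_range_succ, Finset.sum_range_zero, Nat.factorial]
  unfold BB
  norm_num
  nlinarith [mul_nonneg (pow_nonneg hY 0) (pow_nonneg hZ 8), mul_nonneg (pow_nonneg hY 1) (pow_nonneg hZ 7), mul_nonneg (pow_nonneg hY 2) (pow_nonneg hZ 6), mul_nonneg (pow_nonneg hY 3) (pow_nonneg hZ 5), mul_nonneg (pow_nonneg hY 4) (pow_nonneg hZ 4), mul_nonneg (pow_nonneg hY 5) (pow_nonneg hZ 3), mul_nonneg (pow_nonneg hY 6) (pow_nonneg hZ 2), mul_nonneg (pow_nonneg hY 7) (pow_nonneg hZ 1), mul_nonneg (pow_nonneg hY 8) (pow_nonneg hZ 0)]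

/-- the star-shaped bound at `u = 1/2` -/
theorem BB_le_a1 {Y : ℝ} (hY : 0 ≤ Y) (hY1 : Y ≤ 1) : BB (Y / 2) ≤ Real.exp (347 / 500 * Y) := by
  have hx : 0 ≤ 347 / 500 * Y := by positivity
  have h := Real.sum_le_exp_of_nonneg hx 7
  have hZ : 0 ≤ 1 - Y := by linarith
  refine le_trans ?_ h
  simp only [Finset.sum_range_succ, Finset.sum_range_zero, Nat.factorial]
  unfold BB
  norm_num
  nlinarith [mul_nonneg (pow_nonneg hY 0) (pow_nonneg hZ 6), mul_nonneg (pow_nonneg hY 1) (pow_nonneg hZ 5), mul_nonneg (pow_nonneg hY 2) (pow_nonneg hZ 4), mul_nonneg (pow_nonneg hY 3) (pow_nonneg hZ 3), mul_nonneg (pow_nonneg hY 4) (pow_nonneg hZ 2), mul_nonneg (pow_nonneg hY 5) (pow_nonneg hZ 1), mul_nonneg (pow_nonneg hY 6) (pow_nonneg hZ 0)]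

/-- the general quadratic bound -/
theorem BB_le_gen {Y : ℝ} (hY : 0 ≤ Y) (hY1 : Y ≤ 1) : BB Y ≤ Real.exp (Y + 4 / 5 * Y ^ 2) := by
  have hx : 0 ≤ Y + 4 / 5 * Y ^ 2 := by positivity
  have h := Real.sum_le_exp_of_nonneg hx 5
  have hZ : 0 ≤ 1 - Y := by linarith
  refine le_trans ?_ h
  simp only [Finset.sum_range_succ, Finset.sum_range_zero, Nat.factorial]
  unfold BB
  norm_num
  nlinarith [mul_nonneg (pow_nonneg hY 0) (pow_nonneg hZ 8), mul_nonneg (pow_nonneg hY 1) (pow_nonneg hZ 7), mul_nonneg (pow_nonneg hY 2) (pow_nonneg hZ 6), mul_nonneg (pow_nonneg hY 3) (pow_nonneg hZ 5), mul_nonneg (pow_nonneg hY 4) (pow_nonneg hZ 4), mul_nonneg (pow_nonneg hY 5) (pow_nonneg hZ 3), mul_nonneg (pow_nonneg hY 6) (pow_nonneg hZ 2), mul_nonneg (pow_nonneg hY 7) (pow_nonneg hZ 1), mul_nonneg (pow_nonneg hY 8) (pow_nonneg hZ 0)]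

/-- the tail of the tower, `j ≥ 2` -/
theorem HH_le_two (K j : ℕ) (hj : 2 ≤ j) {Y : ℝ} (hY : 0 ≤ Y) (hY1 : Y ≤ 1) :
    HH K (Y / 2 ^ j) ≤ Real.exp (Y * ((3 / 2) ^ K / 2 ^ j + 4 / 5 * (5 / 4) ^ K / 4 ^ j)) := by
  induction K generalizing j with
  | zero =>
    have h2 : (0 : ℝ) < 2 ^ j := by positivity
    have h1 : (1 : ℝ) ≤ 2 ^ j := one_le_pow₀ (by norm_num)
    have hu0 : 0 ≤ Y / 2 ^ j := by positivity
    have hu1 : Y / 2 ^ j ≤ 1 := by
      rw [div_le_one h2]; linarith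
    refine (BB_le_gen hu0 hu1).trans ?_
    apply Real.exp_le_exp.mpr
    have h4 : (4 : ℝ) ^ j = 2 ^ j * 2 ^ j := by
      rw [← mul_pow]; norm_num
    have hsq : (Y / 2 ^ j) ^ 2 ≤ Y / 4 ^ j := by
      rw [h4, div_pow, sq, sq, div_le_div_iff₀ (by positivity) (by positivity)]
      nlinarith [mul_nonneg hY (sub_nonneg.mpr hY1), mul_pos h2 h2]
    have e : Y * ((3 / 2) ^ 0 / 2 ^ j + 4 / 5 * (5 / 4) ^ 0 / 4 ^ j) = Y / 2 ^ j + 4 / 5 * (Y / 4 ^ j) := by
      field_simp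
    rw [e]
    linarith
  | succ K ih =>
    show HH K (Y / 2 ^ j) * HH K (Y / 2 ^ j / 2) ≤ _
    have e2 : Y / 2 ^ j / 2 = Y / 2 ^ (j + 1) := by
      rw [pow_succ]; field_simp
    rw [e2]
    have h1 := ih j hj
    have h2 := ih (j + 1) (by omega)
    refine (mul_le_mul h1 h2 (HH_pos K (by positivity)).le (Real.exp_pos _).le).trans ?_
    rw [← Real.exp_add]
    apply Real.exp_le_exp.mpr
    apply le_of_eq
    rw [pow_succ (3 / 2 : ℝ), pow_succ (5 / 4 : ℝ), pow_succ (2 : ℝ), pow_succ (4 : ℝ)]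
    field_simp
    ring

/-- the tower at `Y/2` -/
theorem HH_le_one (K : ℕ) {Y : ℝ} (hY : 0 ≤ Y) (hY1 : Y ≤ 1) :
    HH K (Y / 2) ≤ Real.exp (Y * ((3 / 2) ^ K / 2 + 1 / 5 * (5 / 4) ^ K - 3 / 500)) := by
  induction K with
  | zero =>
    refine (BB_le_a1 hY hY1).trans (le_of_eq ?_)
    congr 1
    norm_num
    ring
  | succ K ih =>
    show HH K (Y / 2) * HH K (Y / 2 / 2) ≤ _
    have e2 : Y / 2 / 2 = Y / 2 ^ 2 := by norm_num; ring
    rw [e2]
    have h2 := HH_le_two K 2 le_rfl hY hY1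
    refine (mul_le_mul ih h2 (HH_pos K (by positivity)).le (Real.exp_pos _).le).trans ?_
    rw [← Real.exp_add]
    apply Real.exp_le_exp.mpr
    apply le_of_eq
    rw [pow_succ (3 / 2 : ℝ), pow_succ (5 / 4 : ℝ)]
    ring

/-- the top of the tower -/
theorem HH_le_zero (K : ℕ) {Y : ℝ} (hY : 0 ≤ Y) (hY1 : Y ≤ 1) :
    HH K Y ≤ Real.exp (Y * ((3 / 2) ^ K + 4 / 5 * (5 / 4) ^ K - 7 / 50 - 3 / 500 * K)) := by
  induction K with
  | zero =>
    refine (BB_le_a0 hY hY1).trans (le_of_eq ?_)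
    congr 1
    norm_num
    ring
  | succ K ih =>
    show HH K Y * HH K (Y / 2) ≤ _
    have h2 := HH_le_one K hY hY1
    refine (mul_le_mul ih h2 (HH_pos K (by positivity)).le (Real.exp_pos _).le).trans ?_
    rw [← Real.exp_add]
    apply Real.exp_le_exp.mpr
    apply le_of_eq
    rw [pow_succ (3 / 2 : ℝ), pow_succ (5 / 4 : ℝ)]
    push_cast
    ring

/-- the per-doubled-gate exponents: `etaS 0 = ln 2`, `etaS 1 = ln 3 / 2`, and for `k = K + 2`
the explicit rational `((3/2)^K + 4/5 (5/4)^K - 7/50 - 3/500 K) / 2^(K+2)`: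
`.415, .29425, .2092, .1493, .1070, .0771, ...`. -/
noncomputable def etaS : ℕ → ℝ
  | 0 => Real.log 2
  | 1 => Real.log 3 / 2
  | K + 2 => ((3 / 2) ^ K + 4 / 5 * (5 / 4) ^ K - 7 / 50 - 3 / 500 * K) / 2 ^ (K + 2)

/-- **Sharp bound**, `k ≥ 2`, any weights in `[0,1]`. -/
theorem XX_bA_sharp (K : ℕ) {y : Pos (K + 2) → ℝ} (h0 : ∀ v, 0 ≤ y v) (h1 : ∀ v, y v ≤ 1) :
    XX 1 (bA (K + 2)) y ≤ Real.exp (etaS (K + 2) * ∑ v, y v) := by
  refine (XX_bA_HH K h0 h1).trans ?_
  have hm0 : 0 ≤ meanP y := meanP_nonneg h0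
  have hm1 : meanP y ≤ 1 := by
    unfold meanP
    have : ∑ v, y v ≤ (2 : ℝ) ^ (K + 2) := by
      calc ∑ v, y v ≤ ∑ _v : Pos (K + 2), (1 : ℝ) := Finset.sum_le_sum fun v _ => h1 v
        _ = _ := by simp [card_Pos]
    rw [inv_mul_le_iff₀ (by positivity)]
    linarith
  refine (HH_le_zero K hm0 hm1).trans (le_of_eq ?_)
  congr 1
  show meanP y * _ = _ / _ * _
  unfold meanP
  field_simp

theorem XX_bA_zero {y : Pos 0 → ℝ} : XX 1 (bA 0) y = 1 + y () := by
  have : XX 1 (bA 0) y = colTr 1 y 1 := by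
    show Ev (colTr 1 y) (1 : RG (Perm (Pos 0))) = _
    unfold Ev
    simp [cf_one]
  rw [this, colTr_one]
  haveI : Unique (Pos 0) := inferInstanceAs (Unique Unit)
  rw [Fintype.prod_unique]
  show 1 + ((1 : ℕ) : ℝ) * y () = _
  simp

/-- the exact value of `X_1` -/
theorem XX_bA_one {y : Pos 1 → ℝ} :
    XX 1 (bA 1) y = 1 + (y (false, ()) + y (true, ())) / 2 + y (false, ()) * y (true, ()) := by
  show Ev (colTr 1 y) (bA 1) = _
  rw [Ev_bA_one, colTr_one, prod_pos1]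
  have h : colTr 1 y sw1 = 1 + y (false, ()) * y (true, ()) := by
    unfold colTr
    rw [sum_fun_pos1 (α := Fin 2)]
    simp_rw [wt_cfg2]
    simp (decide := true) only [Fin.sum_univ_two, if_true, if_false, w1_zero, w1_one]
    ring
  rw [h]
  push_cast
  ring

/-- **Sharp bound on `0/1` patterns, all depths**: `X_k(y) ≤ exp (η̃_k * #D)`. -/
theorem XX_bA_eta (k : ℕ) {y : Pos k → ℝ} (hy : ∀ v, y v = 0 ∨ y v = 1) :
    XX 1 (bA k) y ≤ Real.exp (etaS k * ∑ v, y v) := by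
  match k, y, hy with
  | 0, y, hy =>
    rw [XX_bA_zero]
    have hs : ∑ v, y v = y () := by
      haveI : Unique (Pos 0) := inferInstanceAs (Unique Unit)
      rw [Fintype.sum_unique]
      rfl
    rw [hs]
    show _ ≤ Real.exp (Real.log 2 * y ())
    rcases hy () with h | h <;> rw [h]
    · simp
    · rw [mul_one, Real.exp_log (by norm_num)]; norm_num
  | 1, y, hy =>
    rw [XX_bA_one, sum_pos1]
    show _ ≤ Real.exp (Real.log 3 / 2 * _)
    have h3 : Real.exp (Real.log 3 / 2) ^ 2 = 3 := by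
      rw [← Real.exp_nat_mul]
      have : ((2 : ℕ) : ℝ) * (Real.log 3 / 2) = Real.log 3 := by push_cast; ring
      rw [this, Real.exp_log (by norm_num)]
    have hp := Real.exp_pos (Real.log 3 / 2)
    have hs : 3 / 2 ≤ Real.exp (Real.log 3 / 2) := by
      nlinarith
    rcases hy (false, ()) with h | h <;> rcases hy (true, ()) with h' | h' <;> rw [h, h']
    · simp
    · norm_num; linarith
    · norm_num; linarith
    · have : Real.log 3 / 2 * (1 + 1) = Real.log 3 := by ring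
      rw [this, Real.exp_log (by norm_num)]; norm_num
  | K + 2, y, hy =>
    refine XX_bA_sharp K (fun v => ?_) (fun v => ?_)
    · rcases hy v with h | h <;> rw [h] <;> norm_num
    · rcases hy v with h | h <;> rw [h] <;> norm_num

end tower

end Crest.Agent.Lib.Thorp
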