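import Mathlib
import Crest.Agent.Lib.Thorp.NNBridge
import Crest.Agent.Lib.Thorp.Window
import Crest.Agent.Lib.Thorp.XSharp

set_option autoImplicit false

/-!
# The head bound (S0222): the sharp bound for one level over the out coins

* `EO`: expectation over one coin tree; `EO_succ`: one step of the recursion; `EO_Wp`: the law of
  the out part of the network is `rev (nu k)`.
* `head_node`: the Cauchy-Schwarz step with the sharp exponent.
* `head_bound`: `E_o NNlev k m S i o ≤ exp (etaS (m-1) * DblLev k m S i)`, all in-coins fixed.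
-/

namespace Crest.Agent.Lib.Thorp

open Finset Equiv

/-- expectation over one coin tree -/
noncomputable def EO (k : ℕ) (f : Coin k → ℝ) : ℝ := ((Fintype.card (Coin k) : ℝ))⁻¹ * ∑ o, f o

theorem EO_succ (k : ℕ) (f : Coin (k + 1) → ℝ) :
    EO (k + 1) f = ((2 : ℝ) ^ Fintype.card (Pos k))⁻¹ *
      ∑ c : Pos k → Bool, EO k (fun o1 => EO k (fun o2 => f (c, o1, o2))) := by
  unfold EO
  have hc := card_Coin_succ k
  have hs : ∑ o, f o = ∑ c : Pos k → Bool, ∑ o1 : Coin k, ∑ o2 : Coin k, f (c, o1, o2) := by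
    let f' : ((Pos k → Bool) × Coin k × Coin k) → ℝ := f
    show ∑ o : (Pos k → Bool) × Coin k × Coin k, f' o = ∑ c : Pos k → Bool, ∑ o1 : Coin k, ∑ o2 : Coin k, f' (c, o1, o2)
    simp only [Fintype.sum_prod_type]
  rw [hs, hc]
  simp only [Finset.mul_sum]
  apply Finset.sum_congr rfl; intro c _
  apply Finset.sum_congr rfl; intro o1 _
  apply Finset.sum_congr rfl; intro o2 _
  push_cast
  rw [mul_inv, mul_inv]
  ring

theorem EO_const (k : ℕ) (x : ℝ) : EO k (fun _ => x) = x := by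
  unfold EO
  have hn : ((Fintype.card (Coin k) : ℝ)) ≠ 0 := by
    exact_mod_cast (card_Coin_pos k).ne'
  simp [hn]

theorem EO_mul_const (k : ℕ) (f : Coin k → ℝ) (x : ℝ) : EO k (fun o => f o * x) = EO k f * x := by
  unfold EO
  rw [← Finset.sum_mul]
  ring

theorem EO_const_mul (k : ℕ) (f : Coin k → ℝ) (x : ℝ) : EO k (fun o => x * f o) = x * EO k f := by
  unfold EO
  rw [← Finset.mul_sum]
  ring

theorem EO_nonneg (k : ℕ) {f : Coin k → ℝ} (hf : ∀ o, 0 ≤ f o) : 0 ≤ EO k f :=
  mul_nonneg (by positivity) (Finset.sum_nonneg fun o _ => hf o)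

theorem avg_gate_const {V : Type*} [Fintype V] [DecidableEq V] (x : ℝ) :
    ((2 : ℝ) ^ Fintype.card V)⁻¹ * ∑ _c : V → Bool, x = x := by
  simp

section generic

theorem Ev_mul_left {G : Type*} [Group G] [Fintype G] [DecidableEq G] (φ : G → ℝ) (x y : RG G) :
    Ev φ (x * y) = Ev (fun g => Ev (fun u => φ (g * u)) y) x := by
  unfold Ev
  simp_rw [cf_mul, Finset.sum_mul]
  rw [Finset.sum_comm]
  apply Finset.sum_congr rfl
  intro h _
  rw [Finset.mul_sum, ← Equiv.sum_comp (Equiv.mulLeft h)]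
  apply Finset.sum_congr rfl
  intro u _
  simp only [Equiv.coe_mulLeft, inv_mul_cancel_left]
  ring

variable {V : Type*} [Fintype V] [DecidableEq V]

theorem Ev_rev_step (ν : RG (Perm V)) (φ : Perm (Bool × V) → ℝ) :
    Ev φ (rev (Ten ν * GateA)) = ((2 : ℝ) ^ Fintype.card V)⁻¹ * ∑ c : V → Bool,
      Ev (fun σ => Ev (fun τ => φ (gate c * two σ τ)) (rev ν)) (rev ν) := by
  rw [rev_mul, rev_GateA, rev_Ten, Ev_mul_left]
  unfold GateA
  rw [Ev_avgS]
  have hcard : (Fintype.card (V → Bool) : ℝ) = (2 : ℝ) ^ Fintype.card V := by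
    simp [Fintype.card_fun]
  rw [hcard]
  congr 1
  apply Finset.sum_congr rfl
  intro c _
  rw [Ev_Ten]
  unfold Ev
  apply Finset.sum_congr rfl
  intro σ _
  rw [Finset.mul_sum]
  apply Finset.sum_congr rfl
  intro τ _
  ring

end generic

/-- the law of the out part -/
theorem EO_Wp (k : ℕ) (φ : Perm (Pos k) → ℝ) : EO k (fun o => φ (Wp k o)) = Ev φ (rev (nu k)) := by
  induction k with
  | zero =>
    have h : rev (nu 0) = (1 : RG (Perm (Pos 0))) := rev_one
    rw [h]
    show EO 0 (fun o => φ 1) = _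
    rw [EO_const]
    unfold Ev
    simp [cf_one]
  | succ k ih =>
    rw [EO_succ]
    have h := Ev_rev_step (V := Pos k) (nu k) (φ : Perm (Bool × Pos k) → ℝ)
    refine Eq.trans ?_ h.symm
    congr 1
    apply Finset.sum_congr rfl
    intro c _
    have h1 : ∀ o1 : Coin k, EO k (fun o2 => φ (Wp (k + 1) (c, o1, o2)))
        = Ev (fun τ => φ (gate c * two (Wp k o1) τ)) (rev (nu k)) := fun o1 =>
      ih (fun τ => φ (gate c * two (Wp k o1) τ))
    simp_rw [h1]
    exact ih (fun σ => Ev (fun τ => φ (gate c * two σ τ)) (rev (nu k)))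

/-- the two-sided form of the law of the out part -/
theorem EO_Wp_two (k : ℕ) (φ : Perm (Pos k) → Perm (Pos k) → ℝ) :
    EO k (fun o1 => EO k (fun o2 => φ (Wp k o1) (Wp k o2)))
      = ∑ g, ∑ g', cf (rev (nu k)) g * cf (rev (nu k)) g' * φ g g' := by
  have h1 : ∀ o1 : Coin k, EO k (fun o2 => φ (Wp k o1) (Wp k o2)) = Ev (φ (Wp k o1)) (rev (nu k)) :=
    fun o1 => EO_Wp k (φ (Wp k o1))
  simp_rw [h1]
  rw [EO_Wp k (fun g => Ev (φ g) (rev (nu k)))]
  unfold Ev
  apply Finset.sum_congr rfl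
  intro g _
  rw [Finset.mul_sum]
  apply Finset.sum_congr rfl
  intro g' _
  ring

theorem indF_nonneg {W : Type*} [DecidableEq W] (D : Finset W) (v : W) : 0 ≤ indF D v := by
  unfold indF; split_ifs <;> norm_num

theorem indF_le_one {W : Type*} [DecidableEq W] (D : Finset W) (v : W) : indF D v ≤ 1 := by
  unfold indF; split_ifs <;> norm_num

theorem indF_zero_or_one {W : Type*} [DecidableEq W] (D : Finset W) (v : W) :
    indF D v = 0 ∨ indF D v = 1 := by
  unfold indF; split_ifs <;> simp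

theorem sum_indF {W : Type*} [Fintype W] [DecidableEq W] (D : Finset W) :
    ∑ v, indF D v = D.card := by
  unfold indF
  simp

/-- the Cauchy-Schwarz step with the sharp exponent -/
theorem head_node (k : ℕ) (D : Finset (Pos k)) (a b : Perm (Pos k)) :
    ∑ g, ∑ g', cf (rev (nu k)) g * cf (rev (nu k)) g' * colTr 1 (indF D) (b⁻¹ * g'⁻¹ * g * a)
      ≤ Real.exp (etaS k * D.card) := by
  have key : ∀ c : Perm (Pos k), XX 1 (rev (rev (nu k)) * rev (nu k)) (indF D ∘ ⇑(c⁻¹))
      ≤ Real.exp (etaS k * D.card) := by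
    intro c
    rw [rev_rev, XX_nu_mid]
    have h := XX_bA_eta k (y := indF D ∘ ⇑(c⁻¹) ∘ ⇑(nuRev k).symm)
      (fun v => indF_zero_or_one D _)
    have e : ∑ v, (indF D ∘ ⇑(c⁻¹) ∘ ⇑(nuRev k).symm) v = (D.card : ℝ) := by
      rw [← sum_indF D]
      exact Fintype.sum_equiv ((nuRev k).symm.trans (c⁻¹)) _ _ fun _ => rfl
    rw [e] at h
    exact h
  exact cs_colTr (rev (nu k)) (indF_nonneg D) a b (key a) (key b)

/-- the top of a tree -/
theorem head_top (k : ℕ) (D : Finset (Pos k)) (i1 i2 : Coin k) :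
    EO k (fun o1 => EO k (fun o2 => (NodeN D (cperm k i1 o1) (cperm k i2 o2) : ℝ)))
      ≤ Real.exp (etaS k * D.card) := by
  have h : ∀ o1 o2 : Coin k, (NodeN D (cperm k i1 o1) (cperm k i2 o2) : ℝ)
      = colTr 1 (indF D) ((Vp k i2)⁻¹ * (Wp k o2)⁻¹ * Wp k o1 * Vp k i1) := by
    intro o1 o2
    have h1 := NodeN_pow D (cperm k i1 o1) (cperm k i2 o2) 1
    rw [pow_one] at h1
    rw [h1]
    have e : (cperm k i2 o2)⁻¹ * cperm k i1 o1 = (Vp k i2)⁻¹ * (Wp k o2)⁻¹ * Wp k o1 * Vp k i1 := by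
      unfold cperm
      rw [mul_inv_rev]
      simp only [mul_assoc]
    rw [e]
    rfl
  simp_rw [h]
  have := EO_Wp_two k (fun g g' => colTr 1 (indF D) ((Vp k i2)⁻¹ * g'⁻¹ * g * Vp k i1))
  rw [this]
  exact head_node k D (Vp k i1) (Vp k i2)

/-- **The head bound**, for fixed in coins: `E_o A_m ≤ exp (η̃_{m-1} D_m)`. -/
theorem head_bound : ∀ (k m : ℕ) (S : Finset (Pos k)) (i : Coin k), 1 ≤ m → m ≤ k →
    EO k (fun o => NNlev k m S i o) ≤ Real.exp (etaS (m - 1) * DblLev k m S i)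
  | 0, m, S, i, h1, h2 => by omega
  | k + 1, m, S, i, h1, h2 => by
    rw [EO_succ]
    by_cases hm : m = k + 1
    · subst hm
      have e : ∀ (c : Pos k → Bool) (o1 o2 : Coin k), NNlev (k + 1) (k + 1) S i (c, o1, o2)
          = (NodeN (V := Pos k) (Dbl (V := Pos k) S) (cperm k i.2.1 o1) (cperm k i.2.2 o2) : ℝ) := by
        intro c o1 o2
        show (if k + 1 = k + 1 then _ else _) = _
        rw [if_pos rfl]
      simp_rw [e]
      rw [avg_gate_const]
      have hD : DblLev (k + 1) (k + 1) S i = (Dbl (V := Pos k) S).card := by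
        show (if k + 1 = k + 1 then _ else _) = _
        rw [if_pos rfl]
      rw [hD]
      exact head_top k _ _ _
    · have e : ∀ (c : Pos k → Bool) (o1 o2 : Coin k), NNlev (k + 1) m S i (c, o1, o2)
          = NNlev k m (SU (V := Pos k) S i.1) i.2.1 o1 * NNlev k m (SL (V := Pos k) S i.1) i.2.2 o2 := by
        intro c o1 o2
        show (if m = k + 1 then _ else _) = _
        rw [if_neg hm]
      simp_rw [e, EO_const_mul, EO_mul_const]
      rw [avg_gate_const]
      have hD : DblLev (k + 1) m S i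
          = DblLev k m (SU (V := Pos k) S i.1) i.2.1 + DblLev k m (SL (V := Pos k) S i.1) i.2.2 := by
        show (if m = k + 1 then _ else _) = _
        rw [if_neg hm]
      rw [hD]
      have hk : m ≤ k := by omega
      have b1 := head_bound k m (SU (V := Pos k) S i.1) i.2.1 h1 hk
      have b2 := head_bound k m (SL (V := Pos k) S i.1) i.2.2 h1 hk
      have hpos : 0 ≤ EO k fun o => NNlev k m (SL (V := Pos k) S i.1) i.2.2 o :=
        EO_nonneg k fun o => (NNlev_pos _ _ _ _ _).le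
      refine (mul_le_mul b1 b2 hpos (Real.exp_pos _).le).trans (le_of_eq ?_)
      rw [← Real.exp_add]
      congr 1
      push_cast
      ring

end Crest.Agent.Lib.Thorp
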