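import Mathlib

set_option autoImplicit false

/-!
# The `L¹ → L²` Jensen chain (S0222)

No Riesz-Thorin: for a row-stochastic kernel `K` with `∑_x (K x z)^q ≤ C` for every column `z`, the
pointwise Jensen inequality `(Kf)^r ≤ K (f^r)` together with Minkowski in `L^q` gives
`∑ (Kf)^{rq} ≤ C (∑ f^r)^q`.  Iterating `m` times from a point mass, with `q^m = 2`, gives
`∑_x (K^m x z)^2 ≤ C^{(q^m-1)/(q-1)} = C^{1/δ}`.
-/

namespace Crest.Agent.Lib.Thorp

open Finset Matrix

variable {Ω : Type*} [Fintype Ω] [DecidableEq Ω]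

/-- Minkowski for a finite nonnegative combination of functions. -/
theorem minkowski_sum {X Z : Type*} [Fintype X] (s : Finset Z) (a : Z → ℝ) (ha : ∀ z, 0 ≤ a z)
    (K : X → Z → ℝ) (hK : ∀ x z, 0 ≤ K x z) {q : ℝ} (hq : 1 ≤ q) :
    (∑ x, (∑ z ∈ s, a z * K x z) ^ q) ^ (1 / q) ≤ ∑ z ∈ s, a z * (∑ x, (K x z) ^ q) ^ (1 / q) := by
  classical
  have hq0 : 0 < q := by linarith
  induction s using Finset.induction_on with
  | empty =>
    simp only [Finset.sum_empty]
    rw [Real.zero_rpow hq0.ne']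
    simp only [Finset.sum_const_zero]
    rw [Real.zero_rpow (by positivity)]
  | insert b s hb ih =>
    rw [Finset.sum_insert hb]
    simp only [Finset.sum_insert hb]
    have h1 := Real.Lp_add_le_of_nonneg (s := Finset.univ) (f := fun x => a b * K x b)
      (g := fun x => ∑ z ∈ s, a z * K x z) hq
      (fun x _ => mul_nonneg (ha b) (hK x b))
      (fun x _ => Finset.sum_nonneg fun z _ => mul_nonneg (ha z) (hK x z))
    refine h1.trans ?_
    refine add_le_add ?_ ih
    have h2 : ∀ x, (a b * K x b) ^ q = (a b) ^ q * (K x b) ^ q := fun x =>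
      Real.mul_rpow (ha b) (hK x b)
    simp only [h2, ← Finset.mul_sum]
    rw [Real.mul_rpow (Real.rpow_nonneg (ha b) q)
      (Finset.sum_nonneg fun x _ => Real.rpow_nonneg (hK x b) q)]
    rw [← Real.rpow_mul (ha b)]
    rw [mul_one_div_cancel hq0.ne', Real.rpow_one]

omit [DecidableEq Ω] in
/-- One step of the chain: Jensen + Minkowski. -/
theorem chain_step (K : Matrix Ω Ω ℝ) (hK : ∀ x z, 0 ≤ K x z) (hrow : ∀ x, ∑ z, K x z = 1)
    {q r C : ℝ} (hq : 1 ≤ q) (hr : 1 ≤ r) (hC : ∀ z, ∑ x, (K x z) ^ q ≤ C)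
    (f : Ω → ℝ) (hf : ∀ x, 0 ≤ f x) :
    ∑ x, (K.mulVec f x) ^ (r * q) ≤ C * (∑ z, (f z) ^ r) ^ q := by
  have hq0 : 0 < q := by linarith
  have hmv : ∀ x, 0 ≤ K.mulVec f x := fun x => by
    simp only [Matrix.mulVec, dotProduct]
    exact Finset.sum_nonneg fun z _ => mul_nonneg (hK x z) (hf z)
  set a : Ω → ℝ := fun z => (f z) ^ r with ha
  have ha0 : ∀ z, 0 ≤ a z := fun z => Real.rpow_nonneg (hf z) r
  -- pointwise Jensen
  have hJ : ∀ x, (K.mulVec f x) ^ r ≤ ∑ z, a z * K x z := fun x => by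
    have := Real.rpow_arith_mean_le_arith_mean_rpow Finset.univ (fun z => K x z) f
      (fun z _ => hK x z) (hrow x) (fun z _ => hf z) hr
    simp only [Matrix.mulVec, dotProduct]
    refine this.trans (le_of_eq ?_)
    apply Finset.sum_congr rfl
    intro z _
    rw [ha]; ring
  have hG0 : ∀ x, 0 ≤ ∑ z, a z * K x z := fun x =>
    Finset.sum_nonneg fun z _ => mul_nonneg (ha0 z) (hK x z)
  have h1 : ∑ x, (K.mulVec f x) ^ (r * q) ≤ ∑ x, (∑ z, a z * K x z) ^ q := by
    apply Finset.sum_le_sum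
    intro x _
    rw [Real.rpow_mul (hmv x)]
    exact Real.rpow_le_rpow (Real.rpow_nonneg (hmv x) r) (hJ x) hq0.le
  refine h1.trans ?_
  have hM := minkowski_sum Finset.univ a ha0 (fun x z => K x z) hK hq
  have hCz : ∀ z, 0 ≤ ∑ x, (K x z) ^ q := fun z =>
    Finset.sum_nonneg fun x _ => Real.rpow_nonneg (hK x z) q
  -- handle the empty case: `C` may be negative only if `Ω` is empty
  have hS0 : 0 ≤ ∑ x, (∑ z, a z * K x z) ^ q :=
    Finset.sum_nonneg fun x _ => Real.rpow_nonneg (hG0 x) q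
  by_cases hne : Nonempty Ω
  · obtain ⟨z0⟩ := hne
    have hC0 : 0 ≤ C := (hCz z0).trans (hC z0)
    have hB : ∀ z, (∑ x, (K x z) ^ q) ^ (1 / q) ≤ C ^ (1 / q) := fun z =>
      Real.rpow_le_rpow (hCz z) (hC z) (by positivity)
    have hM2 : (∑ x, (∑ z, a z * K x z) ^ q) ^ (1 / q) ≤ C ^ (1 / q) * ∑ z, a z := by
      refine hM.trans ?_
      rw [Finset.mul_sum]
      apply Finset.sum_le_sum
      intro z _
      rw [mul_comm]
      exact mul_le_mul_of_nonneg_right (hB z) (ha0 z)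
    have hM3 := Real.rpow_le_rpow (Real.rpow_nonneg hS0 _) hM2 hq0.le
    rw [← Real.rpow_mul hS0, one_div_mul_cancel hq0.ne', Real.rpow_one,
      Real.mul_rpow (Real.rpow_nonneg hC0 _) (Finset.sum_nonneg fun z _ => ha0 z),
      ← Real.rpow_mul hC0, one_div_mul_cancel hq0.ne', Real.rpow_one] at hM3
    exact hM3
  · have : IsEmpty Ω := not_nonempty_iff.mp hne
    simp only [Finset.univ_eq_empty, Finset.sum_empty]
    rw [Real.zero_rpow hq0.ne', mul_zero]

/-- the exponent in the chain -/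
noncomputable def chainExp (q : ℝ) : ℕ → ℝ
  | 0 => 0
  | i + 1 => 1 + q * chainExp q i

theorem chainExp_eq {q : ℝ} (hq : q ≠ 1) (i : ℕ) : chainExp q i * (q - 1) = q ^ i - 1 := by
  induction i with
  | zero => simp [chainExp]
  | succ i ih =>
    simp only [chainExp]
    have hq' : q - 1 ≠ 0 := sub_ne_zero.mpr hq
    rw [pow_succ]
    have : (1 + q * chainExp q i) * (q - 1) = (q - 1) + q * (chainExp q i * (q - 1)) := by ring
    rw [this, ih]; ring

theorem chainExp_nonneg {q : ℝ} (hq : 0 ≤ q) (i : ℕ) : 0 ≤ chainExp q i := by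
  induction i with
  | zero => simp [chainExp]
  | succ i ih =>
    simp only [chainExp]
    positivity

/-- Iterating the step from a point mass. -/
theorem chain_iter (K : Matrix Ω Ω ℝ) (hK : ∀ x z, 0 ≤ K x z) (hrow : ∀ x, ∑ z, K x z = 1)
    {q C : ℝ} (hq : 1 ≤ q) (hC : ∀ z, ∑ x, (K x z) ^ q ≤ C) (z : Ω) (i : ℕ) :
    ∑ x, ((K ^ i) x z) ^ (q ^ i) ≤ C ^ (chainExp q i) := by
  have hq0 : 0 < q := by linarith
  have hC0 : 0 ≤ C := (Finset.sum_nonneg fun x _ => Real.rpow_nonneg (hK x z) q).trans (hC z)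
  have hnn : ∀ i (x y : Ω), 0 ≤ (K ^ i) x y := by
    intro i
    induction i with
    | zero =>
      intro x y
      rw [pow_zero, Matrix.one_apply]
      split_ifs <;> norm_num
    | succ i ih =>
      intro x y
      rw [pow_succ', Matrix.mul_apply]
      exact Finset.sum_nonneg fun w _ => mul_nonneg (hK x w) (ih w y)
  have hcol : ∀ i, (fun x => (K ^ (i + 1)) x z) = K.mulVec (fun y => (K ^ i) y z) := by
    intro i
    funext x
    rw [pow_succ', Matrix.mul_apply]
    rfl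
  induction i with
  | zero =>
    simp only [pow_zero, chainExp, Real.rpow_zero, Real.rpow_one]
    simp [Matrix.one_apply]
  | succ i ih =>
    have hstep := chain_step K hK hrow hq (r := q ^ i) (one_le_pow₀ hq) hC
      (fun y => (K ^ i) y z) (fun y => hnn i y z)
    have h1 : ∑ x, ((K ^ (i + 1)) x z) ^ (q ^ (i + 1))
        = ∑ x, (K.mulVec (fun y => (K ^ i) y z) x) ^ (q ^ i * q) := by
      apply Finset.sum_congr rfl
      intro x _
      have h3 : (K ^ (i + 1)) x z = K.mulVec (fun y => (K ^ i) y z) x := congrFun (hcol i) x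
      rw [h3, pow_succ q i]
    rw [h1]
    refine hstep.trans ?_
    have hS0 : 0 ≤ ∑ y, ((K ^ i) y z) ^ (q ^ i) :=
      Finset.sum_nonneg fun y _ => Real.rpow_nonneg (hnn i y z) _
    have h2 := Real.rpow_le_rpow hS0 ih hq0.le
    refine (mul_le_mul_of_nonneg_left h2 hC0).trans (le_of_eq ?_)
    rw [← Real.rpow_mul hC0]
    simp only [chainExp]
    by_cases hC1 : C = 0
    · subst hC1
      have : (1 + q * chainExp q i) ≠ 0 := by
        have h0 : 0 ≤ chainExp q i := by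
          exact chainExp_nonneg hq0.le i
        positivity
      rw [Real.zero_rpow this]
      simp
    · have hCpos : 0 < C := lt_of_le_of_ne hC0 (Ne.symm hC1)
      rw [Real.rpow_add hCpos, Real.rpow_one, mul_comm (chainExp q i) q]

/-- The chain: column form. -/
theorem chain_col (K : Matrix Ω Ω ℝ) (hK : ∀ x z, 0 ≤ K x z) (hrow : ∀ x, ∑ z, K x z = 1)
    {δ C : ℝ} (hδ : 0 < δ) {m : ℕ} (hm : (1 + δ) ^ m = 2)
    (hC : ∀ z, ∑ x, (K x z) ^ (1 + δ) ≤ C) (z : Ω) :
    ∑ x, ((K ^ m) x z) ^ 2 ≤ C ^ (1 / δ) := by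
  have h := chain_iter K hK hrow (q := 1 + δ) (by linarith) hC z m
  have hE : chainExp (1 + δ) m = 1 / δ := by
    have := chainExp_eq (q := 1 + δ) (by intro h; linarith) m
    rw [hm] at this
    have hd : (1 + δ - 1) = δ := by ring
    rw [hd] at this
    field_simp
    linarith
  rw [hE, hm] at h
  refine le_trans (le_of_eq ?_) h
  apply Finset.sum_congr rfl
  intro x _
  exact (Real.rpow_two _).symm

/-- The chain: the Hilbert-Schmidt form used for `S0222`.  `D` is a bound for the Renyi divergence of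
order `1 + δ` of all columns from the uniform law. -/
theorem chain_hs (K : Matrix Ω Ω ℝ) (hK : ∀ x z, 0 ≤ K x z) (hrow : ∀ x, ∑ z, K x z = 1)
    {δ D : ℝ} (hδ : 0 < δ) {m : ℕ} (hm : (1 + δ) ^ m = 2)
    (hD : ∀ z, ((Fintype.card Ω : ℝ)) ^ δ * ∑ x, (K x z) ^ (1 + δ) ≤ Real.exp (δ * D)) :
    ∑ z, ∑ x, ((K ^ m) x z) ^ 2 ≤ Real.exp D := by
  by_cases hne : Nonempty Ω
  · have hNpos : (0 : ℝ) < (Fintype.card Ω : ℝ) := by
      exact_mod_cast Fintype.card_pos
    set N : ℝ := (Fintype.card Ω : ℝ) with hN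
    have hNd : 0 < N ^ δ := Real.rpow_pos_of_pos hNpos δ
    have hC : ∀ z, ∑ x, (K x z) ^ (1 + δ) ≤ (N ^ δ)⁻¹ * Real.exp (δ * D) := fun z => by
      rw [← div_eq_inv_mul, le_div_iff₀ hNd, mul_comm]
      exact hD z
    have h1 : ∀ z, ∑ x, ((K ^ m) x z) ^ 2 ≤ N⁻¹ * Real.exp D := fun z => by
      refine (chain_col K hK hrow hδ hm hC z).trans (le_of_eq ?_)
      rw [Real.mul_rpow (inv_nonneg.mpr hNd.le) (Real.exp_pos _).le]
      rw [Real.inv_rpow hNd.le, ← Real.rpow_mul hNpos.le, mul_one_div_cancel hδ.ne', Real.rpow_one]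
      rw [← Real.exp_mul, mul_one_div]
      congr 2
      field_simp
    calc ∑ z, ∑ x, ((K ^ m) x z) ^ 2 ≤ ∑ _z : Ω, N⁻¹ * Real.exp D :=
          Finset.sum_le_sum fun z _ => h1 z
      _ = Real.exp D := by
          rw [Finset.sum_const, Finset.card_univ, nsmul_eq_mul, ← hN, ← mul_assoc,
            mul_inv_cancel₀ hNpos.ne', one_mul]
  · have : IsEmpty Ω := not_nonempty_iff.mp hne
    simp only [Finset.univ_eq_empty, Finset.sum_empty]
    exact (Real.exp_pos _).le

/-- Trace form for a symmetric kernel: `tr K^{2m} ≤ e^D`. -/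
theorem chain_trace (K : Matrix Ω Ω ℝ) (hsym : Kᵀ = K) (hK : ∀ x z, 0 ≤ K x z)
    (hrow : ∀ x, ∑ z, K x z = 1) {δ D : ℝ} (hδ : 0 < δ) {m : ℕ} (hm : (1 + δ) ^ m = 2)
    (hD : ∀ z, ((Fintype.card Ω : ℝ)) ^ δ * ∑ x, (K x z) ^ (1 + δ) ≤ Real.exp (δ * D)) :
    trace (K ^ (2 * m)) ≤ Real.exp D := by
  refine le_trans (le_of_eq ?_) (chain_hs K hK hrow hδ hm hD)
  have hsymm : (K ^ m)ᵀ = K ^ m := by rw [Matrix.transpose_pow, hsym]
  rw [two_mul, pow_add]
  simp only [Matrix.trace, Matrix.diag_apply, Matrix.mul_apply]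
  apply Finset.sum_congr rfl
  intro z _
  apply Finset.sum_congr rfl
  intro x _
  have : (K ^ m) z x = (K ^ m) x z := by
    conv_lhs => rw [← hsymm]
    rfl
  rw [this, sq]

/-- Exponent for `m = 32`: `δ = 2^(1/32) - 1`. -/
theorem one_add_delta_pow (m : ℕ) (hm : m ≠ 0) :
    (1 + ((2 : ℝ) ^ ((1 : ℝ) / m) - 1)) ^ m = 2 := by
  have : (1 + ((2 : ℝ) ^ ((1 : ℝ) / m) - 1)) = (2 : ℝ) ^ ((1 : ℝ) / m) := by ring
  rw [this, ← Real.rpow_natCast, ← Real.rpow_mul (by norm_num)]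
  rw [one_div_mul_cancel (by exact_mod_cast hm), Real.rpow_one]

end Crest.Agent.Lib.Thorp
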