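import Mathlib

set_option autoImplicit false

/-!
Orthogonal projection matrices onto submodules of `n → ℝ`, and the trace inequality for a
commuting positive matrix along a surjection (subadditivity of the trace on invariant subspaces,
no Young diagrams).
-/

namespace Crest.Agent.Lib.Thorp

open Matrix

variable {n : Type*} [Fintype n] [DecidableEq n]

/-- `P` is the orthogonal projection matrix onto `S` -/
structure IsProj (P : Matrix n n ℝ) (S : Submodule ℝ (n → ℝ)) : Prop where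
  symm : Pᵀ = P
  range : ∀ v, P *ᵥ v ∈ S
  fix : ∀ v ∈ S, P *ᵥ v = v

theorem matrix_ext_mulVec {m : Type*} [Fintype m] [DecidableEq m] (A B : Matrix n m ℝ)
    (h : ∀ v, A *ᵥ v = B *ᵥ v) : A = B := by
  ext i j
  have := congrFun (h (Pi.single j 1)) i
  simpa using this

theorem exists_isProj (S : Submodule ℝ (n → ℝ)) : ∃ P : Matrix n n ℝ, IsProj P S := by
  classical
  let e : EuclideanSpace ℝ n ≃ₗ[ℝ] (n → ℝ) := WithLp.linearEquiv 2 ℝ (n → ℝ)
  let SE : Submodule ℝ (EuclideanSpace ℝ n) := S.comap e.toLinearMap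
  let PE : EuclideanSpace ℝ n →L[ℝ] EuclideanSpace ℝ n := SE.starProjection
  let L : (n → ℝ) →ₗ[ℝ] (n → ℝ) := e.toLinearMap ∘ₗ PE.toLinearMap ∘ₗ e.symm.toLinearMap
  refine ⟨LinearMap.toMatrix' L, ?_, ?_, ?_⟩
  · -- symmetry from self-adjointness
    have hs : ∀ u v : n → ℝ, u ⬝ᵥ L v = L u ⬝ᵥ v := by
      intro u v
      have h := Submodule.inner_starProjection_left_eq_right SE (e.symm u) (e.symm v)
      have conv : ∀ a b : EuclideanSpace ℝ n, inner ℝ a b = (e a) ⬝ᵥ (e b) := by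
        intro a b
        simp [e, PiLp.inner_apply, dotProduct, mul_comm]
      rw [conv, conv] at h
      simp only [LinearEquiv.apply_symm_apply] at h
      exact h.symm
    ext i j
    rw [Matrix.transpose_apply]
    have h1 := hs (Pi.single j 1) (Pi.single i 1)
    simp only [single_one_dotProduct, dotProduct_single_one] at h1
    simp only [LinearMap.toMatrix'_apply]
    exact h1
  · intro v
    rw [LinearMap.toMatrix'_mulVec]
    show e (PE (e.symm v)) ∈ S
    have : PE (e.symm v) ∈ SE := Submodule.starProjection_apply_mem SE _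
    exact this
  · intro v hv
    rw [LinearMap.toMatrix'_mulVec]
    show e (PE (e.symm v)) = v
    have h1 : e.symm v ∈ SE := by
      show e (e.symm v) ∈ S
      simpa using hv
    have : PE (e.symm v) = e.symm v := Submodule.starProjection_eq_self_iff.mpr h1
    rw [this]
    simp

namespace IsProj

variable {P : Matrix n n ℝ} {S : Submodule ℝ (n → ℝ)}

theorem idem (h : IsProj P S) : P * P = P := by
  apply matrix_ext_mulVec
  intro v
  rw [← Matrix.mulVec_mulVec, h.fix _ (h.range v)]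

theorem dot_symm (h : IsProj P S) (u v : n → ℝ) : (P *ᵥ u) ⬝ᵥ v = u ⬝ᵥ (P *ᵥ v) := by
  conv_lhs => rw [← h.symm]
  rw [Matrix.mulVec_transpose, dotProduct_comm]
  rw [Matrix.dotProduct_mulVec]
  rw [dotProduct_comm]

end IsProj

/-- A matrix preserving `S` together with its transpose commutes with the projection. -/
theorem comm_of_invariant {P M : Matrix n n ℝ} {S : Submodule ℝ (n → ℝ)} (hP : IsProj P S)
    (h1 : ∀ v ∈ S, M *ᵥ v ∈ S) (h2 : ∀ v ∈ S, Mᵀ *ᵥ v ∈ S) : M * P = P * M := by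
  have e1 : P * M * P = M * P := by
    apply matrix_ext_mulVec
    intro v
    rw [← Matrix.mulVec_mulVec, ← Matrix.mulVec_mulVec, ← Matrix.mulVec_mulVec,
      hP.fix _ (h1 _ (hP.range v))]
  have e2 : P * Mᵀ * P = Mᵀ * P := by
    apply matrix_ext_mulVec
    intro v
    rw [← Matrix.mulVec_mulVec, ← Matrix.mulVec_mulVec, ← Matrix.mulVec_mulVec,
      hP.fix _ (h2 _ (hP.range v))]
  have e3 := congrArg Matrix.transpose e2
  simp only [Matrix.transpose_mul, Matrix.transpose_transpose, hP.symm] at e3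
  rw [← e1]
  rw [Matrix.mul_assoc]
  exact e3

/-- positive semidefinite in the plain sense -/
def PSDm (M : Matrix n n ℝ) : Prop := ∀ v, 0 ≤ v ⬝ᵥ (M *ᵥ v)

theorem trace_nonneg_of_PSDm {M : Matrix n n ℝ} (h : PSDm M) : 0 ≤ trace M := by
  have : trace M = ∑ i, (Pi.single i 1 : n → ℝ) ⬝ᵥ (M *ᵥ Pi.single i 1) := by
    simp [Matrix.trace]
  rw [this]
  exact Finset.sum_nonneg fun i _ => h _

theorem PSDm_conj {M : Matrix n n ℝ} {m : Type*} [Fintype m] (h : PSDm M) (Z : Matrix n m ℝ) :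
    ∀ v : m → ℝ, 0 ≤ v ⬝ᵥ ((Zᵀ * M * Z) *ᵥ v) := by
  intro v
  have : v ⬝ᵥ ((Zᵀ * M * Z) *ᵥ v) = (Z *ᵥ v) ⬝ᵥ (M *ᵥ (Z *ᵥ v)) := by
    rw [← Matrix.mulVec_mulVec, ← Matrix.mulVec_mulVec, Matrix.dotProduct_mulVec]
    rw [Matrix.vecMul_transpose]
  rw [this]
  exact h _

/-- Monotonicity of the trace in the projection. -/
theorem trace_mul_proj_le {M Q₁ Q₂ : Matrix n n ℝ} {S₁ S₂ : Submodule ℝ (n → ℝ)}
    (hM : PSDm M) (h₁ : IsProj Q₁ S₁) (h₂ : IsProj Q₂ S₂) (hS : S₁ ≤ S₂)
    (c₁ : M * Q₁ = Q₁ * M) (c₂ : M * Q₂ = Q₂ * M) : trace (M * Q₁) ≤ trace (M * Q₂) := by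
  have e21 : Q₂ * Q₁ = Q₁ := by
    apply matrix_ext_mulVec
    intro v
    rw [← Matrix.mulVec_mulVec, h₂.fix _ (hS (h₁.range v))]
  have e12 : Q₁ * Q₂ = Q₁ := by
    have := congrArg Matrix.transpose e21
    simpa [Matrix.transpose_mul, h₁.symm, h₂.symm] using this
  set Z := Q₂ - Q₁ with hZ
  have hZt : Zᵀ = Z := by rw [hZ, Matrix.transpose_sub, h₁.symm, h₂.symm]
  have hZZ : Z * Z = Z := by
    rw [hZ, Matrix.sub_mul, Matrix.mul_sub, Matrix.mul_sub, h₂.idem, h₁.idem, e21, e12]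
    abel
  have hMZ : M * Z = Z * M := by
    rw [hZ, Matrix.mul_sub, Matrix.sub_mul, c₁, c₂]
  have h0 : 0 ≤ trace (Zᵀ * M * Z) := by
    apply trace_nonneg_of_PSDm
    exact PSDm_conj hM Z
  have h1 : Zᵀ * M * Z = M * Z := by
    rw [hZt, ← hMZ, Matrix.mul_assoc, hZZ]
  rw [h1, hZ, Matrix.mul_sub, Matrix.trace_sub] at h0
  linarith

/-- **Trace subadditivity along a surjection.** `M` positive, commuting with the projections `Q`
(onto `S`) and `P i` (onto `S i`); if `S ⊆ Q (Σ S i)`, then `tr (M Q) ≤ Σ tr (M (P i))`. -/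
theorem trace_mul_proj_le_sum {I : Type*} [Fintype I] [DecidableEq I]
    {M Q : Matrix n n ℝ} {P : I → Matrix n n ℝ} {S : Submodule ℝ (n → ℝ)}
    {T : I → Submodule ℝ (n → ℝ)}
    (hM : PSDm M) (hQ : IsProj Q S) (hP : ∀ i, IsProj (P i) (T i))
    (cQ : M * Q = Q * M) (cP : ∀ i, M * P i = P i * M)
    (hspan : ∀ f ∈ S, ∃ x : I → (n → ℝ), (∀ i, x i ∈ T i) ∧ f = Q *ᵥ ∑ i, x i) :
    trace (M * Q) ≤ ∑ i, trace (M * P i) := by
  classical
  -- the block objects
  let Φ : Matrix n (I × n) ℝ := Matrix.of fun u p => (Q * P p.1) u p.2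
  let MX : Matrix (I × n) (I × n) ℝ :=
    Matrix.of fun p q => if p.1 = q.1 then (M * P q.1) p.2 q.2 else 0
  have hMX_tr : trace MX = ∑ i, trace (M * P i) := by
    simp only [Matrix.trace, Matrix.diag, MX, Matrix.of_apply, if_true]
    rw [Fintype.sum_prod_type]
  have hΦmul : ∀ x : I × n → ℝ, Φ *ᵥ x = Q *ᵥ ∑ i, (P i *ᵥ fun v => x (i, v)) := by
    intro x
    have e : Q *ᵥ (∑ i, (P i *ᵥ fun v => x (i, v))) = ∑ i, (Q * P i) *ᵥ fun v => x (i, v) := by
      have := map_sum (Matrix.mulVecLin Q) (fun i => P i *ᵥ fun v => x (i, v)) Finset.univ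
      simp only [Matrix.mulVecLin_apply, Matrix.mulVec_mulVec] at this
      exact this
    rw [e]
    funext u
    rw [Finset.sum_apply]
    show ∑ p : I × n, Φ u p * x p = _
    rw [Fintype.sum_prod_type]
    rfl
  have hΦM : Φ * MX = M * Φ := by
    ext u q
    rcases q with ⟨j, v⟩
    have L : (Φ * MX) u (j, v) = ∑ i, ∑ w, (Q * P i) u w * (if i = j then (M * P j) w v else 0) := by
      rw [Matrix.mul_apply, Fintype.sum_prod_type]
      rfl
    have R : (M * Φ) u (j, v) = (M * (Q * P j)) u v := by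
      rw [Matrix.mul_apply, Matrix.mul_apply]
      rfl
    rw [L, R]
    have h1 : ∀ i : I, ∑ w, (Q * P i) u w * (if i = j then (M * P j) w v else 0)
        = if i = j then ((Q * P j) * (M * P j)) u v else 0 := by
      intro i
      by_cases hij : i = j
      · subst hij
        simp only [if_true]
        rw [Matrix.mul_apply]
      · simp [hij]
    simp only [h1, Finset.sum_ite_eq', Finset.mem_univ, if_true]
    have h2 : (Q * P j) * (M * P j) = M * (Q * P j) := by
      calc (Q * P j) * (M * P j) = Q * (P j * M) * P j := by simp only [Matrix.mul_assoc]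
        _ = Q * (M * P j) * P j := by rw [cP j]
        _ = Q * M * (P j * P j) := by simp only [Matrix.mul_assoc]
        _ = M * (Q * P j) := by rw [(hP j).idem, ← cQ, Matrix.mul_assoc]
    rw [h2]
  have hMXpsd : PSDm MX := by
    intro x
    have hmv : ∀ p : I × n, (MX *ᵥ x) p = ((M * P p.1) *ᵥ (fun v => x (p.1, v))) p.2 := by
      rintro ⟨i, u⟩
      show ∑ q : I × n, MX (i, u) q * x q = ∑ v, (M * P i) u v * x (i, v)
      rw [Fintype.sum_prod_type, Finset.sum_eq_single i]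
      · apply Finset.sum_congr rfl
        intro v _
        simp [MX]
      · intro j _ hj
        have : i ≠ j := fun e => hj e.symm
        simp [MX, this]
      · simp
    have h1 : x ⬝ᵥ (MX *ᵥ x)
        = ∑ i, (P i *ᵥ fun v => x (i, v)) ⬝ᵥ (M *ᵥ (P i *ᵥ fun v => x (i, v))) := by
      have h2 : ∀ i, (P i *ᵥ fun v => x (i, v)) ⬝ᵥ (M *ᵥ (P i *ᵥ fun v => x (i, v)))
          = (fun v => x (i, v)) ⬝ᵥ ((M * P i) *ᵥ fun v => x (i, v)) := by
        intro i
        have e : P i * M * P i = M * P i := by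
          rw [← cP i, Matrix.mul_assoc, (hP i).idem]
        rw [(hP i).dot_symm, Matrix.mulVec_mulVec, Matrix.mulVec_mulVec, e]
      simp only [h2]
      show ∑ p : I × n, x p * (MX *ᵥ x) p = _
      rw [Fintype.sum_prod_type]
      apply Finset.sum_congr rfl
      intro i _
      apply Finset.sum_congr rfl
      intro u _
      rw [hmv]
    rw [h1]
    exact Finset.sum_nonneg fun i _ => hM _
  -- the kernel
  let K : Submodule ℝ (I × n → ℝ) := LinearMap.ker (Matrix.mulVecLin Φ)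
  obtain ⟨Z, hZ⟩ := exists_isProj K
  have hΦZ : Φ * Z = 0 := by
    apply matrix_ext_mulVec
    intro v
    rw [← Matrix.mulVec_mulVec]
    have : Φ *ᵥ (Z *ᵥ v) = 0 := hZ.range v
    rw [this]
    simp
  -- a right inverse
  have hcol : ∀ u : n, ∃ x : I × n → ℝ, Φ *ᵥ x = Q *ᵥ (Pi.single u 1) := by
    intro u
    obtain ⟨x, hx, hf⟩ := hspan _ (hQ.range (Pi.single u 1))
    refine ⟨fun p => x p.1 p.2, ?_⟩
    rw [hΦmul, hf]
    congr 1
    apply Finset.sum_congr rfl
    intro i _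
    exact (hP i).fix _ (hx i)
  choose col hcol' using hcol
  let Ψ₀ : Matrix (I × n) n ℝ := Matrix.of fun p u => col u p
  have hΦΨ₀ : Φ * Ψ₀ = Q := by
    ext a u
    have := congrFun (hcol' u) a
    rw [Matrix.mulVec_single_one] at this
    exact this
  have hQΦ : Q * Φ = Φ := by
    ext a q
    rw [Matrix.mul_apply]
    show ∑ w, Q a w * (Q * P q.1) w q.2 = (Q * P q.1) a q.2
    rw [← Matrix.mul_apply, ← Matrix.mul_assoc, hQ.idem]
  -- the main computation
  set Pp : Matrix (I × n) (I × n) ℝ := 1 - Z with hPp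
  have h1 : Φ * (Pp * Ψ₀) = Q := by
    rw [hPp, Matrix.sub_mul, Matrix.one_mul, Matrix.mul_sub, hΦΨ₀, ← Matrix.mul_assoc, hΦZ]
    simp
  have h2 : (Pp * Ψ₀) * Φ = Pp := by
    have hD : Φ * (Ψ₀ * Φ - 1) = 0 := by
      rw [Matrix.mul_sub, ← Matrix.mul_assoc, hΦΨ₀, hQΦ]
      simp
    have hZD : Z * (Ψ₀ * Φ - 1) = Ψ₀ * Φ - 1 := by
      apply matrix_ext_mulVec
      intro v
      rw [← Matrix.mulVec_mulVec]
      apply hZ.fix
      show Φ *ᵥ ((Ψ₀ * Φ - 1) *ᵥ v) = 0
      rw [Matrix.mulVec_mulVec, hD]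
      simp
    have : Pp * (Ψ₀ * Φ - 1) = 0 := by
      rw [hPp, Matrix.sub_mul, Matrix.one_mul, hZD]
      simp
    rw [Matrix.mul_sub, Matrix.mul_one, sub_eq_zero] at this
    rw [Matrix.mul_assoc]
    exact this
  have h3 : trace (M * Q) = trace MX - trace (MX * Z) := by
    calc trace (M * Q) = trace (M * (Φ * (Pp * Ψ₀))) := by rw [h1]
      _ = trace ((M * Φ) * (Pp * Ψ₀)) := by rw [Matrix.mul_assoc]
      _ = trace ((Φ * MX) * (Pp * Ψ₀)) := by rw [hΦM]
      _ = trace (Φ * (MX * (Pp * Ψ₀))) := by rw [Matrix.mul_assoc]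
      _ = trace ((MX * (Pp * Ψ₀)) * Φ) := by rw [Matrix.trace_mul_comm]
      _ = trace (MX * ((Pp * Ψ₀) * Φ)) := by rw [Matrix.mul_assoc]
      _ = trace (MX * Pp) := by rw [h2]
      _ = trace MX - trace (MX * Z) := by
        rw [hPp, Matrix.mul_sub, Matrix.mul_one, Matrix.trace_sub]
  have h4 : 0 ≤ trace (MX * Z) := by
    have h5 : Z * (MX * Z) = MX * Z := by
      apply matrix_ext_mulVec
      intro v
      rw [← Matrix.mulVec_mulVec]
      apply hZ.fix
      show Φ *ᵥ ((MX * Z) *ᵥ v) = 0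
      rw [Matrix.mulVec_mulVec, ← Matrix.mul_assoc, hΦM, Matrix.mul_assoc, hΦZ]
      simp
    have h6 : Zᵀ * MX * Z = MX * Z := by
      rw [hZ.symm, Matrix.mul_assoc, h5]
    rw [← h6]
    apply trace_nonneg_of_PSDm
    exact PSDm_conj hMXpsd Z
  rw [h3, hMX_tr] at *
  linarith

end Crest.Agent.Lib.Thorp
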