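import Mathlib
import Crest.Agent.Lib.Thorp.Tower

set_option autoImplicit false

/-!
# Carrier for tuple functions (S0222)

`x : ι → V` are total assignments of cards `ι` to positions `V`; a function on `J`-tuples is a
function `f : (ι → V) → ℝ` depending only on the coordinates in `J` (`Meas J f`) and vanishing
unless `x` is injective on `J` (`SuppInj J f`): this avoids all subtypes; coordinate surgery is
`Function.update`. Inner product and norm are plain sums over all of `ι → V`. (So with `ι ≠ J`
every norm carries the same factor `|V|^(|ι|-|J|)`, harmless in ratios; take `ι = J` to get the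
exact value.)
-/

namespace Crest.Agent.Lib.Thorp

open Finset Equiv

variable {ι V : Type*} [Fintype ι] [DecidableEq ι] [Fintype V] [DecidableEq V]

/-- depends only on the coordinates in `J` -/
def Meas (J : Finset ι) (f : (ι → V) → ℝ) : Prop :=
  ∀ x y : ι → V, (∀ a ∈ J, x a = y a) → f x = f y

/-- vanishes unless injective on `J` -/
def SuppInj (J : Finset ι) (f : (ι → V) → ℝ) : Prop :=
  ∀ x : ι → V, ¬ Set.InjOn x (J : Set ι) → f x = 0

/-- summing out coordinate `a` gives zero -/
def PureAt (a : ι) (f : (ι → V) → ℝ) : Prop :=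
  ∀ x : ι → V, ∑ v, f (Function.update x a v) = 0

/-- functions on injective `J`-tuples -/
structure IsW (J : Finset ι) (f : (ι → V) → ℝ) : Prop where
  meas : Meas J f
  supp : SuppInj J f

/-- pure functions on injective `J`-tuples: the space `V_J` -/
structure IsPure (J : Finset ι) (f : (ι → V) → ℝ) : Prop extends IsW J f where
  pure : ∀ a ∈ J, PureAt a f

/-- inner product -/
def ip (f g : (ι → V) → ℝ) : ℝ := ∑ x, f x * g x

/-- squared norm -/
def nsq (f : (ι → V) → ℝ) : ℝ := ∑ x, f x ^ 2

/-- the position action -/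
noncomputable def opT (a : RG (Perm V)) (f : (ι → V) → ℝ) : (ι → V) → ℝ :=
  fun y => ∑ g, cf a g * f (fun i => g (y i))

/-- the norm bound `‖T f‖ ≤ θ ‖f‖` on `V_J`, `|J| = j`, for all card sets -/
def NormBd (a : RG (Perm V)) (j : ℕ) (θ : ℝ) : Prop :=
  ∀ (ι : Type) [Fintype ι] [DecidableEq ι] (J : Finset ι) (f : (ι → V) → ℝ),
    J.card = j → IsPure J f → nsq (opT a f) ≤ θ ^ 2 * nsq f

end Crest.Agent.Lib.Thorp
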