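import Mathlib
import Crest.Agent.Lib.Thorp.Tup
import Crest.Agent.Lib.Thorp.ProjTrace

set_option autoImplicit false

/-!
Basic calculus of tuple functions: closure properties, Fubini for a coordinate, `opT` preserves
`IsW`/`IsPure`, and the decomposition of `W_C` into pure part plus lifts from smaller sets.
-/

namespace Crest.Agent.Lib.Thorp

open Finset Equiv Matrix

variable {ι V : Type*} [Fintype ι] [DecidableEq ι] [Fintype V] [DecidableEq V]

omit [Fintype ι] [DecidableEq ι] [Fintype V] [DecidableEq V] in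
theorem IsW.add {J : Finset ι} {f g : (ι → V) → ℝ} (hf : IsW J f) (hg : IsW J g) :
    IsW J (f + g) :=
  ⟨fun x y h => by simp only [Pi.add_apply]; rw [hf.meas x y h, hg.meas x y h],
   fun x h => by simp only [Pi.add_apply]; rw [hf.supp x h, hg.supp x h, add_zero]⟩

omit [Fintype ι] [DecidableEq ι] [Fintype V] [DecidableEq V] in
theorem IsW.smul {J : Finset ι} {f : (ι → V) → ℝ} (r : ℝ) (hf : IsW J f) : IsW J (r • f) :=
  ⟨fun x y h => by simp only [Pi.smul_apply]; rw [hf.meas x y h],
   fun x h => by simp only [Pi.smul_apply]; rw [hf.supp x h, smul_zero]⟩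

omit [Fintype ι] [DecidableEq ι] [Fintype V] [DecidableEq V] in
theorem isW_zero (J : Finset ι) : IsW J (0 : (ι → V) → ℝ) :=
  ⟨fun _ _ _ => rfl, fun _ _ => rfl⟩

/-- `W_J` as a submodule -/
def WSub (J : Finset ι) : Submodule ℝ ((ι → V) → ℝ) where
  carrier := { f | IsW J f }
  add_mem' := IsW.add
  zero_mem' := isW_zero J
  smul_mem' := fun r _ hf => IsW.smul r hf

omit [Fintype ι] [DecidableEq ι] [Fintype V] [DecidableEq V] in
theorem injOn_comp_perm_iff (J : Finset ι) (g : Perm V) (y : ι → V) :
    Set.InjOn (fun i => g (y i)) (J : Set ι) ↔ Set.InjOn y (J : Set ι) := by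
  constructor
  · intro h a ha b hb e
    exact h ha hb (by simp [e])
  · intro h a ha b hb e
    exact h ha hb (g.injective e)

theorem opT_isW (a : RG (Perm V)) {J : Finset ι} {f : (ι → V) → ℝ} (hf : IsW J f) :
    IsW J (opT a f) := by
  constructor
  · intro x y h
    unfold opT
    apply Finset.sum_congr rfl
    intro g _
    rw [hf.meas (fun i => g (x i)) (fun i => g (y i))]
    intro b hb
    rw [h b hb]
  · intro x h
    unfold opT
    apply Finset.sum_eq_zero
    intro g _
    rw [hf.supp _ ((injOn_comp_perm_iff J g x).not.mpr h), mul_zero]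

omit [Fintype ι] in
theorem comp_update_perm (g : Perm V) (y : ι → V) (a : ι) (v : V) :
    (fun i => g (Function.update y a v i)) = Function.update (fun i => g (y i)) a (g v) := by
  funext i
  by_cases h : i = a
  · subst h; simp
  · simp [h]

theorem opT_pureAt (x : RG (Perm V)) {a : ι} {f : (ι → V) → ℝ} (hf : PureAt a f) :
    PureAt a (opT x f) := by
  intro y
  unfold opT
  rw [Finset.sum_comm]
  apply Finset.sum_eq_zero
  intro g _
  rw [← Finset.mul_sum]
  have : ∑ v, f (fun i => g (Function.update y a v i)) = 0 := by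
    simp only [comp_update_perm]
    rw [Equiv.sum_comp g (fun v => f (Function.update (fun i => g (y i)) a v))]
    exact hf _
  rw [this, mul_zero]

theorem opT_isPure (x : RG (Perm V)) {J : Finset ι} {f : (ι → V) → ℝ} (hf : IsPure J f) :
    IsPure J (opT x f) :=
  { toIsW := opT_isW x hf.toIsW
    pure := fun a ha => opT_pureAt x (hf.pure a ha) }

/-- Fubini for one coordinate -/
theorem sum_update_eq (a : ι) (φ : (ι → V) → ℝ) :
    ∑ y, ∑ v, φ (Function.update y a v) = (Fintype.card V : ℝ) * ∑ y, φ y := by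
  let e : (ι → V) × V ≃ (ι → V) × V :=
    { toFun := fun p => (Function.update p.1 a p.2, p.1 a)
      invFun := fun p => (Function.update p.1 a p.2, p.1 a)
      left_inv := by
        rintro ⟨y, v⟩
        simp
      right_inv := by
        rintro ⟨y, v⟩
        simp }
  rw [← Fintype.sum_prod_type' (f := fun y v => φ (Function.update y a v))]
  rw [← Equiv.sum_comp e.symm]
  have : ∀ p : (ι → V) × V, φ (Function.update (e.symm p).1 a (e.symm p).2) = φ p.1 := by
    rintro ⟨y, v⟩
    show φ (Function.update (Function.update y a v) a (y a)) = φ y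
    simp
  simp only [this]
  rw [Fintype.sum_prod_type]
  simp only [Finset.sum_const, Finset.card_univ, nsmul_eq_mul]
  rw [Finset.mul_sum]

/-- the coordinate sum -/
def sumOut (a : ι) (f : (ι → V) → ℝ) : (ι → V) → ℝ := fun y => ∑ v, f (Function.update y a v)

omit [Fintype ι] in
theorem update_injOn_erase (J : Finset ι) (a : ι) (y : ι → V) (v : V)
    (h : Set.InjOn (Function.update y a v) (J : Set ι)) :
    Set.InjOn y ((J.erase a : Finset ι) : Set ι) := by
  intro b hb c hc e
  have hb' := Finset.mem_erase.mp hb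
  have hc' := Finset.mem_erase.mp hc
  apply h (Finset.mem_coe.mpr hb'.2) (Finset.mem_coe.mpr hc'.2)
  rw [Function.update_of_ne hb'.1, Function.update_of_ne hc'.1, e]

theorem sumOut_isW {J : Finset ι} {f : (ι → V) → ℝ} (hf : IsW J f) (a : ι) :
    IsW (J.erase a) (sumOut a f) := by
  constructor
  · intro x y h
    unfold sumOut
    apply Finset.sum_congr rfl
    intro v _
    apply hf.meas
    intro b hb
    by_cases hba : b = a
    · subst hba; simp
    · rw [Function.update_of_ne hba, Function.update_of_ne hba]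
      exact h b (Finset.mem_erase.mpr ⟨hba, hb⟩)
  · intro x h
    unfold sumOut
    apply Finset.sum_eq_zero
    intro v _
    apply hf.supp
    intro h2
    exact h (update_injOn_erase J a x v h2)

/-- cut a function down to injective tuples -/
def cutInj (J : Finset ι) (u : (ι → V) → ℝ) : (ι → V) → ℝ :=
  fun y => if Set.InjOn y (J : Set ι) then u y else 0

omit [Fintype ι] [Fintype V] in
theorem cutInj_isW {J K : Finset ι} (hKJ : K ⊆ J) {u : (ι → V) → ℝ} (hu : IsW K u) :
    IsW J (cutInj J u) := by
  classical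
  constructor
  · intro x y h
    unfold cutInj
    have e : Set.InjOn x (J : Set ι) ↔ Set.InjOn y (J : Set ι) := by
      constructor
      · intro hx a ha b hb hab
        rw [← h a ha, ← h b hb] at hab
        exact hx ha hb hab
      · intro hy a ha b hb hab
        rw [h a ha, h b hb] at hab
        exact hy ha hb hab
    by_cases hx : Set.InjOn x (J : Set ι)
    · rw [if_pos hx, if_pos (e.mp hx)]
      exact hu.meas x y (fun a ha => h a (hKJ ha))
    · rw [if_neg hx, if_neg (fun hy => hx (e.mpr hy))]
  · intro x h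
    unfold cutInj
    rw [if_neg h]

/-- the span of lifts from one coordinate less -/
def LowSub (C : Finset ι) : Submodule ℝ ((ι → V) → ℝ) :=
  Submodule.span ℝ { f | ∃ a ∈ C, ∃ u, IsW (C.erase a) u ∧ f = cutInj C u }

theorem lowSub_le_WSub (C : Finset ι) : (LowSub C : Submodule ℝ ((ι → V) → ℝ)) ≤ WSub C := by
  apply Submodule.span_le.mpr
  rintro f ⟨a, _, u, hu, rfl⟩
  exact cutInj_isW (Finset.erase_subset _ _) hu

/-- **Decomposition**: every `h ∈ W_C` is a pure function plus a lift from smaller sets. -/
theorem exists_pure_add_low {C : Finset ι} {h : (ι → V) → ℝ} (hh : IsW C h) :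
    ∃ h₀ w, IsPure C h₀ ∧ w ∈ LowSub C ∧ h = h₀ + w := by
  classical
  obtain ⟨P, hP⟩ := exists_isProj (LowSub C : Submodule ℝ ((ι → V) → ℝ))
  set w := P *ᵥ h with hw
  have hwL : w ∈ (LowSub C : Submodule ℝ ((ι → V) → ℝ)) := hP.range h
  have hwW : IsW C w := lowSub_le_WSub C hwL
  refine ⟨h - w, w, ?_, hwL, by simp⟩
  have hW0 : IsW C (h - w) := by
    have : h - w = h + (-1 : ℝ) • w := by
      funext y; simp; ring
    rw [this]
    exact hh.add (hwW.smul _)
  have hperp : ∀ z ∈ (LowSub C : Submodule ℝ ((ι → V) → ℝ)), (h - w) ⬝ᵥ z = 0 := by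
    intro z hz
    rw [sub_dotProduct, hw, hP.dot_symm, hP.fix z hz, sub_self]
  refine { toIsW := hW0, pure := ?_ }
  intro a ha y
  -- `u = sumOut a h₀`
  set h₀ := h - w with hh₀
  set u := sumOut a h₀ with hu
  have huW : IsW (C.erase a) u := sumOut_isW hW0 a
  have hz : cutInj C u ∈ (LowSub C : Submodule ℝ ((ι → V) → ℝ)) :=
    Submodule.subset_span ⟨a, ha, u, huW, rfl⟩
  have h0 := hperp _ hz
  -- so Σ h₀ u = 0
  have h1 : ∑ x, h₀ x * u x = 0 := by
    rw [← h0]
    apply Finset.sum_congr rfl
    intro x _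
    unfold cutInj
    by_cases hx : Set.InjOn x (C : Set ι)
    · rw [if_pos hx]
    · rw [if_neg hx, hW0.supp x hx]; simp
  -- Fubini
  have hmeas : ∀ x v, u (Function.update x a v) = u x := by
    intro x v
    apply huW.meas
    intro b hb
    rw [Function.update_of_ne (Finset.mem_erase.mp hb).1]
  have h2 := sum_update_eq a (fun x => h₀ x * u x)
  simp only [hmeas] at h2
  rw [h1, mul_zero] at h2
  have h3 : ∑ x, u x ^ 2 = 0 := by
    rw [← h2]
    apply Finset.sum_congr rfl
    intro x _
    rw [← Finset.sum_mul, sq]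
    rfl
  have h4 := (Finset.sum_eq_zero_iff_of_nonneg (fun x _ => sq_nonneg (u x))).mp h3 y (Finset.mem_univ _)
  exact pow_eq_zero_iff (two_ne_zero) |>.mp h4

end Crest.Agent.Lib.Thorp
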