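import Mathlib
import Crest.Agent.Lib.Thorp.Pure
import Crest.Agent.Lib.Thorp.Schatten

set_option autoImplicit false

/-!
M2: level decomposition of the regular representation and the trace bound.
-/

namespace Crest.Agent.Lib.Thorp

open Finset Equiv Matrix MonoidAlgebra

variable {V : Type} [Fintype V] [DecidableEq V]

/-- restriction of a tuple function to bijective tuples -/
def lift (h : (V → V) → ℝ) : Perm V → ℝ := fun g => h ⇑g

theorem lift_add (h k : (V → V) → ℝ) : lift (h + k) = lift h + lift k := rfl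
theorem lift_smul (r : ℝ) (h : (V → V) → ℝ) : lift (r • h) = r • lift h := rfl

/-- lift as a linear map -/
def liftL : ((V → V) → ℝ) →ₗ[ℝ] (Perm V → ℝ) where
  toFun := lift
  map_add' := lift_add
  map_smul' := lift_smul

theorem sum_lift_sq_le (u : (V → V) → ℝ) : lift u ⬝ᵥ lift u ≤ nsq u := by
  unfold nsq
  have h : ∑ g : Perm V, (lift u g) ^ 2 = ∑ y ∈ Finset.univ.image (fun g : Perm V => (⇑g : V → V)), u y ^ 2 := by
    rw [Finset.sum_image]
    · rfl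
    · intro a _ b _ h
      exact DFunLike.coe_injective h
  have h2 : lift u ⬝ᵥ lift u = ∑ g : Perm V, (lift u g) ^ 2 := by
    simp [dotProduct, sq]
  rw [h2, h]
  apply Finset.sum_le_sum_of_subset_of_nonneg (Finset.subset_univ _)
  intro y _ _
  positivity

omit [DecidableEq V] in
theorem lift_cutInj {J : Finset V} [DecidableEq V] (u : (V → V) → ℝ) : lift (cutInj J u) = lift u := by
  funext g
  unfold lift cutInj
  rw [if_pos (g.injective.injOn)]

/-- the functions of at most `r` coordinates -/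
def Wle (r : ℕ) : Submodule ℝ (Perm V → ℝ) :=
  Submodule.span ℝ { f | ∃ (C : Finset V) (h : (V → V) → ℝ), C.card ≤ r ∧ IsW C h ∧ f = lift h }

theorem lift_mem_Wle {r : ℕ} {C : Finset V} {h : (V → V) → ℝ} (hC : C.card ≤ r) (hh : IsW C h) :
    lift h ∈ (Wle r : Submodule ℝ (Perm V → ℝ)) :=
  Submodule.subset_span ⟨C, h, hC, hh, rfl⟩

theorem Wle_mono {r s : ℕ} (h : r ≤ s) : (Wle r : Submodule ℝ (Perm V → ℝ)) ≤ Wle s := by
  apply Submodule.span_mono
  rintro f ⟨C, k, hC, hk, rfl⟩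
  exact ⟨C, k, hC.trans h, hk, rfl⟩

theorem Wle_top : (Wle (Fintype.card V) : Submodule ℝ (Perm V → ℝ)) = ⊤ := by
  classical
  rw [eq_top_iff]
  intro f _
  let h : (V → V) → ℝ := fun y => if hy : ∃ g : Perm V, ⇑g = y then f hy.choose else 0
  have hl : lift h = f := by
    funext g
    have hy : ∃ g' : Perm V, ⇑g' = ⇑g := ⟨g, rfl⟩
    show (if hy : ∃ g' : Perm V, ⇑g' = ⇑g then f hy.choose else 0) = f g
    rw [dif_pos hy]
    congr 1
    exact DFunLike.coe_injective hy.choose_spec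
  rw [← hl]
  apply lift_mem_Wle (C := Finset.univ) (by simp)
  constructor
  · intro x y hxy
    have : x = y := by
      funext a
      exact hxy a (Finset.mem_univ a)
    rw [this]
  · intro x hx
    show (if hy : ∃ g : Perm V, ⇑g = x then f hy.choose else 0) = 0
    rw [dif_neg]
    rintro ⟨g, rfl⟩
    exact hx (g.injective.injOn)

/-- the regular representation on lifted functions -/
theorem Reg_mulVec_lift (x : RG (Perm V)) (h : (V → V) → ℝ) :
    Reg x *ᵥ lift h = lift (opT (rev x) h) := by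
  funext g
  show ∑ u, Reg x g u * lift h u = ∑ σ, cf (rev x) σ * h (fun i => σ (g i))
  apply Fintype.sum_equiv (Equiv.mulRight g⁻¹)
  intro u
  simp only [Equiv.coe_mulRight, Reg_apply, cf_rev, _root_.mul_inv_rev, inv_inv]
  congr 1
  unfold lift
  congr 1
  funext i
  simp

theorem Reg_mulVec_mem_Wle (x : RG (Perm V)) {r : ℕ} {f : Perm V → ℝ}
    (hf : f ∈ (Wle r : Submodule ℝ (Perm V → ℝ))) :
    Reg x *ᵥ f ∈ (Wle r : Submodule ℝ (Perm V → ℝ)) := by
  have : Wle r ≤ (Wle r).comap (Matrix.mulVecLin (Reg x)) := by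
    apply Submodule.span_le.mpr
    rintro f ⟨C, h, hC, hh, rfl⟩
    show Reg x *ᵥ lift h ∈ (Wle r : Submodule ℝ (Perm V → ℝ))
    rw [Reg_mulVec_lift]
    exact lift_mem_Wle hC (opT_isW _ hh)
  exact this hf

/-- projection onto `Wle r` -/
noncomputable def PiM (r : ℕ) : Matrix (Perm V) (Perm V) ℝ :=
  (exists_isProj (Wle r : Submodule ℝ (Perm V → ℝ))).choose

theorem PiM_spec (r : ℕ) : IsProj (PiM r : Matrix (Perm V) (Perm V) ℝ) (Wle r) :=
  (exists_isProj (Wle r : Submodule ℝ (Perm V → ℝ))).choose_spec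

theorem PiM_comm (x : RG (Perm V)) (r : ℕ) : Reg x * PiM r = PiM r * Reg x := by
  apply comm_of_invariant (PiM_spec r)
  · intro v hv
    exact Reg_mulVec_mem_Wle x hv
  · intro v hv
    rw [← Reg_rev]
    exact Reg_mulVec_mem_Wle _ hv

theorem PiM_top : (PiM (Fintype.card V) : Matrix (Perm V) (Perm V) ℝ) = 1 := by
  apply matrix_ext_mulVec
  intro v
  rw [Matrix.one_mulVec]
  apply (PiM_spec _).fix
  rw [Wle_top]
  trivial

theorem PiM_mul_of_le {r s : ℕ} (h : r ≤ s) :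
    (PiM s : Matrix (Perm V) (Perm V) ℝ) * PiM r = PiM r := by
  apply matrix_ext_mulVec
  intro v
  rw [← Matrix.mulVec_mulVec]
  exact (PiM_spec s).fix _ (Wle_mono h ((PiM_spec r).range v))

theorem PiM_mul_of_le' {r s : ℕ} (h : r ≤ s) :
    (PiM r : Matrix (Perm V) (Perm V) ℝ) * PiM s = PiM r := by
  have := congrArg Matrix.transpose (PiM_mul_of_le (V := V) h)
  simpa [Matrix.transpose_mul, (PiM_spec r).symm, (PiM_spec s).symm] using this

/-- the previous projection -/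
noncomputable def PiPrev : ℕ → Matrix (Perm V) (Perm V) ℝ
  | 0 => 0
  | r + 1 => PiM r

/-- level projection -/
noncomputable def PsiM (r : ℕ) : Matrix (Perm V) (Perm V) ℝ := PiM r - PiPrev r

theorem PiPrev_symm (r : ℕ) : (PiPrev r : Matrix (Perm V) (Perm V) ℝ)ᵀ = PiPrev r := by
  cases r with
  | zero => simp [PiPrev]
  | succ r => exact (PiM_spec r).symm

theorem PiPrev_idem (r : ℕ) :
    (PiPrev r : Matrix (Perm V) (Perm V) ℝ) * PiPrev r = PiPrev r := by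
  cases r with
  | zero => simp [PiPrev]
  | succ r => exact (PiM_spec r).idem

theorem PiM_mul_PiPrev (r : ℕ) :
    (PiM r : Matrix (Perm V) (Perm V) ℝ) * PiPrev r = PiPrev r := by
  cases r with
  | zero => simp [PiPrev]
  | succ r => exact PiM_mul_of_le (Nat.le_succ r)

theorem PiPrev_mul_PiM (r : ℕ) :
    (PiPrev r : Matrix (Perm V) (Perm V) ℝ) * PiM r = PiPrev r := by
  cases r with
  | zero => simp [PiPrev]
  | succ r => exact PiM_mul_of_le' (Nat.le_succ r)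

theorem PsiM_symm (r : ℕ) : (PsiM r : Matrix (Perm V) (Perm V) ℝ)ᵀ = PsiM r := by
  unfold PsiM
  rw [Matrix.transpose_sub, (PiM_spec r).symm, PiPrev_symm]

theorem PsiM_idem (r : ℕ) : (PsiM r : Matrix (Perm V) (Perm V) ℝ) * PsiM r = PsiM r := by
  unfold PsiM
  rw [Matrix.sub_mul, Matrix.mul_sub, Matrix.mul_sub, (PiM_spec r).idem, PiM_mul_PiPrev,
    PiPrev_mul_PiM, PiPrev_idem]
  abel

theorem PsiM_comm (x : RG (Perm V)) (r : ℕ) : Reg x * PsiM r = PsiM r * Reg x := by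
  unfold PsiM
  rw [Matrix.mul_sub, Matrix.sub_mul, PiM_comm]
  congr 1
  cases r with
  | zero => simp [PiPrev]
  | succ r => exact PiM_comm x r

theorem sum_PsiM (n : ℕ) :
    ∑ r ∈ Finset.range (n + 1), (PsiM r : Matrix (Perm V) (Perm V) ℝ) = PiM n := by
  induction n with
  | zero => simp [PsiM, PiPrev]
  | succ n ih =>
    rw [Finset.sum_range_succ, ih]
    simp [PsiM, PiPrev]

/-- the level space -/
noncomputable def Lev (r : ℕ) : Submodule ℝ (Perm V → ℝ) :=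
  LinearMap.range (Matrix.mulVecLin (PsiM r))

theorem PsiM_isProj (r : ℕ) : IsProj (PsiM r : Matrix (Perm V) (Perm V) ℝ) (Lev r) := by
  refine ⟨PsiM_symm r, fun v => ⟨v, rfl⟩, ?_⟩
  rintro v ⟨w, rfl⟩
  show PsiM r *ᵥ (PsiM r *ᵥ w) = PsiM r *ᵥ w
  rw [Matrix.mulVec_mulVec, PsiM_idem]

theorem Lev_le_Wle (r : ℕ) : (Lev r : Submodule ℝ (Perm V → ℝ)) ≤ Wle r := by
  rintro f ⟨w, rfl⟩
  show PsiM r *ᵥ w ∈ Wle r
  unfold PsiM
  rw [Matrix.sub_mulVec]
  apply Submodule.sub_mem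
  · exact (PiM_spec r).range w
  · cases r with
    | zero => simp [PiPrev]
    | succ r => exact Wle_mono (Nat.le_succ r) ((PiM_spec r).range w)

/-- `Ψ_r` kills lower levels -/
theorem PsiM_kill {r : ℕ} {f : Perm V → ℝ} (hr : r ≠ 0)
    (hf : f ∈ (Wle (r - 1) : Submodule ℝ (Perm V → ℝ))) : PsiM r *ᵥ f = 0 := by
  obtain ⟨s, rfl⟩ : ∃ s, r = s + 1 := ⟨r - 1, by omega⟩
  unfold PsiM
  rw [Matrix.sub_mulVec]
  have h1 : PiM (s + 1) *ᵥ f = f :=
    (PiM_spec _).fix _ (Wle_mono (Nat.le_succ s) (by simpa using hf))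
  have h2 : PiPrev (s + 1) *ᵥ f = f := (PiM_spec s).fix _ (by simpa using hf)
  rw [h1, h2, sub_self]

/-! ### norm bounds -/

section normbound

variable {n : Type*} [Fintype n] [DecidableEq n]

omit [DecidableEq n] in
theorem dot_sq_le (a b : n → ℝ) : (a ⬝ᵥ b) ^ 2 ≤ (a ⬝ᵥ a) * (b ⬝ᵥ b) := by
  have := Finset.sum_mul_sq_le_sq_mul_sq Finset.univ a b
  simp only [dotProduct]
  simpa [sq] using this

omit [DecidableEq n] in
theorem dot_mulVec_transpose (A : Matrix n n ℝ) (a b : n → ℝ) :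
    (A *ᵥ a) ⬝ᵥ b = a ⬝ᵥ (Aᵀ *ᵥ b) := by
  rw [Matrix.dotProduct_mulVec, Matrix.vecMul_transpose]

omit [DecidableEq n] in
theorem dot_self_nonneg' (a : n → ℝ) : 0 ≤ a ⬝ᵥ a :=
  Finset.sum_nonneg fun i _ => mul_self_nonneg (a i)

theorem proj_contract {P : Matrix n n ℝ} {S : Submodule ℝ (n → ℝ)} (hP : IsProj P S) (w : n → ℝ) :
    (P *ᵥ w) ⬝ᵥ (P *ᵥ w) ≤ w ⬝ᵥ w := by
  have e : (P *ᵥ w) ⬝ᵥ (P *ᵥ w) = w ⬝ᵥ (P *ᵥ w) := by
    rw [hP.dot_symm, hP.fix _ (hP.range w)]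
  have h := dot_sq_le w (P *ᵥ w)
  rw [← e] at h
  set s := (P *ᵥ w) ⬝ᵥ (P *ᵥ w) with hs
  have hs0 : 0 ≤ s := dot_self_nonneg' _
  have hw0 := dot_self_nonneg' w
  by_contra hcon
  push Not at hcon
  have : 0 < s := lt_of_le_of_lt hw0 hcon
  nlinarith

/-- A symmetric matrix whose iterates on `f` grow at most like `θ^i` acts on `f` with norm `≤ θ`. -/
theorem spectral_bound (T : Matrix n n ℝ) (hT : Tᵀ = T) (f : n → ℝ) (θ c : ℝ) (hθ : 0 ≤ θ)
    (h : ∀ i : ℕ, (T ^ i *ᵥ f) ⬝ᵥ (T ^ i *ᵥ f) ≤ c * (θ ^ 2) ^ i) :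
    (T *ᵥ f) ⬝ᵥ (T *ᵥ f) ≤ θ ^ 2 * (f ⬝ᵥ f) := by
  set s : ℕ → ℝ := fun i => (T ^ i *ᵥ f) ⬝ᵥ (T ^ i *ᵥ f) with hs
  have hs0 : ∀ i, 0 ≤ s i := fun i => dot_self_nonneg' _
  have h00 : s 0 = f ⬝ᵥ f := by simp [hs]
  have h11 : s 1 = (T *ᵥ f) ⬝ᵥ (T *ᵥ f) := by simp [hs]
  rw [← h00, ← h11]
  have hstep : ∀ i, s (i + 1) ^ 2 ≤ s i * s (i + 2) := by
    intro i
    have e : s (i + 1) = (T ^ i *ᵥ f) ⬝ᵥ (T ^ (i + 2) *ᵥ f) := by
      have e1 : T ^ (i + 1) *ᵥ f = T *ᵥ (T ^ i *ᵥ f) := by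
        rw [Matrix.mulVec_mulVec, pow_succ']
      have e2 : T ^ (i + 2) *ᵥ f = T *ᵥ (T ^ (i + 1) *ᵥ f) := by
        rw [Matrix.mulVec_mulVec, pow_succ' T (i + 1)]
      simp only [hs]
      rw [e2, e1, dot_mulVec_transpose, hT]
    rw [e]
    exact dot_sq_le _ _
  by_contra hcon
  push Not at hcon
  -- `s 1 > θ² s 0`
  have hs1pos : 0 < s 1 := lt_of_le_of_lt (mul_nonneg (sq_nonneg θ) (hs0 0)) hcon
  have hs0pos : 0 < s 0 := by
    rcases (hs0 0).lt_or_eq with h0 | h0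
    · exact h0
    · exfalso
      have hf : f = 0 := by
        have : f ⬝ᵥ f = 0 := by rw [← h00, ← h0]
        exact dotProduct_self_eq_zero.mp this
      have : s 1 = 0 := by
        rw [h11, hf]; simp
      linarith
  set ρ := s 1 / s 0 with hρ
  have hρθ : θ ^ 2 < ρ := by
    rw [hρ, lt_div_iff₀ hs0pos]
    exact hcon
  have hρpos : 0 < ρ := lt_of_le_of_lt (sq_nonneg θ) hρθ
  have hgrow : ∀ i, 0 < s i ∧ ρ * s i ≤ s (i + 1) := by
    intro i
    induction i with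
    | zero =>
      refine ⟨hs0pos, ?_⟩
      rw [hρ, div_mul_cancel₀ _ hs0pos.ne']
    | succ i ih =>
      obtain ⟨h1, h2⟩ := ih
      have hpos : 0 < s (i + 1) := lt_of_lt_of_le (mul_pos hρpos h1) h2
      refine ⟨hpos, ?_⟩
      have h3 := hstep i
      have h4 : (ρ * s i) * s (i + 1) ≤ s i * s (i + 2) := by
        calc (ρ * s i) * s (i + 1) ≤ s (i + 1) * s (i + 1) :=
              mul_le_mul_of_nonneg_right h2 hpos.le
          _ = s (i + 1) ^ 2 := by ring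
          _ ≤ _ := h3
      have h5 : s i * (ρ * s (i + 1)) ≤ s i * s (i + 2) := by nlinarith
      exact le_of_mul_le_mul_left h5 h1
  have hpow : ∀ i, ρ ^ i * s 0 ≤ s i := by
    intro i
    induction i with
    | zero => simp
    | succ i ih =>
      have := (hgrow i).2
      calc ρ ^ (i + 1) * s 0 = ρ * (ρ ^ i * s 0) := by ring
        _ ≤ ρ * s i := mul_le_mul_of_nonneg_left ih hρpos.le
        _ ≤ _ := this
  by_cases hθ0 : θ = 0
  · have h1 := h 1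
    simp only [pow_one, hθ0] at h1
    have : s 1 ≤ 0 := by
      have e : s 1 = (T ^ 1 *ᵥ f) ⬝ᵥ (T ^ 1 *ᵥ f) := rfl
      rw [e]
      simpa using h1
    linarith
  · have hθpos : 0 < θ ^ 2 := by positivity
    have hratio : 1 < ρ / θ ^ 2 := by
      rw [one_lt_div hθpos]
      exact hρθ
    obtain ⟨i, hi⟩ := pow_unbounded_of_one_lt ((|c| + 1) / s 0) hratio
    have h1 := h i
    have h2 := hpow i
    have h3 : ρ ^ i * s 0 ≤ c * (θ ^ 2) ^ i := h2.trans h1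
    rw [div_pow, lt_div_iff₀ (by positivity)] at hi
    have h6 : (|c| + 1) * (θ ^ 2) ^ i < ρ ^ i * s 0 := by
      have h7 := mul_lt_mul_of_pos_right hi hs0pos
      have e : (|c| + 1) / s 0 * (θ ^ 2) ^ i * s 0 = (|c| + 1) * (θ ^ 2) ^ i := by
        field_simp
      rwa [e] at h7
    have h4 : c * (θ ^ 2) ^ i ≤ |c| * (θ ^ 2) ^ i :=
      mul_le_mul_of_nonneg_right (le_abs_self c) (by positivity)
    have h5 : 0 < (θ ^ 2) ^ i := by positivity
    nlinarith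

end normbound

/-- iterates of `opT` -/
theorem Reg_pow_mulVec_lift (b : RG (Perm V)) (hb : rev b = b) (h : (V → V) → ℝ) (i : ℕ) :
    (Reg b) ^ i *ᵥ lift h = lift ((opT b)^[i] h) := by
  induction i with
  | zero => simp
  | succ i ih =>
    rw [pow_succ', ← Matrix.mulVec_mulVec, ih, Reg_mulVec_lift, hb,
      Function.iterate_succ_apply']

theorem nsq_iterate_le (b : RG (Perm V)) {C : Finset V} {h : (V → V) → ℝ} {θ : ℝ}
    (hθ : NormBd b C.card θ) (hh : IsPure C h) (i : ℕ) :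
    nsq ((opT b)^[i] h) ≤ (θ ^ 2) ^ i * nsq h := by
  have key : ∀ i, IsPure C ((opT b)^[i] h) ∧ nsq ((opT b)^[i] h) ≤ (θ ^ 2) ^ i * nsq h := by
    intro i
    induction i with
    | zero => exact ⟨hh, by simp⟩
    | succ i ih =>
      obtain ⟨h1, h2⟩ := ih
      rw [Function.iterate_succ_apply']
      refine ⟨opT_isPure b h1, ?_⟩
      have := hθ V C _ rfl h1
      calc _ ≤ θ ^ 2 * nsq ((opT b)^[i] h) := this
        _ ≤ θ ^ 2 * ((θ ^ 2) ^ i * nsq h) := mul_le_mul_of_nonneg_left h2 (by positivity)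
        _ = _ := by ring
  exact (key i).2

/-- generators of a level -/
def LevGen (r : ℕ) : Set (Perm V → ℝ) :=
  { f | ∃ (C : Finset V) (h : (V → V) → ℝ), C.card = r ∧ IsPure C h ∧ f = PsiM r *ᵥ lift h }

theorem lift_lowSub_mem {C : Finset V} {w : (V → V) → ℝ} (hw : w ∈ (LowSub C : Submodule ℝ _)) :
    lift w ∈ (Wle (C.card - 1) : Submodule ℝ (Perm V → ℝ)) := by
  have : (LowSub C : Submodule ℝ ((V → V) → ℝ)) ≤ (Wle (C.card - 1)).comap liftL := by
    apply Submodule.span_le.mpr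
    rintro f ⟨a, ha, u, hu, rfl⟩
    show lift (cutInj C u) ∈ (Wle (C.card - 1) : Submodule ℝ (Perm V → ℝ))
    rw [lift_cutInj]
    exact lift_mem_Wle (C := C.erase a) (by rw [Finset.card_erase_of_mem ha]) hu
  exact this hw

theorem PsiM_mem_span_LevGen {r : ℕ} {w : Perm V → ℝ} (hw : w ∈ (Wle r : Submodule ℝ (Perm V → ℝ))) :
    PsiM r *ᵥ w ∈ Submodule.span ℝ (LevGen r : Set (Perm V → ℝ)) := by
  have : (Wle r : Submodule ℝ (Perm V → ℝ)) ≤
      (Submodule.span ℝ (LevGen r : Set (Perm V → ℝ))).comap (Matrix.mulVecLin (PsiM r)) := by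
    apply Submodule.span_le.mpr
    rintro f ⟨C, h, hC, hh, rfl⟩
    show PsiM r *ᵥ lift h ∈ Submodule.span ℝ (LevGen r : Set (Perm V → ℝ))
    rcases hC.lt_or_eq with hlt | heq
    · have hr : r ≠ 0 := by omega
      rw [PsiM_kill hr (lift_mem_Wle (C := C) (by omega) hh)]
      exact Submodule.zero_mem _
    · obtain ⟨h₀, w₁, h0, hw1, rfl⟩ := exists_pure_add_low hh
      have e : PsiM r *ᵥ lift (h₀ + w₁) = PsiM r *ᵥ lift h₀ := by
        rw [lift_add, Matrix.mulVec_add]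
        by_cases hr : r = 0
        · have hC0 : C = ∅ := by
            rw [← Finset.card_eq_zero, heq, hr]
          subst hC0
          have : w₁ = 0 := by
            have hbot : (LowSub (∅ : Finset V) : Submodule ℝ ((V → V) → ℝ)) = ⊥ := by
              unfold LowSub
              rw [Submodule.span_eq_bot]
              rintro f ⟨a, ha, _⟩
              simp at ha
            rw [hbot] at hw1
            simpa using hw1
          rw [this]
          have : lift (0 : (V → V) → ℝ) = 0 := rfl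
          rw [this]
          simp
        · have := lift_lowSub_mem hw1
          rw [heq] at this
          rw [PsiM_kill hr this, add_zero]
      rw [e]
      exact Submodule.subset_span ⟨C, h₀, heq, h0, rfl⟩
  exact this hw

/-- the key norm bound on a level -/
theorem Reg_norm_on_Lev (b : RG (Perm V)) (hb : rev b = b) {r : ℕ} {θ : ℝ} (hθ0 : 0 ≤ θ)
    (hθ : NormBd b r θ) {f : Perm V → ℝ} (hf : f ∈ (Lev r : Submodule ℝ (Perm V → ℝ))) :
    (Reg b *ᵥ f) ⬝ᵥ (Reg b *ᵥ f) ≤ θ ^ 2 * (f ⬝ᵥ f) := by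
  have hT : (Reg b)ᵀ = Reg b := by rw [← Reg_rev, hb]
  have hfspan : f ∈ Submodule.span ℝ (LevGen r : Set (Perm V → ℝ)) := by
    have h1 : f = PsiM r *ᵥ f := ((PsiM_isProj r).fix f hf).symm
    rw [h1]
    exact PsiM_mem_span_LevGen (Lev_le_Wle r hf)
  have hQ : ∀ f ∈ Submodule.span ℝ (LevGen r : Set (Perm V → ℝ)),
      ∃ c : ℝ, ∀ i : ℕ, ((Reg b) ^ i *ᵥ f) ⬝ᵥ ((Reg b) ^ i *ᵥ f) ≤ c * (θ ^ 2) ^ i := by
    intro f hfspan
    induction hfspan using Submodule.span_induction with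
    | mem x hx =>
      obtain ⟨C, h, hC, hh, rfl⟩ := hx
      refine ⟨nsq h, fun i => ?_⟩
      have hcomm : (Reg b) ^ i *ᵥ (PsiM r *ᵥ lift h) = PsiM r *ᵥ ((Reg b) ^ i *ᵥ lift h) := by
        rw [Matrix.mulVec_mulVec, Matrix.mulVec_mulVec, ← Reg_pow, PsiM_comm]
      rw [hcomm]
      refine (proj_contract (PsiM_isProj r) _).trans ?_
      rw [Reg_pow_mulVec_lift b hb]
      refine (sum_lift_sq_le _).trans ?_
      subst hC
      have := nsq_iterate_le b hθ hh i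
      linarith
    | zero =>
      exact ⟨0, fun i => by simp⟩
    | add x y _ _ hx hy =>
      obtain ⟨c₁, h₁⟩ := hx
      obtain ⟨c₂, h₂⟩ := hy
      refine ⟨2 * c₁ + 2 * c₂, fun i => ?_⟩
      rw [Matrix.mulVec_add]
      have h3 : ∀ u v : Perm V → ℝ, (u + v) ⬝ᵥ (u + v) ≤ 2 * (u ⬝ᵥ u) + 2 * (v ⬝ᵥ v) := by
        intro u v
        have := dot_self_nonneg' (u - v)
        simp only [sub_dotProduct, dotProduct_sub, add_dotProduct, dotProduct_add] at this ⊢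
        rw [dotProduct_comm v u] at this ⊢
        linarith
      refine (h3 _ _).trans ?_
      have := h₁ i
      have := h₂ i
      have e : (2 * c₁ + 2 * c₂) * (θ ^ 2) ^ i = 2 * (c₁ * (θ ^ 2) ^ i) + 2 * (c₂ * (θ ^ 2) ^ i) := by
        ring
      rw [e]
      linarith
    | smul a x _ hx =>
      obtain ⟨c, hc⟩ := hx
      refine ⟨a ^ 2 * c, fun i => ?_⟩
      rw [Matrix.mulVec_smul]
      simp only [smul_dotProduct, dotProduct_smul, smul_eq_mul]
      have := hc i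
      have e : a ^ 2 * c * (θ ^ 2) ^ i = a ^ 2 * (c * (θ ^ 2) ^ i) := by ring
      rw [e]
      have h2 : a * (a * (((Reg b) ^ i *ᵥ x) ⬝ᵥ ((Reg b) ^ i *ᵥ x))) =
          a ^ 2 * (((Reg b) ^ i *ᵥ x) ⬝ᵥ ((Reg b) ^ i *ᵥ x)) := by ring
      rw [h2]
      exact mul_le_mul_of_nonneg_left this (sq_nonneg a)
  obtain ⟨c, hc⟩ := hQ f hfspan
  exact spectral_bound _ hT f θ c hθ0 hc

theorem Lev_invariant (x : RG (Perm V)) {r : ℕ} {f : Perm V → ℝ}
    (hf : f ∈ (Lev r : Submodule ℝ (Perm V → ℝ))) :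
    Reg x *ᵥ f ∈ (Lev r : Submodule ℝ (Perm V → ℝ)) := by
  obtain ⟨w, rfl⟩ := hf
  refine ⟨Reg x *ᵥ w, ?_⟩
  show PsiM r *ᵥ (Reg x *ᵥ w) = Reg x *ᵥ (PsiM r *ᵥ w)
  rw [Matrix.mulVec_mulVec, Matrix.mulVec_mulVec, PsiM_comm]

/-- The one-sided bound: `‖A f‖² ≤ θ ‖f‖²` on a level -/
theorem Reg_half_norm_on_Lev (ν : RG (Perm V)) {r : ℕ} {θ : ℝ} (hθ0 : 0 ≤ θ)
    (hθ : NormBd (rev ν * ν) r θ) {f : Perm V → ℝ} (hf : f ∈ (Lev r : Submodule ℝ (Perm V → ℝ))) :
    (Reg ν *ᵥ f) ⬝ᵥ (Reg ν *ᵥ f) ≤ θ * (f ⬝ᵥ f) := by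
  have hb : rev (rev ν * ν) = rev ν * ν := by rw [rev_mul, rev_rev]
  have h1 := Reg_norm_on_Lev (rev ν * ν) hb hθ0 hθ hf
  have e : (Reg ν *ᵥ f) ⬝ᵥ (Reg ν *ᵥ f) = f ⬝ᵥ (Reg (rev ν * ν) *ᵥ f) := by
    rw [Reg_mul, Reg_rev, ← Matrix.mulVec_mulVec, dot_mulVec_transpose]
  rw [e]
  have h2 := dot_sq_le f (Reg (rev ν * ν) *ᵥ f)
  have hf0 := dot_self_nonneg' f
  set a := f ⬝ᵥ (Reg (rev ν * ν) *ᵥ f) with ha
  set F := f ⬝ᵥ f with hF
  have h3 : a ^ 2 ≤ (θ * F) ^ 2 := by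
    calc a ^ 2 ≤ F * ((Reg (rev ν * ν) *ᵥ f) ⬝ᵥ (Reg (rev ν * ν) *ᵥ f)) := h2
      _ ≤ F * (θ ^ 2 * F) := mul_le_mul_of_nonneg_left h1 hf0
      _ = _ := by ring
  exact abs_le_of_sq_le_sq' h3 (by positivity) |>.2

theorem Reg_pow_norm_on_Lev (ν : RG (Perm V)) {r : ℕ} {θ : ℝ} (hθ0 : 0 ≤ θ)
    (hθ : NormBd (rev ν * ν) r θ) {f : Perm V → ℝ} (hf : f ∈ (Lev r : Submodule ℝ (Perm V → ℝ)))
    (K : ℕ) : ((Reg ν) ^ K *ᵥ f) ⬝ᵥ ((Reg ν) ^ K *ᵥ f) ≤ θ ^ K * (f ⬝ᵥ f) := by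
  induction K generalizing f with
  | zero => simp
  | succ K ih =>
    have e : (Reg ν) ^ (K + 1) *ᵥ f = (Reg ν) ^ K *ᵥ (Reg ν *ᵥ f) := by
      rw [Matrix.mulVec_mulVec, pow_succ]
    rw [e]
    refine (ih (Lev_invariant ν hf)).trans ?_
    rw [pow_succ, mul_assoc]
    exact mul_le_mul_of_nonneg_left (Reg_half_norm_on_Lev ν hθ0 hθ hf) (by positivity)

end Crest.Agent.Lib.Thorp
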