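import Mathlib
import Crest.Agent.Lib.Thorp.LevelTrace

set_option autoImplicit false

/-!
M2, final form: the level trace bound.
-/

namespace Crest.Agent.Lib.Thorp

open Finset Equiv Matrix MonoidAlgebra

variable {V : Type} [Fintype V] [DecidableEq V]

/-- order of the pointwise stabilizer -/
def stabCard (C : Finset V) : ℕ :=
  (Finset.univ.filter (fun τ : Perm V => ∀ a ∈ C, τ a = a)).card

theorem stabCard_pos (C : Finset V) : 0 < stabCard C :=
  Finset.card_pos.mpr ⟨1, by simp⟩

theorem card_same (C : Finset V) (u : Perm V) :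
    (Finset.univ.filter (fun w : Perm V => ∀ a ∈ C, u a = w a)).card = stabCard C := by
  unfold stabCard
  symm
  apply Finset.card_equiv (Equiv.mulLeft u)
  intro τ
  simp only [Finset.mem_filter, Finset.mem_univ, true_and, Equiv.coe_mulLeft, Perm.mul_apply]
  constructor
  · intro h a ha
    rw [h a ha]
  · intro h a ha
    exact (u.injective (h a ha)).symm

/-- the space of lifts from `W_C` -/
def LW (C : Finset V) : Submodule ℝ (Perm V → ℝ) := (WSub C).map liftL

theorem lift_mem_LW {C : Finset V} {h : (V → V) → ℝ} (hh : IsW C h) :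
    lift h ∈ (LW C : Submodule ℝ (Perm V → ℝ)) :=
  ⟨h, hh, rfl⟩

/-- conditional expectation on the coordinates in `C` -/
noncomputable def condM (C : Finset V) : Matrix (Perm V) (Perm V) ℝ :=
  Matrix.of fun u v => if ∀ a ∈ C, u a = v a then (stabCard C : ℝ)⁻¹ else 0

theorem condM_apply (C : Finset V) (u v : Perm V) :
    condM C u v = if ∀ a ∈ C, u a = v a then (stabCard C : ℝ)⁻¹ else 0 := rfl

theorem condM_isProj (C : Finset V) : IsProj (condM C) (LW C) := by
  have hc : (stabCard C : ℝ) ≠ 0 := by exact_mod_cast (stabCard_pos C).ne'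
  refine ⟨?_, ?_, ?_⟩
  · ext u v
    rw [Matrix.transpose_apply, condM_apply, condM_apply]
    have : (∀ a ∈ C, v a = u a) ↔ (∀ a ∈ C, u a = v a) :=
      ⟨fun h a ha => (h a ha).symm, fun h a ha => (h a ha).symm⟩
    simp only [this]
  · intro v
    let h : (V → V) → ℝ := fun y => ∑ w : Perm V, (if ∀ a ∈ C, y a = w a then (stabCard C : ℝ)⁻¹ else 0) * v w
    have hW : IsW C h := by
      constructor
      · intro x y hxy
        apply Finset.sum_congr rfl
        intro w _
        have : (∀ a ∈ C, x a = w a) ↔ (∀ a ∈ C, y a = w a) := by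
          constructor
          · intro h a ha; rw [← hxy a ha]; exact h a ha
          · intro h a ha; rw [hxy a ha]; exact h a ha
        simp only [this]
      · intro x hx
        apply Finset.sum_eq_zero
        intro w _
        have : ¬ ∀ a ∈ C, x a = w a := by
          intro hh
          apply hx
          intro a ha b hb hab
          have h1 := hh a ha
          have h2 := hh b hb
          rw [hab, h2] at h1
          exact w.injective h1.symm
        rw [if_neg this, zero_mul]
    have e : condM C *ᵥ v = lift h := by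
      funext u
      rfl
    rw [e]
    exact lift_mem_LW hW
  · rintro f ⟨h, hh, rfl⟩
    funext u
    show ∑ w, condM C u w * lift h w = lift h u
    have h1 : ∀ w : Perm V, condM C u w * lift h w
        = (if ∀ a ∈ C, u a = w a then (stabCard C : ℝ)⁻¹ * lift h u else 0) := by
      intro w
      rw [condM_apply]
      by_cases hw : ∀ a ∈ C, u a = w a
      · rw [if_pos hw, if_pos hw]
        congr 1
        exact (hh.meas _ _ hw).symm
      · rw [if_neg hw, if_neg hw, zero_mul]
    simp only [h1]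
    rw [Finset.sum_ite, Finset.sum_const_zero, add_zero, Finset.sum_const, card_same, nsmul_eq_mul]
    field_simp

theorem condM_comm (x : RG (Perm V)) (C : Finset V) : Reg x * condM C = condM C * Reg x := by
  have key : ∀ x : RG (Perm V), ∀ v ∈ (LW C : Submodule ℝ (Perm V → ℝ)),
      Reg x *ᵥ v ∈ (LW C : Submodule ℝ (Perm V → ℝ)) := by
    rintro x f ⟨h, hh, rfl⟩
    show Reg x *ᵥ lift h ∈ (LW C : Submodule ℝ (Perm V → ℝ))
    rw [Reg_mulVec_lift]
    exact lift_mem_LW (opT_isW _ hh)
  apply comm_of_invariant (condM_isProj C) (key x)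
  rw [← Reg_rev]
  exact key _

/-- number of fixed points -/
def fixCount (g : Perm V) : ℕ := (Finset.univ.filter (fun v => g v = v)).card

/-- `tr (a | L²(Inj_r))`: the expected falling factorial of the number of fixed points. -/
noncomputable def fixDesc (a : RG (Perm V)) (r : ℕ) : ℝ :=
  ∑ g, cf a g * ((fixCount g).descFactorial r : ℝ)

/-- counting permutations sending `C` into the fixed points of `g` -/
theorem card_fixing (C : Finset V) (g : Perm V) :
    (Finset.univ.filter (fun v : Perm V => ∀ x ∈ C, g (v x) = v x)).card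
      = (fixCount g).descFactorial C.card * stabCard C := by
  classical
  -- embeddings of `C` into the fixed points
  let Fx := {v : V // g v = v}
  let Emb := (↥C ↪ Fx)
  have hcardF : Fintype.card Fx = fixCount g := by
    exact Fintype.card_subtype _
  have hcardE : Fintype.card Emb = (fixCount g).descFactorial C.card := by
    rw [Fintype.card_embedding_eq, hcardF, Fintype.card_coe]
  -- each embedding extends
  have hext : ∀ e : Emb, ∃ v₀ : Perm V, ∀ x : ↥C, v₀ x = (e x).1 := by
    intro e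
    let f : V → V := fun x => if hx : x ∈ C then (e ⟨x, hx⟩).1 else x
    have hinj : Set.InjOn f (C : Set V) := by
      intro a ha b hb hab
      have ha' : a ∈ C := ha
      have hb' : b ∈ C := hb
      simp only [f, dif_pos ha', dif_pos hb'] at hab
      have := e.injective (Subtype.ext hab)
      exact congrArg Subtype.val this
    obtain ⟨w, hw⟩ := Finset.exists_equiv_extend_of_card_eq (α := V) (β := V) (t := Finset.univ)
      (by simp) (s := C) (f := f) (Finset.subset_univ _) hinj
    refine ⟨w.trans (Equiv.subtypeUnivEquiv (fun _ => Finset.mem_univ _)), ?_⟩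
    intro x
    have h1 := hw x.1 x.2
    have h2 : f x.1 = (e x).1 := by
      simp only [f, dif_pos x.2]
    rw [← h2, ← h1]
    rfl
  -- double count
  have h1 : ∀ e : Emb, (Finset.univ.filter (fun v : Perm V => ∀ x : ↥C, v x = (e x).1)).card
      = stabCard C := by
    intro e
    obtain ⟨v₀, hv₀⟩ := hext e
    rw [← card_same C v₀]
    congr 1
    ext v
    simp only [Finset.mem_filter, Finset.mem_univ, true_and]
    constructor
    · intro h a ha
      rw [h ⟨a, ha⟩, hv₀ ⟨a, ha⟩]
    · intro h x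
      rw [← h x.1 x.2, hv₀]
  have h2 : ∀ v : Perm V, (Finset.univ.filter (fun e : Emb => ∀ x : ↥C, v x = (e x).1)).card
      = if ∀ x ∈ C, g (v x) = v x then 1 else 0 := by
    intro v
    by_cases hv : ∀ x ∈ C, g (v x) = v x
    · rw [if_pos hv]
      let e₀ : Emb := ⟨fun x => ⟨v x, hv x.1 x.2⟩, by
        intro a b hab
        have := congrArg Subtype.val hab
        exact Subtype.ext (v.injective this)⟩
      rw [Finset.card_eq_one]
      refine ⟨e₀, ?_⟩
      ext e
      simp only [Finset.mem_filter, Finset.mem_univ, true_and, Finset.mem_singleton]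
      constructor
      · intro h
        apply DFunLike.coe_injective
        funext x
        apply Subtype.ext
        exact (h x).symm
      · rintro rfl x
        rfl
    · rw [if_neg hv, Finset.card_eq_zero]
      apply Finset.filter_eq_empty_iff.mpr
      intro e _ h
      apply hv
      intro x hx
      rw [h ⟨x, hx⟩]
      exact (e ⟨x, hx⟩).2
  have h3 : ∑ e : Emb, (Finset.univ.filter (fun v : Perm V => ∀ x : ↥C, v x = (e x).1)).card
      = ∑ v : Perm V, (Finset.univ.filter (fun e : Emb => ∀ x : ↥C, v x = (e x).1)).card := by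
    simp only [Finset.card_filter]
    rw [Finset.sum_comm]
  simp only [h1, h2] at h3
  rw [Finset.sum_const, Finset.card_univ, hcardE, smul_eq_mul] at h3
  rw [h3, Finset.card_filter]

theorem trace_Reg_condM (a : RG (Perm V)) (C : Finset V) :
    trace (Reg a * condM C) = fixDesc a C.card := by
  have hc : (stabCard C : ℝ) ≠ 0 := by exact_mod_cast (stabCard_pos C).ne'
  have h1 : trace (Reg a * condM C) = ∑ u, ∑ v, cf a (u * v⁻¹) *
      (if ∀ x ∈ C, v x = u x then (stabCard C : ℝ)⁻¹ else 0) := by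
    simp only [Matrix.trace, Matrix.diag, Matrix.mul_apply, Reg_apply, condM_apply]
  rw [h1, Finset.sum_comm]
  have h2 : ∀ v : Perm V, ∑ u, cf a (u * v⁻¹) *
      (if ∀ x ∈ C, v x = u x then (stabCard C : ℝ)⁻¹ else 0)
      = ∑ g, cf a g * (if ∀ x ∈ C, v x = g (v x) then (stabCard C : ℝ)⁻¹ else 0) := by
    intro v
    apply Fintype.sum_equiv (Equiv.mulRight v⁻¹)
    intro u
    have h5 : ∀ x, (u * v⁻¹) (v x) = u x := by
      intro x
      simp
    simp only [Equiv.coe_mulRight, h5]
  simp only [h2]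
  rw [Finset.sum_comm]
  unfold fixDesc
  apply Finset.sum_congr rfl
  intro g _
  rw [← Finset.mul_sum]
  congr 1
  have h3 := card_fixing C g
  have h4 : ∑ v : Perm V, (if ∀ x ∈ C, v x = g (v x) then (stabCard C : ℝ)⁻¹ else 0)
      = ((Finset.univ.filter (fun v : Perm V => ∀ x ∈ C, g (v x) = v x)).card : ℝ) * (stabCard C : ℝ)⁻¹ := by
    rw [Finset.card_filter]
    push_cast
    rw [Finset.sum_mul]
    apply Finset.sum_congr rfl
    intro v _
    have : (∀ x ∈ C, v x = g (v x)) ↔ (∀ x ∈ C, g (v x) = v x) :=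
      ⟨fun h a ha => (h a ha).symm, fun h a ha => (h a ha).symm⟩
    by_cases hv : ∀ x ∈ C, g (v x) = v x
    · rw [if_pos (this.mpr hv), if_pos hv, one_mul]
    · rw [if_neg (fun h => hv (this.mp h)), if_neg hv, zero_mul]
  rw [h4, h3]
  push_cast
  field_simp

theorem fixDesc_card (a : RG (Perm V)) :
    fixDesc a (Fintype.card V) = (Fintype.card (Perm V) : ℝ) * cf a 1 := by
  unfold fixDesc
  rw [Finset.sum_eq_single 1]
  · have : fixCount (1 : Perm V) = Fintype.card V := by
      simp [fixCount]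
    rw [this, Nat.descFactorial_self, Fintype.card_perm, mul_comm]
  · intro g _ hg
    have : fixCount g < Fintype.card V := by
      unfold fixCount
      rw [← Finset.card_univ]
      apply Finset.card_lt_card
      rw [Finset.ssubset_univ_iff]
      intro h
      apply hg
      ext v
      have := Finset.filter_eq_self.mp h v (Finset.mem_univ v)
      simpa using this
    rw [Nat.descFactorial_eq_zero_iff_lt.mpr this]
    simp
  · simp

theorem trace_Reg_eq_fixDesc (a : RG (Perm V)) :
    trace (Reg a) = fixDesc a (Fintype.card V) := by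
  rw [trace_Reg, fixDesc_card]

/-! ### the terms -/

section terms

theorem PSDm_Reg_pow (b : RG (Perm V)) (hb : rev b = b) (K : ℕ) : PSDm ((Reg b) ^ (2 * K)) := by
  intro v
  have hT : (Reg b)ᵀ = Reg b := by rw [← Reg_rev, hb]
  have h2 : ((Reg b) ^ K)ᵀ = (Reg b) ^ K := by rw [Matrix.transpose_pow, hT]
  have e : v ⬝ᵥ ((Reg b) ^ (2 * K) *ᵥ v) = ((Reg b) ^ K *ᵥ v) ⬝ᵥ ((Reg b) ^ K *ᵥ v) := by
    rw [dot_mulVec_transpose, Matrix.mulVec_mulVec, h2, ← pow_add, _root_.two_mul]
  rw [e]
  exact dot_self_nonneg' _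

theorem trace_mul_transpose_eq {n : Type*} [Fintype n] [DecidableEq n] (C : Matrix n n ℝ) :
    trace (C * Cᵀ) = ∑ u, (C *ᵥ Pi.single u 1) ⬝ᵥ (C *ᵥ Pi.single u 1) := by
  simp only [Matrix.mulVec_single_one, Matrix.trace, Matrix.diag, Matrix.mul_apply,
    Matrix.transpose_apply, dotProduct, Matrix.col_apply]
  rw [Finset.sum_comm]

theorem pow_mul_proj {n : Type*} [Fintype n] [DecidableEq n] (X P : Matrix n n ℝ)
    (hc : X * P = P * X) (hP : P * P = P) (K : ℕ) : (X * P) ^ (K + 1) = X ^ (K + 1) * P := by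
  induction K with
  | zero => simp
  | succ K ih =>
    rw [pow_succ, ih, pow_succ X (K + 1)]
    calc X ^ (K + 1) * P * (X * P) = X ^ (K + 1) * (P * X) * P := by simp only [Matrix.mul_assoc]
      _ = X ^ (K + 1) * (X * P) * P := by rw [hc]
      _ = X ^ (K + 1) * X * (P * P) := by simp only [Matrix.mul_assoc]
      _ = _ := by rw [hP]

/-- The term of level `r`. -/
theorem term_le (ν : RG (Perm V)) {r : ℕ} {θ : ℝ} (hθ0 : 0 ≤ θ) (hθ : NormBd (rev ν * ν) r θ)
    (K₀ s : ℕ) :
    trace ((Reg ν) ^ (K₀ + 2 ^ s) * PsiM r * ((Reg ν) ^ (K₀ + 2 ^ s))ᵀ)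
      ≤ θ ^ K₀ * trace ((Reg (rev ν * ν)) ^ (2 ^ s) * PsiM r) := by
  set A := Reg ν with hA
  set P : Matrix (Perm V) (Perm V) ℝ := PsiM r with hP
  set T := Reg (rev ν * ν) with hT
  have hTA : T = Aᵀ * A := by rw [hT, Reg_mul, Reg_rev]
  have hPt : Pᵀ = P := PsiM_symm r
  have hPP : P * P = P := PsiM_idem r
  have hAP : A * P = P * A := PsiM_comm ν r
  have hTP : T * P = P * T := PsiM_comm _ r
  set B := A ^ (2 ^ s) * P with hB
  set C := A ^ K₀ * B with hC
  have e1 : A ^ (K₀ + 2 ^ s) * P * (A ^ (K₀ + 2 ^ s))ᵀ = C * Cᵀ := by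
    have hC' : C = A ^ (K₀ + 2 ^ s) * P := by rw [hC, hB, pow_add, Matrix.mul_assoc]
    rw [hC', Matrix.transpose_mul, hPt]
    calc _ = A ^ (K₀ + 2 ^ s) * (P * P) * (A ^ (K₀ + 2 ^ s))ᵀ := by rw [hPP]
      _ = _ := by simp only [Matrix.mul_assoc]
  rw [e1]
  -- columns of `B` lie in the level
  have hBcol : ∀ u, B *ᵥ Pi.single u 1 ∈ (Lev r : Submodule ℝ (Perm V → ℝ)) := by
    intro u
    rw [hB, ← Matrix.mulVec_mulVec, hA, ← Reg_pow]
    exact Lev_invariant _ ((PsiM_isProj r).range _)
  have h1 : trace (C * Cᵀ) ≤ θ ^ K₀ * trace (B * Bᵀ) := by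
    rw [trace_mul_transpose_eq, trace_mul_transpose_eq, Finset.mul_sum]
    apply Finset.sum_le_sum
    intro u _
    rw [hC, ← Matrix.mulVec_mulVec]
    exact Reg_pow_norm_on_Lev ν hθ0 hθ (hBcol u) K₀
  -- Schatten-Hoelder
  have h2 : trace (B * Bᵀ) ≤ trace (T ^ (2 ^ s) * P) := by
    obtain ⟨K, hK⟩ : ∃ K, 2 ^ s = K + 1 := ⟨2 ^ s - 1, by
      have : 0 < 2 ^ s := by positivity
      omega⟩
    have h3 := trace_pow_mul_transpose_pow_le (A * P) s
    have h4 : (A * P) ^ (2 ^ s) = B := by
      rw [hB, hK]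
      exact pow_mul_proj A P hAP hPP K
    have h5 : (A * P)ᵀ ^ (2 ^ s) = Bᵀ := by
      rw [← Matrix.transpose_pow, h4]
    have h6 : (A * P)ᵀ * (A * P) = T * P := by
      rw [Matrix.transpose_mul, hPt, hTA]
      calc P * Aᵀ * (A * P) = P * (Aᵀ * A) * P := by simp only [Matrix.mul_assoc]
        _ = (Aᵀ * A) * P * P := by rw [← hTA, hTP]
        _ = _ := by rw [Matrix.mul_assoc, hPP]
    rw [h4, h5, h6] at h3
    have h7 : (T * P) ^ (2 ^ s) = T ^ (2 ^ s) * P := by
      rw [hK]
      exact pow_mul_proj T P hTP hPP K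
    rw [h7] at h3
    exact h3
  calc trace (C * Cᵀ) ≤ θ ^ K₀ * trace (B * Bᵀ) := h1
    _ ≤ _ := mul_le_mul_of_nonneg_left h2 (by positivity)

theorem isProj_one {n : Type*} [Fintype n] [DecidableEq n] :
    IsProj (1 : Matrix n n ℝ) (⊤ : Submodule ℝ (n → ℝ)) :=
  ⟨by simp, fun _ => trivial, fun v _ => by simp⟩

/-- the span condition -/
theorem Lev_span {r : ℕ} (hr : r ≤ Fintype.card V) {f : Perm V → ℝ}
    (hf : f ∈ (Lev r : Submodule ℝ (Perm V → ℝ))) :
    ∃ x : {C : Finset V // C.card = r} → (Perm V → ℝ),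
      (∀ i, x i ∈ (LW i.1 : Submodule ℝ (Perm V → ℝ))) ∧ f = PsiM r *ᵥ ∑ i, x i := by
  classical
  have key : ∀ w ∈ (Wle r : Submodule ℝ (Perm V → ℝ)),
      ∃ x : {C : Finset V // C.card = r} → (Perm V → ℝ),
      (∀ i, x i ∈ (LW i.1 : Submodule ℝ (Perm V → ℝ))) ∧ w = ∑ i, x i := by
    intro w hw
    induction hw using Submodule.span_induction with
    | mem y hy =>
      obtain ⟨C, h, hC, hh, rfl⟩ := hy
      obtain ⟨C', hCC', hC'⟩ := Finset.exists_superset_card_eq hC hr
      let i₀ : {C : Finset V // C.card = r} := ⟨C', hC'⟩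
      refine ⟨fun i => if i = i₀ then lift h else 0, ?_, ?_⟩
      · intro i
        by_cases hi : i = i₀
        · simp only [hi, if_true]
          rw [← lift_cutInj (J := C') h]
          exact lift_mem_LW (cutInj_isW hCC' hh)
        · simp only [hi, if_false]
          exact Submodule.zero_mem _
      · simp
    | zero =>
      exact ⟨fun _ => 0, fun i => Submodule.zero_mem _, by simp⟩
    | add a b _ _ ha hb =>
      obtain ⟨x, hx, rfl⟩ := ha
      obtain ⟨y, hy, rfl⟩ := hb
      exact ⟨fun i => x i + y i, fun i => Submodule.add_mem _ (hx i) (hy i),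
        by rw [Finset.sum_add_distrib]⟩
    | smul c a _ ha =>
      obtain ⟨x, hx, rfl⟩ := ha
      exact ⟨fun i => c • x i, fun i => Submodule.smul_mem _ c (hx i), by rw [Finset.smul_sum]⟩
  obtain ⟨x, hx, hsum⟩ := key f (Lev_le_Wle r hf)
  refine ⟨x, hx, ?_⟩
  rw [← hsum]
  exact ((PsiM_isProj r).fix f hf).symm

theorem trace_level_le (b : RG (Perm V)) (hb : rev b = b) (s : ℕ) {r : ℕ}
    (hr : r ≤ Fintype.card V) :
    trace ((Reg b) ^ (2 ^ (s + 1)) * PsiM r)
      ≤ min (fixDesc (b ^ (2 ^ (s + 1))) (Fintype.card V))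
          (((Fintype.card V).choose r : ℝ) * fixDesc (b ^ (2 ^ (s + 1))) r) := by
  set a := b ^ (2 ^ (s + 1)) with ha
  have hM : (Reg b) ^ (2 ^ (s + 1)) = Reg a := by rw [ha, Reg_pow]
  rw [hM]
  have hpsd : PSDm (Reg a) := by
    rw [← hM, pow_succ']
    exact PSDm_Reg_pow b hb (2 ^ s)
  apply le_min
  · have := trace_mul_proj_le hpsd (PsiM_isProj r) isProj_one le_top (PsiM_comm a r) (by simp)
    rw [Matrix.mul_one, trace_Reg_eq_fixDesc] at this
    exact this
  · have h1 := trace_mul_proj_le_sum (I := {C : Finset V // C.card = r}) hpsd (PsiM_isProj r)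
      (P := fun i => condM i.1) (T := fun i => LW i.1) (fun i => condM_isProj i.1)
      (PsiM_comm a r) (fun i => condM_comm a i.1) (fun f hf => Lev_span hr hf)
    refine h1.trans (le_of_eq ?_)
    have h2 : ∀ i : {C : Finset V // C.card = r}, trace (Reg a * condM i.1) = fixDesc a r := by
      intro i
      rw [trace_Reg_condM, i.2]
    simp only [h2]
    rw [Finset.sum_const, Finset.card_univ, Fintype.card_finset_len, nsmul_eq_mul]

/-- **The level trace bound (M2).** -/
theorem level_trace_bound (ν : RG (Perm V)) (θ : ℕ → ℝ) (hθ0 : ∀ r, 0 ≤ θ r)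
    (hθ : ∀ r, NormBd (rev ν * ν) r (θ r)) (K₀ s : ℕ) :
    (Fintype.card (Perm V) : ℝ) * ∑ g, (cf (ν ^ (K₀ + 2 ^ (s + 1))) g) ^ 2
      ≤ ∑ r ∈ Finset.range (Fintype.card V + 1), (θ r) ^ K₀ *
          min (fixDesc ((rev ν * ν) ^ (2 ^ (s + 1))) (Fintype.card V))
            (((Fintype.card V).choose r : ℝ) * fixDesc ((rev ν * ν) ^ (2 ^ (s + 1))) r) := by
  set K := K₀ + 2 ^ (s + 1) with hK
  set n := Fintype.card V with hn
  have hb : rev (rev ν * ν) = rev ν * ν := by rw [rev_mul, rev_rev]
  have h1 : (Fintype.card (Perm V) : ℝ) * ∑ g, (cf (ν ^ K) g) ^ 2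
      = trace ((Reg ν) ^ K * ((Reg ν) ^ K)ᵀ) := by
    rw [← cf_mul_rev_one, ← trace_Reg, Reg_mul, Reg_rev, Reg_pow]
  have h2 : (Reg ν) ^ K * ((Reg ν) ^ K)ᵀ
      = ∑ r ∈ Finset.range (n + 1), (Reg ν) ^ K * PsiM r * ((Reg ν) ^ K)ᵀ := by
    rw [← Finset.sum_mul, ← Finset.mul_sum, sum_PsiM, hn, PiM_top, Matrix.mul_one]
  rw [h1, h2, Matrix.trace_sum]
  apply Finset.sum_le_sum
  intro r hr
  have hr' : r ≤ n := Nat.lt_succ_iff.mp (Finset.mem_range.mp hr)
  refine (term_le ν (hθ0 r) (hθ r) K₀ (s + 1)).trans ?_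
  exact mul_le_mul_of_nonneg_left (trace_level_le _ hb s hr') (pow_nonneg (hθ0 r) _)

end terms

end Crest.Agent.Lib.Thorp
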