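import Mathlib
import Crest.Prelude.Def_Shuffle

set_option autoImplicit false

open Crest.ProbabilityR.Shuffle

namespace Crest.Agent.Lib.Thorp

theorem stepPos_injective (m : ℕ) (c : Fin m → Bool) : Function.Injective (stepPos m c) := by
  intro x y h
  have hx := x.isLt
  have hy := y.isLt
  have hm : 0 < m := by omega
  simp only [stepPos, Fin.mk.injEq] at h
  have key : x.val % m = y.val % m := by
    split_ifs at h <;> omega
  have hc : c ⟨x.val % m, Nat.mod_lt _ hm⟩ = c ⟨y.val % m, Nat.mod_lt _ hm⟩ := by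
    congr 1
    exact Fin.ext key
  have hb : (xor (decide (m ≤ x.val)) (c ⟨x.val % m, Nat.mod_lt _ hm⟩) = true) ↔
      (xor (decide (m ≤ y.val)) (c ⟨y.val % m, Nat.mod_lt _ hm⟩) = true) := by
    constructor
    · intro h1
      by_contra h2
      rw [if_pos h1, if_neg h2] at h
      omega
    · intro h1
      by_contra h2
      rw [if_neg h2, if_pos h1] at h
      omega
  rw [hc] at hb
  have hd : decide (m ≤ x.val) = decide (m ≤ y.val) := by
    cases h1 : decide (m ≤ x.val) <;> cases h2 : decide (m ≤ y.val) <;>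
      cases h3 : c ⟨y.val % m, Nat.mod_lt _ hm⟩ <;> simp_all
  have hd' : m ≤ x.val ↔ m ≤ y.val := by simpa using hd
  apply Fin.ext
  by_cases h1 : m ≤ x.val
  · have h2 := hd'.mp h1
    have e1 : x.val % m = x.val - m := by
      rw [Nat.mod_eq_sub_mod h1, Nat.mod_eq_of_lt (by omega)]
    have e2 : y.val % m = y.val - m := by
      rw [Nat.mod_eq_sub_mod h2, Nat.mod_eq_of_lt (by omega)]
    omega
  · have h2 : ¬ m ≤ y.val := fun h => h1 (hd'.mpr h)
    rw [Nat.mod_eq_of_lt (by omega), Nat.mod_eq_of_lt (by omega)] at key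
    exact key

theorem iterPos_injective (m : ℕ) : ∀ (t : ℕ) (cs : Fin t → Fin m → Bool),
    Function.Injective (iterPos m t cs)
  | 0, _ => fun _ _ h => h
  | t + 1, cs => by
    intro x y h
    exact iterPos_injective m t _ (stepPos_injective m _ h)

/-- The permutation realised by a table of bits. -/
noncomputable def iterPerm (m t : ℕ) (cs : Fin t → Fin m → Bool) : Equiv.Perm (Fin (2 * m)) :=
  Equiv.ofBijective (iterPos m t cs) (Finite.injective_iff_bijective.mp (iterPos_injective m t cs))

@[simp] theorem iterPerm_coe (m t : ℕ) (cs : Fin t → Fin m → Bool) :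
    ⇑(iterPerm m t cs) = iterPos m t cs := rfl

/-- The law of the shuffle, as a real function on permutations. -/
noncomputable def lawOf (m t : ℕ) (g : Equiv.Perm (Fin (2 * m))) : ℝ :=
  Crest.FinProb.uniformProb {cs : Fin t → Fin m → Bool | iterPos m t cs = ⇑g}

theorem lawOf_eq (m t : ℕ) (g : Equiv.Perm (Fin (2 * m))) :
    lawOf m t g = ((Finset.univ.filter (fun cs : Fin t → Fin m → Bool => iterPerm m t cs = g)).card : ℝ)
      / (Fintype.card (Fin t → Fin m → Bool) : ℝ) := by
  classical
  unfold lawOf Crest.FinProb.uniformProb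
  congr 2
  apply congrArg
  ext cs
  simp only [Finset.mem_filter, Finset.mem_univ, true_and, Set.mem_setOf_eq]
  constructor
  · intro h
    exact Equiv.coe_fn_injective h
  · intro h
    rw [← h]
    rfl

theorem lawOf_nonneg (m t : ℕ) (g : Equiv.Perm (Fin (2 * m))) : 0 ≤ lawOf m t g := by
  rw [lawOf_eq]; positivity

theorem card_tables (m t : ℕ) : Fintype.card (Fin t → Fin m → Bool) = 2 ^ (m * t) := by
  simp [Fintype.card_fun, Fintype.card_bool, pow_mul]
  
theorem sum_lawOf (m t : ℕ) : ∑ g, lawOf m t g = 1 := by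
  classical
  simp_rw [lawOf_eq]
  rw [← Finset.sum_div]
  have h : ∑ g : Equiv.Perm (Fin (2 * m)), (((Finset.univ.filter
      (fun cs : Fin t → Fin m → Bool => iterPerm m t cs = g)).card : ℕ) : ℝ)
      = (Fintype.card (Fin t → Fin m → Bool) : ℝ) := by
    rw [← Nat.cast_sum]
    congr 1
    rw [← Finset.card_univ (α := Fin t → Fin m → Bool)]
    rw [Finset.card_eq_sum_card_fiberwise (f := iterPerm m t) (t := Finset.univ)]
    intro x _; simp
  rw [h]
  rw [card_tables]
  have : ((2 ^ (m * t) : ℕ) : ℝ) ≠ 0 := by positivity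
  field_simp

theorem one_sub_le_tv (m t : ℕ) :
    1 - (2 : ℝ) ^ (m * t) / ((2 * m).factorial : ℝ) ≤ tvFromUniform m t := by
  classical
  set N : ℝ := ((2 * m).factorial : ℝ) with hN
  have hNpos : 0 < N := by rw [hN]; exact_mod_cast Nat.factorial_pos _
  set S : Finset (Equiv.Perm (Fin (2 * m))) := Finset.univ.image (iterPerm m t) with hS
  have hScard : (S.card : ℝ) ≤ (2 : ℝ) ^ (m * t) := by
    have : S.card ≤ (Finset.univ : Finset (Fin t → Fin m → Bool)).card := Finset.card_image_le
    rw [Finset.card_univ, card_tables] at this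
    exact_mod_cast this
  have hzero : ∀ g, g ∉ S → lawOf m t g = 0 := by
    intro g hg
    rw [lawOf_eq]
    have : Finset.univ.filter (fun cs : Fin t → Fin m → Bool => iterPerm m t cs = g) = ∅ := by
      apply Finset.filter_eq_empty_iff.mpr
      intro cs _ hc
      exact hg (by rw [hS]; exact Finset.mem_image.mpr ⟨cs, Finset.mem_univ _, hc⟩)
    rw [this]; simp
  have hpt : ∀ g : Equiv.Perm (Fin (2 * m)), lawOf m t g - 1 / N + (if g ∈ S then 0 else 2 / N)
      ≤ |lawOf m t g - 1 / N| := by
    intro g
    by_cases hg : g ∈ S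
    · simp only [hg, if_true, add_zero]; exact le_abs_self _
    · simp only [hg, if_false]
      rw [hzero g hg]
      rw [abs_of_nonpos (by have : 0 < 1 / N := by positivity
                            linarith)]
      have : 2 / N = 2 * (1 / N) := by ring
      rw [this]; linarith
  have hsum : ∑ g : Equiv.Perm (Fin (2 * m)), (lawOf m t g - 1 / N + (if g ∈ S then 0 else 2 / N))
      = 2 - 2 * (S.card / N) := by
    rw [Finset.sum_add_distrib, Finset.sum_sub_distrib, sum_lawOf]
    have hc : ∑ g : Equiv.Perm (Fin (2 * m)), (1 / N) = 1 := by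
      rw [Finset.sum_const, Finset.card_univ, Fintype.card_perm, Fintype.card_fin, nsmul_eq_mul]
      rw [← hN]; field_simp
    rw [hc]
    have hd : ∑ g : Equiv.Perm (Fin (2 * m)), (if g ∈ S then (0 : ℝ) else 2 / N)
        = ((Finset.univ.filter (fun g => g ∉ S)).card : ℝ) * (2 / N) := by
      rw [← nsmul_eq_mul, ← Finset.sum_const, Finset.sum_filter]
      apply Finset.sum_congr rfl
      intro g _
      by_cases hg : g ∈ S <;> simp [hg]
    rw [hd]
    have he : ((Finset.univ.filter (fun g => g ∉ S)).card : ℝ) = N - S.card := by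
      have h1 := Finset.card_filter_add_card_filter_not (s := (Finset.univ : Finset (Equiv.Perm (Fin (2 * m))))) (fun g => g ∈ S)
      rw [Finset.card_univ, Fintype.card_perm, Fintype.card_fin] at h1
      have h2 : (Finset.univ.filter (fun g => g ∈ S)).card = S.card := by
        congr 1; ext g; simp
      rw [h2] at h1
      rw [hN, ← h1]; push_cast; ring
    rw [he]; field_simp; ring
  have htv : tvFromUniform m t = (1 / 2) * ∑ g, |lawOf m t g - 1 / N| := by
    unfold tvFromUniform; rfl
  have h2 : 2 - 2 * (S.card / N) ≤ ∑ g, |lawOf m t g - 1 / N| := by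
    rw [← hsum]; exact Finset.sum_le_sum fun g _ => hpt g
  have h3 : (S.card : ℝ) / N ≤ (2 : ℝ) ^ (m * t) / N := by
    apply div_le_div_of_nonneg_right hScard hNpos.le
  rw [htv]
  linarith

end Crest.Agent.Lib.Thorp
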