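import Mathlib
import Crest.Prelude.Def_Shuffle
import Crest.Agent.Lib.Thorp.Step
import Crest.Agent.Lib.Thorp.Bits

set_option autoImplicit false

/-!
M1: from the total variation distance of the Thorp shuffle to the trace of powers of the Benes law.
-/

namespace Crest.Agent.Lib.Thorp

open MonoidAlgebra Finset Equiv Crest.ProbabilityR.Shuffle

/-- one step as a permutation -/
noncomputable def stepPerm (m : ℕ) (c : Fin m → Bool) : Perm (Fin (2 * m)) :=
  Equiv.ofBijective (stepPos m c) (Finite.injective_iff_bijective.mp (stepPos_injective m c))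

theorem stepPerm_apply (m : ℕ) (c : Fin m → Bool) (x : Fin (2 * m)) :
    stepPerm m c x = stepPos m c x := rfl

/-- the binary digits, most significant first -/
def toBits (d : ℕ) (x : Fin (2 * 2 ^ d)) : Bits (d + 1) := fun i => x.val.testBit (d - i.val)

theorem toBits_injective (d : ℕ) : Function.Injective (toBits d) := by
  intro x y h
  apply Fin.ext
  apply Nat.eq_of_testBit_eq
  intro j
  by_cases hj : j ≤ d
  · have := congrFun h ⟨d - j, by omega⟩
    simp only [toBits] at this
    have e : d - (d - j) = j := by omega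
    rw [e] at this
    exact this
  · have hx : x.val < 2 ^ j := by
      have h1 := x.isLt
      have h2 : 2 * 2 ^ d ≤ 2 ^ j := by
        rw [← pow_succ']
        exact Nat.pow_le_pow_right (by norm_num) (by omega)
      omega
    have hy : y.val < 2 ^ j := by
      have h1 := y.isLt
      have h2 : 2 * 2 ^ d ≤ 2 ^ j := by
        rw [← pow_succ']
        exact Nat.pow_le_pow_right (by norm_num) (by omega)
      omega
    rw [Nat.testBit_eq_false_of_lt hx, Nat.testBit_eq_false_of_lt hy]

/-- binary digits as an equivalence -/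
noncomputable def bitsE (d : ℕ) : Fin (2 * 2 ^ d) ≃ Bits (d + 1) :=
  Equiv.ofBijective (toBits d) ((Fintype.bijective_iff_injective_and_card _).mpr
    ⟨toBits_injective d, by simp [pow_succ']⟩)

theorem bitsE_apply (d : ℕ) (x : Fin (2 * 2 ^ d)) : bitsE d x = toBits d x := rfl

/-- low part as an element of `Fin (2 * 2 ^ d)` -/
def lowF (d : ℕ) (x : Fin (2 * 2 ^ d)) : Fin (2 * 2 ^ d) :=
  ⟨x.val % 2 ^ d, by
    have : x.val % 2 ^ d < 2 ^ d := Nat.mod_lt _ (by positivity)
    omega⟩

theorem low_bits (d : ℕ) (x : Fin (2 * 2 ^ d)) :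
    Function.update (toBits d x) 0 false = toBits d (lowF d x) := by
  funext i
  by_cases hi : i = 0
  · subst hi
    simp only [Function.update_self, toBits, lowF, Fin.val_zero, Nat.sub_zero]
    rw [Nat.testBit_eq_false_of_lt (Nat.mod_lt _ (by positivity))]
  · rw [Function.update_of_ne hi]
    simp only [toBits, lowF]
    rw [Nat.testBit_mod_two_pow]
    have h1 : i.val ≠ 0 := fun h => hi (Fin.ext h)
    have h2 : d - i.val < d := by
      have := i.isLt
      omega
    simp [h2]

theorem top_bit (d : ℕ) (x : Fin (2 * 2 ^ d)) : toBits d x 0 = decide (2 ^ d ≤ x.val) := by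
  simp only [toBits, Fin.val_zero, Nat.sub_zero]
  have hx := x.isLt
  rw [Nat.testBit_eq_decide_div_mod_eq]
  by_cases h : 2 ^ d ≤ x.val
  · have h1 : x.val / 2 ^ d = 1 := by
      apply Nat.div_eq_of_lt_le <;> omega
    simp [h, h1]
  · have h1 : x.val / 2 ^ d = 0 := Nat.div_eq_of_lt (by omega)
    simp [h, h1]

/-- coin of the top layer -/
noncomputable def lowCoin (d : ℕ) (c : Fin (2 ^ d) → Bool) (y : Bits (d + 1)) : Bool :=
  c ⟨((bitsE d).symm y).val % 2 ^ d, Nat.mod_lt _ (by positivity)⟩

theorem lowCoin_low (d : ℕ) (c : Fin (2 ^ d) → Bool) (x : Fin (2 * 2 ^ d)) :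
    lowCoin d c (Function.update (toBits d x) 0 false)
      = c ⟨x.val % 2 ^ d, Nat.mod_lt _ (by positivity)⟩ := by
  unfold lowCoin
  have e : (bitsE d).symm (Function.update (toBits d x) 0 false) = lowF d x := by
    rw [low_bits, ← bitsE_apply, Equiv.symm_apply_apply]
  congr 1
  apply Fin.ext
  simp only [e, lowF]
  exact Nat.mod_mod _ _

theorem testBit_double_zero (u : ℕ) (b : Bool) : (2 * u + (if b then 1 else 0)).testBit 0 = b := by
  rw [Nat.testBit_zero]
  cases b <;> simp <;> omega

theorem testBit_double_succ (u t : ℕ) (b : Bool) :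
    (2 * u + (if b then 1 else 0)).testBit (t + 1) = u.testBit t := by
  rw [Nat.testBit_succ]
  congr 1
  cases b <;> simp <;> omega

theorem toBits_step (d : ℕ) (c : Fin (2 ^ d) → Bool) (x : Fin (2 * 2 ^ d)) :
    toBits d (stepPos (2 ^ d) c x) = rotB d (layPerm 0 (lowCoin d c) (toBits d x)) := by
  funext j
  rw [rotB_apply, layPerm_apply, lowCoin_low]
  have hm : 0 < 2 ^ d := by positivity
  set u := x.val % 2 ^ d with hu
  set cc := c ⟨u, Nat.mod_lt _ hm⟩ with hcc
  have hL : toBits d (stepPos (2 ^ d) c x) j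
      = (2 * u + (if xor (decide (2 ^ d ≤ x.val)) cc then 1 else 0)).testBit (d - j.val) := rfl
  rw [hL]
  have ht := top_bit d x
  by_cases hj : j.val = d
  · have h0 : j + 1 = 0 := by
      apply Fin.ext
      simp [Fin.val_add, hj]
    rw [hj, Nat.sub_self, testBit_double_zero, h0]
    cases hc : cc
    · simp [ht]
    · simp [ht]
  · have hjd : j.val < d := by
      have := j.isLt
      omega
    have h0 : j + 1 ≠ 0 := by
      intro h
      have := congrArg Fin.val h
      simp [Fin.val_add] at this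
      rw [Nat.mod_eq_of_lt (by omega)] at this
      omega
    have hval : (j + 1).val = j.val + 1 := by
      simp [Fin.val_add]
      exact hjd
    obtain ⟨t, ht'⟩ : ∃ t, d - j.val = t + 1 := ⟨d - j.val - 1, by omega⟩
    rw [ht', testBit_double_succ]
    have e2 : toBits d x (j + 1) = u.testBit t := by
      simp only [toBits]
      rw [hval, hu, Nat.testBit_mod_two_pow]
      have : d - (j.val + 1) = t := by omega
      rw [this]
      have : t < d := by omega
      simp [this]
    by_cases hc : cc = true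
    · rw [if_pos hc, Function.update_of_ne h0, e2]
    · rw [if_neg hc, e2]

/-- step as layer in bits -/
theorem permMap_stepPerm (d : ℕ) (c : Fin (2 ^ d) → Bool) :
    permMap (bitsE d) (stepPerm (2 ^ d) c) = rotB d * layPerm 0 (lowCoin d c) := by
  apply Equiv.ext
  intro y
  rw [permMap_apply]
  obtain ⟨x, rfl⟩ := (bitsE d).surjective y
  rw [Equiv.symm_apply_apply, stepPerm_apply, bitsE_apply, toBits_step]
  rfl

/-- restricting uniform coins along an injection gives uniform coins -/
theorem avgS_restrict {A B G : Type*} [Group G] [Fintype G] [DecidableEq G] [Fintype A]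
    [Fintype B] [DecidableEq A] [DecidableEq B] (j : A → B) (hj : Function.Injective j)
    (F : (A → Bool) → G) :
    avgS (fun c' : B → Bool => F (c' ∘ j)) = avgS F := by
  classical
  let f : A ⊕ {b // b ∉ Set.range j} ≃ B :=
    (Equiv.sumCongr (Equiv.ofInjective j hj) (Equiv.refl _)).trans (Equiv.Set.sumCompl (Set.range j))
  have hf : ∀ a, f (Sum.inl a) = j a := fun a => rfl
  let e : (B → Bool) ≃ (A → Bool) × ({b // b ∉ Set.range j} → Bool) :=
    (Equiv.arrowCongr f.symm (Equiv.refl Bool)).trans (Equiv.sumArrowEquivProdArrow _ _ _)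
  have he : ∀ c' a, (e c').1 a = c' (j a) := by
    intro c' a
    show c' (f (Sum.inl a)) = _
    rw [hf]
  rw [← avgS_fst (Ω' := {b // b ∉ Set.range j} → Bool) F]
  rw [← avgS_congr_equiv e]
  congr 1

/-- the top layer: the Thorp coins realize the uniform layer -/
theorem layPerm_zero_congr (d : ℕ) (c' : Bits (d + 1) → Bool) :
    layPerm 0 c' = layPerm 0 (lowCoin d (c' ∘ fun u : Fin (2 ^ d) =>
      toBits d ⟨u.val, by have := u.isLt; omega⟩)) := by
  apply Equiv.ext
  intro y
  obtain ⟨x, rfl⟩ := (bitsE d).surjective y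
  rw [bitsE_apply, layPerm_apply, layPerm_apply, lowCoin_low]
  have e : (c' ∘ fun u : Fin (2 ^ d) => toBits d ⟨u.val, by have := u.isLt; omega⟩)
      ⟨x.val % 2 ^ d, Nat.mod_lt _ (by positivity)⟩ = c' (Function.update (toBits d x) 0 false) := by
    rw [low_bits]
    rfl
  rw [e]

theorem mapE_step (d : ℕ) :
    mapE (bitsE d) (avgS (stepPerm (2 ^ d)))
      = (single (rotB d) 1 : RG (Perm (Bits (d + 1)))) * LayN (d + 1) 0 := by
  rw [mapE_avgS]
  simp only [permMap_stepPerm]
  have hL : LayN (d + 1) 0 = avgS (layPerm (0 : Fin (d + 1))) := by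
    unfold LayN
    rw [dif_pos (by omega)]
    rfl
  rw [hL, single_mul_avgS]
  have hinj : Function.Injective (fun u : Fin (2 ^ d) =>
      toBits d ⟨u.val, by have := u.isLt; omega⟩) := by
    intro u v h
    have := toBits_injective d h
    apply Fin.ext
    simpa using this
  have := avgS_restrict (fun u : Fin (2 ^ d) => toBits d ⟨u.val, by have := u.isLt; omega⟩) hinj
    (fun c => rotB d * layPerm 0 (lowCoin d c))
  rw [← this]
  congr 1
  funext c'
  rw [← layPerm_zero_congr]

/-- the law of the shuffle in the group algebra -/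
noncomputable def Thet (m t : ℕ) : RG (Perm (Fin (2 * m))) := avgS (iterPerm m t)

theorem cf_Thet (m t : ℕ) (g : Perm (Fin (2 * m))) : cf (Thet m t) g = lawOf m t g := by
  classical
  unfold Thet
  rw [cf_avgS, lawOf_eq, Finset.card_filter]
  push_cast
  rw [div_eq_inv_mul]
  congr 1
  apply Finset.sum_congr rfl
  intro cs _
  by_cases h : g = iterPerm m t cs
  · simp [h]
  · have : ¬ iterPerm m t cs = g := fun e => h e.symm
    simp [h, this]

theorem iterPerm_succ (m t : ℕ) (cs : Fin (t + 1) → Fin m → Bool) :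
    iterPerm m (t + 1) cs
      = stepPerm m (cs (Fin.last t)) * iterPerm m t (fun i => cs i.castSucc) := by
  apply Equiv.ext
  intro x
  rfl

theorem Thet_succ (m t : ℕ) : Thet m (t + 1) = avgS (stepPerm m) * Thet m t := by
  unfold Thet
  rw [avgS_mul]
  rw [← avgS_congr_equiv (Fin.snocEquiv (fun _ : Fin (t + 1) => Fin m → Bool)).symm]
  congr 1
  funext cs
  exact iterPerm_succ m t cs

theorem Thet_zero (m : ℕ) : Thet m 0 = 1 := by
  apply RG_ext
  intro g
  unfold Thet
  rw [cf_avgS, cf_one]
  have h : ∀ cs : Fin 0 → Fin m → Bool, iterPerm m 0 cs = 1 := by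
    intro cs
    apply Equiv.ext
    intro x
    rfl
  simp [h]

theorem Thet_eq_pow (m t : ℕ) : Thet m t = (avgS (stepPerm m)) ^ t := by
  induction t with
  | zero => rw [Thet_zero, pow_zero]
  | succ t ih => rw [Thet_succ, ih, pow_succ']

theorem isLaw_avgS_red {G Ω : Type*} [Group G] [Fintype G] [DecidableEq G] [Fintype Ω] [Nonempty Ω]
    (F : Ω → G) : IsLaw (avgS F) := by
  constructor
  · intro g
    rw [cf_avgS]
    apply mul_nonneg
    · positivity
    · apply Finset.sum_nonneg
      intro ω _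
      split_ifs <;> norm_num
  · simp_rw [cf_avgS]
    rw [← Finset.mul_sum, Finset.sum_comm]
    simp only [Finset.sum_ite_eq', Finset.mem_univ, if_true, Finset.sum_const, Finset.card_univ,
      nsmul_eq_mul, mul_one]
    have : (Fintype.card Ω : ℝ) ≠ 0 := by exact_mod_cast Fintype.card_ne_zero
    field_simp

/-- transport of the sweep to the tower -/
noncomputable def towE (d : ℕ) : Fin (2 * 2 ^ d) ≃ Pos (d + 1) := (bitsE d).trans (posE (d + 1)).symm

theorem mapE_pow_sweep (d : ℕ) :
    mapE (towE d) ((avgS (stepPerm (2 ^ d))) ^ (d + 1)) = nu (d + 1) := by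
  unfold towE
  rw [mapE_trans, map_pow, mapE_step, rot_Lay_pow_full, ← mapE_posE_nu, mapE_symm_self]

theorem isLaw_mapE {V W : Type*} [Fintype V] [DecidableEq V] [Fintype W] [DecidableEq W]
    (e : V ≃ W) {x : RG (Perm V)} (hx : IsLaw x) : IsLaw (mapE e x) := by
  constructor
  · intro g
    have := cf_mapE e x ((Equiv.permCongrHom e).symm g)
    have h2 : permMap e ((Equiv.permCongrHom e).symm g) = g := (Equiv.permCongrHom e).apply_symm_apply g
    rw [h2] at this
    rw [this]
    exact hx.nonneg _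
  · rw [← hx.sum_one]
    symm
    apply Fintype.sum_equiv (Equiv.permCongrHom e).toEquiv
    intro g
    exact (cf_mapE e x g).symm

theorem isLaw_nu (d : ℕ) : IsLaw (nu (d + 1)) := by
  rw [← mapE_pow_sweep]
  apply isLaw_mapE
  apply IsLaw.pow
  haveI : Nonempty (Fin (2 ^ d) → Bool) := inferInstance
  exact isLaw_avgS_red _

theorem tv_sq_general (m t : ℕ) :
    4 * (tvFromUniform m t) ^ 2 + 1
      ≤ ((2 * m).factorial : ℝ) * ∑ g : Perm (Fin (2 * m)), (lawOf m t g) ^ 2 := by
  set N : ℝ := ((2 * m).factorial : ℝ) with hN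
  have hNpos : 0 < N := by rw [hN]; exact_mod_cast Nat.factorial_pos _
  have hcard : (Fintype.card (Perm (Fin (2 * m))) : ℝ) = N := by
    rw [Fintype.card_perm, Fintype.card_fin]
  have h1 : (∑ g : Perm (Fin (2 * m)), |lawOf m t g - 1 / N|) ^ 2
      ≤ N * ∑ g : Perm (Fin (2 * m)), (lawOf m t g - 1 / N) ^ 2 := by
    have := Finset.sum_mul_sq_le_sq_mul_sq (Finset.univ : Finset (Perm (Fin (2 * m))))
      (fun _ => (1 : ℝ)) (fun g => |lawOf m t g - 1 / N|)
    simp only [one_mul, one_pow, Finset.sum_const, Finset.card_univ, nsmul_eq_mul, mul_one,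
      sq_abs, hcard] at this
    exact this
  have h2 : ∑ g : Perm (Fin (2 * m)), (lawOf m t g - 1 / N) ^ 2
      = ∑ g : Perm (Fin (2 * m)), (lawOf m t g) ^ 2 - 1 / N := by
    have : ∀ g : Perm (Fin (2 * m)), (lawOf m t g - 1 / N) ^ 2
        = (lawOf m t g) ^ 2 - 2 * (1 / N) * lawOf m t g + (1 / N) ^ 2 := by
      intro g; ring
    simp only [this]
    rw [Finset.sum_add_distrib, Finset.sum_sub_distrib, ← Finset.mul_sum, sum_lawOf]
    simp only [Finset.sum_const, Finset.card_univ, nsmul_eq_mul]
    rw [hcard]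
    field_simp
    ring
  have htv : tvFromUniform m t = (1 / 2) * ∑ g, |lawOf m t g - 1 / N| := rfl
  rw [htv]
  have : N * ∑ g : Perm (Fin (2 * m)), (lawOf m t g - 1 / N) ^ 2
      = N * ∑ g : Perm (Fin (2 * m)), (lawOf m t g) ^ 2 - 1 := by
    rw [h2]; field_simp
  rw [this] at h1
  nlinarith

theorem sum_law_tower (d : ℕ) :
    ∑ g : Perm (Fin (2 * 2 ^ d)), (lawOf (2 ^ d) (1600 * (d + 1)) g) ^ 2
      = ∑ g, (cf ((nu (d + 1)) ^ 1600) g) ^ 2 := by
  have : (nu (d + 1)) ^ 1600 = mapE (towE d) (Thet (2 ^ d) (1600 * (d + 1))) := by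
    rw [Thet_eq_pow, mul_comm 1600, pow_mul, map_pow, mapE_pow_sweep]
  rw [this, sum_sq_mapE]
  simp only [cf_Thet]

theorem sum_sq_nu_le (d : ℕ) :
    ∑ g, (cf ((nu (d + 1)) ^ 1600) g) ^ 2 ≤ cf ((bA (d + 1)) ^ (2 ^ 10)) 1 := by
  have e : (nu (d + 1)) ^ 1600 = (nu (d + 1)) ^ (2 ^ 10) * (nu (d + 1)) ^ 576 := by
    rw [← pow_add]
    norm_num
  rw [e]
  refine (sum_sq_mul_law_le _ _ ((isLaw_nu d).pow 576)).trans ?_
  rw [bA_eq]
  exact sum_sq_pow_le (nu (d + 1)) 10

/-- **M1**. The squared total variation distance after `1600 (d+1)` steps is controlled by the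
return probability of `1024` independent Benes permutations. -/
theorem tv_sq_le (d : ℕ) :
    4 * (tvFromUniform (2 ^ d) (1600 * (d + 1))) ^ 2 + 1
      ≤ ((2 * 2 ^ d).factorial : ℝ) * cf ((bA (d + 1)) ^ (2 ^ 10)) 1 := by
  refine (tv_sq_general _ _).trans ?_
  rw [sum_law_tower]
  apply mul_le_mul_of_nonneg_left (sum_sq_nu_le d)
  positivity

end Crest.Agent.Lib.Thorp
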