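import Mathlib
import Crest.Agent.Lib.Thorp.Reduce
import Crest.Agent.Lib.Thorp.LevelFinal

set_option autoImplicit false

/-!
M1 + M2: what remains for S0222.
-/

namespace Crest.Agent.Lib.Thorp

open Finset Equiv Matrix MonoidAlgebra Crest.ProbabilityR.Shuffle

variable {V : Type} [Fintype V] [DecidableEq V]

theorem IsLaw.rev {x : RG (Perm V)} (hx : IsLaw x) : IsLaw (Crest.Agent.Lib.Thorp.rev x) := by
  constructor
  · intro g
    rw [cf_rev]
    exact hx.nonneg _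
  · simp only [cf_rev]
    rw [← hx.sum_one]
    exact Equiv.sum_comp (Equiv.inv (Perm V)) (cf x)

theorem normBd_zero {a : RG (Perm V)} (ha : IsLaw a) : NormBd a 0 1 := by
  intro ι _ _ J f hJ hf
  have hJ0 : J = ∅ := Finset.card_eq_zero.mp hJ
  subst hJ0
  have hconst : ∀ x y : ι → V, f x = f y := fun x y => hf.meas x y (by simp)
  have h : opT a f = f := by
    funext y
    unfold opT
    have : ∀ g : Perm V, cf a g * f (fun i => g (y i)) = cf a g * f y := by
      intro g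
      rw [hconst (fun i => g (y i)) y]
    simp only [this]
    rw [← Finset.sum_mul, ha.sum_one, one_mul]
  rw [h]
  simp

theorem fixDesc_zero {a : RG (Perm V)} (ha : IsLaw a) : fixDesc a 0 = 1 := by
  unfold fixDesc
  simp [ha.sum_one]

theorem isLaw_bA (d : ℕ) : IsLaw (bA (d + 1)) := by
  rw [bA_eq]
  exact ((isLaw_nu d).rev).mul (isLaw_nu d)

/-- **M1 + M2.** The bound on the total variation distance in terms of level norms and traces. -/
theorem tv_sq_le_sum (d : ℕ) (θ : ℕ → ℝ) (hθ0 : ∀ r, 0 ≤ θ r)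
    (hθ : ∀ r, 1 ≤ r → NormBd (bA (d + 1)) r (θ r)) (K₀ s : ℕ) (hK : K₀ + 2 ^ (s + 1) = 1600) :
    4 * (tvFromUniform (2 ^ d) (1600 * (d + 1))) ^ 2
      ≤ ∑ r ∈ Finset.Icc 1 (2 ^ (d + 1)), (θ r) ^ K₀ *
          min (fixDesc ((bA (d + 1)) ^ (2 ^ (s + 1))) (2 ^ (d + 1)))
            (((2 ^ (d + 1)).choose r : ℝ) * fixDesc ((bA (d + 1)) ^ (2 ^ (s + 1))) r) := by
  classical
  set ν := nu (d + 1) with hν
  have hb : rev ν * ν = bA (d + 1) := (bA_eq (d + 1)).symm
  have hblaw : IsLaw (bA (d + 1)) := isLaw_bA d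
  set θ' : ℕ → ℝ := fun r => if r = 0 then 1 else θ r with hθ'
  have hθ'0 : ∀ r, 0 ≤ θ' r := by
    intro r
    simp only [hθ']
    split_ifs
    · norm_num
    · exact hθ0 r
  have hθ'b : ∀ r, NormBd (rev ν * ν) r (θ' r) := by
    intro r
    rw [hb]
    by_cases hr : r = 0
    · subst hr
      simpa [hθ'] using normBd_zero hblaw
    · simp only [hθ', hr, if_false]
      exact hθ r (Nat.one_le_iff_ne_zero.mpr hr)
  have h1 := level_trace_bound ν θ' hθ'0 hθ'b K₀ s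
  rw [hK, hb, card_Pos] at h1
  have h2 := tv_sq_general (2 ^ d) (1600 * (d + 1))
  rw [sum_law_tower] at h2
  have hcard : (Fintype.card (Perm (Pos (d + 1))) : ℝ) = ((2 * 2 ^ d).factorial : ℝ) := by
    rw [Fintype.card_perm, card_Pos, pow_succ']
  rw [hcard] at h1
  have h3 := h2.trans h1
  -- split off `r = 0`
  have hsplit : Finset.range (2 ^ (d + 1) + 1) = insert 0 (Finset.Icc 1 (2 ^ (d + 1))) := by
    generalize 2 ^ (d + 1) = N
    ext r
    simp only [Finset.mem_range, Finset.mem_insert, Finset.mem_Icc]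
    omega
  rw [hsplit, Finset.sum_insert (by simp)] at h3
  have h4 : (θ' 0) ^ K₀ * min (fixDesc ((bA (d + 1)) ^ (2 ^ (s + 1))) (2 ^ (d + 1)))
      (((2 ^ (d + 1)).choose 0 : ℝ) * fixDesc ((bA (d + 1)) ^ (2 ^ (s + 1))) 0) ≤ 1 := by
    have h5 : fixDesc ((bA (d + 1)) ^ (2 ^ (s + 1))) 0 = 1 := fixDesc_zero (hblaw.pow _)
    simp only [hθ', if_true, one_pow, one_mul, Nat.choose_zero_right, Nat.cast_one, h5]
    exact min_le_right _ _
  have h6 : ∑ r ∈ Finset.Icc 1 (2 ^ (d + 1)), (θ' r) ^ K₀ *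
        min (fixDesc ((bA (d + 1)) ^ (2 ^ (s + 1))) (2 ^ (d + 1)))
          (((2 ^ (d + 1)).choose r : ℝ) * fixDesc ((bA (d + 1)) ^ (2 ^ (s + 1))) r)
      = ∑ r ∈ Finset.Icc 1 (2 ^ (d + 1)), (θ r) ^ K₀ *
        min (fixDesc ((bA (d + 1)) ^ (2 ^ (s + 1))) (2 ^ (d + 1)))
          (((2 ^ (d + 1)).choose r : ℝ) * fixDesc ((bA (d + 1)) ^ (2 ^ (s + 1))) r) := by
    apply Finset.sum_congr rfl
    intro r hr
    have : r ≠ 0 := by
      have := (Finset.mem_Icc.mp hr).1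
      omega
    simp [hθ', this]
  rw [h6] at h3
  linarith

/-- The end of S0222: it suffices that the sum over levels tends to zero. -/
theorem tendsto_tv_of_sum (θ : ℕ → ℕ → ℝ) (hθ0 : ∀ k r, 0 ≤ θ k r)
    (hθ : ∀ k r, 1 ≤ r → NormBd (bA k) r (θ k r)) (K₀ s : ℕ) (hK : K₀ + 2 ^ (s + 1) = 1600)
    (hlim : Filter.Tendsto (fun k : ℕ => ∑ r ∈ Finset.Icc 1 (2 ^ k), (θ k r) ^ K₀ *
        min (fixDesc ((bA k) ^ (2 ^ (s + 1))) (2 ^ k))
          (((2 ^ k).choose r : ℝ) * fixDesc ((bA k) ^ (2 ^ (s + 1))) r)) Filter.atTop (nhds 0)) :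
    Filter.Tendsto (fun d : ℕ => tvFromUniform (2 ^ d) (1600 * (d + 1))) Filter.atTop (nhds 0) := by
  have hlim' := (Filter.tendsto_add_atTop_iff_nat 1).mpr hlim
  have hnn : ∀ d, 0 ≤ tvFromUniform (2 ^ d) (1600 * (d + 1)) := by
    intro d
    unfold tvFromUniform
    apply mul_nonneg (by norm_num)
    exact Finset.sum_nonneg fun g _ => abs_nonneg _
  have hsq : Filter.Tendsto (fun d : ℕ => 4 * (tvFromUniform (2 ^ d) (1600 * (d + 1))) ^ 2)
      Filter.atTop (nhds 0) := by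
    apply squeeze_zero (fun d => by positivity) (fun d => tv_sq_le_sum d (θ (d + 1)) (hθ0 _)
      (hθ _) K₀ s hK) hlim'
  have hsq' : Filter.Tendsto (fun d : ℕ => (tvFromUniform (2 ^ d) (1600 * (d + 1))) ^ 2)
      Filter.atTop (nhds 0) := by
    have := hsq.const_mul (1 / 4 : ℝ)
    simp only [mul_zero] at this
    refine this.congr (fun d => ?_)
    ring
  have hsqrt := hsq'.sqrt
  simp only [Real.sqrt_zero] at hsqrt
  refine hsqrt.congr (fun d => ?_)
  exact Real.sqrt_sq (hnn d)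

end Crest.Agent.Lib.Thorp
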