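import Mathlib
import Crest.Agent.Lib.Thorp.LevelFinal
import Crest.Agent.Lib.Thorp.TopLevel
import Crest.Agent.Lib.Thorp.JensenChain
import Crest.Agent.Lib.Thorp.Coins

set_option autoImplicit false

/-!
The kernel of a law on injective tuples: `fixDesc` is its trace. From the power mean bound on
`EE (NN ^ δ)` (sup over tuples) and the Jensen chain to `fixDesc ((bA k)^K₁) t ≤ exp D`.
-/

namespace Crest.Agent.Lib.Thorp

open Finset Equiv Matrix MonoidAlgebra

section kernel

variable {ι V : Type} [Fintype ι] [DecidableEq ι] [Fintype V] [DecidableEq V]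

/-- injective tuples -/
abbrev InjT (ι V : Type) := {x : ι → V // Function.Injective x}

/-- kernel on injective tuples: `kerM a x z = P_a (g ∘ x = z)`. -/
noncomputable def kerM (a : RG (Perm V)) : Matrix (InjT ι V) (InjT ι V) ℝ :=
  Matrix.of fun x z => ∑ g, cf a g * (if ∀ j, g (x.1 j) = z.1 j then (1 : ℝ) else 0)

theorem kerM_apply (a : RG (Perm V)) (x z : InjT ι V) :
    kerM a x z = ∑ g, cf a g * (if ∀ j, g (x.1 j) = z.1 j then (1 : ℝ) else 0) := rfl

/-- the image of an injective tuple -/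
def permT (g : Perm V) (x : InjT ι V) : InjT ι V :=
  ⟨fun j => g (x.1 j), fun _ _ h => x.2 (g.injective h)⟩

theorem ite_forall_eq (g : Perm V) (x z : InjT ι V) :
    (if ∀ j, g (x.1 j) = z.1 j then (1 : ℝ) else 0) = if z = permT g x then 1 else 0 := by
  have : (∀ j, g (x.1 j) = z.1 j) ↔ z = permT g x := by
    constructor
    · intro h
      apply Subtype.ext
      funext j
      exact (h j).symm
    · rintro rfl j
      rfl
  simp only [this]

theorem kerM_mul (a b : RG (Perm V)) :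
    (kerM (a * b) : Matrix (InjT ι V) (InjT ι V) ℝ) = kerM b * kerM a := by
  ext x z
  rw [Matrix.mul_apply]
  simp only [kerM_apply, ite_forall_eq]
  have hR : ∑ y, (∑ h, cf b h * (if y = permT h x then (1 : ℝ) else 0)) *
        (∑ g, cf a g * (if z = permT g y then (1 : ℝ) else 0))
      = ∑ h, ∑ g, cf b h * cf a g * (if z = permT g (permT h x) then (1 : ℝ) else 0) := by
    simp only [Finset.sum_mul]
    rw [Finset.sum_comm]
    apply Finset.sum_congr rfl
    intro h _
    rw [Finset.sum_eq_single (permT h x)]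
    · simp only [if_true, mul_one, Finset.mul_sum, mul_assoc]
    · intro y _ hy
      simp [hy]
    · simp
  rw [hR]
  simp only [cf_mul, Finset.sum_mul]
  -- reindex
  rw [Finset.sum_comm]
  conv_rhs => rw [Finset.sum_comm]
  apply Finset.sum_congr rfl
  intro g _
  rw [← Equiv.sum_comp (Equiv.mulLeft g)]
  apply Finset.sum_congr rfl
  intro h _
  have e : permT (g * h) x = permT g (permT h x) := rfl
  simp only [Equiv.coe_mulLeft, inv_mul_cancel_left, e]
  ring

theorem kerM_one : (kerM 1 : Matrix (InjT ι V) (InjT ι V) ℝ) = 1 := by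
  ext x z
  rw [kerM_apply, Finset.sum_eq_single 1]
  · rw [cf_one, if_pos rfl, one_mul, Matrix.one_apply]
    have : (∀ j, (1 : Perm V) (x.1 j) = z.1 j) ↔ x = z := by
      constructor
      · intro h
        apply Subtype.ext
        funext j
        exact h j
      · rintro rfl j
        rfl
    simp only [this]
  · intro g _ hg
    rw [cf_one, if_neg hg, zero_mul]
  · simp

theorem kerM_pow (a : RG (Perm V)) (n : ℕ) :
    (kerM (a ^ n) : Matrix (InjT ι V) (InjT ι V) ℝ) = (kerM a) ^ n := by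
  induction n with
  | zero => simp [kerM_one]
  | succ n ih => rw [pow_succ', kerM_mul, ih, pow_succ]

theorem kerM_nonneg {a : RG (Perm V)} (ha : IsLaw a) (x z : InjT ι V) : 0 ≤ kerM a x z := by
  rw [kerM_apply]
  apply Finset.sum_nonneg
  intro g _
  apply mul_nonneg (ha.nonneg g)
  split_ifs <;> norm_num

theorem kerM_row {a : RG (Perm V)} (ha : IsLaw a) (x : InjT ι V) : ∑ z, kerM a x z = 1 := by
  simp only [kerM_apply, ite_forall_eq]
  rw [Finset.sum_comm]
  have : ∀ g : Perm V, ∑ z : InjT ι V, cf a g * (if z = permT g x then (1 : ℝ) else 0) = cf a g := by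
    intro g
    rw [Finset.sum_eq_single (permT g x)]
    · simp
    · intro z _ hz
      simp [hz]
    · simp
  simp only [this]
  exact ha.sum_one

theorem kerM_transpose (a : RG (Perm V)) :
    (kerM a : Matrix (InjT ι V) (InjT ι V) ℝ)ᵀ = kerM (rev a) := by
  ext x z
  rw [Matrix.transpose_apply, kerM_apply, kerM_apply]
  rw [← Equiv.sum_comp (Equiv.inv (Perm V))]
  apply Finset.sum_congr rfl
  intro g _
  simp only [Equiv.inv_apply, cf_rev, inv_inv]
  congr 1
  have : (∀ j, g⁻¹ (z.1 j) = x.1 j) ↔ (∀ j, g (x.1 j) = z.1 j) := by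
    constructor
    · intro h j
      rw [← h j]
      simp
    · intro h j
      rw [← h j]
      simp
  simp only [this]

/-- the trace of the kernel is `fixDesc` -/
theorem trace_kerM (a : RG (Perm V)) :
    trace (kerM a : Matrix (InjT ι V) (InjT ι V) ℝ) = fixDesc a (Fintype.card ι) := by
  classical
  simp only [Matrix.trace, Matrix.diag, kerM_apply]
  rw [Finset.sum_comm]
  unfold fixDesc
  apply Finset.sum_congr rfl
  intro g _
  rw [← Finset.mul_sum]
  congr 1
  -- count
  have h1 : (Fintype.card {v : V // g v = v}) = fixCount g := Fintype.card_subtype _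
  have h2 : Fintype.card (ι ↪ {v : V // g v = v}) = (fixCount g).descFactorial (Fintype.card ι) := by
    rw [Fintype.card_embedding_eq, h1]
  rw [← h2]
  have h3 : ∑ x : InjT ι V, (if ∀ j, g (x.1 j) = x.1 j then (1 : ℝ) else 0)
      = ((Finset.univ.filter (fun x : InjT ι V => ∀ j, g (x.1 j) = x.1 j)).card : ℝ) := by
    rw [Finset.card_filter]
    push_cast
    rfl
  rw [h3]
  congr 1
  rw [← Finset.card_univ]
  have hx' : ∀ x ∈ Finset.univ.filter (fun x : InjT ι V => ∀ j, g (x.1 j) = x.1 j),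
      ∀ j, g (x.1 j) = x.1 j := fun x hx j => by
    have := (Finset.mem_filter.mp hx).2
    exact this j
  apply Finset.card_bij (fun x hx => (⟨fun j => ⟨x.1 j, hx' x hx j⟩,
      fun a b h => x.2 (congrArg Subtype.val h)⟩ : ι ↪ {v : V // g v = v}))
  · intro x hx
    exact Finset.mem_univ _
  · intro x hx y hy h
    apply Subtype.ext
    funext j
    have := congrArg (fun e : ι ↪ {v : V // g v = v} => (e j).1) h
    exact this
  · intro e _
    refine ⟨⟨fun j => (e j).1, fun a b h => e.injective (Subtype.ext h)⟩, ?_, ?_⟩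
    · simp only [Finset.mem_filter, Finset.mem_univ, true_and]
      intro j
      exact (e j).2
    · ext j
      rfl

/-- **From the power mean bound to the trace** (one pass). -/
theorem fixDesc_kerM_pow_le (a : RG (Perm V)) (ha : IsLaw a) (hsym : rev a = a) {δ D : ℝ} (hδ : 0 < δ)
    {m : ℕ} (hm : (1 + δ) ^ m = 2)
    (hD : ∀ x : InjT ι V, ((Fintype.card (InjT ι V) : ℕ) : ℝ) ^ δ *
      ∑ z : InjT ι V, (kerM a x z) ^ (1 + δ) ≤ Real.exp (δ * D)) :
    fixDesc (a ^ (2 * m)) (Fintype.card ι) ≤ Real.exp D := by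
  rw [← trace_kerM (ι := ι), kerM_pow]
  have hs : (kerM a : Matrix (InjT ι V) (InjT ι V) ℝ)ᵀ = kerM a := by rw [kerM_transpose, hsym]
  apply chain_trace _ hs (kerM_nonneg ha) (kerM_row ha) hδ hm
  intro z
  have : ∀ x : InjT ι V, kerM a x z = kerM a z x := by
    intro x
    conv_lhs => rw [← hs]
    rfl
  simp only [this]
  exact hD z

/-- **Two passes** (the `P²` trick): a bound for the law after one pass. -/
theorem fixDesc_kerM_pow_sq_le (a : RG (Perm V)) (ha : IsLaw a) (hsym : rev a = a) {δ D : ℝ}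
    (hδ : 0 < δ) {m : ℕ} (hm : (1 + δ) ^ m = 2)
    (hD : ∀ x : InjT ι V, ((Fintype.card (InjT ι V) : ℕ) : ℝ) ^ δ *
      ∑ y : InjT ι V, kerM a x y * ∑ z : InjT ι V, (kerM a y z) ^ (1 + δ) ≤ Real.exp (δ * D)) :
    fixDesc (a ^ (4 * m)) (Fintype.card ι) ≤ Real.exp D := by
  have haa : IsLaw (a ^ 2) := ha.pow 2
  have hsaa : rev (a ^ 2) = a ^ 2 := by rw [rev_pow, hsym]
  have h4 : a ^ (4 * m) = (a ^ 2) ^ (2 * m) := by rw [← pow_mul]; congr 1; ring
  rw [h4]
  apply fixDesc_kerM_pow_le (a ^ 2) haa hsaa hδ hm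
  intro x
  refine le_trans ?_ (hD x)
  have hc0 : 0 ≤ ((Fintype.card (InjT ι V) : ℕ) : ℝ) ^ δ := by positivity
  apply mul_le_mul_of_nonneg_left _ hc0
  -- Jensen
  have hp : (1 : ℝ) ≤ 1 + δ := by linarith
  have hK2 : ∀ z : InjT ι V, kerM (a ^ 2) x z = ∑ y, kerM a x y * kerM a y z := by
    intro z
    rw [kerM_pow, sq, Matrix.mul_apply]
  have hJ : ∀ z : InjT ι V, (kerM (a ^ 2) x z) ^ (1 + δ)
      ≤ ∑ y, kerM a x y * (kerM a y z) ^ (1 + δ) := by
    intro z
    rw [hK2]
    have h := (convexOn_rpow hp).map_sum_le (t := Finset.univ) (w := fun y => kerM a x y)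
      (p := fun y => kerM a y z) (fun y _ => kerM_nonneg ha x y) (kerM_row ha x)
      (fun y _ => kerM_nonneg ha y z)
    simpa [smul_eq_mul] using h
  calc ∑ z, (kerM (a ^ 2) x z) ^ (1 + δ) ≤ ∑ z, ∑ y, kerM a x y * (kerM a y z) ^ (1 + δ) :=
        Finset.sum_le_sum fun z _ => hJ z
    _ = ∑ y, kerM a x y * ∑ z, (kerM a y z) ^ (1 + δ) := by
        rw [Finset.sum_comm]
        simp only [Finset.mul_sum]

end kernel

section tower

/-- the number of injective tuples -/
theorem card_InjT (ι V : Type) [Fintype ι] [DecidableEq ι] [Fintype V] [DecidableEq V] :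
    Fintype.card (InjT ι V) = (Fintype.card V).descFactorial (Fintype.card ι) := by
  rw [Fintype.card_congr (Equiv.subtypeInjectiveEquivEmbedding ι V), Fintype.card_embedding_eq]

theorem rev_bA_tk (k : ℕ) : rev (bA k) = bA k := by
  rw [bA_eq, rev_mul, rev_rev]

theorem sum_injT_le {ι V : Type} [Fintype ι] [DecidableEq ι] [Fintype V] [DecidableEq V]
    (f : (ι → V) → ℝ) (hf : ∀ Z, 0 ≤ f Z) :
    ∑ z : InjT ι V, f z.1 ≤ ∑ Z : ι → V, f Z := by
  classical
  have h : ∑ z : InjT ι V, f z.1 = ∑ Z ∈ (Finset.univ : Finset (InjT ι V)).image Subtype.val, f Z :=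
    (Finset.sum_image (fun _ _ _ _ h => Subtype.ext h)).symm
  rw [h]
  exact Finset.sum_le_sum_of_subset_of_nonneg (Finset.subset_univ _) fun Z _ _ => hf Z

/-- The row sum of the `(1+δ)`-power for the tower, in terms of the multiplicity. -/
theorem row_bA_le (d : ℕ) {ι : Type} [Fintype ι] [DecidableEq ι] (x : InjT ι (Pos (d + 1)))
    {δ : ℝ} (hδ : 0 < δ) :
    ((Fintype.card (InjT ι (Pos (d + 1))) : ℕ) : ℝ) ^ δ *
        ∑ z : InjT ι (Pos (d + 1)), (kerM (bA (d + 1)) x z) ^ (1 + δ)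
      ≤ (((Fintype.card (InjT ι (Pos (d + 1))) : ℕ) : ℝ) / ((2 : ℝ) ^ (d + 1)) ^ Fintype.card ι) ^ δ *
        EE (d + 1) (fun i o => NN (d + 1) (univ.image x.1) i o ^ δ) := by
  have h := power_mean_tower (d + 1) x.1 x.2 δ hδ
  have hle := sum_injT_le (ι := ι) (V := Pos (d + 1))
    (fun Z => (∑ g : Perm (Pos (d + 1)), cf (bA (d + 1)) g *
        (if ∀ j, g (x.1 j) = Z j then (1 : ℝ) else 0)) ^ (1 + δ))
    (fun Z => by
      apply Real.rpow_nonneg
      apply Finset.sum_nonneg
      intro g _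
      apply mul_nonneg ((isLaw_bA d).nonneg g)
      split_ifs <;> norm_num)
  have hc0 : (0 : ℝ) ≤ ((Fintype.card (InjT ι (Pos (d + 1))) : ℕ) : ℝ) := by positivity
  have hn0 : (0 : ℝ) < ((2 : ℝ) ^ (d + 1)) ^ Fintype.card ι := by positivity
  have e : (((Fintype.card (InjT ι (Pos (d + 1))) : ℕ) : ℝ) / ((2 : ℝ) ^ (d + 1)) ^ Fintype.card ι) ^ δ
      = ((Fintype.card (InjT ι (Pos (d + 1))) : ℕ) : ℝ) ^ δ *
        (((((2 : ℝ) ^ (d + 1)) ^ Fintype.card ι)⁻¹) ^ δ) := by
    rw [div_eq_mul_inv, Real.mul_rpow hc0 (by positivity)]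
  rw [e, mul_assoc]
  apply mul_le_mul_of_nonneg_left _ (by positivity)
  exact le_trans hle h

theorem card_image_injT {ι V : Type} [Fintype ι] [DecidableEq ι] [Fintype V] [DecidableEq V]
    (x : InjT ι V) : (Finset.univ.image x.1).card = Fintype.card ι := by
  rw [Finset.card_image_of_injective _ x.2, Finset.card_univ]

theorem image_permT {ι V : Type} [Fintype ι] [DecidableEq ι] [Fintype V] [DecidableEq V]
    (g : Perm V) (x : InjT ι V) :
    Finset.univ.image (permT g x).1 = (Finset.univ.image x.1).image g := by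
  rw [Finset.image_image]
  rfl

/-- expectation against the kernel -/
theorem sum_kerM_mul {ι V : Type} [Fintype ι] [DecidableEq ι] [Fintype V] [DecidableEq V]
    (a : RG (Perm V)) (x : InjT ι V) (F : InjT ι V → ℝ) :
    ∑ y, kerM a x y * F y = ∑ g, cf a g * F (permT g x) := by
  simp only [kerM_apply, ite_forall_eq, Finset.sum_mul]
  rw [Finset.sum_comm]
  apply Finset.sum_congr rfl
  intro g _
  rw [Finset.sum_eq_single (permT g x)]
  · simp
  · intro y _ hy
    simp [hy]
  · simp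

/-- the constant `(n)_t / n^t` -/
noncomputable def descRatio (n t : ℕ) : ℝ := ((n.descFactorial t : ℕ) : ℝ) / (n : ℝ) ^ t

theorem descRatio_nonneg (n t : ℕ) : 0 ≤ descRatio n t := by
  unfold descRatio; positivity

theorem descRatio_le_one (n t : ℕ) : descRatio n t ≤ 1 := by
  unfold descRatio
  apply div_le_one_of_le₀ _ (by positivity)
  exact_mod_cast Nat.descFactorial_le_pow n t

theorem card_InjT_tower (d t : ℕ) :
    Fintype.card (InjT (Fin t) (Pos (d + 1))) = (2 ^ (d + 1)).descFactorial t := by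
  rw [card_InjT, card_Pos, Fintype.card_fin]

theorem ratio_eq (d t : ℕ) :
    ((Fintype.card (InjT (Fin t) (Pos (d + 1))) : ℕ) : ℝ) / ((2 : ℝ) ^ (d + 1)) ^ Fintype.card (Fin t)
      = descRatio (2 ^ (d + 1)) t := by
  unfold descRatio
  rw [card_InjT_tower, Fintype.card_fin]
  push_cast
  rfl

theorem fixDesc_eq_zero_of_ratio {d t : ℕ} (a : RG (Perm (Pos (d + 1))))
    (h : descRatio (2 ^ (d + 1)) t = 0) : fixDesc a t = 0 := by
  have hn0 : ((2 ^ (d + 1) : ℕ) : ℝ) ^ t ≠ 0 := by positivity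
  unfold descRatio at h
  have h0 : (((2 ^ (d + 1)).descFactorial t : ℕ) : ℝ) = 0 := by
    rcases div_eq_zero_iff.mp h with h | h
    · exact h
    · exact absurd h hn0
  have hc : Fintype.card (InjT (Fin t) (Pos (d + 1))) = 0 := by
    rw [card_InjT_tower]
    exact_mod_cast h0
  haveI : IsEmpty (InjT (Fin t) (Pos (d + 1))) := Fintype.card_eq_zero_iff.mp hc
  have ht := trace_kerM (ι := Fin t) a
  rw [Fintype.card_fin] at ht
  rw [← ht]
  simp [Matrix.trace]

/-- **(B) → trace, one pass**: from the power mean of the multiplicity, for all `t`-sets. -/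
theorem fixDesc_bA_ratio_le (d t : ℕ) {δ E : ℝ} (hδ : 0 < δ) {m : ℕ} (hm : (1 + δ) ^ m = 2)
    (hE : ∀ S : Finset (Pos (d + 1)), S.card = t →
      EE (d + 1) (fun i o => NN (d + 1) S i o ^ δ) ≤ Real.exp (δ * E)) :
    fixDesc ((bA (d + 1)) ^ (2 * m)) t ≤ descRatio (2 ^ (d + 1)) t * Real.exp E := by
  rcases (descRatio_nonneg (2 ^ (d + 1)) t).eq_or_lt with hR | hR
  · rw [fixDesc_eq_zero_of_ratio _ hR.symm, ← hR, zero_mul]
  have hexp : descRatio (2 ^ (d + 1)) t * Real.exp E
      = Real.exp (Real.log (descRatio (2 ^ (d + 1)) t) + E) := by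
    rw [Real.exp_add, Real.exp_log hR]
  rw [hexp]
  have h := fixDesc_kerM_pow_le (ι := Fin t) (bA (d + 1)) (isLaw_bA d) (rev_bA_tk _) hδ hm
    (D := Real.log (descRatio (2 ^ (d + 1)) t) + E) ?_
  · rwa [Fintype.card_fin] at h
  intro x
  refine le_trans (row_bA_le d x hδ) ?_
  rw [ratio_eq]
  have hS := hE (Finset.univ.image x.1) (by rw [card_image_injT, Fintype.card_fin])
  calc descRatio (2 ^ (d + 1)) t ^ δ * EE (d + 1) (fun i o => NN (d + 1) (univ.image x.1) i o ^ δ)
      ≤ descRatio (2 ^ (d + 1)) t ^ δ * Real.exp (δ * E) :=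
        mul_le_mul_of_nonneg_left hS (by positivity)
    _ = Real.exp (δ * (Real.log (descRatio (2 ^ (d + 1)) t) + E)) := by
        rw [Real.rpow_def_of_pos hR, ← Real.exp_add]
        congr 1
        ring

/-- **(B) → trace, two passes** (the `P²` trick: the sets are averaged by one pass of the law). -/
theorem fixDesc_bA_sq_ratio_le (d t : ℕ) {δ E : ℝ} (hδ : 0 < δ) {m : ℕ} (hm : (1 + δ) ^ m = 2)
    (hE : ∀ S : Finset (Pos (d + 1)), S.card = t →
      ∑ g : Perm (Pos (d + 1)), cf (bA (d + 1)) g *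
        EE (d + 1) (fun i o => NN (d + 1) (S.image g) i o ^ δ) ≤ Real.exp (δ * E)) :
    fixDesc ((bA (d + 1)) ^ (4 * m)) t ≤ descRatio (2 ^ (d + 1)) t * Real.exp E := by
  rcases (descRatio_nonneg (2 ^ (d + 1)) t).eq_or_lt with hR | hR
  · rw [fixDesc_eq_zero_of_ratio _ hR.symm, ← hR, zero_mul]
  have hexp : descRatio (2 ^ (d + 1)) t * Real.exp E
      = Real.exp (Real.log (descRatio (2 ^ (d + 1)) t) + E) := by
    rw [Real.exp_add, Real.exp_log hR]
  rw [hexp]
  have h := fixDesc_kerM_pow_sq_le (ι := Fin t) (bA (d + 1)) (isLaw_bA d) (rev_bA_tk _) hδ hm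
    (D := Real.log (descRatio (2 ^ (d + 1)) t) + E) ?_
  · rwa [Fintype.card_fin] at h
  intro x
  have hS := hE (Finset.univ.image x.1) (by rw [card_image_injT, Fintype.card_fin])
  have hrow : ∀ y : InjT (Fin t) (Pos (d + 1)),
      ((Fintype.card (InjT (Fin t) (Pos (d + 1))) : ℕ) : ℝ) ^ δ *
        ∑ z, (kerM (bA (d + 1)) y z) ^ (1 + δ)
      ≤ descRatio (2 ^ (d + 1)) t ^ δ *
        EE (d + 1) (fun i o => NN (d + 1) (univ.image y.1) i o ^ δ) := by
    intro y
    have := row_bA_le d y hδ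
    rwa [ratio_eq] at this
  calc ((Fintype.card (InjT (Fin t) (Pos (d + 1))) : ℕ) : ℝ) ^ δ *
        ∑ y, kerM (bA (d + 1)) x y * ∑ z, (kerM (bA (d + 1)) y z) ^ (1 + δ)
      = ∑ y, kerM (bA (d + 1)) x y * (((Fintype.card (InjT (Fin t) (Pos (d + 1))) : ℕ) : ℝ) ^ δ *
        ∑ z, (kerM (bA (d + 1)) y z) ^ (1 + δ)) := by
        rw [Finset.mul_sum]
        apply Finset.sum_congr rfl
        intro y _
        ring
    _ ≤ ∑ y, kerM (bA (d + 1)) x y * (descRatio (2 ^ (d + 1)) t ^ δ *
        EE (d + 1) (fun i o => NN (d + 1) (univ.image y.1) i o ^ δ)) :=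
        Finset.sum_le_sum fun y _ =>
          mul_le_mul_of_nonneg_left (hrow y) (kerM_nonneg (isLaw_bA d) x y)
    _ = ∑ g : Perm (Pos (d + 1)), cf (bA (d + 1)) g * (descRatio (2 ^ (d + 1)) t ^ δ *
        EE (d + 1) (fun i o => NN (d + 1) ((univ.image x.1).image g) i o ^ δ)) := by
        rw [sum_kerM_mul]
        apply Finset.sum_congr rfl
        intro g _
        rw [image_permT]
    _ = descRatio (2 ^ (d + 1)) t ^ δ * ∑ g : Perm (Pos (d + 1)), cf (bA (d + 1)) g *
        EE (d + 1) (fun i o => NN (d + 1) ((univ.image x.1).image g) i o ^ δ) := by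
        rw [Finset.mul_sum]
        apply Finset.sum_congr rfl
        intro g _
        ring
    _ ≤ descRatio (2 ^ (d + 1)) t ^ δ * Real.exp (δ * E) :=
        mul_le_mul_of_nonneg_left hS (by positivity)
    _ = Real.exp (δ * (Real.log (descRatio (2 ^ (d + 1)) t) + E)) := by
        rw [Real.rpow_def_of_pos hR, ← Real.exp_add]
        congr 1
        ring

end tower

end Crest.Agent.Lib.Thorp
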