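import Mathlib
import Crest.Agent.Lib.Thorp.BCore
import Crest.Agent.Lib.Thorp.Head
import Crest.Agent.Lib.Thorp.TupleKernel

set_option autoImplicit false

/-!
# The concrete (B) bound (S0222)

`M = 32`, `δ = 2^(1/32) - 1`, `W = 1 - 32 δ`, `s h = ⌈δ/W · g h⌉`, `η h = etaS (h - 1)`:
`fixDesc (bA (d+1) ^ 128) t ≤ descRatio (2^(d+1)) t * exp (2^d * Eterm β (t / 2^(d+1)))`.
-/

namespace Crest.Agent.Lib.Thorp

open Finset Equiv

/-- `δ = 2^(1/32) - 1` -/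
noncomputable def dC : ℝ := (2 : ℝ) ^ ((1 : ℝ) / 32) - 1

/-- the Hoelder weight of the tail -/
noncomputable def wC : ℝ := 1 - 32 * dC

theorem dC_pow : (1 + dC) ^ 32 = 2 := by
  unfold dC
  rw [add_sub_cancel, ← Real.rpow_natCast, ← Real.rpow_mul (by norm_num)]
  norm_num

theorem dC_pos : 0 < dC := by
  unfold dC
  have : (1 : ℝ) < (2 : ℝ) ^ ((1 : ℝ) / 32) := Real.one_lt_rpow (by norm_num) (by norm_num)
  linarith

theorem dC_le : dC ≤ 1 / 45 := by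
  by_contra h
  push Not at h
  have h1 : (46 / 45 : ℝ) < 1 + dC := by linarith
  have h2 : ((46 / 45 : ℝ)) ^ 32 < (1 + dC) ^ 32 :=
    pow_lt_pow_left₀ h1 (by norm_num) (by norm_num)
  rw [dC_pow] at h2
  norm_num at h2

theorem wC_pos : 0 < wC := by
  unfold wC
  have := dC_le
  linarith

theorem etaS_nonneg' : ∀ k, 0 ≤ etaS k
  | 0 => by
    show 0 ≤ Real.log 2
    exact Real.log_nonneg (by norm_num)
  | 1 => by
    show 0 ≤ Real.log 3 / 2
    have := Real.log_nonneg (show (1 : ℝ) ≤ 3 by norm_num)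
    positivity
  | K + 2 => by
    show 0 ≤ ((3 / 2) ^ K + 4 / 5 * (5 / 4) ^ K - 7 / 50 - 3 / 500 * (K : ℝ)) / 2 ^ (K + 2)
    apply div_nonneg _ (by positivity)
    have h1 : (1 : ℝ) + (K : ℝ) * (1 / 2) ≤ (1 + 1 / 2) ^ K :=
      one_add_mul_le_pow (by norm_num) K
    have h2 : (0 : ℝ) ≤ (5 / 4) ^ K := by positivity
    have h3 : (1 + 1 / 2 : ℝ) = 3 / 2 := by norm_num
    rw [h3] at h1
    have h4 : (0 : ℝ) ≤ (K : ℝ) := Nat.cast_nonneg _
    nlinarith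

/-- the parameters -/
noncomputable def pC (β : ℝ) (hβ : 0 < β) : BPar where
  M := 32
  δ := dC
  W := wC
  η := fun h => etaS (h - 1)
  s := fun h => Nat.ceil (dC / wC * gOf h)
  β := β
  hM := by norm_num
  hδ := dC_pos
  hW := wC_pos
  hsum := by unfold wC; push_cast; ring
  hη := fun h => etaS_nonneg' _
  hs := fun h _ => Nat.le_ceil _
  hβ := hβ

/-- the exponent -/
noncomputable def Eterm (β y : ℝ) : ℝ :=
  ∑ h ∈ Ioc 0 32, Real.log (1 + (Real.exp (etaS (h - 1)) - 1) * y ^ 2)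
    + wC / dC * Real.log (1 + (Real.exp β - 1) * y ^ 2)

/-- the tail coefficient (the `tailC` of the concrete parameters) -/
noncomputable def tailD (h : ℕ) : ℝ :=
  (((2 ^ Nat.ceil (dC / wC * gOf h) - 1 : ℕ) : ℝ) * (3 / 4) ^ (gOf h / 2)) / (gOf h : ℝ)

theorem head_hyp (k : ℕ) (S' : Finset (Pos k)) (i : Coin k) (h : ℕ) (hh : h ∈ Ioc 0 32) :
    ((Fintype.card (Coin k) : ℝ))⁻¹ * ∑ o, NNlev k h S' i o
      ≤ Real.exp (etaS (h - 1) * (DblLev k h S' i : ℝ)) := by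
  have hh' := Finset.mem_Ioc.mp hh
  rcases le_or_gt h k with hk | hk
  · exact head_bound k h S' i (by omega) hk
  · have h1 : ∀ o, NNlev k h S' i o = 1 := fun o => NNlev_eq_one_of_lt k h S' i o hk
    have h2 : DblLev k h S' i = 0 := DblLev_eq_zero_of_lt k h S' i hk
    simp only [h1, h2]
    have hc : (Fintype.card (Coin k) : ℝ) ≠ 0 := by exact_mod_cast Fintype.card_ne_zero
    simp [hc]

/-- the concrete form of `bcore` -/
theorem bcore_concrete (β : ℝ) (hβ : 0 < β) (htail : ∀ k, ∑ h ∈ Ioc 32 k, tailD h ≤ β)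
    (d : ℕ) (S : Finset (Pos (d + 1))) :
    ∑ g : Perm (Pos (d + 1)), cf (bA (d + 1)) g *
        EE (d + 1) (fun i o => NN (d + 1) (S.image g) i o ^ dC)
      ≤ Real.exp (dC * ((2 : ℝ) ^ d * Eterm β ((S.card : ℝ) / 2 ^ (d + 1)))) := by
  have hb := bcore (pC β hβ) (d + 1) S (fun S' i h hh => head_hyp (d + 1) S' i h hh) (htail (d + 1))
  refine hb.trans (le_of_eq ?_)
  set y : ℝ := (S.card : ℝ) / 2 ^ (d + 1) with hy
  show (∏ h ∈ Ioc 0 32, ((1 + (Real.exp (etaS (h - 1)) - 1) * y ^ 2) ^ (2 ^ (d + 1 - 1))) ^ dC)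
      * ((1 + (Real.exp β - 1) * y ^ 2) ^ (2 ^ (d + 1 - 1))) ^ wC = _
  simp only [Nat.add_sub_cancel]
  have hpos : ∀ α : ℝ, 0 ≤ α → 0 < 1 + (Real.exp α - 1) * y ^ 2 := by
    intro α hα
    have h1 : 0 ≤ Real.exp α - 1 := by linarith [Real.add_one_le_exp α]
    have := mul_nonneg h1 (sq_nonneg y)
    linarith
  have hconv : ∀ (x w : ℝ), 0 < x → (x ^ (2 ^ d)) ^ w = Real.exp (w * ((2 : ℝ) ^ d * Real.log x)) := by
    intro x w hx
    rw [← Real.rpow_natCast, ← Real.rpow_mul hx.le, Real.rpow_def_of_pos hx]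
    congr 1
    push_cast
    ring
  have e1 : ∀ h ∈ Ioc 0 32, ((1 + (Real.exp (etaS (h - 1)) - 1) * y ^ 2) ^ (2 ^ d)) ^ dC
      = Real.exp (dC * ((2 : ℝ) ^ d * Real.log (1 + (Real.exp (etaS (h - 1)) - 1) * y ^ 2))) := by
    intro h _
    exact hconv _ _ (hpos _ (etaS_nonneg' _))
  rw [Finset.prod_congr rfl e1, hconv _ _ (hpos _ hβ.le), ← Real.exp_sum, ← Real.exp_add]
  congr 1
  unfold Eterm
  rw [← Finset.mul_sum, ← Finset.mul_sum]
  have := dC_pos.ne'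
  generalize (∑ h ∈ Ioc 0 32, Real.log (1 + (Real.exp (etaS (h - 1)) - 1) * y ^ 2)) = A
  generalize Real.log (1 + (Real.exp β - 1) * y ^ 2) = B
  field_simp

/-- **The (B) bound.** -/
theorem fixDesc_le_Eterm (β : ℝ) (hβ : 0 < β) (htail : ∀ k, ∑ h ∈ Ioc 32 k, tailD h ≤ β)
    (d t : ℕ) :
    fixDesc ((bA (d + 1)) ^ 128) t
      ≤ descRatio (2 ^ (d + 1)) t * Real.exp ((2 : ℝ) ^ d * Eterm β ((t : ℝ) / 2 ^ (d + 1))) := by
  have h := fixDesc_bA_sq_ratio_le d t (δ := dC) (E := (2 : ℝ) ^ d * Eterm β ((t : ℝ) / 2 ^ (d + 1)))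
    dC_pos (m := 32) dC_pow (by
      intro S hS
      have := bcore_concrete β hβ htail d S
      rw [hS] at this
      exact this)
  exact h

end Crest.Agent.Lib.Thorp
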