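import Mathlib
import Crest.Agent.Lib.Thorp.XSharp
import Crest.Agent.Lib.Thorp.TupleKernel
import Crest.Agent.Lib.Thorp.BConcrete

set_option autoImplicit false

/-!
# S0222: numerics for the warm start

* `bnum_descRatio_le`: `(n)_t / n^t ≤ exp (-t²/(2n) + 1/2)`, `t ≤ n`.
* `bnum_descRatio_self_le`: `n! / n^n ≤ n exp (1 - n)`.
* `bnum_sum_exp_eta`: `∑_{h ≤ 32} (exp (etaS (h-1)) - 1) ≤ 3.39`.
* `bnum_sum_eta`: `∑_{h ≤ 32} etaS (h-1) ≤ 2.71`.
* `bnum_delta_*`: bounds on `δ = 2^(1/32) - 1`.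
-/

namespace Crest.Agent.Lib.Thorp

open Finset Real

theorem bnum_descRatio_le (n t : ℕ) (hn : 0 < n) (ht : t ≤ n) :
    descRatio n t ≤ Real.exp (-((t : ℝ) ^ 2 / (2 * n)) + 1 / 2) := by
  have hnR : (0 : ℝ) < n := by exact_mod_cast hn
  have h1 : descRatio n t = ∏ i ∈ range t, (1 - (i : ℝ) / n) := by
    unfold descRatio
    rw [Nat.descFactorial_eq_prod_range]
    push_cast
    have : (n : ℝ) ^ t = ∏ _i ∈ range t, (n : ℝ) := by simp
    rw [this, ← Finset.prod_div_distrib]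
    apply Finset.prod_congr rfl
    intro i hi
    rw [Finset.mem_range] at hi
    have hin : i ≤ n := by omega
    rw [Nat.cast_sub hin]
    field_simp
  rw [h1]
  have h2 : ∏ i ∈ range t, (1 - (i : ℝ) / n) ≤ ∏ i ∈ range t, Real.exp (-((i : ℝ) / n)) := by
    apply Finset.prod_le_prod
    · intro i hi
      rw [Finset.mem_range] at hi
      have : (i : ℝ) ≤ n := by
        have : i ≤ n := by omega
        exact_mod_cast this
      have h3 : (i : ℝ) / n ≤ 1 := (div_le_one hnR).mpr this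
      linarith
    · intro i _
      exact Real.one_sub_le_exp_neg _
  refine h2.trans ?_
  rw [← Real.exp_sum]
  apply Real.exp_le_exp.mpr
  have h4 : ∑ i ∈ range t, -((i : ℝ) / n) = -(((∑ i ∈ range t, (i : ℝ))) / n) := by
    rw [Finset.sum_div, ← Finset.sum_neg_distrib]
  rw [h4]
  have h5 : (∑ i ∈ range t, (i : ℝ)) * 2 = (t : ℝ) * (t - 1) := by
    have := Finset.sum_range_id_mul_two t
    have h6 : ((∑ i ∈ range t, i : ℕ) : ℝ) * 2 = (t : ℝ) * ((t - 1 : ℕ) : ℝ) := by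
      exact_mod_cast this
    push_cast at h6
    rw [h6]
    rcases Nat.eq_zero_or_pos t with h0 | h0
    · subst h0; simp
    · rw [Nat.cast_sub h0]; simp
  have htR : (t : ℝ) ≤ n := by exact_mod_cast ht
  have h7 : (∑ i ∈ range t, (i : ℝ)) / n = ((t : ℝ) ^ 2 - t) / (2 * n) := by
    rw [div_eq_div_iff hnR.ne' (by positivity)]
    nlinarith
  rw [h7]
  have h8 : ((t : ℝ) ^ 2 - t) / (2 * n) = (t : ℝ) ^ 2 / (2 * n) - t / (2 * n) := by ring
  rw [h8]
  have h9 : (t : ℝ) / (2 * n) ≤ 1 / 2 := by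
    rw [div_le_iff₀ (by positivity)]
    linarith
  linarith

theorem bnum_factorial_le (n : ℕ) (hn : 0 < n) :
    ((n.factorial : ℕ) : ℝ) ≤ n * Real.exp (1 - n) * (n : ℝ) ^ n := by
  induction n, hn using Nat.le_induction with
  | base => simp
  | succ m hm ih =>
    have hm0 : (0 : ℝ) < m := by exact_mod_cast hm
    have key : Real.exp 1 * ((m : ℝ) / (m + 1)) ^ (m + 1) ≤ 1 := by
      -- `(1+1/m)^(m+1) ≥ e`
      have h1 : 1 / ((m : ℝ) + 1) ≤ Real.log (((m : ℝ) + 1) / m) := by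
        have hpos : 0 < ((m : ℝ) + 1) / m := by positivity
        have := Real.one_sub_inv_le_log_of_pos hpos
        have e : 1 - (((m : ℝ) + 1) / m)⁻¹ = 1 / ((m : ℝ) + 1) := by
          field_simp
          ring
        rwa [e] at this
      have h2 : Real.exp 1 ≤ (((m : ℝ) + 1) / m) ^ (m + 1) := by
        have h3 : (1 : ℝ) ≤ (m + 1 : ℕ) * Real.log (((m : ℝ) + 1) / m) := by
          push_cast
          calc (1 : ℝ) = ((m : ℝ) + 1) * (1 / ((m : ℝ) + 1)) := by field_simp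
            _ ≤ _ := mul_le_mul_of_nonneg_left h1 (by positivity)
        have hpos : 0 < ((m : ℝ) + 1) / m := by positivity
        calc Real.exp 1 ≤ Real.exp ((m + 1 : ℕ) * Real.log (((m : ℝ) + 1) / m)) :=
              Real.exp_le_exp.mpr h3
          _ = _ := by rw [Real.exp_nat_mul, Real.exp_log hpos]
      have hpos : 0 < ((m : ℝ) / (m + 1)) ^ (m + 1) := by positivity
      calc Real.exp 1 * ((m : ℝ) / (m + 1)) ^ (m + 1)
          ≤ (((m : ℝ) + 1) / m) ^ (m + 1) * ((m : ℝ) / (m + 1)) ^ (m + 1) :=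
            mul_le_mul_of_nonneg_right h2 hpos.le
        _ = 1 := by
            rw [← mul_pow]
            have : ((m : ℝ) + 1) / m * ((m : ℝ) / (m + 1)) = 1 := by field_simp
            rw [this, one_pow]
    rw [Nat.factorial_succ]
    push_cast
    have e1 : Real.exp (1 - ((m : ℝ) + 1)) = Real.exp (1 - m) * Real.exp (-1) := by
      rw [← Real.exp_add]; congr 1; ring
    rw [e1]
    have hE : Real.exp (-1) * Real.exp 1 = 1 := by
      rw [← Real.exp_add]; simp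
    have hm1 : (0 : ℝ) < (m : ℝ) + 1 := by positivity
    have h3 : (m : ℝ) * (m : ℝ) ^ m ≤ Real.exp (-1) * ((m : ℝ) + 1) ^ (m + 1) := by
      have h4 : Real.exp 1 * (m : ℝ) ^ (m + 1) ≤ ((m : ℝ) + 1) ^ (m + 1) := by
        rw [div_pow] at key
        have := key
        rw [← mul_div_assoc, div_le_one (by positivity)] at this
        exact this
      calc (m : ℝ) * (m : ℝ) ^ m = (Real.exp (-1) * Real.exp 1) * (m : ℝ) ^ (m + 1) := by
            rw [hE]; ring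
        _ = Real.exp (-1) * (Real.exp 1 * (m : ℝ) ^ (m + 1)) := by ring
        _ ≤ _ := mul_le_mul_of_nonneg_left h4 (Real.exp_pos _).le
    calc ((m : ℝ) + 1) * (m.factorial : ℝ)
        ≤ ((m : ℝ) + 1) * ((m : ℝ) * Real.exp (1 - m) * (m : ℝ) ^ m) :=
          mul_le_mul_of_nonneg_left ih hm1.le
      _ = ((m : ℝ) + 1) * Real.exp (1 - m) * ((m : ℝ) * (m : ℝ) ^ m) := by ring
      _ ≤ ((m : ℝ) + 1) * Real.exp (1 - m) * (Real.exp (-1) * ((m : ℝ) + 1) ^ (m + 1)) :=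
          mul_le_mul_of_nonneg_left h3 (by positivity)
      _ = _ := by ring

theorem bnum_descRatio_self_le (n : ℕ) (hn : 0 < n) :
    descRatio n n ≤ n * Real.exp (1 - n) := by
  have hnR : (0 : ℝ) < n := by exact_mod_cast hn
  unfold descRatio
  rw [Nat.descFactorial_self, div_le_iff₀ (by positivity)]
  exact bnum_factorial_le n hn

/-- the form wanted by BFinal -/
theorem bnum_desc_le (n t : ℕ) (hn : 0 < n) (ht : t ≤ n) :
    descRatio n t ≤ Real.exp (-((t : ℝ) ^ 2) / (2 * n) + 1 / 2) := by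
  have := bnum_descRatio_le n t hn ht
  rwa [neg_div]

theorem bnum_desc_self (n : ℕ) (hn : 0 < n) :
    descRatio n n ≤ Real.exp 1 * n * Real.exp (-(n : ℝ)) := by
  refine (bnum_descRatio_self_le n hn).trans (le_of_eq ?_)
  rw [sub_eq_add_neg, Real.exp_add]
  ring

/-- `e n ≤ exp (n/50)` for `n ≥ 2048`. -/
theorem bnum_top_small (n : ℝ) (hn : 2048 ≤ n) : Real.exp 1 * n ≤ Real.exp (0.02 * n) := by
  have h1 : (0.02 * n) ^ 5 / (5 : ℕ).factorial ≤ Real.exp (0.02 * n) :=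
    Real.pow_div_factorial_le_exp (x := 0.02 * n) (by positivity) 5
  refine le_trans ?_ h1
  have h2 : ((5 : ℕ).factorial : ℝ) = 120 := by norm_num [Nat.factorial]
  rw [h2]
  have h3 : Real.exp 1 < 2.7182818286 := Real.exp_one_lt_d9
  have hn0 : 0 < n := by linarith
  have h4 : (2048 : ℝ) ^ 4 ≤ n ^ 4 := pow_le_pow_left₀ (by norm_num) hn 4
  have e : (0.02 * n) ^ 5 / 120 = (0.02 ^ 5 / 120 * n ^ 4) * n := by ring
  rw [e]
  apply mul_le_mul_of_nonneg_right _ hn0.le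
  have h5 : (0.02 : ℝ) ^ 5 / 120 * 2048 ^ 4 ≤ 0.02 ^ 5 / 120 * n ^ 4 :=
    mul_le_mul_of_nonneg_left h4 (by norm_num)
  have h6 : (2.7182818286 : ℝ) ≤ (0.02 : ℝ) ^ 5 / 120 * 2048 ^ 4 := by norm_num
  linarith

/-! ### `δ = 2^(1/32) - 1` -/

theorem bnum_dC_lo : (0.0218 : ℝ) ≤ dC := by
  by_contra h
  push Not at h
  have h1 : 1 + dC < (1.0218 : ℝ) := by linarith
  have h2 : (1 + dC) ^ 32 < (1.0218 : ℝ) ^ 32 :=
    pow_lt_pow_left₀ h1 (by linarith [dC_pos]) (by norm_num)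
  rw [dC_pow] at h2
  norm_num at h2

theorem bnum_dC_hi : dC ≤ (0.0219 : ℝ) := by
  by_contra h
  push Not at h
  have h1 : (1.0219 : ℝ) < 1 + dC := by linarith
  have h2 : (1.0219 : ℝ) ^ 32 < (1 + dC) ^ 32 := pow_lt_pow_left₀ h1 (by norm_num) (by norm_num)
  rw [dC_pow] at h2
  norm_num at h2

theorem bnum_wC_lo : (0.29 : ℝ) ≤ wC := by
  unfold wC
  have := bnum_dC_hi
  linarith

theorem bnum_wC_div : wC / dC ≤ (13.9 : ℝ) := by
  have h0 := dC_pos
  rw [div_le_iff₀ h0]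
  unfold wC
  have := bnum_dC_lo
  nlinarith

theorem bnum_theta_le : dC / wC ≤ 1 / 13 := by
  have h0 := wC_pos
  rw [div_le_div_iff₀ h0 (by norm_num)]
  unfold wC
  have := bnum_dC_hi
  linarith

theorem bnum_etaS_nonneg (k : ℕ) : 0 ≤ etaS k := etaS_nonneg' k

/-! ### the head exponents -/

theorem bnum_etaS_add_two (K : ℕ) :
    etaS (K + 2) = ((3 / 2) ^ K + 4 / 5 * (5 / 4) ^ K - 7 / 50 - 3 / 500 * (K : ℝ)) / 2 ^ (K + 2) :=
  rfl

/-- `log 3 ≤ 1.1` -/
theorem bnum_log_three : Real.log 3 ≤ 1.1 := by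
  rw [Real.log_le_iff_le_exp (by norm_num)]
  have h1 : (3 : ℝ) ^ 10 ≤ Real.exp 1.1 ^ 10 := by
    rw [← Real.exp_nat_mul]
    have e : (((10 : ℕ) : ℝ) * 1.1) = ((11 : ℕ) : ℝ) * 1 := by norm_num
    rw [e, Real.exp_nat_mul]
    have h2 : (2.7182818283 : ℝ) ^ 11 ≤ Real.exp 1 ^ 11 :=
      pow_le_pow_left₀ (by norm_num) Real.exp_one_gt_d9.le 11
    refine le_trans ?_ h2
    norm_num
  exact le_of_pow_le_pow_left₀ (by norm_num) (Real.exp_pos _).le h1

/-- `exp (log 3 / 2) = √3 ≤ 1.7321` -/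
theorem bnum_exp_eta_one : Real.exp (etaS 1) ≤ 1.7321 := by
  show Real.exp (Real.log 3 / 2) ≤ 1.7321
  have h1 : Real.exp (Real.log 3 / 2) ^ 2 = 3 := by
    rw [← Real.exp_nat_mul]
    have e : (((2 : ℕ) : ℝ) * (Real.log 3 / 2)) = Real.log 3 := by push_cast; ring
    rw [e, Real.exp_log (by norm_num)]
  have h2 : Real.exp (Real.log 3 / 2) ^ 2 ≤ (1.7321 : ℝ) ^ 2 := by
    rw [h1]; norm_num
  exact le_of_pow_le_pow_left₀ (by norm_num) (by norm_num) h2

theorem bnum_exp_eta_zero : Real.exp (etaS 0) = 2 := by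
  show Real.exp (Real.log 2) = 2
  exact Real.exp_log (by norm_num)

/-- a polynomial upper bound of `exp x - 1` on `[0,1]` -/
theorem bnum_exp_sub_one_le {x : ℝ} (h0 : 0 ≤ x) (h1 : x ≤ 1) :
    Real.exp x - 1 ≤ x + x ^ 2 / 2 + x ^ 3 / 6 + 5 * x ^ 4 / 96 := by
  have := Real.exp_bound' h0 h1 (n := 4) (by norm_num)
  norm_num [Finset.sum_range_succ, Nat.factorial] at this
  linarith

/-- the rational values -/
noncomputable def bnumE (K : ℕ) : ℝ :=
  ((3 / 2) ^ K + 4 / 5 * (5 / 4) ^ K - 7 / 50 - 3 / 500 * (K : ℝ)) / 2 ^ (K + 2)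

theorem bnum_sum_Ioc (f : ℕ → ℝ) :
    ∑ h ∈ Ioc 0 32, f (h - 1) = ∑ K ∈ range 30, f (K + 2) + f 1 + f 0 := by
  have h1 : ∑ h ∈ Ioc 0 32, f (h - 1) = ∑ j ∈ range 32, f j := by
    have e : Ioc 0 32 = Ico 1 33 := by
      ext x
      simp only [Finset.mem_Ioc, Finset.mem_Ico]
      omega
    rw [e, Finset.sum_Ico_eq_sum_range]
    simp
  rw [h1, Finset.sum_range_succ' _ 31, Finset.sum_range_succ' _ 30]

theorem bnum_sum_eta : ∑ h ∈ Ioc 0 32, etaS (h - 1) ≤ 2.71 := by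
  rw [bnum_sum_Ioc]
  have h1 : ∑ K ∈ range 30, etaS (K + 2) = ∑ K ∈ range 30, bnumE K := rfl
  have h2 : ∑ K ∈ range 30, bnumE K ≤ 1.4603 := by
    norm_num [Finset.sum_range_succ, bnumE]
  have h3 : etaS 1 = Real.log 3 / 2 := rfl
  have h4 : etaS 0 = Real.log 2 := rfl
  have h5 := bnum_log_three
  have h6 := Real.log_two_lt_d9
  rw [h1, h3, h4]
  linarith

theorem bnum_sum_exp : ∑ h ∈ Ioc 0 32, (Real.exp (etaS (h - 1)) - 1) ≤ 3.39 := by
  rw [bnum_sum_Ioc (fun j => Real.exp (etaS j) - 1)]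
  have hE : ∀ K ∈ range 30, 0 ≤ bnumE K ∧ bnumE K ≤ 1 := by
    intro K hK
    rw [Finset.mem_range] at hK
    interval_cases K <;> norm_num [bnumE]
  have h1 : ∑ K ∈ range 30, (Real.exp (etaS (K + 2)) - 1) ≤
      ∑ K ∈ range 30, (bnumE K + bnumE K ^ 2 / 2 + bnumE K ^ 3 / 6 + 5 * bnumE K ^ 4 / 96) := by
    apply Finset.sum_le_sum
    intro K hK
    obtain ⟨h0, h1⟩ := hE K hK
    exact bnum_exp_sub_one_le h0 h1
  have h2 : ∑ K ∈ range 30, (bnumE K + bnumE K ^ 2 / 2 + bnumE K ^ 3 / 6 + 5 * bnumE K ^ 4 / 96)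
      ≤ 1.6553 := by
    norm_num [Finset.sum_range_succ, bnumE]
  have h3 := bnum_exp_eta_one
  have h4 := bnum_exp_eta_zero
  rw [h4]
  linarith

end Crest.Agent.Lib.Thorp
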