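import Mathlib
import Crest.Agent.Lib.Thorp.BNum

set_option autoImplicit false
set_option linter.unusedSectionVars false
set_option linter.unusedVariables false

/-!
# S0222: the two bounds on `fixDesc (bA k ^ 128)` (real analysis)
-/

namespace Crest.Agent.Lib.Thorp.BFinal

open Finset Real

theorem Eterm_le {β : ℝ} (hβ : 0 < β) (y : ℝ) :
    Eterm β y ≤ y ^ 2 * (3.39 + wC / dC * (Real.exp β - 1)) := by
  unfold Eterm
  have hlog : ∀ α : ℝ, 0 ≤ α → Real.log (1 + (Real.exp α - 1) * y ^ 2) ≤ (Real.exp α - 1) * y ^ 2 := by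
    intro α hα
    have h1 : 0 ≤ Real.exp α - 1 := by linarith [Real.add_one_le_exp α]
    have h2 : 0 ≤ (Real.exp α - 1) * y ^ 2 := mul_nonneg h1 (sq_nonneg y)
    have := Real.log_le_sub_one_of_pos (show 0 < 1 + (Real.exp α - 1) * y ^ 2 by linarith)
    linarith
  have h1 : ∑ h ∈ Ioc 0 32, Real.log (1 + (Real.exp (etaS (h - 1)) - 1) * y ^ 2)
      ≤ y ^ 2 * 3.39 := by
    calc _ ≤ ∑ h ∈ Ioc 0 32, (Real.exp (etaS (h - 1)) - 1) * y ^ 2 :=
          Finset.sum_le_sum (fun h _ => hlog _ (bnum_etaS_nonneg _))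
      _ = y ^ 2 * ∑ h ∈ Ioc 0 32, (Real.exp (etaS (h - 1)) - 1) := by
          rw [Finset.mul_sum]
          apply Finset.sum_congr rfl
          intro h _
          ring
      _ ≤ _ := mul_le_mul_of_nonneg_left bnum_sum_exp (sq_nonneg y)
  have hWd : 0 ≤ wC / dC := div_nonneg wC_pos.le dC_pos.le
  have h2 := mul_le_mul_of_nonneg_left (hlog β hβ.le) hWd
  nlinarith

theorem Eterm_one {β : ℝ} :
    Eterm β 1 = ∑ h ∈ Ioc 0 32, etaS (h - 1) + wC / dC * β := by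
  unfold Eterm
  have h1 : ∀ α : ℝ, Real.log (1 + (Real.exp α - 1) * (1 : ℝ) ^ 2) = α := by
    intro α
    have : 1 + (Real.exp α - 1) * (1 : ℝ) ^ 2 = Real.exp α := by ring
    rw [this, Real.log_exp]
  simp only [h1]

/-- hypothesis `hsmall` of `tendsto_of_inputs`. -/
theorem hsmall_of {β : ℝ} (hβ : 0 < β) (hβ1 : β ≤ 3 / 1000)
    (htail : ∀ k, ∑ h ∈ Ioc 32 k, tailD h ≤ β)
    (k t : ℕ) (hk : 11 ≤ k) (ht : t ≤ 2 ^ k) :
    fixDesc ((bA k) ^ 128) t ≤ Real.exp (4 / 3 * (t : ℝ) ^ 2 / (2 : ℝ) ^ k + 1 / 2) := by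
  obtain ⟨d, rfl⟩ : ∃ d, k = d + 1 := ⟨k - 1, by omega⟩
  refine (fixDesc_le_Eterm β hβ htail d t).trans ?_
  have hn : (0 : ℝ) < (2 : ℝ) ^ (d + 1) := by positivity
  have hd : (0 : ℝ) < (2 : ℝ) ^ d := by positivity
  have hdesc := bnum_desc_le (2 ^ (d + 1)) t (by positivity) ht
  push_cast at hdesc
  set n : ℝ := (2 : ℝ) ^ (d + 1) with hndef
  have hE := Eterm_le hβ ((t : ℝ) / n)
  have hexpβ : Real.exp β - 1 ≤ 0.0031 := by
    have h1 : Real.exp β ≤ Real.exp (3 / 1000) := Real.exp_le_exp.2 hβ1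
    have h2 : Real.exp (3 / 1000) ≤ 1.0031 := by
      have := Real.exp_bound' (x := 3 / 1000) (by norm_num) (by norm_num) (n := 2) (by norm_num)
      refine this.trans ?_
      norm_num [Finset.sum_range_succ, Nat.factorial]
    linarith
  have hexpβ0 : 0 ≤ Real.exp β - 1 := by linarith [Real.add_one_le_exp β]
  have hX : 3.39 + wC / dC * (Real.exp β - 1) ≤ 3.46 := by
    have h1 : wC / dC * (Real.exp β - 1) ≤ 13.9 * 0.0031 :=
      mul_le_mul bnum_wC_div hexpβ hexpβ0 (by norm_num)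
    norm_num at h1 ⊢
    linarith
  have hdn : (2 : ℝ) ^ d = n / 2 := by
    rw [hndef, pow_succ]
    ring
  calc _ ≤ Real.exp (-((t : ℝ) ^ 2) / (2 * n) + 1 / 2) * Real.exp ((2 : ℝ) ^ d * Eterm β ((t : ℝ) / n)) :=
        mul_le_mul_of_nonneg_right hdesc (Real.exp_pos _).le
    _ = Real.exp (-((t : ℝ) ^ 2) / (2 * n) + 1 / 2 + (2 : ℝ) ^ d * Eterm β ((t : ℝ) / n)) := by
        rw [Real.exp_add (-((t : ℝ) ^ 2) / (2 * n) + 1 / 2)]
    _ ≤ _ := by
        apply Real.exp_le_exp.2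
        have h3 : (2 : ℝ) ^ d * Eterm β ((t : ℝ) / n)
            ≤ (n / 2) * (((t : ℝ) / n) ^ 2 * 3.46) := by
          rw [hdn]
          apply mul_le_mul_of_nonneg_left _ (by positivity)
          refine hE.trans ?_
          exact mul_le_mul_of_nonneg_left hX (sq_nonneg _)
        have h4 : (n / 2) * (((t : ℝ) / n) ^ 2 * 3.46) = 3.46 / 2 * ((t : ℝ) ^ 2 / n) := by
          field_simp
        have h5 : -((t : ℝ) ^ 2) / (2 * n) = -(1 / 2) * ((t : ℝ) ^ 2 / n) := by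
          field_simp
        have h6 : 4 / 3 * (t : ℝ) ^ 2 / n = 4 / 3 * ((t : ℝ) ^ 2 / n) := by ring
        have h7 : 0 ≤ (t : ℝ) ^ 2 / n := by positivity
        rw [h6, h5]
        rw [h4] at h3
        norm_num at h3 ⊢
        linarith

/-- hypothesis `htop` of `tendsto_of_inputs`. -/
theorem htop_of {β : ℝ} (hβ : 0 < β) (hβ1 : β ≤ 3 / 1000)
    (htail : ∀ k, ∑ h ∈ Ioc 32 k, tailD h ≤ β)
    (k : ℕ) (hk : 11 ≤ k) :
    fixDesc ((bA k) ^ 128) (2 ^ k) ≤ Real.exp (9 / 20 * (2 : ℝ) ^ k) := by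
  obtain ⟨d, rfl⟩ : ∃ d, k = d + 1 := ⟨k - 1, by omega⟩
  refine (fixDesc_le_Eterm β hβ htail d (2 ^ (d + 1))).trans ?_
  have hn : (0 : ℝ) < (2 : ℝ) ^ (d + 1) := by positivity
  have hdesc := bnum_desc_self (2 ^ (d + 1)) (by positivity)
  push_cast at hdesc ⊢
  set n : ℝ := (2 : ℝ) ^ (d + 1) with hndef
  have hn2 : (2048 : ℝ) ≤ n := by
    have : (2 : ℝ) ^ 11 ≤ (2 : ℝ) ^ (d + 1) := pow_le_pow_right₀ (by norm_num) hk
    rw [hndef]
    norm_num at this ⊢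
    linarith
  have hone : n / n = 1 := div_self hn.ne'
  rw [hone, Eterm_one]
  have hdn : (2 : ℝ) ^ d = n / 2 := by
    rw [hndef, pow_succ]
    ring
  have hE : (2 : ℝ) ^ d * (∑ h ∈ Ioc 0 32, etaS (h - 1) + wC / dC * β) ≤ n / 2 * 2.76 := by
    rw [hdn]
    apply mul_le_mul_of_nonneg_left _ (by positivity)
    have h1 := bnum_sum_eta
    have h2 : wC / dC * β ≤ 13.9 * (3 / 1000) :=
      mul_le_mul bnum_wC_div hβ1 hβ.le (by norm_num)
    norm_num at h1 h2 ⊢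
    linarith
  have hsm := bnum_top_small n hn2
  calc _ ≤ Real.exp 1 * n * Real.exp (-n) * Real.exp ((2 : ℝ) ^ d * (∑ h ∈ Ioc 0 32, etaS (h - 1) + wC / dC * β)) :=
        mul_le_mul_of_nonneg_right hdesc (Real.exp_pos _).le
    _ ≤ Real.exp (0.02 * n) * Real.exp (-n) * Real.exp (n / 2 * 2.76) := by
        apply mul_le_mul _ (Real.exp_le_exp.2 hE) (Real.exp_pos _).le (by positivity)
        exact mul_le_mul_of_nonneg_right hsm (Real.exp_pos _).le
    _ = Real.exp (0.02 * n + -n + n / 2 * 2.76) := by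
        rw [Real.exp_add, Real.exp_add]
    _ ≤ _ := by
        apply Real.exp_le_exp.2
        nlinarith

end Crest.Agent.Lib.Thorp.BFinal
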