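import Mathlib
import Crest.Agent.Lib.Thorp.BNum

set_option autoImplicit false

/-!
# S0222: the tail of the Hoelder scheme: `∑_{h > 32} tailD h ≤ 3/1000`
-/

namespace Crest.Agent.Lib.Thorp

open Finset Real

theorem bnum_gOf_block (h : ℕ) (h0 : 32 < h) (h1 : h ≤ 64) : gOf h = 64 := by
  unfold gOf
  have : Nat.clog 2 h = 6 := by
    interval_cases h <;> norm_num
  rw [this]
  norm_num

theorem bnum_tailD_nonneg (h : ℕ) : 0 ≤ tailD h := by
  unfold tailD; positivity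

theorem bnum_theta_nonneg : 0 ≤ dC / wC := div_nonneg dC_pos.le wC_pos.le

theorem bnum_tailD_block (h : ℕ) (h0 : 32 < h) (h1 : h ≤ 64) :
    tailD h ≤ 31 * (3 / 4) ^ 32 / 64 := by
  unfold tailD
  rw [bnum_gOf_block h h0 h1]
  have hs : Nat.ceil (dC / wC * ((64 : ℕ) : ℝ)) ≤ 5 := by
    rw [Nat.ceil_le]
    have := bnum_theta_le
    push_cast
    nlinarith
  have h2 : (2 ^ Nat.ceil (dC / wC * ((64 : ℕ) : ℝ)) - 1 : ℕ) ≤ 31 := by
    have : 2 ^ Nat.ceil (dC / wC * ((64 : ℕ) : ℝ)) ≤ 2 ^ 5 := Nat.pow_le_pow_right (by norm_num) hs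
    omega
  have h3 : (((2 ^ Nat.ceil (dC / wC * ((64 : ℕ) : ℝ)) - 1 : ℕ)) : ℝ) ≤ 31 := by
    exact_mod_cast h2
  have e : (64 / 2 : ℕ) = 32 := by norm_num
  rw [e]
  apply div_le_div_of_nonneg_right _ (by norm_num)
  exact mul_le_mul_of_nonneg_right h3 (by positivity)

/-- the rate -/
theorem bnum_base : (4 : ℝ) * (3 / 4) ^ 13 ≤ (0.914 : ℝ) ^ 26 := by norm_num

theorem bnum_tailD_far (h : ℕ) (h0 : 65 ≤ h) :
    tailD h ≤ 2 / 65 * (0.914 : ℝ) ^ h := by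
  unfold tailD
  obtain ⟨g, hg⟩ : ∃ g, g = gOf h := ⟨_, rfl⟩
  rw [← hg]
  have hhg : h ≤ g := by rw [hg]; exact le_gOf h
  have hg65 : 65 ≤ g := by omega
  have heven : g / 2 * 26 = 13 * g := by
    have hc : 0 < Nat.clog 2 h := Nat.clog_pos (by norm_num) (by omega)
    obtain ⟨c, hc'⟩ : ∃ c, Nat.clog 2 h = c + 1 := ⟨Nat.clog 2 h - 1, by omega⟩
    have : g = 2 * 2 ^ c := by rw [hg]; unfold gOf; rw [hc', pow_succ]; ring
    omega
  have hgR : (65 : ℝ) ≤ (g : ℝ) := by exact_mod_cast hg65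
  -- the number of colours
  obtain ⟨s, hs⟩ : ∃ s, s = Nat.ceil (dC / wC * (g : ℝ)) := ⟨_, rfl⟩
  rw [← hs]
  have hs1 : (s : ℝ) < dC / wC * g + 1 := by
    rw [hs]
    exact Nat.ceil_lt_add_one (mul_nonneg bnum_theta_nonneg (by positivity))
  have hs2 : 13 * ((s : ℝ) - 1) ≤ g := by
    have := bnum_theta_le
    have hg0 : (0 : ℝ) ≤ g := by positivity
    nlinarith
  obtain ⟨w, hw1, hw2⟩ : ∃ w : ℕ, s ≤ w + 1 ∧ 13 * w ≤ g := by
    refine ⟨s - 1, by omega, ?_⟩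
    rcases Nat.eq_zero_or_pos s with h | h
    · subst h; simp
    · have : ((s - 1 : ℕ) : ℝ) = (s : ℝ) - 1 := by
        rw [Nat.cast_sub h]; simp
      have h3 : ((13 * (s - 1) : ℕ) : ℝ) ≤ (g : ℝ) := by
        push_cast
        rw [this]
        exact hs2
      exact_mod_cast h3
  -- the main power inequality
  have key : (2 : ℝ) ^ w * (3 / 4) ^ (g / 2) ≤ (0.914 : ℝ) ^ g := by
    have h1 : ((2 : ℝ) ^ w * (3 / 4) ^ (g / 2)) ^ 26 ≤ ((0.914 : ℝ) ^ g) ^ 26 := by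
      rw [mul_pow, ← pow_mul, ← pow_mul, heven]
      have h2 : (2 : ℝ) ^ (w * 26) ≤ 2 ^ (2 * g) := by
        apply pow_le_pow_right₀ (by norm_num)
        omega
      calc (2 : ℝ) ^ (w * 26) * (3 / 4) ^ (13 * g)
          ≤ 2 ^ (2 * g) * (3 / 4) ^ (13 * g) := mul_le_mul_of_nonneg_right h2 (by positivity)
        _ = ((4 : ℝ) * (3 / 4) ^ 13) ^ g := by
            rw [mul_pow, pow_mul, pow_mul]
            norm_num
        _ ≤ ((0.914 : ℝ) ^ 26) ^ g := pow_le_pow_left₀ (by positivity) bnum_base g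
        _ = ((0.914 : ℝ) ^ g) ^ 26 := pow_right_comm _ _ _
    exact le_of_pow_le_pow_left₀ (by norm_num) (by positivity) h1
  have h3 : ((2 ^ s - 1 : ℕ) : ℝ) ≤ 2 * 2 ^ w := by
    have h4 : 2 ^ s - 1 ≤ 2 * 2 ^ w := by
      have : 2 ^ s ≤ 2 ^ (w + 1) := Nat.pow_le_pow_right (by norm_num) hw1
      rw [pow_succ] at this
      omega
    exact_mod_cast h4
  have hr : (0.914 : ℝ) ^ g ≤ (0.914 : ℝ) ^ h :=
    pow_le_pow_of_le_one (by norm_num) (by norm_num) hhg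
  have hg0 : (0 : ℝ) < g := by linarith
  rw [div_le_iff₀ hg0]
  calc ((2 ^ s - 1 : ℕ) : ℝ) * (3 / 4) ^ (g / 2) ≤ (2 * 2 ^ w) * (3 / 4) ^ (g / 2) :=
        mul_le_mul_of_nonneg_right h3 (by positivity)
    _ = 2 * ((2 : ℝ) ^ w * (3 / 4) ^ (g / 2)) := by ring
    _ ≤ 2 * (0.914 : ℝ) ^ h := by linarith
    _ ≤ 2 / 65 * (0.914 : ℝ) ^ h * g := by
        have hp : (0 : ℝ) < (0.914 : ℝ) ^ h := by positivity
        have : (1 : ℝ) ≤ g / 65 := by rw [le_div_iff₀ (by norm_num)]; linarith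
        calc 2 * (0.914 : ℝ) ^ h = 2 * (0.914 : ℝ) ^ h * 1 := by ring
          _ ≤ 2 * (0.914 : ℝ) ^ h * (g / 65) := by
              apply mul_le_mul_of_nonneg_left this (by positivity)
          _ = _ := by ring

theorem bnum_geom (r : ℝ) (h0 : 0 ≤ r) (h1 : r < 1) (k : ℕ) :
    ∑ h ∈ Ioc 64 k, r ^ h ≤ r ^ 65 / (1 - r) := by
  have hpos : 0 < 1 - r := by linarith
  by_cases hk : k ≤ 64
  · rw [Finset.Ioc_eq_empty (by omega)]
    simp only [Finset.sum_empty]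
    positivity
  have key : ∀ m, 64 ≤ m → ∑ h ∈ Ioc 64 m, r ^ h = (r ^ 65 - r ^ (m + 1)) / (1 - r) := by
    intro m hm
    induction m, hm using Nat.le_induction with
    | base =>
      simp
    | succ m hm ih =>
      rw [Finset.sum_Ioc_succ_top (by omega), ih]
      field_simp
      ring
  rw [key k (by omega)]
  apply div_le_div_of_nonneg_right _ hpos.le
  have : 0 ≤ r ^ (k + 1) := by positivity
  linarith

/-- **The tail.** -/
theorem bnum_tail (k : ℕ) : ∑ h ∈ Ioc 32 k, tailD h ≤ 3 / 1000 := by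
  have hsub : Ioc 32 k ⊆ Ioc 32 64 ∪ Ioc 64 k := by
    intro x hx
    rw [Finset.mem_Ioc] at hx
    rw [Finset.mem_union, Finset.mem_Ioc, Finset.mem_Ioc]
    omega
  have hdisj : Disjoint (Ioc 32 64) (Ioc 64 k) := by
    rw [Finset.disjoint_left]
    intro x hx hy
    rw [Finset.mem_Ioc] at hx hy
    omega
  have h1 : ∑ h ∈ Ioc 32 k, tailD h ≤ ∑ h ∈ Ioc 32 64 ∪ Ioc 64 k, tailD h :=
    Finset.sum_le_sum_of_subset_of_nonneg hsub (fun h _ _ => bnum_tailD_nonneg h)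
  rw [Finset.sum_union hdisj] at h1
  have h2 : ∑ h ∈ Ioc 32 64, tailD h ≤ ∑ _h ∈ Ioc 32 64, (31 * (3 / 4) ^ 32 / 64 : ℝ) :=
    Finset.sum_le_sum fun h hh => by
      rw [Finset.mem_Ioc] at hh
      exact bnum_tailD_block h hh.1 hh.2
  rw [Finset.sum_const, Nat.card_Ioc, nsmul_eq_mul] at h2
  have h3 : ∑ h ∈ Ioc 64 k, tailD h ≤ ∑ h ∈ Ioc 64 k, (2 / 65 * (0.914 : ℝ) ^ h) :=
    Finset.sum_le_sum fun h hh => by
      rw [Finset.mem_Ioc] at hh
      exact bnum_tailD_far h (by omega)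
  rw [← Finset.mul_sum] at h3
  have h4 := bnum_geom (0.914 : ℝ) (by norm_num) (by norm_num) k
  have h5 : (2 / 65 : ℝ) * ∑ h ∈ Ioc 64 k, (0.914 : ℝ) ^ h ≤
      2 / 65 * ((0.914 : ℝ) ^ 65 / (1 - 0.914)) := mul_le_mul_of_nonneg_left h4 (by norm_num)
  have h6 : ((64 - 32 : ℕ) : ℝ) * (31 * (3 / 4) ^ 32 / 64) + 2 / 65 * ((0.914 : ℝ) ^ 65 / (1 - 0.914))
      ≤ 3 / 1000 := by norm_num
  linarith

end Crest.Agent.Lib.Thorp
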