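import Mathlib

set_option autoImplicit false

/-!
# The Hahn sum of the Johnson walk (S0222)

`dixF j m = Σ_k (-1)^(j-k) C(j,k) (m+k)! (m+j-k)!`, as an iterated forward difference.
Odd `j`: zero. `j = 2l`: `dixP l * m! * (m+l)!`.  Hence `kapJ s j ≤ kapS s`, with `kapJ` the top
coefficient of the Johnson walk on degree `j` functions.
-/

namespace Crest.Agent.Lib.Thorp

open Finset fwdDiff

/-- the factorial product -/
noncomputable def facF (j m k : ℕ) : ℝ := ((m + k).factorial : ℝ) * ((m + j - k).factorial : ℝ)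

/-- the alternating sum -/
noncomputable def dixF (j m : ℕ) : ℝ := (fwdDiff (1 : ℕ))^[j] (facF j m) 0

theorem dixF_eq_sum (j m : ℕ) : dixF j m
    = ∑ k ∈ range (j + 1), (((-1 : ℤ) ^ (j - k) * j.choose k : ℤ) : ℝ) * facF j m k := by
  unfold dixF
  rw [fwdDiff_iter_eq_sum_shift]
  apply Finset.sum_congr rfl
  intro k _
  rw [zsmul_eq_mul]
  simp

theorem iter2_fwdDiff (f : ℕ → ℝ) (k : ℕ) :
    (fwdDiff (1 : ℕ))^[2] f k = f (k + 2) - 2 * f (k + 1) + f k := by
  simp only [Function.iterate_succ, Function.iterate_zero, Function.comp, id, fwdDiff]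
  ring_nf

theorem dixF_rec (j m : ℕ) : dixF (j + 2) m
    = (2 * m + j + 2) * (2 * m + j + 3) * dixF j m - 4 * dixF j (m + 1) := by
  have h1 : dixF (j + 2) m = (fwdDiff (1 : ℕ))^[j] ((fwdDiff (1 : ℕ))^[2] (facF (j + 2) m)) 0 := by
    unfold dixF
    rw [Function.iterate_add_apply]
  rw [h1, fwdDiff_iter_eq_sum_shift, dixF_eq_sum, dixF_eq_sum, Finset.mul_sum, Finset.mul_sum,
    ← Finset.sum_sub_distrib]
  apply Finset.sum_congr rfl
  intro k hk
  have hk' : k ≤ j := by
    simpa [Nat.lt_succ_iff] using hk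
  obtain ⟨i, rfl⟩ := Nat.exists_eq_add_of_le hk'
  rw [zsmul_eq_mul, iter2_fwdDiff]
  simp only [smul_eq_mul, mul_one, zero_add]
  unfold facF
  have e0 : m + k + (m + (k + i) - k) = 0 + (2 * m + k + i) := by omega
  have a1 : m + (k + i + 2) - (k + 2) = m + i := by omega
  have a2 : m + (k + i + 2) - (k + 1) = m + i + 1 := by omega
  have a3 : m + (k + i + 2) - k = m + i + 2 := by omega
  have a4 : m + (k + i) - k = m + i := by omega
  have a5 : m + 1 + (k + i) - k = m + i + 1 := by omega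
  have a6 : m + (k + 2) = m + k + 2 := by omega
  have a7 : m + (k + 1) = m + k + 1 := by omega
  have a8 : m + 1 + k = m + k + 1 := by omega
  rw [a1, a2, a3, a4, a5, a6, a7, a8]
  simp only [Nat.factorial_succ]
  push_cast
  ring

theorem dixF_zero (m : ℕ) : dixF 0 m = (m.factorial : ℝ) * (m.factorial : ℝ) := by
  simp [dixF, facF]

theorem dixF_one (m : ℕ) : dixF 1 m = 0 := by
  simp only [dixF, Function.iterate_one, fwdDiff, facF]
  have a1 : m + 1 - (0 + 1) = m := by omega
  have a2 : m + (0 + 1) = m + 1 := by omega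
  rw [a1, a2]
  simp only [add_zero, Nat.sub_zero]
  ring

theorem dixF_odd (l m : ℕ) : dixF (2 * l + 1) m = 0 := by
  induction l generalizing m with
  | zero => simpa using dixF_one m
  | succ l ih =>
    have : 2 * (l + 1) + 1 = (2 * l + 1) + 2 := by ring
    rw [this, dixF_rec, ih, ih]
    simp

/-- the constant of the even sum -/
noncomputable def dixP : ℕ → ℝ
  | 0 => 1
  | l + 1 => dixP l * (4 * l + 2)

theorem dixP_pos : ∀ l, 0 < dixP l
  | 0 => by simp [dixP]
  | l + 1 => by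
    have := dixP_pos l
    simp only [dixP]
    positivity

theorem dixF_even (l m : ℕ) :
    dixF (2 * l) m = dixP l * (m.factorial : ℝ) * ((m + l).factorial : ℝ) := by
  induction l generalizing m with
  | zero => simp [dixF_zero, dixP]
  | succ l ih =>
    have : 2 * (l + 1) = (2 * l) + 2 := by ring
    rw [this, dixF_rec, ih, ih]
    simp only [dixP]
    have e1 : m + 1 + l = m + l + 1 := by omega
    have e2 : m + (l + 1) = m + l + 1 := by omega
    rw [e1, e2]
    simp only [Nat.factorial_succ]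
    push_cast
    ring

theorem dix_key (l m : ℕ) (hl : 1 ≤ l) :
    2 * ((m : ℝ) + 2 * l) * dixP l * ((m + l).factorial : ℝ)
      ≤ (4 : ℝ) ^ l * ((m + 2 * l).factorial : ℝ) := by
  induction l, hl using Nat.le_induction with
  | base =>
    simp only [dixP, Nat.cast_one, mul_one, pow_one]
    have e : m + 2 = (m + 1) + 1 := by omega
    rw [e]
    simp only [Nat.factorial_succ, zero_add]
    push_cast
    have : (0 : ℝ) ≤ ((m + 1) * (m.factorial : ℝ)) := by positivity
    nlinarith [this]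
  | succ l hl ih =>
    have e1 : m + (l + 1) = m + l + 1 := by omega
    have e2 : m + 2 * (l + 1) = (m + 2 * l) + 1 + 1 := by omega
    rw [e1, e2]
    simp only [dixP, Nat.factorial_succ]
    push_cast
    have hP := dixP_pos l
    have hf : (0 : ℝ) < ((m + l).factorial : ℝ) := by exact_mod_cast Nat.factorial_pos _
    have hl' : (1 : ℝ) ≤ l := by exact_mod_cast hl
    have hm : (0 : ℝ) ≤ m := Nat.cast_nonneg _
    have h4 : (0 : ℝ) < (4 : ℝ) ^ l := by positivity
    have hg : (0 : ℝ) < ((m + 2 * l).factorial : ℝ) := by exact_mod_cast Nat.factorial_pos _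
    -- multiply `ih` by `4 (m + 2 l + 1)`
    have ih2 := mul_le_mul_of_nonneg_left ih
      (show (0 : ℝ) ≤ 4 * ((m : ℝ) + 2 * l + 1) * ((m : ℝ) + 2 * l + 2) by positivity)
    have hk : (4 * (l : ℝ) + 2) * ((m : ℝ) + l + 1) ≤ 4 * ((m : ℝ) + 2 * l + 1) * ((m : ℝ) + 2 * l) := by
      nlinarith [mul_nonneg hm hm, mul_nonneg hm (sub_nonneg.mpr hl'), mul_nonneg (sub_nonneg.mpr hl') (sub_nonneg.mpr hl')]
    have hX : (0 : ℝ) ≤ 2 * ((m : ℝ) + 2 * l + 2) * dixP l * ((m + l).factorial : ℝ) := by positivity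
    have := mul_le_mul_of_nonneg_left hk hX
    calc _ = 2 * ((m : ℝ) + 2 * l + 2) * dixP l * ((m + l).factorial : ℝ)
            * ((4 * (l : ℝ) + 2) * ((m : ℝ) + l + 1)) := by ring
      _ ≤ 2 * ((m : ℝ) + 2 * l + 2) * dixP l * ((m + l).factorial : ℝ)
            * (4 * ((m : ℝ) + 2 * l + 1) * ((m : ℝ) + 2 * l)) := this
      _ = 4 * ((m : ℝ) + 2 * l + 1) * ((m : ℝ) + 2 * l + 2)
            * (2 * ((m : ℝ) + 2 * l) * dixP l * ((m + l).factorial : ℝ)) := by ring
      _ ≤ _ := ih2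
      _ = _ := by ring

/-- the value of `x_S` under the Johnson walk, as a function of `|S ∩ B|` -/
noncomputable def psiJ (s j k : ℕ) : ℝ :=
  ((2 : ℝ) ^ j)⁻¹ * ((s - k).choose (j - k) : ℝ) / (s.choose (j - k) : ℝ)

/-- the top coefficient -/
noncomputable def kapJ (s j : ℕ) : ℝ := (fwdDiff (1 : ℕ))^[j] (psiJ s j) 0

/-- the bound for the nonconstant spectrum -/
noncomputable def kapS (s : ℕ) : ℝ := if s ≤ 1 then 0 else 1 / (2 * (s : ℝ))

theorem kapS_nonneg (s : ℕ) : 0 ≤ kapS s := by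
  unfold kapS
  split_ifs
  · exact le_rfl
  · positivity

theorem psiJ_eq (s j k : ℕ) (hk : k ≤ j) (hj : j ≤ s) :
    psiJ s j k = ((2 : ℝ) ^ j)⁻¹ * facF j (s - j) k
      / (((s - j).factorial : ℝ) * (s.factorial : ℝ)) := by
  unfold psiJ facF
  obtain ⟨i, rfl⟩ := Nat.exists_eq_add_of_le hk
  obtain ⟨m, rfl⟩ := Nat.exists_eq_add_of_le hj
  have a1 : k + i + m - k = i + m := by omega
  have a2 : k + i - k = i := by omega
  have a3 : k + i + m - (k + i) = m := by omega
  have a4 : m + k = k + m := by omega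
  have a5 : m + (k + i) - k = i + m := by omega
  rw [a1, a2, a3, a4, a5]
  have h1 : (((i + m).choose i : ℕ) : ℝ) = ((i + m).factorial : ℝ) / ((i.factorial : ℝ) * (m.factorial : ℝ)) := by
    rw [Nat.cast_choose ℝ (show i ≤ i + m by omega)]
    congr 2
    rw [show i + m - i = m by omega]
  have h2 : (((k + i + m).choose i : ℕ) : ℝ)
      = ((k + i + m).factorial : ℝ) / ((i.factorial : ℝ) * ((k + m).factorial : ℝ)) := by
    rw [Nat.cast_choose ℝ (show i ≤ k + i + m by omega)]
    congr 2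
    rw [show k + i + m - i = k + m by omega]
  rw [h1, h2]
  have f1 : ((i.factorial : ℝ)) ≠ 0 := by exact_mod_cast Nat.factorial_ne_zero _
  have f2 : ((m.factorial : ℝ)) ≠ 0 := by exact_mod_cast Nat.factorial_ne_zero _
  have f3 : (((k + m).factorial : ℝ)) ≠ 0 := by exact_mod_cast Nat.factorial_ne_zero _
  have f4 : (((k + i + m).factorial : ℝ)) ≠ 0 := by exact_mod_cast Nat.factorial_ne_zero _
  field_simp

theorem kapJ_eq (s j : ℕ) (hj : j ≤ s) :
    kapJ s j = ((2 : ℝ) ^ j)⁻¹ * dixF j (s - j)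
      / (((s - j).factorial : ℝ) * (s.factorial : ℝ)) := by
  unfold kapJ
  rw [fwdDiff_iter_eq_sum_shift, dixF_eq_sum, Finset.mul_sum, Finset.sum_div]
  apply Finset.sum_congr rfl
  intro k hk
  have hk' : k ≤ j := by simpa [Nat.lt_succ_iff] using hk
  rw [zsmul_eq_mul]
  simp only [smul_eq_mul, mul_one, zero_add]
  rw [psiJ_eq s j k hk' hj]
  push_cast
  ring

theorem kapJ_le (s j : ℕ) (h1 : 1 ≤ j) (hj : j ≤ s) : kapJ s j ≤ kapS s := by
  rw [kapJ_eq s j hj]
  rcases Nat.even_or_odd' j with ⟨l, rfl | rfl⟩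
  · -- even
    have hl : 1 ≤ l := by omega
    have hs2 : ¬ s ≤ 1 := by omega
    unfold kapS
    rw [if_neg hs2, dixF_even]
    obtain ⟨m, rfl⟩ := Nat.exists_eq_add_of_le hj
    have a1 : 2 * l + m - 2 * l = m := by omega
    rw [a1]
    have key := dix_key l m hl
    have a2 : m + 2 * l = 2 * l + m := by omega
    rw [a2] at key
    have hsf : (0 : ℝ) < ((2 * l + m).factorial : ℝ) := by exact_mod_cast Nat.factorial_pos _
    have hmf : (0 : ℝ) < (m.factorial : ℝ) := by exact_mod_cast Nat.factorial_pos _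
    have hs : (0 : ℝ) < ((2 * l + m : ℕ) : ℝ) := by
      have : 0 < 2 * l + m := by omega
      exact_mod_cast this
    have h4 : (0 : ℝ) < (4 : ℝ) ^ l := by positivity
    have e4 : (2 : ℝ) ^ (2 * l) = (4 : ℝ) ^ l := by
      rw [pow_mul]; norm_num
    rw [e4, div_le_div_iff₀ (by positivity) (by positivity)]
    push_cast at hs ⊢
    have : dixP l * ((m + l).factorial : ℝ) * (2 * (2 * (l : ℝ) + m)) ≤ (4 : ℝ) ^ l * ((2 * l + m).factorial : ℝ) := by
      have e : 2 * ((m : ℝ) + 2 * l) * dixP l * ((m + l).factorial : ℝ)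
          = dixP l * ((m + l).factorial : ℝ) * (2 * (2 * (l : ℝ) + m)) := by ring
      rw [← e]
      exact key
    have h5 := mul_le_mul_of_nonneg_left this (show (0 : ℝ) ≤ ((4 : ℝ) ^ l)⁻¹ * (m.factorial : ℝ) by positivity)
    calc _ = ((4 : ℝ) ^ l)⁻¹ * (m.factorial : ℝ) * (dixP l * ((m + l).factorial : ℝ) * (2 * (2 * (l : ℝ) + m))) := by ring
      _ ≤ _ := h5
      _ = _ := by
        field_simp
  · -- odd
    rw [dixF_odd]
    simp only [mul_zero, zero_div]
    exact kapS_nonneg s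

end Crest.Agent.Lib.Thorp
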