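import Mathlib

set_option autoImplicit false

/-!
Binomial bounds for the final numerics of S0222.
-/

namespace Crest.Agent.Lib.Thorp.FinalSum

open Finset

/-- the `j`-th term of the binomial expansion of `(K+L)^(K+L)` -/
noncomputable def bterm (K L j : ℕ) : ℝ :=
  ((K + L).choose j : ℝ) * (K : ℝ) ^ j * (L : ℝ) ^ (K + L - j)

theorem bterm_nonneg (K L j : ℕ) : 0 ≤ bterm K L j := by
  unfold bterm; positivity

theorem sum_bterm (K L : ℕ) : ∑ j ∈ range (K + L + 1), bterm K L j = ((K : ℝ) + L) ^ (K + L) := by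
  rw [add_pow]
  apply Finset.sum_congr rfl
  intro j _
  unfold bterm
  ring

/-- recursion of the terms -/
theorem bterm_succ (K L j : ℕ) (hj : j < K + L) :
    bterm K L (j + 1) * ((j + 1 : ℕ) * L) = bterm K L j * ((K + L - j : ℕ) * K) := by
  unfold bterm
  have h1 : ((K + L).choose (j + 1) : ℝ) * ((j + 1 : ℕ) : ℝ)
      = ((K + L).choose j : ℝ) * ((K + L - j : ℕ) : ℝ) := by
    have := Nat.choose_succ_right_eq (K + L) j
    exact_mod_cast this
  have h2 : K + L - j = (K + L - (j + 1)) + 1 := by omega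
  have h3 : (L : ℝ) ^ (K + L - j) = (L : ℝ) ^ (K + L - (j + 1)) * L := by
    rw [h2, pow_succ]
  rw [h3]
  calc ((K + L).choose (j + 1) : ℝ) * (K : ℝ) ^ (j + 1) * (L : ℝ) ^ (K + L - (j + 1)) * (((j + 1 : ℕ) : ℝ) * L)
      = (((K + L).choose (j + 1) : ℝ) * ((j + 1 : ℕ) : ℝ)) * (K : ℝ) ^ (j + 1) * (L : ℝ) ^ (K + L - (j + 1)) * L := by ring
    _ = _ := by rw [h1]; ring

theorem bterm_mono_up (K L : ℕ) (hL : 0 < L) (j : ℕ) (hj : j < K) :
    bterm K L j ≤ bterm K L (j + 1) := by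
  have hrec := bterm_succ K L j (by omega)
  have hp : (0 : ℝ) < ((j + 1 : ℕ) : ℝ) * L := by positivity
  have hle : ((j + 1 : ℕ) : ℝ) * L ≤ ((K + L - j : ℕ) : ℝ) * K := by
    have : (j + 1) * L ≤ (K + L - j) * K := by
      have h1 : K + L - j = (K - j) + L := by omega
      rw [h1]
      have h2 : K = j + (K - j) := by omega
      nlinarith [Nat.zero_le (K - j), Nat.zero_le j, Nat.zero_le L,
        Nat.mul_le_mul_right L (show j + 1 ≤ K by omega), Nat.zero_le ((K-j)*K)]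
    exact_mod_cast this
  have hb := bterm_nonneg K L j
  have hb' := bterm_nonneg K L (j + 1)
  by_contra hcon
  rw [not_le] at hcon
  have h1 : bterm K L (j + 1) * (((j + 1 : ℕ) : ℝ) * L) < bterm K L j * (((j + 1 : ℕ) : ℝ) * L) :=
    mul_lt_mul_of_pos_right hcon hp
  have h2 : bterm K L j * (((j + 1 : ℕ) : ℝ) * L) ≤ bterm K L j * (((K + L - j : ℕ) : ℝ) * K) :=
    mul_le_mul_of_nonneg_left hle hb
  linarith

theorem bterm_mono_down (K L : ℕ) (hK : 0 < K) (j : ℕ) (hj : K ≤ j) (hj' : j < K + L) :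
    bterm K L (j + 1) ≤ bterm K L j := by
  have hrec := bterm_succ K L j hj'
  have hp : (0 : ℝ) < ((K + L - j : ℕ) : ℝ) * K := by
    have : 0 < K + L - j := by omega
    positivity
  have hle : ((K + L - j : ℕ) : ℝ) * K ≤ ((j + 1 : ℕ) : ℝ) * L := by
    have : (K + L - j) * K ≤ (j + 1) * L := by
      have h1 : K + L - j ≤ L := by omega
      have h2 : (K + L - j) * K ≤ L * K := Nat.mul_le_mul_right K h1
      have h3 : L * K ≤ (j + 1) * L := by
        rw [mul_comm L K]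
        exact Nat.mul_le_mul_right L (by omega)
      omega
    exact_mod_cast this
  have hb := bterm_nonneg K L j
  have hb' := bterm_nonneg K L (j + 1)
  by_contra hcon
  rw [not_le] at hcon
  have h1 : bterm K L j * (((K + L - j : ℕ) : ℝ) * K) < bterm K L (j + 1) * (((K + L - j : ℕ) : ℝ) * K) :=
    mul_lt_mul_of_pos_right hcon hp
  have h2 : bterm K L (j + 1) * (((K + L - j : ℕ) : ℝ) * K) ≤ bterm K L (j + 1) * (((j + 1 : ℕ) : ℝ) * L) :=
    mul_le_mul_of_nonneg_left hle hb'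
  linarith

theorem bterm_le_center (K L : ℕ) (hK : 0 < K) (hL : 0 < L) (j : ℕ) (hj : j ≤ K + L) :
    bterm K L j ≤ bterm K L K := by
  rcases le_total j K with h | h
  · -- go up
    have : ∀ i, j + i ≤ K → bterm K L j ≤ bterm K L (j + i) := by
      intro i
      induction i with
      | zero => intro _; simp
      | succ i ih =>
        intro hi
        have h1 := ih (by omega)
        have h2 := bterm_mono_up K L hL (j + i) (by omega)
        exact h1.trans (by simpa [add_assoc] using h2)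
    have h3 := this (K - j) (by omega)
    simpa [Nat.add_sub_cancel' h] using h3
  · have : ∀ i, K + i ≤ K + L → bterm K L (K + i) ≤ bterm K L K := by
      intro i
      induction i with
      | zero => intro _; simp
      | succ i ih =>
        intro hi
        have h1 := ih (by omega)
        have h2 := bterm_mono_down K L hK (K + i) (by omega) (by omega)
        exact (by simpa [add_assoc] using h2 : bterm K L (K + (i + 1)) ≤ bterm K L (K + i)).trans h1
    have h3 := this (j - K) (by omega)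
    simpa [Nat.add_sub_cancel' h] using h3

/-- upper entropy bound -/
theorem choose_mul_le (K L : ℕ) :
    ((K + L).choose K : ℝ) * (K : ℝ) ^ K * (L : ℝ) ^ L ≤ ((K : ℝ) + L) ^ (K + L) := by
  rw [← sum_bterm]
  have h : bterm K L K ≤ ∑ j ∈ range (K + L + 1), bterm K L j :=
    Finset.single_le_sum (f := bterm K L) (fun j _ => bterm_nonneg K L j)
      (Finset.mem_range.mpr (by omega))
  have h2 : bterm K L K = ((K + L).choose K : ℝ) * (K : ℝ) ^ K * (L : ℝ) ^ L := by
    unfold bterm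
    simp
  linarith

/-- lower entropy bound -/
theorem le_choose_mul (K L : ℕ) (hK : 0 < K) (hL : 0 < L) :
    ((K : ℝ) + L) ^ (K + L) ≤ ((K : ℝ) + L + 1) * (((K + L).choose K : ℝ) * (K : ℝ) ^ K * (L : ℝ) ^ L) := by
  rw [← sum_bterm]
  have h2 : bterm K L K = ((K + L).choose K : ℝ) * (K : ℝ) ^ K * (L : ℝ) ^ L := by
    unfold bterm
    simp
  rw [← h2]
  calc ∑ j ∈ range (K + L + 1), bterm K L j
      ≤ ∑ _j ∈ range (K + L + 1), bterm K L K :=
        Finset.sum_le_sum (fun j hj => bterm_le_center K L hK hL j (by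
          have := Finset.mem_range.mp hj; omega))
    _ = ((K : ℝ) + L + 1) * bterm K L K := by
        simp [Finset.sum_const, Finset.card_range, nsmul_eq_mul]

/-- the entropy base -/
noncomputable def ebase (K L : ℕ) : ℝ := ((K : ℝ) + L) ^ (K + L) / ((K : ℝ) ^ K * (L : ℝ) ^ L)

/-- scaled upper bound -/
theorem choose_scaled_le (K L c : ℕ) (hK : 0 < K) (hL : 0 < L) (hc : 0 < c) :
    ((c * K + c * L).choose (c * K) : ℝ) ≤ ebase K L ^ c := by
  have h := choose_mul_le (c * K) (c * L)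
  have hKr : (0 : ℝ) < K := by exact_mod_cast hK
  have hLr : (0 : ℝ) < L := by exact_mod_cast hL
  have hcr : (0 : ℝ) < c := by exact_mod_cast hc
  have e1 : (((c * K : ℕ) : ℝ) + ((c * L : ℕ) : ℝ)) ^ (c * K + c * L)
      = (c : ℝ) ^ (c * K + c * L) * (((K : ℝ) + L) ^ (K + L)) ^ c := by
    push_cast
    rw [← mul_add, mul_pow, ← pow_mul]
    congr 2
    ring
  have e2 : ((c * K : ℕ) : ℝ) ^ (c * K) * ((c * L : ℕ) : ℝ) ^ (c * L)
      = (c : ℝ) ^ (c * K + c * L) * ((K : ℝ) ^ K * (L : ℝ) ^ L) ^ c := by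
    push_cast
    rw [mul_pow, mul_pow, mul_pow, ← pow_mul, ← pow_mul, pow_add]
    rw [mul_comm K c, mul_comm L c]
    ring
  have hpos : (0 : ℝ) < ((K : ℝ) ^ K * (L : ℝ) ^ L) ^ c := by positivity
  have hcp : (0 : ℝ) < (c : ℝ) ^ (c * K + c * L) := by positivity
  have h' : ((c * K + c * L).choose (c * K) : ℝ) * ((c : ℝ) ^ (c * K + c * L) * ((K : ℝ) ^ K * (L : ℝ) ^ L) ^ c)
      ≤ (c : ℝ) ^ (c * K + c * L) * (((K : ℝ) + L) ^ (K + L)) ^ c := by
    rw [← e1, ← e2]
    linarith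
  unfold ebase
  rw [div_pow, le_div_iff₀ hpos]
  have := le_of_mul_le_mul_left (by linarith : (c : ℝ) ^ (c * K + c * L) * (((c * K + c * L).choose (c * K) : ℝ) * ((K : ℝ) ^ K * (L : ℝ) ^ L) ^ c) ≤ (c : ℝ) ^ (c * K + c * L) * (((K : ℝ) + L) ^ (K + L)) ^ c) hcp
  exact this

/-- scaled lower bound -/
theorem le_choose_scaled (K L c : ℕ) (hK : 0 < K) (hL : 0 < L) (hc : 0 < c) :
    ebase K L ^ c ≤ ((c : ℝ) * (K + L) + 1) * ((c * K + c * L).choose (c * K) : ℝ) := by
  have h := le_choose_mul (c * K) (c * L) (by positivity) (by positivity)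
  have hKr : (0 : ℝ) < K := by exact_mod_cast hK
  have hLr : (0 : ℝ) < L := by exact_mod_cast hL
  have hcr : (0 : ℝ) < c := by exact_mod_cast hc
  have e1 : (((c * K : ℕ) : ℝ) + ((c * L : ℕ) : ℝ)) ^ (c * K + c * L)
      = (c : ℝ) ^ (c * K + c * L) * (((K : ℝ) + L) ^ (K + L)) ^ c := by
    push_cast
    rw [← mul_add, mul_pow, ← pow_mul]
    congr 2
    ring
  have e2 : ((c * K : ℕ) : ℝ) ^ (c * K) * ((c * L : ℕ) : ℝ) ^ (c * L)
      = (c : ℝ) ^ (c * K + c * L) * ((K : ℝ) ^ K * (L : ℝ) ^ L) ^ c := by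
    push_cast
    rw [mul_pow, mul_pow, mul_pow, ← pow_mul, ← pow_mul, pow_add]
    rw [mul_comm K c, mul_comm L c]
    ring
  have hpos : (0 : ℝ) < ((K : ℝ) ^ K * (L : ℝ) ^ L) ^ c := by positivity
  have hcp : (0 : ℝ) < (c : ℝ) ^ (c * K + c * L) := by positivity
  unfold ebase
  rw [div_pow, div_le_iff₀ hpos]
  rw [e1] at h
  have e3 : (((c * K : ℕ) : ℝ) + ((c * L : ℕ) : ℝ) + 1)
      * (((c * K + c * L).choose (c * K) : ℝ) * ((c * K : ℕ) : ℝ) ^ (c * K) * ((c * L : ℕ) : ℝ) ^ (c * L))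
      = (c : ℝ) ^ (c * K + c * L) * (((c : ℝ) * (K + L) + 1) * ((c * K + c * L).choose (c * K) : ℝ)
        * ((K : ℝ) ^ K * (L : ℝ) ^ L) ^ c) := by
    have e4 : ((c * K + c * L).choose (c * K) : ℝ) * ((c * K : ℕ) : ℝ) ^ (c * K) * ((c * L : ℕ) : ℝ) ^ (c * L)
        = ((c * K + c * L).choose (c * K) : ℝ) * (((c * K : ℕ) : ℝ) ^ (c * K) * ((c * L : ℕ) : ℝ) ^ (c * L)) := by ring
    rw [e4, e2]
    push_cast
    ring
  rw [e3] at h
  exact le_of_mul_le_mul_left h hcp

/-- `C(t,a) ≤ C(t,b)` for `a ≤ b ≤ t/2`. -/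
theorem choose_mono_half {t a b : ℕ} (hab : a ≤ b) (hb : 2 * b ≤ t) : t.choose a ≤ t.choose b := by
  have : ∀ i, a + i ≤ b → t.choose a ≤ t.choose (a + i) := by
    intro i
    induction i with
    | zero => intro _; simp
    | succ i ih =>
      intro hi
      have h1 := ih (by omega)
      have h2 : a + i < t / 2 := by omega
      have h3 := Nat.choose_le_succ_of_lt_half_left h2
      exact h1.trans (by simpa [add_assoc] using h3)
  have h := this (b - a) (by omega)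
  simpa [Nat.add_sub_cancel' hab] using h

/-- `C(t,r0) ≤ C(t,r)` for `r0 ≤ r ≤ t - r0`. -/
theorem choose_ge_of_between {t r0 r : ℕ} (h0 : r0 ≤ r) (h1 : r + r0 ≤ t) :
    t.choose r0 ≤ t.choose r := by
  rcases le_total (2 * r) t with h | h
  · exact choose_mono_half h0 h
  · have hr : r ≤ t := by omega
    rw [← Nat.choose_symm hr]
    exact choose_mono_half (by omega) (by omega)

/-- `(t/r)^r ≤ C(t,r)`, in the form `t^r ≤ C(t,r) r^r`. -/
theorem pow_le_choose_mul_pow (r t : ℕ) (hr : r ≤ t) :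
    ((t : ℝ)) ^ r ≤ (t.choose r : ℝ) * (r : ℝ) ^ r := by
  induction r generalizing t with
  | zero => simp
  | succ r ih =>
    obtain ⟨s, rfl⟩ : ∃ s, t = s + 1 := ⟨t - 1, by omega⟩
    have hrs : r ≤ s := by omega
    have h := ih s hrs
    have hch : ((s + 1).choose (r + 1) : ℝ) * ((r + 1 : ℕ) : ℝ) = ((s + 1 : ℕ) : ℝ) * (s.choose r : ℝ) := by
      have := Nat.add_one_mul_choose_eq s r
      have h' : (s + 1) * s.choose r = (s + 1).choose (r + 1) * (r + 1) := this
      exact_mod_cast h'.symm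
    -- (s+1)^(r+1) ≤ C(s+1,r+1) (r+1)^(r+1)
    have hpos : (0 : ℝ) < (r : ℝ) + 1 := by positivity
    have key : ((s : ℝ) + 1) ^ r * (r : ℝ) ^ r ≤ (s : ℝ) ^ r * ((r : ℝ) + 1) ^ r := by
      rw [← mul_pow, ← mul_pow]
      apply pow_le_pow_left₀ (by positivity)
      have : (r : ℝ) ≤ s := by exact_mod_cast hrs
      nlinarith
    rcases Nat.eq_zero_or_pos r with h0 | h0
    · subst h0
      simp
    have hrp : (0 : ℝ) < (r : ℝ) ^ r := by
      have : (0 : ℝ) < r := by exact_mod_cast h0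
      positivity
    have hs1 : ((s : ℝ) + 1) ^ r * (r : ℝ) ^ r ≤ (s.choose r : ℝ) * (r : ℝ) ^ r * ((r : ℝ) + 1) ^ r := by
      calc _ ≤ (s : ℝ) ^ r * ((r : ℝ) + 1) ^ r := key
        _ ≤ _ := by
          apply mul_le_mul_of_nonneg_right h (by positivity)
    have hs2 : ((s : ℝ) + 1) ^ r ≤ (s.choose r : ℝ) * ((r : ℝ) + 1) ^ r := by
      have : ((s : ℝ) + 1) ^ r * (r : ℝ) ^ r ≤ ((s.choose r : ℝ) * ((r : ℝ) + 1) ^ r) * (r : ℝ) ^ r := by
        calc _ ≤ _ := hs1
          _ = _ := by ring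
      exact le_of_mul_le_mul_right this hrp
    push_cast at hch ⊢
    calc ((s : ℝ) + 1) ^ (r + 1) = ((s : ℝ) + 1) ^ r * ((s : ℝ) + 1) := by ring
      _ ≤ ((s.choose r : ℝ) * ((r : ℝ) + 1) ^ r) * ((s : ℝ) + 1) := by
        apply mul_le_mul_of_nonneg_right hs2 (by positivity)
      _ = (((s : ℝ) + 1) * (s.choose r : ℝ)) * ((r : ℝ) + 1) ^ r := by ring
      _ = (((s + 1).choose (r + 1) : ℝ) * ((r : ℝ) + 1)) * ((r : ℝ) + 1) ^ r := by rw [hch]
      _ = _ := by ring

/-- `C(n,r) ≤ (e n / r)^r`, in the form `C(n,r) r^r ≤ (e n)^r`. -/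
theorem choose_mul_pow_le_exp (n r : ℕ) :
    (n.choose r : ℝ) * (r : ℝ) ^ r ≤ (Real.exp 1 * n) ^ r := by
  have h1 : (n.choose r : ℝ) ≤ (n : ℝ) ^ r / (r.factorial : ℝ) := Nat.choose_le_pow_div r n
  have h2 : (r : ℝ) ^ r / (r.factorial : ℝ) ≤ Real.exp r :=
    Real.pow_div_factorial_le_exp (r : ℝ) (by positivity) r
  have h3 : Real.exp r = Real.exp 1 ^ r := by
    rw [← Real.exp_nat_mul]; simp
  have hf : (0 : ℝ) < r.factorial := by positivity
  calc (n.choose r : ℝ) * (r : ℝ) ^ r ≤ (n : ℝ) ^ r / (r.factorial : ℝ) * (r : ℝ) ^ r := by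
        apply mul_le_mul_of_nonneg_right h1 (by positivity)
    _ = (n : ℝ) ^ r * ((r : ℝ) ^ r / (r.factorial : ℝ)) := by ring
    _ ≤ (n : ℝ) ^ r * Real.exp 1 ^ r := by
        apply mul_le_mul_of_nonneg_left (by rw [← h3]; exact h2) (by positivity)
    _ = _ := by rw [mul_pow]; ring

end Crest.Agent.Lib.Thorp.FinalSum
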