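import Mathlib
import Crest.Agent.Lib.Thorp.FSChoose

set_option autoImplicit false

namespace Crest.Agent.Lib.Thorp.FinalSum

open Finset Real

/-- rational exponent upper bound from `e < 2.7182818286` -/
theorem exp_rat_le (p N : ℕ) (hN : 0 < N) (B : ℝ) (hB : 0 ≤ B)
    (h : (2.7182818286 : ℝ) ^ p ≤ B ^ N) : Real.exp ((p : ℝ) / N) ≤ B := by
  have hNr : (N : ℝ) ≠ 0 := by positivity
  have h1 : Real.exp ((p : ℝ) / N) ^ N = Real.exp 1 ^ p := by
    rw [← Real.exp_nat_mul, ← Real.exp_nat_mul]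
    congr 1
    field_simp
  have h2 : Real.exp 1 ^ p ≤ (2.7182818286 : ℝ) ^ p :=
    pow_le_pow_left₀ (Real.exp_pos 1).le Real.exp_one_lt_d9.le p
  have h3 : Real.exp ((p : ℝ) / N) ^ N ≤ B ^ N := by
    rw [h1]; exact h2.trans h
  exact le_of_pow_le_pow_left₀ hN.ne' hB h3

/-- rational exponent lower bound from `2.7182818283 < e` -/
theorem le_exp_rat (p N : ℕ) (hN : 0 < N) (B : ℝ) 
    (h : B ^ N ≤ (2.7182818283 : ℝ) ^ p) : B ≤ Real.exp ((p : ℝ) / N) := by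
  have hNr : (N : ℝ) ≠ 0 := by positivity
  have h1 : Real.exp ((p : ℝ) / N) ^ N = Real.exp 1 ^ p := by
    rw [← Real.exp_nat_mul, ← Real.exp_nat_mul]
    congr 1
    field_simp
  have h2 : (2.7182818283 : ℝ) ^ p ≤ Real.exp 1 ^ p :=
    pow_le_pow_left₀ (by norm_num) Real.exp_one_gt_d9.le p
  have h3 : B ^ N ≤ Real.exp ((p : ℝ) / N) ^ N := by
    rw [h1]; exact h.trans h2
  rcases le_total B 0 with h0 | h0
  · exact h0.trans (Real.exp_pos _).le
  · exact le_of_pow_le_pow_left₀ hN.ne' (Real.exp_pos _).le h3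

/-- doubling induction for polynomial-vs-exponential bounds: if `a·4^k ≤ exp(δ 2^k)` at `k0`
and `exp(δ 2^k0) ≥ 4`, then for all `k ≥ k0`. -/
theorem poly_le_exp (a δ : ℝ) (ha : 0 ≤ a) (hδ : 0 ≤ δ) (k0 : ℕ)
    (h0 : a * (4 : ℝ) ^ k0 ≤ Real.exp (δ * 2 ^ k0))
    (h4 : (4 : ℝ) ≤ Real.exp (δ * 2 ^ k0)) :
    ∀ k, k0 ≤ k → a * (4 : ℝ) ^ k ≤ Real.exp (δ * 2 ^ k) := by
  intro k hk
  induction k, hk using Nat.le_induction with
  | base => exact h0
  | succ k hk ih =>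
    have hmono : Real.exp (δ * 2 ^ k0) ≤ Real.exp (δ * 2 ^ k) := by
      apply Real.exp_le_exp.mpr
      apply mul_le_mul_of_nonneg_left _ hδ
      exact pow_le_pow_right₀ (by norm_num) hk
    have h5 : (4 : ℝ) ≤ Real.exp (δ * 2 ^ k) := h4.trans hmono
    have e : Real.exp (δ * 2 ^ (k + 1)) = Real.exp (δ * 2 ^ k) * Real.exp (δ * 2 ^ k) := by
      rw [← Real.exp_add]; congr 1; ring
    rw [e, pow_succ]
    calc a * ((4 : ℝ) ^ k * 4) = (a * (4 : ℝ) ^ k) * 4 := by ring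
      _ ≤ Real.exp (δ * 2 ^ k) * Real.exp (δ * 2 ^ k) := by
        apply mul_le_mul ih h5 (by norm_num) (Real.exp_pos _).le

/-- the common last step of the `(M)` cases -/
theorem finish (m : ℕ) (x PQ Tr b u v w : ℝ) (hx : x * b ^ m ≤ PQ * Tr) (hPQ0 : 0 ≤ PQ)
    (hPQ : PQ * Real.exp (1 / 2) ≤ Real.exp (u * m))
    (hTr : Tr ≤ Real.exp (v * m + 1 / 2))
    (hb : Real.exp (u + v + w) ≤ b) :
    x ≤ Real.exp (-(w * m)) := by
  have hbpos : 0 < b := (Real.exp_pos _).trans_le hb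
  have hb1 : Real.exp ((u + v + w) * m) ≤ b ^ m := by
    have : Real.exp ((u + v + w) * m) = Real.exp (u + v + w) ^ m := by
      rw [← Real.exp_nat_mul]; congr 1; ring
    rw [this]
    exact pow_le_pow_left₀ (Real.exp_pos _).le hb m
  have h2 : PQ * Tr ≤ Real.exp (u * m) * Real.exp (v * m) := by
    calc PQ * Tr ≤ PQ * Real.exp (v * m + 1 / 2) := mul_le_mul_of_nonneg_left hTr hPQ0
      _ = (PQ * Real.exp (1 / 2)) * Real.exp (v * m) := by
        rw [Real.exp_add]; ring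
      _ ≤ _ := mul_le_mul_of_nonneg_right hPQ (Real.exp_pos _).le
  have hbm : 0 < b ^ m := by positivity
  have h3 : x * b ^ m ≤ Real.exp (-(w * m)) * b ^ m := by
    calc x * b ^ m ≤ PQ * Tr := hx
      _ ≤ Real.exp (u * m) * Real.exp (v * m) := h2
      _ = Real.exp (-(w * m)) * Real.exp ((u + v + w) * m) := by
        rw [← Real.exp_add, ← Real.exp_add]; congr 1; ring
      _ ≤ _ := mul_le_mul_of_nonneg_left hb1 (Real.exp_pos _).le
  exact le_of_mul_le_mul_right h3 hbm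

/-- multiply the `(M)` inequality by a lower bound for the binomial. -/
theorem mult_step (x Ch P Tr Q B : ℝ) (hx : 0 ≤ x) (hQ : 0 ≤ Q) (hM : x * Ch ≤ P * Tr)
    (hCh : B ≤ Q * Ch) : x * B ≤ (P * Q) * Tr := by
  calc x * B ≤ x * (Q * Ch) := mul_le_mul_of_nonneg_left hCh hx
    _ = Q * (x * Ch) := by ring
    _ ≤ Q * (P * Tr) := mul_le_mul_of_nonneg_left hM hQ
    _ = _ := by ring

end Crest.Agent.Lib.Thorp.FinalSum
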