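import Mathlib
import Crest.Agent.Lib.Thorp.FSNum

set_option autoImplicit false
set_option exponentiation.threshold 4000

namespace Crest.Agent.Lib.Thorp.FinalSum

open Finset Real

/-- Abstract input of the final numerics. `sig k r` is the top eigenvalue of `P = T*T` on
pure functions of `r` cards (`n = 2^k`), `tr k t` is `tr (P^128 | L²(Inj_t))`. -/
structure Hyp (sig tr : ℕ → ℕ → ℝ) : Prop where
  sig_nonneg : ∀ k r, 0 ≤ sig k r
  sig_gap : ∀ k r, 1 ≤ r → sig k r ≤ 3 / 5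
  tr_nonneg : ∀ k t, 0 ≤ tr k t
  mult : ∀ k r t, 2 ≤ r → r ≤ t → t ≤ 2 ^ k → 2 * r ≤ 2 ^ k →
    sig k r ^ 128 * (t.choose r : ℝ) ≤ ((r : ℝ) + 1) * tr k t
  mult' : ∀ k r, 2 ^ k < 2 * r → r ≤ 2 ^ k →
    sig k r ^ 128 * (((2 ^ k : ℕ)).choose r : ℝ)
      ≤ (((2 ^ k : ℕ) : ℝ) + 1) * (r.choose (2 * r - 2 ^ k) : ℝ) * tr k (2 ^ k)
  halve : ∀ k r (β : ℝ), 0 ≤ β → 2 ^ k < r → r ≤ 2 ^ (k + 1) →
    (∀ r', 1 ≤ r' → r ≤ 2 ^ k + r' → r' ≤ 2 ^ k → sig k r' ≤ β) → sig (k + 1) r ≤ β ^ 2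
  tr_small : ∀ k t, 11 ≤ k → t ≤ 2 ^ k → tr k t ≤ Real.exp (4 / 3 * (t : ℝ) ^ 2 / (2 : ℝ) ^ k + 1 / 2)
  tr_top : ∀ k, 11 ≤ k → tr k (2 ^ k) ≤ Real.exp (9 / 20 * (2 : ℝ) ^ k)

variable {sig tr : ℕ → ℕ → ℝ}

theorem poly1 : ∀ k, 11 ≤ k → (1 / 5 : ℝ) * (4 : ℝ) ^ k ≤ Real.exp (1 / 125 * (2 : ℝ) ^ k) := by
  apply poly_le_exp (1 / 5) (1 / 125) (by norm_num) (by norm_num) 11
  · have e : ((16 : ℕ) : ℝ) / (1 : ℕ) ≤ ((1 : ℝ) / 125 * 2 ^ 11) := by norm_num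
    refine le_trans ?_ (Real.exp_le_exp.mpr e)
    apply le_exp_rat 16 1 (by norm_num)
    norm_num
  · have e : ((16 : ℕ) : ℝ) / (1 : ℕ) ≤ ((1 : ℝ) / 125 * 2 ^ 11) := by norm_num
    refine le_trans ?_ (Real.exp_le_exp.mpr e)
    apply le_exp_rat 16 1 (by norm_num)
    norm_num

theorem poly2 : ∀ k, 11 ≤ k → (2 : ℝ) * (4 : ℝ) ^ k ≤ Real.exp (1 / 100 * (2 : ℝ) ^ k) := by
  apply poly_le_exp 2 (1 / 100) (by norm_num) (by norm_num) 11
  · have e : ((20 : ℕ) : ℝ) / (1 : ℕ) ≤ ((1 : ℝ) / 100 * 2 ^ 11) := by norm_num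
    refine le_trans ?_ (Real.exp_le_exp.mpr e)
    apply le_exp_rat 20 1 (by norm_num)
    norm_num
  · have e : ((20 : ℕ) : ℝ) / (1 : ℕ) ≤ ((1 : ℝ) / 100 * 2 ^ 11) := by norm_num
    refine le_trans ?_ (Real.exp_le_exp.mpr e)
    apply le_exp_rat 20 1 (by norm_num)
    norm_num

/-- `ebase` values -/
theorem ebase_1_3 : ebase 1 3 = 256 / 27 := by unfold ebase; norm_num
theorem ebase_1_2 : ebase 1 2 = 27 / 4 := by unfold ebase; norm_num
theorem ebase_3_5 : ebase 3 5 = 16777216 / 84375 := by unfold ebase; norm_num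
theorem ebase_1_7 : ebase 1 7 = 8 ^ 8 / 7 ^ 7 := by unfold ebase; norm_num
theorem ebase_1_31 : ebase 1 31 = 32 ^ 32 / 31 ^ 31 := by unfold ebase; norm_num

/-- generic case: `n = N m`, `t = (1+L) m`, `m ≤ r ≤ L m`. -/
theorem case_gen (H : Hyp sig tr) (k r : ℕ) (hk : 11 ≤ k) (m N L : ℕ) (hN : 0 < N) (hL : 0 < L)
    (hm : 2 ^ k = N * m) (h1 : m ≤ r) (h2 : r ≤ L * m) (hLN : (1 + L) ≤ N)
    (h2r : 2 * r ≤ 2 ^ k) (hmr2 : 2 ≤ r)
    (hPoly : (((L : ℝ) * m + 1) * ((1 + L : ℕ) * (m : ℝ) + 1)) * (5 / 3) ≤ 1 / 5 * ((N : ℝ) * m) ^ 2)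
    (hb : Real.exp ((N : ℝ) / 125 + 4 / 3 * ((1 + L : ℕ) : ℝ) ^ 2 / N + 41 / 1000 * N) ≤ ebase 1 L) :
    sig k r ^ 128 ≤ Real.exp (-(41 / 1000 * (2 : ℝ) ^ k)) := by
  have hm0 : 0 < m := by
    have : 0 < 2 ^ k := by positivity
    rcases Nat.eq_zero_or_pos m with h | h
    · subst h; simp at hm
    · exact h
  have hNr : (0 : ℝ) < N := by exact_mod_cast hN
  have hm0r : (0 : ℝ) < m := by exact_mod_cast hm0
  have hmr : (2 : ℝ) ^ k = N * m := by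
    have : ((2 ^ k : ℕ) : ℝ) = ((N * m : ℕ) : ℝ) := by rw [hm]
    push_cast at this
    linarith
  have ht : (1 + L) * m ≤ 2 ^ k := by
    rw [hm]; exact Nat.mul_le_mul_right m hLN
  have hM := H.mult k r ((1 + L) * m) hmr2 (by nlinarith) ht h2r
  have hC : ebase 1 L ^ m ≤ ((m : ℝ) * (1 + L) + 1) * ((m * 1 + m * L).choose (m * 1) : ℝ) := by
    have := le_choose_scaled 1 L m (by norm_num) hL hm0
    simpa using this
  have hCmono : (((m * 1 + m * L).choose (m * 1) : ℕ) : ℝ) ≤ (((1 + L) * m).choose r : ℝ) := by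
    have e : m * 1 + m * L = (1 + L) * m := by ring
    rw [e, mul_one]
    exact_mod_cast choose_ge_of_between h1 (by nlinarith)
  have hCh : ebase 1 L ^ m ≤ ((((1 + L : ℕ) : ℝ) * (m : ℝ) + 1)) * (((1 + L) * m).choose r : ℝ) := by
    calc ebase 1 L ^ m ≤ _ := hC
      _ = (((1 + L : ℕ) : ℝ) * (m : ℝ) + 1) * ((m * 1 + m * L).choose (m * 1) : ℝ) := by
        push_cast; ring
      _ ≤ _ := mul_le_mul_of_nonneg_left hCmono (by positivity)
  have hx : sig k r ^ 128 * ebase 1 L ^ m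
      ≤ (((r : ℝ) + 1) * (((1 + L : ℕ) : ℝ) * (m : ℝ) + 1)) * tr k ((1 + L) * m) :=
    mult_step _ _ _ _ _ _ (pow_nonneg (H.sig_nonneg k r) _) (by positivity) hM hCh
  have hTr : tr k ((1 + L) * m) ≤ Real.exp ((4 / 3 * ((1 + L : ℕ) : ℝ) ^ 2 / N) * m + 1 / 2) := by
    have := H.tr_small k ((1 + L) * m) hk ht
    have e : (4 / 3 : ℝ) * (((1 + L) * m : ℕ) : ℝ) ^ 2 / (2 : ℝ) ^ k
        = (4 / 3 * ((1 + L : ℕ) : ℝ) ^ 2 / N) * m := by
      rw [hmr]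
      push_cast
      field_simp
    rwa [e] at this
  have hk4 : (4 : ℝ) ^ k = ((N : ℝ) * m) ^ 2 := by
    have : (4 : ℝ) ^ k = ((2 : ℝ) ^ k) ^ 2 := by
      rw [← pow_mul, mul_comm, pow_mul]; norm_num
    rw [this, hmr]
  have hrR : (r : ℝ) ≤ L * m := by exact_mod_cast h2
  have hPQ : (((r : ℝ) + 1) * (((1 + L : ℕ) : ℝ) * (m : ℝ) + 1)) * Real.exp (1 / 2)
      ≤ Real.exp ((N : ℝ) / 125 * m) := by
    have h5 := poly1 k hk
    have e5 : (1 / 125 : ℝ) * (2 : ℝ) ^ k = (N : ℝ) / 125 * m := by rw [hmr]; ring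
    rw [e5, hk4] at h5
    have hexp : Real.exp (1 / 2) ≤ 5 / 3 := by
      have : ((1 : ℝ) / 2) = ((1 : ℕ) : ℝ) / (2 : ℕ) := by norm_num
      rw [this]
      apply exp_rat_le 1 2 (by norm_num) _ (by norm_num)
      norm_num
    refine le_trans ?_ h5
    calc (((r : ℝ) + 1) * (((1 + L : ℕ) : ℝ) * (m : ℝ) + 1)) * Real.exp (1 / 2)
        ≤ (((L : ℝ) * m + 1) * (((1 + L : ℕ) : ℝ) * (m : ℝ) + 1)) * (5 / 3) := by
          apply mul_le_mul _ hexp (Real.exp_pos _).le (by positivity)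
          apply mul_le_mul_of_nonneg_right _ (by positivity)
          linarith
      _ ≤ _ := hPoly
  have := finish m _ _ _ (ebase 1 L) ((N : ℝ) / 125) (4 / 3 * ((1 + L : ℕ) : ℝ) ^ 2 / N)
    (41 / 1000 * N) hx (by positivity) hPQ hTr hb
  calc sig k r ^ 128 ≤ _ := this
    _ = _ := by
      congr 1
      rw [hmr]; ring

/-- exponential-from-ebase helpers -/
theorem hb_a : Real.exp (((32 : ℕ) : ℝ) / 125 + 4 / 3 * ((1 + 3 : ℕ) : ℝ) ^ 2 / (32 : ℕ) + 41 / 1000 * (32 : ℕ)) ≤ ebase 1 3 := by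
  rw [ebase_1_3]
  have e : (((32 : ℕ) : ℝ) / 125 + 4 / 3 * ((1 + 3 : ℕ) : ℝ) ^ 2 / (32 : ℕ) + 41 / 1000 * (32 : ℕ)) ≤ ((287 : ℕ) : ℝ) / (128 : ℕ) := by norm_num
  refine (Real.exp_le_exp.mpr e).trans ?_
  apply exp_rat_le 287 128 (by norm_num) _ (by norm_num)
  norm_num

theorem hb_b : Real.exp (((16 : ℕ) : ℝ) / 125 + 4 / 3 * ((1 + 3 : ℕ) : ℝ) ^ 2 / (16 : ℕ) + 41 / 1000 * (16 : ℕ)) ≤ ebase 1 3 := by
  rw [ebase_1_3]
  have e : (((16 : ℕ) : ℝ) / 125 + 4 / 3 * ((1 + 3 : ℕ) : ℝ) ^ 2 / (16 : ℕ) + 41 / 1000 * (16 : ℕ)) ≤ ((17 : ℕ) : ℝ) / (8 : ℕ) := by norm_num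
  refine (Real.exp_le_exp.mpr e).trans ?_
  apply exp_rat_le 17 8 (by norm_num) _ (by norm_num)
  norm_num

theorem hb_c : Real.exp (((8 : ℕ) : ℝ) / 125 + 4 / 3 * ((1 + 2 : ℕ) : ℝ) ^ 2 / (8 : ℕ) + 41 / 1000 * (8 : ℕ)) ≤ ebase 1 2 := by
  rw [ebase_1_2]
  have e : (((8 : ℕ) : ℝ) / 125 + 4 / 3 * ((1 + 2 : ℕ) : ℝ) ^ 2 / (8 : ℕ) + 41 / 1000 * (8 : ℕ)) ≤ ((61 : ℕ) : ℝ) / (32 : ℕ) := by norm_num
  refine (Real.exp_le_exp.mpr e).trans ?_
  apply exp_rat_le 61 32 (by norm_num) _ (by norm_num)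
  norm_num

/-- case (d): `n/4 ≤ r ≤ n/2`, `t = n`, `n = 4 m` -/
theorem case_d (H : Hyp sig tr) (k r : ℕ) (hk : 11 ≤ k) (m : ℕ) (hm : 2 ^ k = 4 * m)
    (h1 : m ≤ r) (h2 : 2 * r ≤ 2 ^ k) :
    sig k r ^ 128 ≤ Real.exp (-(41 / 1000 * (2 : ℝ) ^ k)) := by
  have h2k : 2 ^ 11 ≤ 2 ^ k := Nat.pow_le_pow_right (by norm_num) hk
  have hm0 : 0 < m := by omega
  have hm0r : (0 : ℝ) < m := by exact_mod_cast hm0
  have hmr : (2 : ℝ) ^ k = 4 * m := by
    have : ((2 ^ k : ℕ) : ℝ) = ((4 * m : ℕ) : ℝ) := by rw [hm]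
    push_cast at this
    linarith
  have hmR : (512 : ℝ) ≤ m := by
    have : 512 ≤ m := by omega
    exact_mod_cast this
  have hM := H.mult k r (2 ^ k) (by omega) (by omega) le_rfl h2
  have hC : ebase 1 3 ^ m ≤ ((m : ℝ) * (1 + 3) + 1) * ((m * 1 + m * 3).choose (m * 1) : ℝ) := by
    have := le_choose_scaled 1 3 m (by norm_num) (by norm_num) hm0
    simpa using this
  have hCmono : (((m * 1 + m * 3).choose (m * 1) : ℕ) : ℝ) ≤ ((2 ^ k).choose r : ℝ) := by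
    have e : m * 1 + m * 3 = 2 ^ k := by rw [hm]; ring
    rw [e, mul_one]
    exact_mod_cast choose_ge_of_between h1 (by omega)
  have hCh : (256 / 27 : ℝ) ^ m ≤ ((4 * (m : ℝ) + 1)) * ((2 ^ k).choose r : ℝ) := by
    rw [ebase_1_3] at hC
    calc (256 / 27 : ℝ) ^ m ≤ _ := hC
      _ = (4 * (m : ℝ) + 1) * ((m * 1 + m * 3).choose (m * 1) : ℝ) := by ring
      _ ≤ _ := mul_le_mul_of_nonneg_left hCmono (by positivity)
  have hx : sig k r ^ 128 * (256 / 27 : ℝ) ^ m ≤ (((r : ℝ) + 1) * (4 * (m : ℝ) + 1)) * tr k (2 ^ k) :=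
    mult_step _ _ _ _ _ _ (pow_nonneg (H.sig_nonneg k r) _) (by positivity) hM hCh
  have hTr : tr k (2 ^ k) ≤ Real.exp (9 / 5 * m + 1 / 2) := by
    refine (H.tr_top k hk).trans (Real.exp_le_exp.mpr ?_)
    rw [hmr]; linarith
  have hk4 : (4 : ℝ) ^ k = (4 * (m : ℝ)) ^ 2 := by
    have : (4 : ℝ) ^ k = ((2 : ℝ) ^ k) ^ 2 := by
      rw [← pow_mul, mul_comm, pow_mul]; norm_num
    rw [this, hmr]
  have hrR : (r : ℝ) ≤ 2 * m := by
    have : r ≤ 2 * m := by omega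
    exact_mod_cast this
  have hPQ : (((r : ℝ) + 1) * (4 * (m : ℝ) + 1)) * Real.exp (1 / 2) ≤ Real.exp (1 / 25 * m) := by
    have h5 := poly2 k hk
    have e5 : (1 / 100 : ℝ) * (2 : ℝ) ^ k = 1 / 25 * m := by rw [hmr]; ring
    rw [e5, hk4] at h5
    have hexp : Real.exp (1 / 2) ≤ 5 / 3 := by
      have : ((1 : ℝ) / 2) = ((1 : ℕ) : ℝ) / (2 : ℕ) := by norm_num
      rw [this]
      apply exp_rat_le 1 2 (by norm_num) _ (by norm_num)
      norm_num
    refine le_trans ?_ h5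
    calc (((r : ℝ) + 1) * (4 * (m : ℝ) + 1)) * Real.exp (1 / 2)
        ≤ ((2 * (m : ℝ) + 1) * (4 * (m : ℝ) + 1)) * (5 / 3) := by
          apply mul_le_mul _ hexp (Real.exp_pos _).le (by positivity)
          apply mul_le_mul_of_nonneg_right _ (by positivity)
          linarith
      _ ≤ _ := by nlinarith
  have hb : Real.exp (1 / 25 + 9 / 5 + 41 / 250) ≤ (256 / 27 : ℝ) := by
    have e : ((1 : ℝ) / 25 + 9 / 5 + 41 / 250) ≤ ((17 : ℕ) : ℝ) / (8 : ℕ) := by norm_num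
    refine (Real.exp_le_exp.mpr e).trans ?_
    apply exp_rat_le 17 8 (by norm_num) _ (by norm_num)
    norm_num
  have := finish m _ _ _ (256 / 27) (1 / 25) (9 / 5) (41 / 250) hx (by positivity) hPQ hTr hb
  calc sig k r ^ 128 ≤ _ := this
    _ = _ := by
      congr 1
      rw [hmr]; ring

/-- case (e): `n/2 < r ≤ 33n/64`, `n = 32 m`. -/
theorem case_e (H : Hyp sig tr) (k r : ℕ) (hk : 11 ≤ k) (m : ℕ) (hm : 2 ^ k = 32 * m)
    (h1 : 2 ^ k < 2 * r) (h2 : 64 * r ≤ 33 * 2 ^ k) :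
    sig k r ^ 128 ≤ Real.exp (-(41 / 1000 * (2 : ℝ) ^ k)) := by
  have h2k : 2 ^ 11 ≤ 2 ^ k := Nat.pow_le_pow_right (by norm_num) hk
  have hm0 : 0 < m := by omega
  have hm0r : (0 : ℝ) < m := by exact_mod_cast hm0
  have hmr : (2 : ℝ) ^ k = 32 * m := by
    have : ((2 ^ k : ℕ) : ℝ) = ((32 * m : ℕ) : ℝ) := by rw [hm]
    push_cast at this
    linarith
  have hmR : (64 : ℝ) ≤ m := by
    have : 64 ≤ m := by omega
    exact_mod_cast this
  have hM := H.mult' k r h1 (by omega)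
  -- lower bound for `C(n,r)`
  have hC : ebase 3 5 ^ (4 * m) ≤ (((4 * m : ℕ) : ℝ) * (3 + 5) + 1) * (((4 * m) * 3 + (4 * m) * 5).choose ((4 * m) * 3) : ℝ) := by
    have := le_choose_scaled 3 5 (4 * m) (by norm_num) (by norm_num) (by omega)
    simpa using this
  have hCmono : ((((4 * m) * 3 + (4 * m) * 5).choose ((4 * m) * 3) : ℕ) : ℝ) ≤ (((2 ^ k : ℕ)).choose r : ℝ) := by
    have e : (4 * m) * 3 + (4 * m) * 5 = 2 ^ k := by rw [hm]; ring
    rw [e]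
    exact_mod_cast choose_ge_of_between (by omega) (by omega)
  have hCh : ebase 3 5 ^ (4 * m) ≤ ((32 * (m : ℝ) + 1)) * (((2 ^ k : ℕ)).choose r : ℝ) := by
    calc ebase 3 5 ^ (4 * m) ≤ _ := hC
      _ = (32 * (m : ℝ) + 1) * (((4 * m) * 3 + (4 * m) * 5).choose ((4 * m) * 3) : ℝ) := by
        push_cast; ring
      _ ≤ _ := mul_le_mul_of_nonneg_left hCmono (by positivity)
  -- upper bound for `C(r,2r-n)`
  have hU : (r.choose (2 * r - 2 ^ k) : ℝ) ≤ ebase 1 31 ^ m := by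
    have h3 : r.choose (2 * r - 2 ^ k) ≤ (2 ^ k).choose (2 * r - 2 ^ k) :=
      Nat.choose_le_choose _ (by omega)
    have h4 : (2 ^ k).choose (2 * r - 2 ^ k) ≤ (2 ^ k).choose m :=
      choose_mono_half (by omega) (by omega)
    have h5 : ((m * 1 + m * 31).choose (m * 1) : ℝ) ≤ ebase 1 31 ^ m :=
      choose_scaled_le 1 31 m (by norm_num) (by norm_num) hm0
    have e : m * 1 + m * 31 = 2 ^ k := by rw [hm]; ring
    rw [e, mul_one] at h5
    have h6 : (r.choose (2 * r - 2 ^ k) : ℝ) ≤ ((2 ^ k).choose m : ℝ) := by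
      exact_mod_cast h3.trans h4
    exact h6.trans h5
  have hUb : ebase 1 31 ≤ 86 := by rw [ebase_1_31]; norm_num
  have hLb : (198 : ℝ) ≤ ebase 3 5 := by rw [ebase_3_5]; norm_num
  have hTrn := H.tr_top k hk
  have hTrn0 := H.tr_nonneg k (2 ^ k)
  have hxn := pow_nonneg (H.sig_nonneg k r) 128
  set x := sig k r ^ 128 with hxdef
  set C := (((2 ^ k : ℕ)).choose r : ℝ) with hCdef
  set Tr := tr k (2 ^ k) with hTrdef
  have hM' : x * C ≤ (32 * (m : ℝ) + 1) * (86 ^ m * Tr) := by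
    have hn : (((2 ^ k : ℕ) : ℝ) + 1) = 32 * (m : ℝ) + 1 := by
      push_cast; rw [hmr]
    rw [hn] at hM
    refine hM.trans ?_
    have h7 : (r.choose (2 * r - 2 ^ k) : ℝ) ≤ 86 ^ m :=
      hU.trans (pow_le_pow_left₀ (by rw [ebase_1_31]; positivity) hUb m)
    calc (32 * (m : ℝ) + 1) * (r.choose (2 * r - 2 ^ k) : ℝ) * Tr
        = (32 * (m : ℝ) + 1) * ((r.choose (2 * r - 2 ^ k) : ℝ) * Tr) := by ring
      _ ≤ (32 * (m : ℝ) + 1) * (86 ^ m * Tr) := by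
        apply mul_le_mul_of_nonneg_left _ (by positivity)
        exact mul_le_mul_of_nonneg_right h7 hTrn0
  have hx : x * (198 : ℝ) ^ (4 * m) ≤ ((32 * (m : ℝ) + 1) * (32 * (m : ℝ) + 1)) * (86 ^ m * Tr) := by
    have h8 : (198 : ℝ) ^ (4 * m) ≤ (32 * (m : ℝ) + 1) * C :=
      (pow_le_pow_left₀ (by norm_num) hLb _).trans hCh
    calc x * (198 : ℝ) ^ (4 * m) ≤ x * ((32 * (m : ℝ) + 1) * C) := mul_le_mul_of_nonneg_left h8 hxn
      _ = (32 * (m : ℝ) + 1) * (x * C) := by ring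
      _ ≤ (32 * (m : ℝ) + 1) * ((32 * (m : ℝ) + 1) * (86 ^ m * Tr)) :=
        mul_le_mul_of_nonneg_left hM' (by positivity)
      _ = _ := by ring
  have e198 : (198 : ℝ) ^ (4 * m) = (198 ^ 4 : ℝ) ^ m := by rw [pow_mul]
  have hx2 : x * ((198 ^ 4 / 86 : ℝ)) ^ m ≤ ((32 * (m : ℝ) + 1) * (32 * (m : ℝ) + 1)) * Tr := by
    have h86 : (0 : ℝ) < 86 ^ m := by positivity
    have : x * ((198 ^ 4 / 86 : ℝ)) ^ m * 86 ^ m ≤ (((32 * (m : ℝ) + 1) * (32 * (m : ℝ) + 1)) * Tr) * 86 ^ m := by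
      calc x * ((198 ^ 4 / 86 : ℝ)) ^ m * 86 ^ m = x * ((198 ^ 4 / 86 : ℝ) * 86) ^ m := by
            rw [mul_pow]; ring
        _ = x * (198 ^ 4 : ℝ) ^ m := by norm_num
        _ ≤ _ := by
          rw [← e198]
          calc _ ≤ _ := hx
            _ = _ := by ring
    exact le_of_mul_le_mul_right this h86
  have hTr : Tr ≤ Real.exp (72 / 5 * m + 1 / 2) := by
    refine hTrn.trans (Real.exp_le_exp.mpr ?_)
    rw [hmr]; linarith
  have hk4 : (4 : ℝ) ^ k = (32 * (m : ℝ)) ^ 2 := by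
    have : (4 : ℝ) ^ k = ((2 : ℝ) ^ k) ^ 2 := by
      rw [← pow_mul, mul_comm, pow_mul]; norm_num
    rw [this, hmr]
  have hPQ : ((32 * (m : ℝ) + 1) * (32 * (m : ℝ) + 1)) * Real.exp (1 / 2) ≤ Real.exp (8 / 25 * m) := by
    have h5 := poly2 k hk
    have e5 : (1 / 100 : ℝ) * (2 : ℝ) ^ k = 8 / 25 * m := by rw [hmr]; ring
    rw [e5, hk4] at h5
    have hexp : Real.exp (1 / 2) ≤ 5 / 3 := by
      have : ((1 : ℝ) / 2) = ((1 : ℕ) : ℝ) / (2 : ℕ) := by norm_num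
      rw [this]
      apply exp_rat_le 1 2 (by norm_num) _ (by norm_num)
      norm_num
    refine le_trans ?_ h5
    calc ((32 * (m : ℝ) + 1) * (32 * (m : ℝ) + 1)) * Real.exp (1 / 2)
        ≤ ((32 * (m : ℝ) + 1) * (32 * (m : ℝ) + 1)) * (5 / 3) :=
          mul_le_mul_of_nonneg_left hexp (by positivity)
      _ ≤ _ := by nlinarith
  have hb : Real.exp (8 / 25 + 72 / 5 + 164 / 125) ≤ (198 ^ 4 / 86 : ℝ) := by
    have e : ((8 : ℝ) / 25 + 72 / 5 + 164 / 125) ≤ ((33 : ℕ) : ℝ) / (2 : ℕ) := by norm_num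
    refine (Real.exp_le_exp.mpr e).trans ?_
    apply exp_rat_le 33 2 (by norm_num) _ (by norm_num)
    norm_num
  have := finish m x _ _ (198 ^ 4 / 86) (8 / 25) (72 / 5) (164 / 125) hx2 (by positivity) hPQ hTr hb
  calc x ≤ _ := this
    _ = _ := by
      congr 1
      rw [hmr]; ring

/-- The dense estimate, by induction on the scale. -/
theorem dense (H : Hyp sig tr) : ∀ k r, 1 ≤ r → r ≤ 2 ^ k → 2 ^ k ≤ 32 * r →
    sig k r ^ 128 ≤ Real.exp (-(41 / 1000 * (2 : ℝ) ^ k)) := by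
  intro k
  induction k with
  | zero =>
    intro r hr _ _
    have h1 := H.sig_gap 0 r hr
    have h0 := H.sig_nonneg 0 r
    have h2 : sig 0 r ^ 128 ≤ (3 / 5 : ℝ) ^ 128 := pow_le_pow_left₀ h0 h1 _
    refine h2.trans ?_
    -- (3/5)^128 ≤ exp(-(41/1000))
    have h3 : (3 / 5 : ℝ) ≤ Real.exp (-(41 / 1000)) := by
      have := Real.add_one_le_exp (-(41 / 1000 : ℝ))
      linarith
    have h4 : (3 / 5 : ℝ) ^ 128 ≤ (3 / 5 : ℝ) := by
      apply pow_le_of_le_one (by norm_num) (by norm_num) (by norm_num)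
    simpa using h4.trans h3
  | succ k ih =>
    intro r hr hr2 hr3
    by_cases hk : k + 1 ≤ 10
    · -- uniform gap
      have h1 := H.sig_gap (k + 1) r hr
      have h0 := H.sig_nonneg (k + 1) r
      have h2 : sig (k + 1) r ^ 128 ≤ (3 / 5 : ℝ) ^ 128 := pow_le_pow_left₀ h0 h1 _
      refine h2.trans ?_
      have h3 : (3 / 5 : ℝ) ≤ Real.exp (-(41 / 125)) := by
        have := Real.add_one_le_exp (-(41 / 125 : ℝ))
        linarith
      have h4 : (3 / 5 : ℝ) ^ 128 ≤ Real.exp (-(41 / 125)) ^ 128 := pow_le_pow_left₀ (by norm_num) h3 _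
      refine h4.trans ?_
      rw [← Real.exp_nat_mul]
      apply Real.exp_le_exp.mpr
      have h5 : (2 : ℝ) ^ (k + 1) ≤ 2 ^ 10 := pow_le_pow_right₀ (by norm_num) hk
      push_cast
      nlinarith
    · -- scale at least 2^11
      have hk11 : 11 ≤ k + 1 := by omega
      have hn : 2 ^ 11 ≤ 2 ^ (k + 1) := Nat.pow_le_pow_right (by norm_num) hk11
      obtain ⟨m, hm⟩ : ∃ m, 2 ^ (k + 1) = 32 * m := ⟨2 ^ (k + 1 - 5), by
        rw [show (32 : ℕ) = 2 ^ 5 by norm_num, ← pow_add]; congr 1; omega⟩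
      by_cases hf : 33 * 2 ^ (k + 1) < 64 * r
      · -- (f) halving
        have hk2 : 2 ^ (k + 1) = 2 * 2 ^ k := by rw [pow_succ]; ring
        set β := Real.exp (-(41 / 1000 * (2 : ℝ) ^ k) / 128) with hβ
        have hβ0 : 0 ≤ β := (Real.exp_pos _).le
        have h1 : sig (k + 1) r ≤ β ^ 2 := by
          apply H.halve k r β hβ0 (by omega) hr2
          intro r' hr'1 hr'2 hr'3
          have h3 := ih r' hr'1 hr'3 (by omega)
          have h4 : Real.exp (-(41 / 1000 * (2 : ℝ) ^ k)) = β ^ 128 := by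
            rw [hβ, ← Real.exp_nat_mul]; congr 1; push_cast; ring
          rw [h4] at h3
          exact le_of_pow_le_pow_left₀ (by norm_num) hβ0 h3
        have h0 := H.sig_nonneg (k + 1) r
        calc sig (k + 1) r ^ 128 ≤ (β ^ 2) ^ 128 := pow_le_pow_left₀ h0 h1 _
          _ = _ := by
            rw [hβ, ← pow_mul, ← Real.exp_nat_mul]; congr 1; push_cast; rw [pow_succ]; ring
      · have hf' : 64 * r ≤ 33 * 2 ^ (k + 1) := by omega
        by_cases he : 2 ^ (k + 1) < 2 * r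
        · exact case_e H (k + 1) r hk11 m hm he hf'
        · have he' : 2 * r ≤ 2 ^ (k + 1) := by omega
          by_cases hd : 2 ^ (k + 1) ≤ 4 * r
          · exact case_d H (k + 1) r hk11 (8 * m) (by omega) (by omega) he'
          · by_cases hc : 2 ^ (k + 1) ≤ 8 * r
            · refine case_gen H (k + 1) r hk11 (4 * m) 8 2 (by norm_num) (by norm_num) (by omega) (by omega) (by omega) (by norm_num) he' (by omega) ?_ hb_c
              have hmR : (64 : ℝ) ≤ m := by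
                have : 64 ≤ m := by omega
                exact_mod_cast this
              push_cast
              nlinarith
            · by_cases hb : 2 ^ (k + 1) ≤ 16 * r
              · refine case_gen H (k + 1) r hk11 (2 * m) 16 3 (by norm_num) (by norm_num) (by omega) (by omega) (by omega) (by norm_num) he' (by omega) ?_ hb_b
                have hmR : (64 : ℝ) ≤ m := by
                  have : 64 ≤ m := by omega
                  exact_mod_cast this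
                push_cast
                nlinarith
              · refine case_gen H (k + 1) r hk11 m 32 3 (by norm_num) (by norm_num) (by omega) (by omega) (by omega) (by norm_num) he' (by omega) ?_ hb_a
                have hmR : (64 : ℝ) ≤ m := by
                  have : 64 ≤ m := by omega
                  exact_mod_cast this
                push_cast
                nlinarith

end Crest.Agent.Lib.Thorp.FinalSum
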