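import Mathlib
import Crest.Agent.Lib.Thorp.FSDense

set_option autoImplicit false
set_option exponentiation.threshold 4000

namespace Crest.Agent.Lib.Thorp.FinalSum

open Finset Real

variable {sig tr : ℕ → ℕ → ℝ}

/-- `(r+1)^2 ≤ 3^r` for `r ≥ 2`. -/
theorem succ_sq_le_three_pow (r : ℕ) (hr : 2 ≤ r) : (r + 1) ^ 2 ≤ 3 ^ r := by
  induction r, hr using Nat.le_induction with
  | base => norm_num
  | succ r hr ih =>
    rw [pow_succ 3 r]
    nlinarith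

/-- `k^2 ≤ 2^k` for `k ≥ 4`. -/
theorem sq_le_two_pow' (k : ℕ) (hk : 4 ≤ k) : k ^ 2 ≤ 2 ^ k := by
  induction k, hk using Nat.le_induction with
  | base => norm_num
  | succ k hk ih =>
    rw [pow_succ 2 k]
    nlinarith

/-- The sparse bound for `x = sig^128`. -/
theorem sparse_sig (H : Hyp sig tr) (k r : ℕ) (hk : 14 ≤ k) (hr : 2 ≤ r) (hr2 : 128 * r ≤ 2 ^ k)
    (w : ℝ) (hw : w = (r : ℝ) / Real.sqrt (3 / 8 * r * (2 : ℝ) ^ k)) :
    0 ≤ w ∧ w ^ 2 = 8 / 3 * ((r : ℝ) / (2 : ℝ) ^ k) ∧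
    sig k r ^ 128 ≤ ((r : ℝ) + 1) * Real.exp (51 / 100 * r + 1 / 2) * w ^ r := by
  have hNpos : (0 : ℝ) < (2 : ℝ) ^ k := by positivity
  set N : ℝ := (2 : ℝ) ^ k with hN
  have hrR : (2 : ℝ) ≤ r := by exact_mod_cast hr
  have hrN : 128 * (r : ℝ) ≤ N := by
    have : ((128 * r : ℕ) : ℝ) ≤ ((2 ^ k : ℕ) : ℝ) := by exact_mod_cast hr2
    push_cast at this
    simpa [hN] using this
  have hN14 : (16384 : ℝ) ≤ N := by
    have : (2 : ℝ) ^ 14 ≤ (2 : ℝ) ^ k := pow_le_pow_right₀ (by norm_num) hk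
    rw [hN]; norm_num at this ⊢; linarith
  set X : ℝ := 3 / 8 * r * N with hX
  have hXpos : 0 < X := by positivity
  have hX2 : 12288 ≤ X := by rw [hX]; nlinarith
  set s : ℝ := Real.sqrt X with hs
  have hs2 : s ^ 2 = X := Real.sq_sqrt hXpos.le
  have hs0 : 0 < s := Real.sqrt_pos.mpr hXpos
  have hs110 : 110 ≤ s := by
    apply Real.le_sqrt_of_sq_le
    norm_num; linarith
  have hwdef : w = (r : ℝ) / s := hw
  have hw0 : 0 ≤ w := by rw [hwdef]; positivity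
  have hw2 : w ^ 2 = 8 / 3 * ((r : ℝ) / N) := by
    rw [hwdef, div_pow, hs2, hX]
    have : (r : ℝ) ≠ 0 := by positivity
    field_simp
  refine ⟨hw0, hw2, ?_⟩
  -- the integer `t`
  set t : ℕ := ⌈s⌉₊ with ht
  have ht1 : s ≤ t := Nat.le_ceil s
  have ht2 : (t : ℝ) < s + 1 := Nat.ceil_lt_add_one hs0.le
  have hts : (t : ℝ) ^ 2 ≤ 153 / 400 * r * N := by
    have h1 : (t : ℝ) ^ 2 ≤ (s + 1) ^ 2 := by
      apply pow_le_pow_left₀ (by positivity) ht2.le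
    have h2 : (s + 1) ^ 2 ≤ 51 / 50 * s ^ 2 := by nlinarith
    have h3 : 51 / 50 * s ^ 2 = 153 / 400 * r * N := by rw [hs2, hX]; ring
    linarith
  have hrs : (r : ℝ) ≤ s := by
    apply Real.le_sqrt_of_sq_le
    rw [hX]
    nlinarith
  have hrt : r ≤ t := by
    have : (r : ℝ) ≤ t := hrs.trans ht1
    exact_mod_cast this
  have htn : t ≤ 2 ^ k := by
    have h1 : (t : ℝ) ^ 2 ≤ N ^ 2 := by
      refine hts.trans ?_
      nlinarith
    have h2 : (t : ℝ) ≤ N := by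
      exact abs_le_of_sq_le_sq' h1 hNpos.le |>.2
    have : ((t : ℕ) : ℝ) ≤ ((2 ^ k : ℕ) : ℝ) := by
      push_cast; exact h2
    exact_mod_cast this
  have hM := H.mult k r t hr hrt htn (by omega)
  have hTr : tr k t ≤ Real.exp (51 / 100 * r + 1 / 2) := by
    refine (H.tr_small k t (by omega) htn).trans (Real.exp_le_exp.mpr ?_)
    have : 4 / 3 * (t : ℝ) ^ 2 / (2 : ℝ) ^ k ≤ 51 / 100 * r := by
      rw [← hN, div_le_iff₀ hNpos]
      nlinarith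
    linarith
  have hP := pow_le_choose_mul_pow r t hrt
  have hx0 := pow_nonneg (H.sig_nonneg k r) 128
  have hrpow : (0 : ℝ) ≤ (r : ℝ) ^ r := by positivity
  have h1 : sig k r ^ 128 * (t : ℝ) ^ r
      ≤ ((r : ℝ) + 1) * Real.exp (51 / 100 * r + 1 / 2) * (r : ℝ) ^ r := by
    calc sig k r ^ 128 * (t : ℝ) ^ r ≤ sig k r ^ 128 * ((t.choose r : ℝ) * (r : ℝ) ^ r) :=
          mul_le_mul_of_nonneg_left hP hx0
      _ = (sig k r ^ 128 * (t.choose r : ℝ)) * (r : ℝ) ^ r := by ring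
      _ ≤ (((r : ℝ) + 1) * tr k t) * (r : ℝ) ^ r := mul_le_mul_of_nonneg_right hM hrpow
      _ ≤ _ := by
        apply mul_le_mul_of_nonneg_right _ hrpow
        apply mul_le_mul_of_nonneg_left hTr (by positivity)
  have hsr : s ^ r ≤ (t : ℝ) ^ r := pow_le_pow_left₀ hs0.le ht1 _
  have hspos : 0 < s ^ r := by positivity
  have h2 : sig k r ^ 128 * s ^ r ≤ ((r : ℝ) + 1) * Real.exp (51 / 100 * r + 1 / 2) * (r : ℝ) ^ r :=
    (mul_le_mul_of_nonneg_left hsr hx0).trans h1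
  have h3 : w ^ r * s ^ r = (r : ℝ) ^ r := by
    rw [hwdef, ← mul_pow]
    congr 1
    field_simp
  have h4 : sig k r ^ 128 * s ^ r ≤ (((r : ℝ) + 1) * Real.exp (51 / 100 * r + 1 / 2) * w ^ r) * s ^ r := by
    calc _ ≤ _ := h2
      _ = _ := by rw [← h3]; ring
  exact le_of_mul_le_mul_right h4 hspos

/-- sparse bound for the product -/
theorem sparse_prod (H : Hyp sig tr) (k r : ℕ) (hk : 14 ≤ k) (hr : 2 ≤ r) (hr2 : 128 * r ≤ 2 ^ k) :
    (sig k r ^ 128) ^ 11 * (((2 ^ k : ℕ)).choose r : ℝ) * tr k r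
      ≤ Real.exp 6 * ((11000000 : ℝ) * ((r : ℝ) / (2 : ℝ) ^ k) ^ 4) ^ r ∧
    (11000000 : ℝ) * ((r : ℝ) / (2 : ℝ) ^ k) ^ 4 ≤ 1 / 16 := by
  have hNpos : (0 : ℝ) < (2 : ℝ) ^ k := by positivity
  set N : ℝ := (2 : ℝ) ^ k with hN
  have hrR : (2 : ℝ) ≤ r := by exact_mod_cast hr
  have hrpos : (0 : ℝ) < r := by linarith
  have hrN : 128 * (r : ℝ) ≤ N := by
    have : ((128 * r : ℕ) : ℝ) ≤ ((2 ^ k : ℕ) : ℝ) := by exact_mod_cast hr2
    push_cast at this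
    simpa [hN] using this
  set u : ℝ := (r : ℝ) / N with hu
  have hu0 : 0 < u := by positivity
  have hu1 : u ≤ 1 / 128 := by
    rw [hu, div_le_iff₀ hNpos]; linarith
  have hsmall : (11000000 : ℝ) * u ^ 4 ≤ 1 / 16 := by
    have : u ^ 4 ≤ (1 / 128 : ℝ) ^ 4 := pow_le_pow_left₀ hu0.le hu1 _
    nlinarith
  refine ⟨?_, hsmall⟩
  obtain ⟨hw0, hw2, hx⟩ := sparse_sig H k r hk hr hr2 _ rfl
  set w : ℝ := (r : ℝ) / Real.sqrt (3 / 8 * r * (2 : ℝ) ^ k) with hwdef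
  have hx0 := pow_nonneg (H.sig_nonneg k r) 128
  -- pieces
  have h11 : (sig k r ^ 128) ^ 11 ≤ (((r : ℝ) + 1) * Real.exp (51 / 100 * r + 1 / 2) * w ^ r) ^ 11 :=
    pow_le_pow_left₀ hx0 hx _
  have hC : (((2 ^ k : ℕ)).choose r : ℝ) * (r : ℝ) ^ r ≤ (Real.exp 1 * N) ^ r := by
    have := choose_mul_pow_le_exp (2 ^ k) r
    simpa [hN] using this
  have hTr : tr k r ≤ Real.exp (1 / 96 * r + 1 / 2) := by
    refine (H.tr_small k r (by omega) (by omega)).trans (Real.exp_le_exp.mpr ?_)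
    have : 4 / 3 * (r : ℝ) ^ 2 / (2 : ℝ) ^ k ≤ 1 / 96 * r := by
      rw [← hN, div_le_iff₀ hNpos]
      nlinarith
    linarith
  have hrp : (0 : ℝ) < (r : ℝ) ^ r := by positivity
  have hC' : (((2 ^ k : ℕ)).choose r : ℝ) ≤ (Real.exp 1 / u) ^ r := by
    have e : (Real.exp 1 / u) ^ r * (r : ℝ) ^ r = (Real.exp 1 * N) ^ r := by
      rw [← mul_pow]; congr 1; rw [hu]; field_simp
    rw [← e] at hC
    exact le_of_mul_le_mul_right hC hrp
  -- (r+1)^11 ≤ 729^r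
  have h729 : ((r : ℝ) + 1) ^ 11 ≤ (729 : ℝ) ^ r := by
    have h1 : (r + 1) ^ 2 ≤ 3 ^ r := succ_sq_le_three_pow r hr
    have h2 : (((r + 1) ^ 2 : ℕ) : ℝ) ≤ ((3 ^ r : ℕ) : ℝ) := by exact_mod_cast h1
    push_cast at h2
    have h3 : (((r : ℝ) + 1) ^ 2) ^ 6 ≤ ((3 : ℝ) ^ r) ^ 6 := pow_le_pow_left₀ (by positivity) h2 _
    have h4 : ((r : ℝ) + 1) ^ 11 ≤ (((r : ℝ) + 1) ^ 2) ^ 6 := by
      rw [← pow_mul]
      exact pow_le_pow_right₀ (by linarith) (by norm_num)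
    have h5 : ((3 : ℝ) ^ r) ^ 6 = (729 : ℝ) ^ r := by
      rw [← pow_mul, mul_comm, pow_mul]; norm_num
    linarith
  -- assemble
  have hw1 : w ≤ 29 / 200 := by
    have : w ^ 2 ≤ (29 / 200 : ℝ) ^ 2 := by
      rw [hw2]; nlinarith
    exact abs_le_of_sq_le_sq' this (by norm_num) |>.2
  have hexpA : Real.exp (51 / 100 * 11 + 1 + 1 / 96) ≤ 754 := by
    have e : ((51 : ℝ) / 100 * 11 + 1 + 1 / 96) ≤ ((53 : ℕ) : ℝ) / (8 : ℕ) := by norm_num
    refine (Real.exp_le_exp.mpr e).trans ?_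
    apply exp_rat_le 53 8 (by norm_num) _ (by norm_num)
    norm_num
  set β : ℝ := (11000000 : ℝ) * u ^ 4 with hβ
  have hbase : (729 : ℝ) * Real.exp (51 / 100 * 11 + 1 + 1 / 96) * (w ^ 11 / u) ≤ β := by
    have e : w ^ 11 / u = w * ((8 / 3) ^ 5 * u ^ 4) := by
      have : w ^ 11 = w * (w ^ 2) ^ 5 := by ring
      rw [this, hw2]
      have hu' : u ≠ 0 := hu0.ne'
      have h0 : (r : ℝ) / N = u := rfl
      rw [show (8 / 3 * ((r : ℝ) / N)) = 8 / 3 * u from rfl]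
      field_simp
    rw [e, hβ]
    have hu4 : 0 ≤ u ^ 4 := by positivity
    have h1 : (729 : ℝ) * Real.exp (51 / 100 * 11 + 1 + 1 / 96) ≤ 729 * 754 := by linarith
    have h2 : w * ((8 / 3) ^ 5 * u ^ 4) ≤ 29 / 200 * ((8 / 3) ^ 5 * u ^ 4) :=
      mul_le_mul_of_nonneg_right hw1 (by positivity)
    calc _ ≤ (729 * 754 : ℝ) * (29 / 200 * ((8 / 3) ^ 5 * u ^ 4)) := by
          apply mul_le_mul h1 h2 (by positivity) (by norm_num)
      _ ≤ _ := by nlinarith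
  have hprod : ((r : ℝ) + 1) ^ 11 * (Real.exp (51 / 100 * r + 1 / 2) ^ 11 * (w ^ r) ^ 11)
        * (Real.exp 1 / u) ^ r * Real.exp (1 / 96 * r + 1 / 2)
      = Real.exp 6 * ((r : ℝ) + 1) ^ 11 * (Real.exp (51 / 100 * 11 + 1 + 1 / 96) * (w ^ 11 / u)) ^ r := by
    have e1 : Real.exp (51 / 100 * r + 1 / 2) ^ 11 = Real.exp (51 / 100 * 11 * r + 11 / 2) := by
      rw [← Real.exp_nat_mul]; congr 1; push_cast; ring
    have e2 : (w ^ r) ^ 11 = (w ^ 11) ^ r := by rw [← pow_mul, ← pow_mul, mul_comm]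
    have e3 : (Real.exp (51 / 100 * 11 + 1 + 1 / 96) * (w ^ 11 / u)) ^ r
        = Real.exp ((51 / 100 * 11 + 1 + 1 / 96) * r) * (w ^ 11) ^ r / u ^ r := by
      rw [mul_pow, div_pow, ← Real.exp_nat_mul, mul_comm ((r : ℝ)) _]
      ring
    have e4 : (Real.exp 1 / u) ^ r = Real.exp r / u ^ r := by
      rw [div_pow, ← Real.exp_nat_mul]; simp
    rw [e1, e2, e3, e4]
    have e5 : Real.exp 6 * Real.exp ((51 / 100 * 11 + 1 + 1 / 96) * r)
        = Real.exp (51 / 100 * 11 * r + 11 / 2) * Real.exp r * Real.exp (1 / 96 * r + 1 / 2) := by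
      rw [← Real.exp_add, ← Real.exp_add, ← Real.exp_add]
      congr 1
      ring
    calc _ = ((r : ℝ) + 1) ^ 11 * (w ^ 11) ^ r / u ^ r * (Real.exp (51 / 100 * 11 * r + 11 / 2) * Real.exp r * Real.exp (1 / 96 * r + 1 / 2)) := by ring
      _ = ((r : ℝ) + 1) ^ 11 * (w ^ 11) ^ r / u ^ r * (Real.exp 6 * Real.exp ((51 / 100 * 11 + 1 + 1 / 96) * r)) := by rw [e5]
      _ = _ := by ring
  have hCnn : (0 : ℝ) ≤ (((2 ^ k : ℕ)).choose r : ℝ) := by positivity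
  have hexp0 := Real.exp_pos (51 / 100 * (r : ℝ) + 1 / 2)
  have hTr0 := H.tr_nonneg k r
  have hbeta0 : 0 ≤ Real.exp (51 / 100 * 11 + 1 + 1 / 96) * (w ^ 11 / u) := by positivity
  calc (sig k r ^ 128) ^ 11 * (((2 ^ k : ℕ)).choose r : ℝ) * tr k r
      ≤ (((r : ℝ) + 1) * Real.exp (51 / 100 * r + 1 / 2) * w ^ r) ^ 11 * (Real.exp 1 / u) ^ r
          * Real.exp (1 / 96 * r + 1 / 2) := by
        apply mul_le_mul _ hTr hTr0 (by positivity)
        apply mul_le_mul h11 hC' hCnn (by positivity)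
    _ = ((r : ℝ) + 1) ^ 11 * (Real.exp (51 / 100 * r + 1 / 2) ^ 11 * (w ^ r) ^ 11)
        * (Real.exp 1 / u) ^ r * Real.exp (1 / 96 * r + 1 / 2) := by
        rw [mul_pow, mul_pow]; ring
    _ = Real.exp 6 * ((r : ℝ) + 1) ^ 11 * (Real.exp (51 / 100 * 11 + 1 + 1 / 96) * (w ^ 11 / u)) ^ r := hprod
    _ ≤ Real.exp 6 * (729 : ℝ) ^ r * (Real.exp (51 / 100 * 11 + 1 + 1 / 96) * (w ^ 11 / u)) ^ r := by
        apply mul_le_mul_of_nonneg_right _ (by positivity)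
        apply mul_le_mul_of_nonneg_left h729 (Real.exp_pos _).le
    _ = Real.exp 6 * ((729 : ℝ) * Real.exp (51 / 100 * 11 + 1 + 1 / 96) * (w ^ 11 / u)) ^ r := by
        rw [mul_assoc (729 : ℝ), mul_pow (729 : ℝ)]; ring
    _ ≤ Real.exp 6 * β ^ r := by
        apply mul_le_mul_of_nonneg_left _ (Real.exp_pos _).le
        apply pow_le_pow_left₀ (by positivity) hbase

end Crest.Agent.Lib.Thorp.FinalSum
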