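import Mathlib
import Crest.Agent.Lib.Thorp.FSSparse

set_option autoImplicit false
set_option exponentiation.threshold 4000

/-!
# Final numerics of S0222

From the abstract input `Hyp sig tr` (uniform gap, multiplicity bound `(M)`, halving, sharp warm
start at `K₁ = 128`) we get `∑_{r ≥ 2} sig^{1472} min(C(n,r) tr_r, tr_n) → 0`.
-/

namespace Crest.Agent.Lib.Thorp.FinalSum

open Finset Real Filter Topology

variable {sig tr : ℕ → ℕ → ℝ}

/-- the level `r` term -/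
noncomputable def S (sig tr : ℕ → ℕ → ℝ) (k r : ℕ) : ℝ :=
  sig k r ^ 1472 * min ((((2 ^ k : ℕ)).choose r : ℝ) * tr k r) (tr k (2 ^ k))

theorem sig_le_one (H : Hyp sig tr) (k r : ℕ) (hr : 1 ≤ r) : sig k r ≤ 1 :=
  (H.sig_gap k r hr).trans (by norm_num)

/-- `16^k ≤ exp(43/2000 · 2^k)`. -/
theorem pow16 : ∀ k, 11 ≤ k → (16 : ℝ) ^ k ≤ Real.exp (43 / 2000 * (2 : ℝ) ^ k) := by
  intro k hk
  induction k, hk using Nat.le_induction with
  | base =>
    have e : ((44 : ℕ) : ℝ) / (1 : ℕ) ≤ (43 / 2000 * (2 : ℝ) ^ 11) := by norm_num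
    refine le_trans ?_ (Real.exp_le_exp.mpr e)
    apply le_exp_rat 44 1 (by norm_num)
    norm_num
  | succ k hk ih =>
    have hmono : Real.exp (43 / 2000 * (2 : ℝ) ^ 11) ≤ Real.exp (43 / 2000 * (2 : ℝ) ^ k) := by
      apply Real.exp_le_exp.mpr
      apply mul_le_mul_of_nonneg_left _ (by norm_num)
      exact pow_le_pow_right₀ (by norm_num) hk
    have h16 : (16 : ℝ) ≤ Real.exp (43 / 2000 * (2 : ℝ) ^ 11) := by
      have e : ((44 : ℕ) : ℝ) / (1 : ℕ) ≤ (43 / 2000 * (2 : ℝ) ^ 11) := by norm_num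
      refine le_trans ?_ (Real.exp_le_exp.mpr e)
      apply le_exp_rat 44 1 (by norm_num)
      norm_num
    have e : Real.exp (43 / 2000 * (2 : ℝ) ^ (k + 1))
        = Real.exp (43 / 2000 * (2 : ℝ) ^ k) * Real.exp (43 / 2000 * (2 : ℝ) ^ k) := by
      rw [← Real.exp_add]; congr 1; ring
    rw [e, pow_succ]
    exact mul_le_mul ih (h16.trans hmono) (by norm_num) (Real.exp_pos _).le

/-- dense levels -/
theorem S_dense (H : Hyp sig tr) (k r : ℕ) (hk : 11 ≤ k) (hr : 1 ≤ r) (hr1 : r ≤ 2 ^ k)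
    (hr2 : 2 ^ k ≤ 32 * r) : S sig tr k r ≤ ((16 : ℝ) ^ k)⁻¹ := by
  have hd := dense H k r hr hr1 hr2
  set E : ℝ := Real.exp (-(41 / 2000 * (2 : ℝ) ^ k)) with hE
  have hE0 : 0 < E := Real.exp_pos _
  have hs0 := H.sig_nonneg k r
  have h64 : sig k r ^ 64 ≤ E := by
    have e : Real.exp (-(41 / 1000 * (2 : ℝ) ^ k)) = E ^ 2 := by
      rw [hE, ← Real.exp_nat_mul]; congr 1; push_cast; ring
    rw [e] at hd
    have e2 : sig k r ^ 128 = (sig k r ^ 64) ^ 2 := by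
      rw [show (128 : ℕ) = 64 * 2 by norm_num, pow_mul]
    rw [e2] at hd
    exact abs_le_of_sq_le_sq' hd hE0.le |>.2
  have h1472 : sig k r ^ 1472 ≤ E ^ 23 := by
    have e : sig k r ^ 1472 = (sig k r ^ 64) ^ 23 := by
      rw [show (1472 : ℕ) = 64 * 23 by norm_num, pow_mul]
    rw [e]
    exact pow_le_pow_left₀ (pow_nonneg hs0 _) h64 _
  have htop := H.tr_top k hk
  have htr0 := H.tr_nonneg k (2 ^ k)
  have hmin : min ((((2 ^ k : ℕ)).choose r : ℝ) * tr k r) (tr k (2 ^ k)) ≤ Real.exp (9 / 20 * (2 : ℝ) ^ k) :=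
    (min_le_right _ _).trans htop
  unfold S
  have hx : sig k r ^ 1472 * min ((((2 ^ k : ℕ)).choose r : ℝ) * tr k r) (tr k (2 ^ k))
      ≤ E ^ 23 * Real.exp (9 / 20 * (2 : ℝ) ^ k) := by
    apply mul_le_mul h1472 hmin _ (by positivity)
    apply le_min
    · exact mul_nonneg (by positivity) (H.tr_nonneg k r)
    · exact htr0
  refine hx.trans ?_
  have e : E ^ 23 * Real.exp (9 / 20 * (2 : ℝ) ^ k) = Real.exp (-(43 / 2000 * (2 : ℝ) ^ k)) := by
    rw [hE, ← Real.exp_nat_mul, ← Real.exp_add]; congr 1; push_cast; ring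
  rw [e, Real.exp_neg]
  exact inv_anti₀ (by positivity) (pow16 k hk)

/-- polynomial bound in the middle range -/
theorem poly3 : ∀ k, 14 ≤ k → (1 / 256 : ℝ) * (4 : ℝ) ^ k ≤ Real.exp (1 / 640 * (2 : ℝ) ^ k) := by
  apply poly_le_exp (1 / 256) (1 / 640) (by norm_num) (by norm_num) 14
  · have e : ((25 : ℕ) : ℝ) / (1 : ℕ) ≤ ((1 : ℝ) / 640 * 2 ^ 14) := by norm_num
    refine le_trans ?_ (Real.exp_le_exp.mpr e)
    apply le_exp_rat 25 1 (by norm_num)
    norm_num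
  · have e : ((25 : ℕ) : ℝ) / (1 : ℕ) ≤ ((1 : ℝ) / 640 * 2 ^ 14) := by norm_num
    refine le_trans ?_ (Real.exp_le_exp.mpr e)
    apply le_exp_rat 25 1 (by norm_num)
    norm_num

/-- middle levels `n/128 ≤ r ≤ n/32`. -/
theorem S_mid (H : Hyp sig tr) (k r : ℕ) (hk : 14 ≤ k) (hr2 : 2 ^ k ≤ 128 * r) (hr3 : 32 * r ≤ 2 ^ k) :
    S sig tr k r ≤ ((16 : ℝ) ^ k)⁻¹ := by
  have h2k : 2 ^ 14 ≤ 2 ^ k := Nat.pow_le_pow_right (by norm_num) hk
  obtain ⟨m, hm⟩ : ∃ m, 2 ^ k = 128 * m := ⟨2 ^ (k - 7), by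
    rw [show (128 : ℕ) = 2 ^ 7 by norm_num, ← pow_add]; congr 1; omega⟩
  have hm0 : 0 < m := by omega
  have hm0r : (0 : ℝ) < m := by exact_mod_cast hm0
  have hmR : (128 : ℝ) ≤ m := by
    have : 128 ≤ m := by omega
    exact_mod_cast this
  have hmr : (2 : ℝ) ^ k = 128 * m := by
    have : ((2 ^ k : ℕ) : ℝ) = ((128 * m : ℕ) : ℝ) := by rw [hm]
    push_cast at this
    linarith
  have h1 : m ≤ r := by omega
  have h2 : r ≤ 4 * m := by omega
  have hr1 : 1 ≤ r := by omega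
  have hM := H.mult k r (8 * m) (by omega) (by omega) (by omega) (by omega)
  have hC : ebase 1 7 ^ m ≤ ((m : ℝ) * (1 + 7) + 1) * ((m * 1 + m * 7).choose (m * 1) : ℝ) := by
    have := le_choose_scaled 1 7 m (by norm_num) (by norm_num) hm0
    simpa using this
  have hCmono : (((m * 1 + m * 7).choose (m * 1) : ℕ) : ℝ) ≤ ((8 * m).choose r : ℝ) := by
    have e : m * 1 + m * 7 = 8 * m := by ring
    rw [e, mul_one]
    exact_mod_cast choose_ge_of_between h1 (by omega)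
  have hCh : ebase 1 7 ^ m ≤ ((8 * (m : ℝ) + 1)) * ((8 * m).choose r : ℝ) := by
    calc ebase 1 7 ^ m ≤ _ := hC
      _ = (8 * (m : ℝ) + 1) * ((m * 1 + m * 7).choose (m * 1) : ℝ) := by ring
      _ ≤ _ := mul_le_mul_of_nonneg_left hCmono (by positivity)
  have hx0 := pow_nonneg (H.sig_nonneg k r) 128
  have hx : sig k r ^ 128 * ebase 1 7 ^ m ≤ (((r : ℝ) + 1) * (8 * (m : ℝ) + 1)) * tr k (8 * m) :=
    mult_step _ _ _ _ _ _ hx0 (by positivity) hM hCh
  have hTr : tr k (8 * m) ≤ Real.exp (2 / 3 * m + 1 / 2) := by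
    have := H.tr_small k (8 * m) (by omega) (by omega)
    have e : (4 / 3 : ℝ) * ((8 * m : ℕ) : ℝ) ^ 2 / (2 : ℝ) ^ k = 2 / 3 * m := by
      rw [hmr]
      push_cast
      field_simp
      ring
    rwa [e] at this
  have hk4 : (4 : ℝ) ^ k = (128 * (m : ℝ)) ^ 2 := by
    have : (4 : ℝ) ^ k = ((2 : ℝ) ^ k) ^ 2 := by
      rw [← pow_mul, mul_comm, pow_mul]; norm_num
    rw [this, hmr]
  have hrR : (r : ℝ) ≤ 4 * m := by exact_mod_cast h2
  have hexp : Real.exp (1 / 2) ≤ 5 / 3 := by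
    have : ((1 : ℝ) / 2) = ((1 : ℕ) : ℝ) / (2 : ℕ) := by norm_num
    rw [this]
    apply exp_rat_le 1 2 (by norm_num) _ (by norm_num)
    norm_num
  have hPQ : (((r : ℝ) + 1) * (8 * (m : ℝ) + 1)) * Real.exp (1 / 2) ≤ Real.exp (1 / 5 * m) := by
    have h5 := poly3 k hk
    have e5 : (1 / 640 : ℝ) * (2 : ℝ) ^ k = 1 / 5 * m := by rw [hmr]; ring
    rw [e5, hk4] at h5
    refine le_trans ?_ h5
    calc (((r : ℝ) + 1) * (8 * (m : ℝ) + 1)) * Real.exp (1 / 2)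
        ≤ ((4 * (m : ℝ) + 1) * (8 * (m : ℝ) + 1)) * (5 / 3) := by
          apply mul_le_mul _ hexp (Real.exp_pos _).le (by positivity)
          apply mul_le_mul_of_nonneg_right _ (by positivity)
          linarith
      _ ≤ _ := by nlinarith
  have hb : Real.exp (1 / 5 + 2 / 3 + 21 / 10) ≤ ebase 1 7 := by
    rw [ebase_1_7]
    have e : ((1 : ℝ) / 5 + 2 / 3 + 21 / 10) ≤ ((3 : ℕ) : ℝ) / (1 : ℕ) := by norm_num
    refine (Real.exp_le_exp.mpr e).trans ?_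
    apply exp_rat_le 3 1 (by norm_num) _ (by norm_num)
    norm_num
  have hfin := finish m _ _ _ (ebase 1 7) (1 / 5) (2 / 3) (21 / 10) hx (by positivity) hPQ hTr hb
  -- the level sum
  have hs0 := H.sig_nonneg k r
  have hs1 := sig_le_one H k r hr1
  have h1472 : sig k r ^ 1472 ≤ (sig k r ^ 128) ^ 11 := by
    have e : sig k r ^ 1472 = (sig k r ^ 128) ^ 11 * sig k r ^ 64 := by
      rw [show (1472 : ℕ) = 128 * 11 + 64 by norm_num, pow_add, pow_mul]
    rw [e]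
    exact mul_le_of_le_one_right (pow_nonneg (pow_nonneg hs0 _) _) (pow_le_one₀ hs0 hs1)
  have h11 : (sig k r ^ 128) ^ 11 ≤ Real.exp (-(21 / 10 * m)) ^ 11 := pow_le_pow_left₀ hx0 hfin _
  have hCn : (((2 ^ k : ℕ)).choose r : ℝ) ≤ 86 ^ (4 * m) := by
    have h3 : (2 ^ k).choose r ≤ (2 ^ k).choose (4 * m) := choose_mono_half h2 (by omega)
    have h5 : (((4 * m) * 1 + (4 * m) * 31).choose ((4 * m) * 1) : ℝ) ≤ ebase 1 31 ^ (4 * m) :=
      choose_scaled_le 1 31 (4 * m) (by norm_num) (by norm_num) (by omega)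
    have e : (4 * m) * 1 + (4 * m) * 31 = 2 ^ k := by rw [hm]; ring
    rw [e, mul_one] at h5
    have hUb : ebase 1 31 ≤ 86 := by rw [ebase_1_31]; norm_num
    have h6 : ebase 1 31 ^ (4 * m) ≤ 86 ^ (4 * m) :=
      pow_le_pow_left₀ (by rw [ebase_1_31]; positivity) hUb _
    have h7 : (((2 ^ k : ℕ)).choose r : ℝ) ≤ ((2 ^ k).choose (4 * m) : ℝ) := by exact_mod_cast h3
    exact h7.trans (h5.trans h6)
  have h86 : (86 : ℝ) ≤ Real.exp (9 / 2) := by
    have e : ((9 : ℕ) : ℝ) / (2 : ℕ) = 9 / 2 := by norm_num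
    rw [← e]
    apply le_exp_rat 9 2 (by norm_num)
    norm_num
  have hCn2 : (((2 ^ k : ℕ)).choose r : ℝ) ≤ Real.exp (18 * m) := by
    refine hCn.trans ?_
    calc (86 : ℝ) ^ (4 * m) ≤ Real.exp (9 / 2) ^ (4 * m) := pow_le_pow_left₀ (by norm_num) h86 _
      _ = _ := by rw [← Real.exp_nat_mul]; congr 1; push_cast; ring
  have hTrr : tr k r ≤ Real.exp (1 / 6 * m + 1 / 2) := by
    refine (H.tr_small k r (by omega) (by omega)).trans (Real.exp_le_exp.mpr ?_)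
    have : 4 / 3 * (r : ℝ) ^ 2 / (2 : ℝ) ^ k ≤ 1 / 6 * m := by
      rw [hmr, div_le_iff₀ (by positivity)]
      nlinarith
    linarith
  have hTrr0 := H.tr_nonneg k r
  unfold S
  have hmin : min ((((2 ^ k : ℕ)).choose r : ℝ) * tr k r) (tr k (2 ^ k)) ≤ Real.exp (18 * m) * Real.exp (1 / 6 * m + 1 / 2) :=
    (min_le_left _ _).trans (mul_le_mul hCn2 hTrr hTrr0 (Real.exp_pos _).le)
  have hmin0 : 0 ≤ min ((((2 ^ k : ℕ)).choose r : ℝ) * tr k r) (tr k (2 ^ k)) :=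
    le_min (mul_nonneg (by positivity) hTrr0) (H.tr_nonneg _ _)
  have hfinal : sig k r ^ 1472 * min ((((2 ^ k : ℕ)).choose r : ℝ) * tr k r) (tr k (2 ^ k))
      ≤ Real.exp (-(21 / 10 * m)) ^ 11 * (Real.exp (18 * m) * Real.exp (1 / 6 * m + 1 / 2)) :=
    mul_le_mul (h1472.trans h11) hmin hmin0 (by positivity)
  refine hfinal.trans ?_
  have e : Real.exp (-(21 / 10 * m)) ^ 11 * (Real.exp (18 * m) * Real.exp (1 / 6 * m + 1 / 2))
      = Real.exp (-(147 / 30 * m - 1 / 2 + 1 / 30 * m - 1/ 6 * m + 1 / 6 * m)) := by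
    rw [← Real.exp_nat_mul, ← Real.exp_add, ← Real.exp_add]; congr 1; push_cast; ring
  rw [e, Real.exp_neg]
  apply inv_anti₀ (by positivity)
  refine (pow16 k (by omega)).trans (Real.exp_le_exp.mpr ?_)
  rw [hmr]
  nlinarith

/-- sparse levels -/
theorem S_sparse (H : Hyp sig tr) (k r : ℕ) (hk : 14 ≤ k) (hr : 2 ≤ r) (hr2 : 128 * r ≤ 2 ^ k) :
    S sig tr k r ≤ (Real.exp 6 * 1000000000000000) * ((16 : ℝ) ^ k)⁻¹ := by
  have hs0 := H.sig_nonneg k r
  have hr1 : 1 ≤ r := by omega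
  have hs1 := sig_le_one H k r hr1
  have h1472 : sig k r ^ 1472 ≤ (sig k r ^ 128) ^ 11 := by
    have e : sig k r ^ 1472 = (sig k r ^ 128) ^ 11 * sig k r ^ 64 := by
      rw [show (1472 : ℕ) = 128 * 11 + 64 by norm_num, pow_add, pow_mul]
    rw [e]
    exact mul_le_of_le_one_right (pow_nonneg (pow_nonneg hs0 _) _) (pow_le_one₀ hs0 hs1)
  obtain ⟨h1, h2⟩ := sparse_prod H k r hk hr hr2
  have hTrr0 := H.tr_nonneg k r
  have hC0 : (0 : ℝ) ≤ (((2 ^ k : ℕ)).choose r : ℝ) := by positivity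
  have hS : S sig tr k r ≤ (sig k r ^ 128) ^ 11 * (((2 ^ k : ℕ)).choose r : ℝ) * tr k r := by
    unfold S
    have hmin : min ((((2 ^ k : ℕ)).choose r : ℝ) * tr k r) (tr k (2 ^ k)) ≤ (((2 ^ k : ℕ)).choose r : ℝ) * tr k r :=
      min_le_left _ _
    have hmin0 : 0 ≤ min ((((2 ^ k : ℕ)).choose r : ℝ) * tr k r) (tr k (2 ^ k)) :=
      le_min (mul_nonneg hC0 hTrr0) (H.tr_nonneg _ _)
    calc _ ≤ (sig k r ^ 128) ^ 11 * ((((2 ^ k : ℕ)).choose r : ℝ) * tr k r) :=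
          mul_le_mul h1472 hmin hmin0 (by positivity)
      _ = _ := by ring
  refine hS.trans (h1.trans ?_)
  rw [mul_assoc (Real.exp 6)]
  apply mul_le_mul_of_nonneg_left _ (Real.exp_pos _).le
  set N : ℝ := (2 : ℝ) ^ k with hN
  have hNpos : (0 : ℝ) < N := by positivity
  set u : ℝ := (r : ℝ) / N with hu
  have hu0 : 0 ≤ u := by positivity
  set β : ℝ := 11000000 * u ^ 4 with hβ
  have hβ0 : 0 ≤ β := by positivity
  have h16 : (16 : ℝ) ^ k = N ^ 4 := by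
    rw [hN, ← pow_mul, mul_comm, pow_mul]; norm_num
  have h16pos : (0 : ℝ) < (16 : ℝ) ^ k := by positivity
  by_cases hrk : k ≤ r
  · -- β^r ≤ (1/16)^k
    have h3 : β ^ r ≤ (1 / 16 : ℝ) ^ r := pow_le_pow_left₀ hβ0 h2 _
    have h4 : (1 / 16 : ℝ) ^ r ≤ (1 / 16 : ℝ) ^ k := pow_le_pow_of_le_one (by norm_num) (by norm_num) hrk
    have h5 : (1 / 16 : ℝ) ^ k = ((16 : ℝ) ^ k)⁻¹ := by
      rw [one_div, inv_pow]
    calc β ^ r ≤ (1 / 16 : ℝ) ^ k := h3.trans h4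
      _ = ((16 : ℝ) ^ k)⁻¹ := h5
      _ ≤ _ := by
        have : (0 : ℝ) < ((16 : ℝ) ^ k)⁻¹ := by positivity
        nlinarith
  · -- small r : β^r ≤ β^2 ≤ 1/16^k up to constant
    have hrk' : r < k := by omega
    have hβ1 : β ≤ 1 := h2.trans (by norm_num)
    have h3 : β ^ r ≤ β ^ 2 := pow_le_pow_of_le_one hβ0 hβ1 hr
    have hk2 : k ^ 2 ≤ 2 ^ k := sq_le_two_pow' k (by omega)
    have hr2' : (r : ℝ) ^ 2 ≤ N := by
      have h6 : r ^ 2 ≤ 2 ^ k := (Nat.pow_le_pow_left hrk'.le 2).trans hk2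
      have : ((r ^ 2 : ℕ) : ℝ) ≤ ((2 ^ k : ℕ) : ℝ) := by exact_mod_cast h6
      push_cast at this
      simpa [hN] using this
    have hu2 : u ^ 2 * N ≤ 1 := by
      rw [hu, div_pow]
      have hN2 : N ^ 2 = N * N := by ring
      rw [hN2, div_mul_eq_mul_div, div_le_one (by positivity)]
      nlinarith
    have hu4 : u ^ 4 * N ^ 2 ≤ 1 := by
      have : u ^ 4 * N ^ 2 = (u ^ 2 * N) ^ 2 := by ring
      rw [this]
      exact pow_le_one₀ (by positivity) hu2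
    have hb2 : β ^ 2 * N ^ 4 ≤ 121000000000000 := by
      have : β ^ 2 * N ^ 4 = 121000000000000 * (u ^ 4 * N ^ 2) ^ 2 := by rw [hβ]; ring
      rw [this]
      have h7 : (u ^ 4 * N ^ 2) ^ 2 ≤ 1 := pow_le_one₀ (by positivity) hu4
      linarith
    have h8 : β ^ 2 ≤ 121000000000000 * ((16 : ℝ) ^ k)⁻¹ := by
      rw [h16, ← div_eq_mul_inv, le_div_iff₀ (by positivity)]
      exact hb2
    have : (0 : ℝ) < ((16 : ℝ) ^ k)⁻¹ := by positivity
    nlinarith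

/-- all levels `r ≥ 2` -/
theorem S_le (H : Hyp sig tr) (k r : ℕ) (hk : 14 ≤ k) (hr : 2 ≤ r) (hr1 : r ≤ 2 ^ k) :
    S sig tr k r ≤ (Real.exp 6 * 1000000000000000) * ((16 : ℝ) ^ k)⁻¹ := by
  have hpos : (0 : ℝ) < ((16 : ℝ) ^ k)⁻¹ := by positivity
  have hc : (1 : ℝ) ≤ Real.exp 6 * 1000000000000000 := by
    have : (1 : ℝ) ≤ Real.exp 6 := by
      rw [← Real.exp_zero]; exact Real.exp_le_exp.mpr (by norm_num)
    nlinarith
  by_cases h1 : 128 * r ≤ 2 ^ k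
  · exact S_sparse H k r hk hr h1
  · by_cases h2 : 32 * r ≤ 2 ^ k
    · exact (S_mid H k r hk (by omega) h2).trans (by nlinarith)
    · exact (S_dense H k r (by omega) (by omega) hr1 (by omega)).trans (by nlinarith)

/-- Main conclusion of the final numerics. -/
theorem tendsto_sum_S (H : Hyp sig tr) :
    Tendsto (fun k => ∑ r ∈ Finset.Icc 2 (2 ^ k), S sig tr k r) atTop (𝓝 0) := by
  have hbound : ∀ k, 14 ≤ k → ∑ r ∈ Finset.Icc 2 (2 ^ k), S sig tr k r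
      ≤ (Real.exp 6 * 1000000000000000) * ((1 / 8 : ℝ) ^ k) := by
    intro k hk
    calc ∑ r ∈ Finset.Icc 2 (2 ^ k), S sig tr k r
        ≤ ∑ _r ∈ Finset.Icc 2 (2 ^ k), (Real.exp 6 * 1000000000000000) * ((16 : ℝ) ^ k)⁻¹ := by
          apply Finset.sum_le_sum
          intro r hr
          rw [Finset.mem_Icc] at hr
          exact S_le H k r hk hr.1 hr.2
      _ = ((Finset.Icc 2 (2 ^ k)).card : ℝ) * ((Real.exp 6 * 1000000000000000) * ((16 : ℝ) ^ k)⁻¹) := by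
          simp [Finset.sum_const, nsmul_eq_mul]
      _ ≤ (2 : ℝ) ^ k * ((Real.exp 6 * 1000000000000000) * ((16 : ℝ) ^ k)⁻¹) := by
          apply mul_le_mul_of_nonneg_right _ (by positivity)
          have : (Finset.Icc 2 (2 ^ k)).card ≤ 2 ^ k := by
            simp [Nat.card_Icc]
          exact_mod_cast this
      _ = _ := by
          have : (1 / 8 : ℝ) ^ k = (2 : ℝ) ^ k * ((16 : ℝ) ^ k)⁻¹ := by
            rw [← inv_pow, ← mul_pow]; norm_num
          rw [this]; ring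
  have hnonneg : ∀ k, 0 ≤ ∑ r ∈ Finset.Icc 2 (2 ^ k), S sig tr k r := by
    intro k
    apply Finset.sum_nonneg
    intro r _
    unfold S
    apply mul_nonneg (pow_nonneg (H.sig_nonneg k r) _)
    exact le_min (mul_nonneg (by positivity) (H.tr_nonneg k r)) (H.tr_nonneg _ _)
  have hlim : Tendsto (fun k : ℕ => (Real.exp 6 * 1000000000000000) * ((1 / 8 : ℝ) ^ k)) atTop (𝓝 0) := by
    have := (tendsto_pow_atTop_nhds_zero_of_lt_one (by norm_num : (0 : ℝ) ≤ 1 / 8) (by norm_num)).const_mul (Real.exp 6 * 1000000000000000)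
    simpa using this
  apply tendsto_of_tendsto_of_tendsto_of_le_of_le' tendsto_const_nhds hlim
  · exact Eventually.of_forall hnonneg
  · filter_upwards [eventually_ge_atTop 14] with k hk using hbound k hk

end Crest.Agent.Lib.Thorp.FinalSum
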