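import Mathlib
import Crest.Agent.Lib.Thorp.Tower

set_option autoImplicit false
set_option linter.unusedSectionVars false
set_option linter.unusedSimpArgs false
set_option linter.unusedVariables false

/-!
# High levels of the Benes law (S0222)

The regular representation as an action on functions `f : G → ℝ`; the spaces `HGe b` of functions
orthogonal to everything depending on fewer than `b` cards; the halving step
`GapBd a b θ → GapBd (dbl a) (b + |V|) (θ ^ 2)`: on `Perm (Bool × V)` a function orthogonal to all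
functions of fewer than `b + |V|` cards restricts, on each fibre over the arrangement of the other
row, to a function orthogonal to all functions of fewer than `b` cards of this row.
-/

namespace Crest.Agent.Lib.Thorp

open MonoidAlgebra Finset Equiv

section act

variable {G : Type*} [Group G] [Fintype G] [DecidableEq G]

/-- the left regular action `Reg x *ᵥ f` -/
noncomputable def act (x : RG G) (f : G → ℝ) : G → ℝ := fun u => ∑ g, cf x g * f (g⁻¹ * u)

/-- squared norm of a function on a group -/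
def nsqG (f : G → ℝ) : ℝ := ∑ x, f x ^ 2

/-- inner product of functions on a group -/
def ipG (f h : G → ℝ) : ℝ := ∑ x, f x * h x

theorem act_eq_mulVec (x : RG G) (f : G → ℝ) : act x f = (Reg x).mulVec f := by
  funext u
  simp only [act, Matrix.mulVec, dotProduct, Reg_apply]
  apply Fintype.sum_equiv ((Equiv.inv G).trans (Equiv.mulRight u))
  intro g
  simp

theorem act_mul (x y : RG G) (f : G → ℝ) : act (x * y) f = act x (act y f) := by
  rw [act_eq_mulVec, act_eq_mulVec, act_eq_mulVec, Reg_mul, Matrix.mulVec_mulVec]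

theorem act_one (f : G → ℝ) : act (1 : RG G) f = f := by
  funext u
  simp [act, cf_one]

theorem act_add (x y : RG G) (f : G → ℝ) : act (x + y) f = fun u => act x f u + act y f u := by
  funext u
  simp [act, add_mul, Finset.sum_add_distrib]

theorem act_smul (r : ℝ) (x : RG G) (f : G → ℝ) : act (r • x) f = fun u => r * act x f u := by
  funext u
  simp [act, Finset.mul_sum, mul_assoc]

theorem act_single (g : G) (r : ℝ) (f : G → ℝ) :
    act (single g r : RG G) f = fun u => r * f (g⁻¹ * u) := by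
  funext u
  simp [act, cf_single]

theorem act_sum {ι : Type*} (s : Finset ι) (x : ι → RG G) (f : G → ℝ) (u : G) :
    act (∑ i ∈ s, x i) f u = ∑ i ∈ s, act (x i) f u := by
  simp only [act, cf_sum, Finset.sum_mul]
  rw [Finset.sum_comm]

theorem act_fun_add (x : RG G) (f h : G → ℝ) :
    act x (fun u => f u + h u) = fun u => act x f u + act x h u := by
  funext u
  simp [act, mul_add, Finset.sum_add_distrib]

theorem act_fun_sub (x : RG G) (f h : G → ℝ) :
    act x (fun u => f u - h u) = fun u => act x f u - act x h u := by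
  funext u
  simp [act, mul_sub, Finset.sum_sub_distrib]

theorem act_fun_smul (x : RG G) (r : ℝ) (f : G → ℝ) :
    act x (fun u => r * f u) = fun u => r * act x f u := by
  funext u
  simp only [act, Finset.mul_sum]
  apply Finset.sum_congr rfl
  intro g _
  ring

theorem ipG_eq_dot (f h : G → ℝ) : ipG f h = f ⬝ᵥ h := rfl

/-- adjoint -/
theorem ipG_act (x : RG G) (f h : G → ℝ) : ipG (act x f) h = ipG f (act (rev x) h) := by
  rw [ipG_eq_dot, ipG_eq_dot, act_eq_mulVec, act_eq_mulVec, Reg_rev, Matrix.mulVec_transpose,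
    dotProduct_comm, Matrix.dotProduct_mulVec, dotProduct_comm]

theorem ipG_self (f : G → ℝ) : ipG f f = nsqG f := by
  simp [ipG, nsqG, sq]

theorem ipG_comm (f h : G → ℝ) : ipG f h = ipG h f := by
  simp [ipG, mul_comm]

theorem nsqG_nonneg (f : G → ℝ) : 0 ≤ nsqG f := Finset.sum_nonneg fun _ _ => sq_nonneg _

/-- Cauchy-Schwarz -/
theorem ipG_sq_le (f h : G → ℝ) : ipG f h ^ 2 ≤ nsqG f * nsqG h :=
  Finset.sum_mul_sq_le_sq_mul_sq _ _ _

/-- a law acts as a contraction -/
theorem nsqG_act_le {x : RG G} (hx : IsLaw x) (f : G → ℝ) : nsqG (act x f) ≤ nsqG f := by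
  have h2 : ∀ u, (act x f u) ^ 2 ≤ ∑ g, cf x g * (f (g⁻¹ * u)) ^ 2 := by
    intro u
    have := Finset.sum_mul_sq_le_sq_mul_sq Finset.univ (fun g => Real.sqrt (cf x g))
      (fun g => Real.sqrt (cf x g) * f (g⁻¹ * u))
    have e1 : ∀ g, Real.sqrt (cf x g) * (Real.sqrt (cf x g) * f (g⁻¹ * u))
        = cf x g * f (g⁻¹ * u) := by
      intro g
      rw [← mul_assoc, Real.mul_self_sqrt (hx.nonneg g)]
    have e2 : ∀ g, (Real.sqrt (cf x g)) ^ 2 = cf x g := fun g => Real.sq_sqrt (hx.nonneg g)
    have e3 : ∀ g, (Real.sqrt (cf x g) * f (g⁻¹ * u)) ^ 2 = cf x g * (f (g⁻¹ * u)) ^ 2 := by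
      intro g; rw [mul_pow, e2]
    simp only [e1, e2, e3, hx.sum_one, one_mul] at this
    exact this
  calc nsqG (act x f) ≤ ∑ u, ∑ g, cf x g * (f (g⁻¹ * u)) ^ 2 := Finset.sum_le_sum fun u _ => h2 u
    _ = ∑ g, cf x g * ∑ u, (f (g⁻¹ * u)) ^ 2 := by
        rw [Finset.sum_comm]
        apply Finset.sum_congr rfl
        intro g _
        rw [Finset.mul_sum]
    _ = ∑ g, cf x g * nsqG f := by
        apply Finset.sum_congr rfl
        intro g _
        congr 1
        exact Fintype.sum_equiv (Equiv.mulLeft g⁻¹) _ _ (fun _ => rfl)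
    _ = nsqG f := by rw [← Finset.sum_mul, hx.sum_one, one_mul]

theorem isLaw_avgS {Ω : Type*} [Fintype Ω] [Nonempty Ω] (F : Ω → G) : IsLaw (avgS F) := by
  constructor
  · intro g
    rw [cf_avgS]
    positivity
  · have hc : (Fintype.card Ω : ℝ) ≠ 0 := by
      exact_mod_cast Fintype.card_ne_zero
    simp_rw [cf_avgS]
    rw [← Finset.mul_sum, Finset.sum_comm]
    simp [hc]

end act

section level

variable {P : Type*} [Fintype P] [DecidableEq P]

/-- `u` depends only on the values on `I` -/
def DepOn (I : Finset P) (u : Perm P → ℝ) : Prop :=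
  ∀ x y : Perm P, (∀ c ∈ I, x c = y c) → u x = u y

/-- orthogonal to all functions of fewer than `b` cards -/
def HGe (b : ℕ) (f : Perm P → ℝ) : Prop :=
  ∀ I : Finset P, I.card < b → ∀ u : Perm P → ℝ, DepOn I u → ∑ x, f x * u x = 0

/-- the norm bound on the functions orthogonal to all functions of fewer than `b` cards -/
def GapBd (a : RG (Perm P)) (b : ℕ) (θ : ℝ) : Prop :=
  ∀ f : Perm P → ℝ, HGe b f → nsqG (act a f) ≤ θ ^ 2 * nsqG f

theorem HGe.act {b : ℕ} {f : Perm P → ℝ} (hf : HGe b f) (x : RG (Perm P)) : HGe b (act x f) := by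
  intro I hI u hu
  simp only [Crest.Agent.Lib.Thorp.act, Finset.sum_mul]
  rw [Finset.sum_comm]
  apply Finset.sum_eq_zero
  intro g _
  have hu' : DepOn I (fun y => u (g * y)) := by
    intro y y' h
    apply hu
    intro c hc
    simp [h c hc]
  have := hf I hI _ hu'
  calc ∑ y, cf x g * f (g⁻¹ * y) * u y = cf x g * ∑ y, f (g⁻¹ * y) * u y := by
        rw [Finset.mul_sum]
        apply Finset.sum_congr rfl
        intro y _
        ring
    _ = cf x g * ∑ y, f y * u (g * y) := by
        congr 1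
        apply Fintype.sum_equiv (Equiv.mulLeft g⁻¹)
        intro y
        simp
    _ = 0 := by rw [this, mul_zero]

end level

section halving

variable {V : Type*} [Fintype V] [DecidableEq V]

theorem bool_ne_eq_not {x r : Bool} (h : x ≠ r) : x = !r := by
  cases x <;> cases r <;> simp_all

/-- the block embedding of a row -/
def rowHom : Bool → (Perm V →* Perm (Bool × V))
  | false => twoL
  | true => twoR

theorem rowHom_same (r : Bool) (σ : Perm V) (v : V) : rowHom r σ (r, v) = (r, σ v) := by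
  cases r <;> rfl

theorem rowHom_other (r : Bool) (σ : Perm V) (v : V) : rowHom r σ (!r, v) = (!r, v) := by
  cases r <;> rfl

theorem rowHom_injective (r : Bool) : Function.Injective (rowHom (V := V) r) := by
  intro σ τ h
  ext v
  have := congrArg (fun g : Perm (Bool × V) => (g (r, v)).2) h
  simpa [rowHom_same] using this

/-- a permutation fixing one row is a block permutation of the other -/
theorem perm_fix_row (r : Bool) (w : Perm (Bool × V)) (h : ∀ v, w (!r, v) = (!r, v)) :
    ∃ τ : Perm V, w = rowHom r τ := by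
  have hinv : ∀ v, w⁻¹ (!r, v) = (!r, v) := by
    intro v
    rw [Equiv.Perm.inv_eq_iff_eq, h]
  have row : ∀ v, (w (r, v)).1 = r := by
    intro v
    by_contra hne
    have e : (w (r, v)).1 = !r := bool_ne_eq_not hne
    have e2 : w (r, v) = (!r, (w (r, v)).2) := Prod.ext e rfl
    have e3 : w (r, v) = w (!r, (w (r, v)).2) := by rw [h]; exact e2
    have := w.injective e3
    have := congrArg Prod.fst this
    cases r <;> simp at this
  have row' : ∀ v, (w⁻¹ (r, v)).1 = r := by
    intro v
    by_contra hne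
    have e : (w⁻¹ (r, v)).1 = !r := bool_ne_eq_not hne
    have e2 : w⁻¹ (r, v) = (!r, (w⁻¹ (r, v)).2) := Prod.ext e rfl
    have e3 : w⁻¹ (r, v) = w⁻¹ (!r, (w⁻¹ (r, v)).2) := by rw [hinv]; exact e2
    have := w⁻¹.injective e3
    have := congrArg Prod.fst this
    cases r <;> simp at this
  have e1 : ∀ v, w (r, v) = (r, (w (r, v)).2) := fun v => Prod.ext (row v) rfl
  have e2 : ∀ v, w⁻¹ (r, v) = (r, (w⁻¹ (r, v)).2) := fun v => Prod.ext (row' v) rfl
  refine ⟨⟨fun v => (w (r, v)).2, fun v => (w⁻¹ (r, v)).2, ?_, ?_⟩, ?_⟩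
  · intro v
    have : w⁻¹ (r, (w (r, v)).2) = (r, v) := by
      rw [← e1 v]; simp
    show (w⁻¹ (r, (w (r, v)).2)).2 = v
    rw [this]
  · intro v
    have : w (r, (w⁻¹ (r, v)).2) = (r, v) := by
      rw [← e2 v]; simp
    show (w (r, (w⁻¹ (r, v)).2)).2 = v
    rw [this]
  · ext x
    · rcases x with ⟨ρ, v⟩
      by_cases hρ : ρ = r
      · subst hρ
        rw [rowHom_same]
        exact congrArg Prod.fst (e1 v)
      · have : ρ = !r := bool_ne_eq_not hρ
        subst this
        rw [rowHom_other, h]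
    · rcases x with ⟨ρ, v⟩
      by_cases hρ : ρ = r
      · subst hρ
        rw [rowHom_same]
        rfl
      · have : ρ = !r := bool_ne_eq_not hρ
        subst this
        rw [rowHom_other, h]

/-- arrangements agreeing with `z` on the other row are in the orbit of `z` -/
theorem orbit_of_agree (r : Bool) (y z : Perm (Bool × V))
    (h : ∀ c, (z c).1 ≠ r → y c = z c) : ∃ τ : Perm V, y = rowHom r τ * z := by
  obtain ⟨τ, hτ⟩ := perm_fix_row r (y * z⁻¹) (by
    intro v
    have hne : (z (z⁻¹ (!r, v))).1 ≠ r := by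
      simp
    have := h _ hne
    simp only [Equiv.Perm.coe_mul, Function.comp_apply]
    rw [this]
    simp)
  exact ⟨τ, by rw [← hτ]; simp⟩

theorem act_map_apply {W : Type*} [Group W] [Fintype W] [DecidableEq W]
    {H : Type*} [Group H] [Fintype H] [DecidableEq H]
    (φ : W →* H) (a : RG W) (F : H → ℝ) (z : H) :
    act (mapDomainRingHom ℝ φ a) F z = ∑ σ, cf a σ * F ((φ σ)⁻¹ * z) := by
  rw [map_eq_sum, act_sum]
  apply Finset.sum_congr rfl
  intro σ _
  rw [act_single]

/-- the slice of `F` through `z` -/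
def slice (r : Bool) (F : Perm (Bool × V) → ℝ) (z : Perm (Bool × V)) : Perm V → ℝ :=
  fun τ => F (rowHom r τ * z)

theorem act_slice (r : Bool) (a : RG (Perm V)) (F : Perm (Bool × V) → ℝ) (z : Perm (Bool × V)) :
    act a (slice r F z) = slice r (act (mapDomainRingHom ℝ (rowHom r) a) F) z := by
  funext τ
  show act a (slice r F z) τ = act (mapDomainRingHom ℝ (rowHom r) a) F (rowHom r τ * z)
  rw [act_map_apply]
  simp only [slice, act]
  apply Finset.sum_congr rfl
  intro σ _
  congr 2
  rw [map_mul, map_inv, mul_assoc]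

theorem sum_nsqG_slice (r : Bool) (F : Perm (Bool × V) → ℝ) :
    ∑ z, nsqG (slice r F z) = (Fintype.card (Perm V) : ℝ) * nsqG F := by
  simp only [nsqG, slice]
  rw [Finset.sum_comm]
  have : ∀ τ : Perm V, ∑ z, F (rowHom r τ * z) ^ 2 = ∑ z, F z ^ 2 := by
    intro τ
    exact Fintype.sum_equiv (Equiv.mulLeft (rowHom r τ)) _ _ (fun _ => rfl)
  simp [this]

/-- the slices of a function of high level have high level -/
theorem slice_HGe (r : Bool) {b : ℕ} {F : Perm (Bool × V) → ℝ}
    (hF : HGe (b + Fintype.card V) F) (z : Perm (Bool × V)) : HGe b (slice r F z) := by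
  intro I hI u hu
  classical
  -- the test function
  set φ := rowHom (V := V) r with hφ
  let T : Perm (Bool × V) → ℝ := fun y => ∑ τ, if y = φ τ * z then u τ else 0
  have T_eval : ∀ τ, T (φ τ * z) = u τ := by
    intro τ
    simp only [T]
    rw [Finset.sum_eq_single τ]
    · simp
    · intro τ' _ hne
      rw [if_neg]
      intro h
      exact hne (rowHom_injective r (mul_right_cancel h)).symm
    · simp
  have T_not : ∀ y, (∀ τ, y ≠ φ τ * z) → T y = 0 := by
    intro y hy
    simp only [T]
    apply Finset.sum_eq_zero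
    intro τ _
    rw [if_neg (hy τ)]
  -- the cards
  let B : Finset (Bool × V) := univ.filter (fun c => (z c).1 ≠ r)
  let Iz : Finset (Bool × V) := I.image (fun v => z⁻¹ (r, v))
  have hB : B.card ≤ Fintype.card V := by
    apply Finset.card_le_card_of_injOn (fun c => (z c).2) (fun _ _ => Finset.mem_coe.mpr (mem_univ _))
    intro c hc c' hc' h
    have h1 : (z c).1 ≠ r := (Finset.mem_filter.mp (Finset.mem_coe.mp hc)).2
    have h2 : (z c').1 ≠ r := (Finset.mem_filter.mp (Finset.mem_coe.mp hc')).2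
    apply z.injective
    apply Prod.ext _ h
    rw [bool_ne_eq_not h1, bool_ne_eq_not h2]
  have hIz : Iz.card ≤ I.card := Finset.card_image_le
  have hcard : (B ∪ Iz).card < b + Fintype.card V := by
    have := Finset.card_union_le B Iz
    omega
  -- key step
  have key : ∀ y y' : Perm (Bool × V), (∀ c ∈ B ∪ Iz, y c = y' c) → ∀ τ, y = φ τ * z →
      ∃ τ', y' = φ τ' * z ∧ u τ = u τ' := by
    intro y y' hyy τ hτ
    have hy_z : ∀ c, (z c).1 ≠ r → y c = z c := by
      intro c hc
      rw [hτ]
      have e : z c = (!r, (z c).2) := Prod.ext (bool_ne_eq_not hc) rfl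
      simp only [Equiv.Perm.coe_mul, Function.comp_apply]
      rw [e, hφ, rowHom_other]
    have hy'_z : ∀ c, (z c).1 ≠ r → y' c = z c := by
      intro c hc
      rw [← hyy c (Finset.mem_union_left _ (Finset.mem_filter.mpr ⟨mem_univ _, hc⟩))]
      exact hy_z c hc
    obtain ⟨τ', hτ'⟩ := orbit_of_agree r y' z hy'_z
    refine ⟨τ', hτ', ?_⟩
    apply hu
    intro v hv
    have hc : z⁻¹ (r, v) ∈ B ∪ Iz :=
      Finset.mem_union_right _ (Finset.mem_image_of_mem _ hv)
    have := hyy _ hc
    rw [hτ, hτ'] at this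
    simp only [Equiv.Perm.coe_mul, Function.comp_apply] at this
    have ez : z (z⁻¹ (r, v)) = (r, v) := by simp
    rw [ez, hφ, rowHom_same, rowHom_same] at this
    exact congrArg Prod.snd this
  have hT : DepOn (B ∪ Iz) T := by
    intro y y' hyy
    by_cases hy : ∃ τ, y = φ τ * z
    · obtain ⟨τ, hτ⟩ := hy
      obtain ⟨τ', hτ', he⟩ := key y y' hyy τ hτ
      rw [hτ, hτ', T_eval, T_eval, he]
    · have hy' : ¬ ∃ τ, y' = φ τ * z := by
        rintro ⟨τ', hτ'⟩
        obtain ⟨τ, hτ, _⟩ := key y' y (fun c hc => (hyy c hc).symm) τ' hτ'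
        exact hy ⟨τ, hτ⟩
      push Not at hy hy'
      rw [T_not y hy, T_not y' hy']
  have h0 := hF _ hcard T hT
  have : ∑ y, F y * T y = ∑ τ, slice r F z τ * u τ := by
    simp only [T, Finset.mul_sum]
    rw [Finset.sum_comm]
    apply Finset.sum_congr rfl
    intro τ _
    rw [Finset.sum_eq_single (φ τ * z)]
    · simp [slice, hφ]
    · intro y _ hne
      rw [if_neg hne, mul_zero]
    · simp
  rw [← this]
  exact h0

/-- the norm bound for one row -/
theorem nsqG_act_row_le (r : Bool) {a : RG (Perm V)} {b : ℕ} {θ : ℝ} (h : GapBd a b θ)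
    {F : Perm (Bool × V) → ℝ} (hF : HGe (b + Fintype.card V) F) :
    nsqG (act (mapDomainRingHom ℝ (rowHom r) a) F) ≤ θ ^ 2 * nsqG F := by
  have hN : (0 : ℝ) < Fintype.card (Perm V) := by
    exact_mod_cast Fintype.card_pos
  have h1 := sum_nsqG_slice r (act (mapDomainRingHom ℝ (rowHom r) a) F)
  have h2 := sum_nsqG_slice r F
  have h3 : ∑ z, nsqG (slice r (act (mapDomainRingHom ℝ (rowHom r) a) F) z)
      ≤ ∑ z, θ ^ 2 * nsqG (slice r F z) := by
    apply Finset.sum_le_sum
    intro z _
    rw [← act_slice]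
    exact h _ (slice_HGe r hF z)
  rw [h1, ← Finset.mul_sum, h2] at h3
  have h4 : (Fintype.card (Perm V) : ℝ) * nsqG (act (mapDomainRingHom ℝ (rowHom r) a) F)
      ≤ (Fintype.card (Perm V) : ℝ) * (θ ^ 2 * nsqG F) := by
    calc _ ≤ _ := h3
      _ = _ := by ring
  exact le_of_mul_le_mul_left h4 hN

theorem act_Ten (a : RG (Perm V)) (F : Perm (Bool × V) → ℝ) :
    act (Ten a) F = act (mapDomainRingHom ℝ (rowHom false) a)
      (act (mapDomainRingHom ℝ (rowHom true) a) F) := by
  unfold Ten
  rw [act_mul]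
  rfl

theorem isLaw_GateA : IsLaw (GateA : RG (Perm (Bool × V))) := isLaw_avgS _

/-- **Halving.** -/
theorem GapBd_dbl {a : RG (Perm V)} {b : ℕ} {θ : ℝ} (h : GapBd a b θ) :
    GapBd (dbl a) (b + Fintype.card V) (θ ^ 2) := by
  intro f hf
  unfold dbl
  rw [act_mul, act_mul]
  set F := act GateA f with hFdef
  have hF : HGe (b + Fintype.card V) F := hf.act _
  have h1 : nsqG (act GateA (act (Ten a) F)) ≤ nsqG (act (Ten a) F) := nsqG_act_le isLaw_GateA _
  have h2 : nsqG F ≤ nsqG f := nsqG_act_le isLaw_GateA _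
  rw [act_Ten] at h1 ⊢
  have h3 := nsqG_act_row_le true h hF
  have h4 := nsqG_act_row_le false h (hF.act (mapDomainRingHom ℝ (rowHom true) a))
  have hθ : 0 ≤ θ ^ 2 := sq_nonneg _
  calc _ ≤ _ := h1
    _ ≤ _ := h4
    _ ≤ θ ^ 2 * (θ ^ 2 * nsqG F) := mul_le_mul_of_nonneg_left h3 hθ
    _ ≤ θ ^ 2 * (θ ^ 2 * nsqG f) :=
        mul_le_mul_of_nonneg_left (mul_le_mul_of_nonneg_left h2 hθ) hθ
    _ = (θ ^ 2) ^ 2 * nsqG f := by ring

end halving

/-- Iterating the halving step along the tower. -/
theorem GapBd_bA_succ {k b : ℕ} {θ : ℝ} (h : GapBd (bA k) b θ) :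
    GapBd (bA (k + 1)) (b + 2 ^ k) (θ ^ 2) := by
  have := GapBd_dbl h
  rwa [card_Pos] at this

end Crest.Agent.Lib.Thorp
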