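import Mathlib
import Crest.Agent.Lib.Thorp.Tup
import Crest.Agent.Lib.Thorp.HighLevel

set_option autoImplicit false
set_option linter.unusedSectionVars false
set_option linter.unusedSimpArgs false
set_option linter.unusedVariables false

/-!
# Links between the tuple carrier and the regular representation (S0222)

`GapBd a r θ → NormBd a r θ` (`NormBd_of_GapBd`): the lift of a pure function on `J`, `|J| = r`,
to permutations is orthogonal to everything depending on fewer than `r` cards (`pure_orth`), and
the lift multiplies squared norms by a positive constant.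

`(∀ r ≥ b, NormBd a r θ) → GapBd a b θ` (`GapBd_of_NormBd`): an eigenvector in `HGe b` summed over
the fibres of a suitable card set `I` gives a pure eigenvector on `I`.
-/

namespace Crest.Agent.Lib.Thorp

open Finset Equiv

section peel

variable {V : Type*} [Fintype V] [DecidableEq V]

/-- purity on permutations: moving card `a` over the free slots sums to zero -/
def PureG (J : Finset V) (F : Perm V → ℝ) : Prop :=
  DepOn J F ∧ ∀ x : Perm V, ∀ a ∈ J, ∑ b ∈ insert a (univ \ J), F (x * swap a b) = 0

theorem PureG.comp_right {J : Finset V} {F : Perm V → ℝ} (h : PureG J F) (s : Perm V) :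
    PureG (J.image s) (fun x => F (x * s)) := by
  refine ⟨?_, ?_⟩
  · intro x y hxy
    apply h.1
    intro c hc
    simp only [Equiv.Perm.coe_mul, Function.comp_apply]
    exact hxy _ (Finset.mem_image_of_mem _ hc)
  · intro x a' ha'
    obtain ⟨a, ha, rfl⟩ := Finset.mem_image.mp ha'
    have e1 : insert (s a) (univ \ J.image s) = (insert a (univ \ J)).image s := by
      ext v
      simp only [Finset.mem_insert, Finset.mem_sdiff, Finset.mem_univ, true_and, Finset.mem_image]
      constructor
      · rintro (rfl | hv)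
        · exact ⟨a, Or.inl rfl, rfl⟩
        · refine ⟨s⁻¹ v, Or.inr ?_, by simp⟩
          intro h'
          exact hv ⟨_, h', by simp⟩
      · rintro ⟨b, rfl | hb, rfl⟩
        · exact Or.inl rfl
        · right
          rintro ⟨c, hc, hcb⟩
          exact hb (by rwa [← s.injective hcb])
    rw [e1, Finset.sum_image (fun _ _ _ _ hh => s.injective hh)]
    have := h.2 (x * s) a ha
    rw [← this]
    apply Finset.sum_congr rfl
    intro b _
    have e2 : swap (s a) (s b) * s = s * swap a b := by
      ext c
      simp only [Equiv.Perm.coe_mul, Function.comp_apply]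
      by_cases h1 : c = a
      · subst h1; simp
      · by_cases h2 : c = b
        · subst h2; simp
        · rw [Equiv.swap_apply_of_ne_of_ne h1 h2,
            Equiv.swap_apply_of_ne_of_ne (fun hh => h1 (s.injective hh))
              (fun hh => h2 (s.injective hh))]
    show F (x * swap (s a) (s b) * s) = F (x * s * swap a b)
    rw [mul_assoc, e2, mul_assoc]

/-- **Peeling**: a pure function is orthogonal to all functions of fewer cards. -/
theorem pure_orth (I : Finset V) (u : Perm V → ℝ) (hu : DepOn I u) :
    ∀ (n : ℕ) (J : Finset V) (F : Perm V → ℝ), (J \ I).card ≤ n → PureG J F → I.card < J.card →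
      ∑ x, F x * u x = 0 := by
  intro n
  induction n with
  | zero =>
    intro J F hn _ hc
    have h1 : J \ I = ∅ := Finset.card_eq_zero.mp (by omega)
    have h2 : J ⊆ I := Finset.sdiff_eq_empty_iff_subset.mp h1
    have := Finset.card_le_card h2
    omega
  | succ n ih =>
    intro J F hn hF hc
    -- a card of J outside I
    have hne : (J \ I).Nonempty := by
      by_contra hh
      rw [Finset.not_nonempty_iff_eq_empty] at hh
      have h2 : J ⊆ I := Finset.sdiff_eq_empty_iff_subset.mp hh
      have := Finset.card_le_card h2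
      omega
    obtain ⟨a, ha⟩ := hne
    have haJ : a ∈ J := (Finset.mem_sdiff.mp ha).1
    have haI : a ∉ I := (Finset.mem_sdiff.mp ha).2
    set B := insert a (univ \ J) with hB
    -- free moves keep the value of u
    have free : ∀ b ∈ B.filter (· ∉ I), ∑ x, F x * u x = ∑ x, F (x * swap a b) * u x := by
      intro b hb
      have hbI : b ∉ I := (Finset.mem_filter.mp hb).2
      have := Fintype.sum_equiv (Equiv.mulRight (swap a b))
        (fun x => F (x * swap a b) * u (x * swap a b)) (fun x => F x * u x) (fun _ => rfl)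
      rw [← this]
      apply Finset.sum_congr rfl
      intro x _
      congr 1
      apply hu
      intro c hc'
      simp only [Equiv.Perm.coe_mul, Function.comp_apply]
      rw [Equiv.swap_apply_of_ne_of_ne]
      · rintro rfl; exact haI hc'
      · rintro rfl; exact hbI hc'
    -- the moves into I vanish by induction
    have dead : ∀ b ∈ B.filter (· ∈ I), ∑ x, F (x * swap a b) * u x = 0 := by
      intro b hb
      have hbB : b ∈ B := (Finset.mem_filter.mp hb).1
      have hbI : b ∈ I := (Finset.mem_filter.mp hb).2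
      have hba : b ≠ a := by rintro rfl; exact haI hbI
      have hbJ : b ∉ J := by
        rcases Finset.mem_insert.mp hbB with h | h
        · exact absurd h hba
        · exact (Finset.mem_sdiff.mp h).2
      have hP := hF.comp_right (swap a b)
      apply ih (J.image (swap a b)) _ _ hP
      · rw [Finset.card_image_of_injective _ (swap a b).injective]
        exact hc
      · -- the new set misses `a` outside `I`
        have hsub : J.image (swap a b) \ I ⊆ (J \ I).erase a := by
          intro v hv
          obtain ⟨hv1, hv2⟩ := Finset.mem_sdiff.mp hv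
          obtain ⟨j, hj, rfl⟩ := Finset.mem_image.mp hv1
          by_cases hja : j = a
          · subst hja
            rw [Equiv.swap_apply_left] at hv2
            exact absurd hbI hv2
          · have hjb : j ≠ b := by rintro rfl; exact hbJ hj
            rw [Equiv.swap_apply_of_ne_of_ne hja hjb] at hv2 ⊢
            exact Finset.mem_erase.mpr ⟨hja, Finset.mem_sdiff.mpr ⟨hj, hv2⟩⟩
        have h3 := Finset.card_le_card hsub
        rw [Finset.card_erase_of_mem ha] at h3
        omega
    have hsum : ∀ x, ∑ b ∈ B.filter (· ∉ I), F (x * swap a b)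
        = - ∑ b ∈ B.filter (· ∈ I), F (x * swap a b) := by
      intro x
      have := hF.2 x a haJ
      rw [← Finset.sum_filter_add_sum_filter_not (insert a (univ \ J)) (· ∈ I)] at this
      linarith
    have hcount : ((B.filter (· ∉ I)).card : ℝ) * ∑ x, F x * u x = 0 := by
      have h1 : ((B.filter (· ∉ I)).card : ℝ) * ∑ x, F x * u x
          = ∑ b ∈ B.filter (· ∉ I), ∑ x, F (x * swap a b) * u x := by
        rw [← nsmul_eq_mul, ← Finset.sum_const]
        exact Finset.sum_congr rfl free
      rw [h1, Finset.sum_comm]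
      have h2 : ∀ x, ∑ b ∈ B.filter (· ∉ I), F (x * swap a b) * u x
          = - ∑ b ∈ B.filter (· ∈ I), F (x * swap a b) * u x := by
        intro x
        rw [← Finset.sum_mul, ← Finset.sum_mul, hsum x]
        ring
      simp only [h2]
      rw [Finset.sum_neg_distrib, neg_eq_zero, Finset.sum_comm]
      exact Finset.sum_eq_zero dead
    have hpos : ((B.filter (· ∉ I)).card : ℝ) ≠ 0 := by
      have : a ∈ B.filter (· ∉ I) := Finset.mem_filter.mpr ⟨Finset.mem_insert_self _ _, haI⟩
      exact_mod_cast (Finset.card_pos.mpr ⟨a, this⟩).ne'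
    exact (mul_eq_zero.mp hcount).resolve_left hpos

end peel

section lift

variable {ι V : Type*} [Fintype ι] [DecidableEq ι] [Fintype V] [DecidableEq V]

/-- lift of a function of assignments to permutations along the card labelling `e` -/
def liftP (e : ι → V) (g : (ι → V) → ℝ) : Perm V → ℝ := fun x => g (fun i => x (e i))

theorem liftP_PureG {J : Finset ι} {f : (ι → V) → ℝ} (e : ι → V) (he : Set.InjOn e (J : Set ι))
    (hf : IsPure J f) : PureG (J.image e) (liftP e f) := by
  refine ⟨?_, ?_⟩
  · intro x y hxy
    apply hf.meas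
    intro a ha
    exact hxy _ (Finset.mem_image_of_mem _ ha)
  · intro x a' ha'
    obtain ⟨a, ha, rfl⟩ := Finset.mem_image.mp ha'
    set y : ι → V := fun i => x (e i) with hy
    set φ : V → ℝ := fun v => f (Function.update y a v) with hφ
    have h1 : ∀ b ∈ insert (e a) (univ \ J.image e), liftP e f (x * swap (e a) b) = φ (x b) := by
      intro b hb
      apply hf.meas
      intro j hj
      by_cases hja : j = a
      · subst hja
        simp [y]
      · have h2 : e j ≠ e a := fun hh => hja (he hj ha hh)
        have h3 : e j ≠ b := by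
          intro hh
          rcases Finset.mem_insert.mp hb with h4 | h4
          · exact h2 (hh.trans h4)
          · exact (Finset.mem_sdiff.mp h4).2 (hh ▸ Finset.mem_image_of_mem _ hj)
        simp only [Equiv.Perm.coe_mul, Function.comp_apply, y, Function.update_of_ne hja]
        rw [Equiv.swap_apply_of_ne_of_ne h2 h3]
    rw [Finset.sum_congr rfl h1]
    rw [← Finset.sum_image (f := φ) (g := x) (fun _ _ _ _ hh => x.injective hh)]
    have h5 : ∑ v, φ v = 0 := hf.pure a ha y
    rw [← h5]
    apply Finset.sum_subset (Finset.subset_univ _)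
    intro v _ hv
    have h6 : x⁻¹ v ∉ insert (e a) (univ \ J.image e) := by
      intro hh
      exact hv (Finset.mem_image.mpr ⟨_, hh, by simp⟩)
    have h7 : x⁻¹ v ∈ J.image e := by
      by_contra h8
      exact h6 (Finset.mem_insert_of_mem (Finset.mem_sdiff.mpr ⟨mem_univ _, h8⟩))
    have h9 : x⁻¹ v ≠ e a := fun hh => h6 (hh ▸ Finset.mem_insert_self _ _)
    obtain ⟨j, hj, hje⟩ := Finset.mem_image.mp h7
    have hja : j ≠ a := by
      rintro rfl
      exact h9 hje.symm
    apply hf.supp
    intro hinj
    apply hja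
    apply hinj (Finset.mem_coe.mpr hj) (Finset.mem_coe.mpr ha)
    rw [Function.update_self, Function.update_of_ne hja]
    simp [y, hje]

/-- extension of a partial injection to a permutation -/
theorem exists_perm_extend {J : Finset ι} {e y : ι → V} (he : Set.InjOn e (J : Set ι))
    (hy : Set.InjOn y (J : Set ι)) : ∃ ρ : Perm V, ∀ j ∈ J, ρ (e j) = y j := by
  classical
  let E : {v // v ∈ e '' (J : Set ι)} ≃ {v // v ∈ y '' (J : Set ι)} :=
    (Equiv.Set.imageOfInjOn e _ he).symm.trans (Equiv.Set.imageOfInjOn y _ hy)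
  refine ⟨E.extendSubtype, ?_⟩
  intro j hj
  have hmem : e j ∈ e '' (J : Set ι) := ⟨j, hj, rfl⟩
  rw [Equiv.extendSubtype_apply_of_mem E _ hmem]
  have h1 : (Equiv.Set.imageOfInjOn e _ he).symm ⟨e j, hmem⟩ = ⟨j, hj⟩ := by
    rw [Equiv.symm_apply_eq]
    rfl
  simp only [E, Equiv.trans_apply, h1]
  rfl

/-- the lift multiplies squared norms by a positive constant -/
theorem exists_nsq_lift {J : Finset ι} (e : ι → V) (he : Set.InjOn e (J : Set ι)) :
    ∃ c₁ c₂ : ℝ, 0 < c₁ ∧ 0 < c₂ ∧ ∀ g : (ι → V) → ℝ, IsW J g →
      c₁ * nsqG (liftP e g) = c₂ * nsq g := by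
  classical
  let ind : Perm V → (ι → V) → ℝ := fun x y => if ∀ j ∈ J, y j = x (e j) then 1 else 0
  have ind_nonneg : ∀ x y, 0 ≤ ind x y := by
    intro x y
    simp only [ind]
    split_ifs <;> norm_num
  -- count in y
  have c1 : ∀ x : Perm V, ∑ y, ind x y = ∑ y, ind 1 y := by
    intro x
    let E : (ι → V) ≃ (ι → V) := Equiv.arrowCongr (Equiv.refl ι) x
    rw [← Equiv.sum_comp E]
    apply Finset.sum_congr rfl
    intro y _
    simp only [ind, E, Equiv.arrowCongr_apply, Equiv.coe_refl, Function.comp_apply, id,
      Equiv.refl_symm, Equiv.Perm.coe_one]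
    congr 1
    apply propext
    constructor
    · intro h j hj
      exact x.injective (h j hj)
    · intro h j hj
      rw [h j hj]
  -- count in x
  have c2 : ∀ y : ι → V, Set.InjOn y (J : Set ι) → ∑ x, ind x y = ∑ x, ind x e := by
    intro y hy
    obtain ⟨ρ, hρ⟩ := exists_perm_extend he hy
    rw [← Equiv.sum_comp (Equiv.mulLeft ρ)]
    apply Finset.sum_congr rfl
    intro x _
    simp only [ind, Equiv.coe_mulLeft, Equiv.Perm.coe_mul, Function.comp_apply]
    congr 1
    apply propext
    constructor
    · intro h j hj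
      have := h j hj
      rw [← hρ j hj] at this
      exact ρ.injective this
    · intro h j hj
      rw [← hρ j hj]
      exact congrArg ρ (h j hj)
  refine ⟨∑ y, ind 1 y, ∑ x, ind x e, ?_, ?_, ?_⟩
  · apply Finset.sum_pos' (fun y _ => ind_nonneg 1 y)
    exact ⟨e, mem_univ _, by simp [ind]⟩
  · apply Finset.sum_pos' (fun x _ => ind_nonneg x e)
    exact ⟨1, mem_univ _, by simp [ind]⟩
  · intro g hg
    have key : ∑ x, ∑ y, ind x y * g y ^ 2 = ∑ y, ∑ x, ind x y * g y ^ 2 := Finset.sum_comm
    have h1 : ∀ x, ∑ y, ind x y * g y ^ 2 = (∑ y, ind 1 y) * liftP e g x ^ 2 := by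
      intro x
      rw [← c1 x, Finset.sum_mul]
      apply Finset.sum_congr rfl
      intro y _
      by_cases h : ∀ j ∈ J, y j = x (e j)
      · have : g y = liftP e g x := hg.meas _ _ h
        rw [this]
      · simp [ind, h]
    have h2 : ∀ y, ∑ x, ind x y * g y ^ 2 = (∑ x, ind x e) * g y ^ 2 := by
      intro y
      by_cases hy : Set.InjOn y (J : Set ι)
      · rw [← c2 y hy, Finset.sum_mul]
      · rw [hg.supp y hy]
        simp
    simp only [h1, h2] at key
    rw [← Finset.mul_sum, ← Finset.mul_sum] at key
    exact key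

theorem IsW_opT {J : Finset ι} {f : (ι → V) → ℝ} (hf : IsW J f) (a : RG (Perm V)) :
    IsW J (opT a f) := by
  constructor
  · intro x y hxy
    simp only [opT]
    apply Finset.sum_congr rfl
    intro g _
    congr 1
    apply hf.meas
    intro c hc
    simp [hxy c hc]
  · intro x hx
    simp only [opT]
    apply Finset.sum_eq_zero
    intro g _
    rw [hf.supp, mul_zero]
    intro h
    apply hx
    intro c hc c' hc' hh
    exact h hc hc' (by simp [hh])

theorem liftP_opT (e : ι → V) (a : RG (Perm V)) (ha : rev a = a) (f : (ι → V) → ℝ) :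
    liftP e (opT a f) = act a (liftP e f) := by
  funext x
  simp only [liftP, opT, act]
  rw [← Equiv.sum_comp (Equiv.inv (Perm V))]
  apply Finset.sum_congr rfl
  intro g _
  have h1 : cf a g = cf a g⁻¹ := by
    conv_lhs => rw [← ha]
    rw [cf_rev]
  simp only [Equiv.inv_apply, inv_inv]
  rw [h1]
  rfl

end lift

section links

variable {V : Type} [Fintype V] [DecidableEq V]

/-- **Link 1**: a norm bound on the high-level space gives the norm bound on pure functions. -/
theorem NormBd_of_GapBd [Nonempty V] {a : RG (Perm V)} (ha : rev a = a) {r : ℕ} {θ : ℝ}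
    (h : GapBd a r θ) : NormBd a r θ := by
  intro ι _ _ J f hJ hf
  classical
  by_cases hr : J.card ≤ Fintype.card V
  · -- a labelling of the cards
    obtain ⟨emb⟩ : Nonempty ({i // i ∈ J} ↪ V) :=
      Function.Embedding.nonempty_of_card_le (by simpa using hr)
    obtain ⟨v₀⟩ := ‹Nonempty V›
    let e : ι → V := fun i => if hi : i ∈ J then emb ⟨i, hi⟩ else v₀
    have he : Set.InjOn e (J : Set ι) := by
      intro i hi i' hi' hh
      have hi₁ : i ∈ J := Finset.mem_coe.mp hi
      have hi₂ : i' ∈ J := Finset.mem_coe.mp hi'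
      simp only [e, dif_pos hi₁, dif_pos hi₂] at hh
      exact congrArg Subtype.val (emb.injective hh)
    obtain ⟨c₁, c₂, h1, h2, hc⟩ := exists_nsq_lift e he
    have hH : HGe r (liftP e f) := by
      intro I hI u hu
      apply pure_orth I u hu _ (J.image e) _ le_rfl (liftP_PureG e he hf)
      rw [Finset.card_image_of_injOn he, hJ]
      exact hI
    have h3 := h _ hH
    rw [← liftP_opT e a ha] at h3
    have h4 := hc _ (IsW_opT hf.toIsW a)
    have h5 := hc _ hf.toIsW
    have hc₁ : c₂ * nsq (opT a f) ≤ c₂ * (θ ^ 2 * nsq f) := by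
      calc c₂ * nsq (opT a f) = c₁ * nsqG (liftP e (opT a f)) := h4.symm
        _ ≤ c₁ * (θ ^ 2 * nsqG (liftP e f)) := mul_le_mul_of_nonneg_left h3 h1.le
        _ = θ ^ 2 * (c₁ * nsqG (liftP e f)) := by ring
        _ = θ ^ 2 * (c₂ * nsq f) := by rw [h5]
        _ = c₂ * (θ ^ 2 * nsq f) := by ring
    exact le_of_mul_le_mul_left hc₁ h2
  · -- no injective tuples: `f = 0`
    have hzero : ∀ x : ι → V, f x = 0 := by
      intro x
      apply hf.supp
      intro hinj
      apply hr
      have := Finset.card_le_card_of_injOn (s := J) (t := univ) x (fun _ _ => Finset.mem_coe.mpr (mem_univ _)) hinj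
      simpa using this
    have h0 : opT a f = fun _ => 0 := by
      funext y
      simp [opT, hzero]
    rw [h0]
    simp only [nsq]
    simp [hzero]

theorem HGe.mono {P : Type*} [Fintype P] [DecidableEq P] {b b' : ℕ} {f : Perm P → ℝ} (h : b' ≤ b)
    (hf : HGe b f) : HGe b' f :=
  fun I hI u hu => hf I (lt_of_lt_of_le hI h) u hu

theorem GapBd.mono {P : Type*} [Fintype P] [DecidableEq P] {a : RG (Perm P)} {b b' : ℕ} {θ : ℝ}
    (h : b ≤ b') (hg : GapBd a b θ) : GapBd a b' θ :=
  fun f hf => hg f (hf.mono h)

/-- An eigenvector in `HGe b` gives a bound on its eigenvalue. -/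
theorem eig_sq_le {a : RG (Perm V)} (ha : rev a = a) {b : ℕ} {θ : ℝ}
    (h : ∀ r, b ≤ r → NormBd a r θ) {F₀ : Perm V → ℝ} {l : ℝ} (hne : F₀ ≠ 0) (hb : HGe b F₀)
    (he : act a F₀ = fun u => l * F₀ u) : l ^ 2 ≤ θ ^ 2 := by
  classical
  -- the level of `F₀`
  have htop : ∃ r, ¬ HGe r F₀ := by
    refine ⟨(univ : Finset V).card + 1, fun hh => hne ?_⟩
    have h0 := hh univ (Nat.lt_succ_self _) F₀ (fun x y hxy => by
      have : x = y := Equiv.ext (fun c => hxy c (mem_univ _))
      rw [this])
    have h1 : ∀ x, F₀ x * F₀ x = 0 := by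
      have := (Finset.sum_eq_zero_iff_of_nonneg (fun x _ => mul_self_nonneg (F₀ x))).mp h0
      exact fun x => this x (mem_univ _)
    funext x
    simpa using h1 x
  set r₀ := Nat.find htop with hr₀
  have hr₀spec : ¬ HGe r₀ F₀ := Nat.find_spec htop
  have hr₀pos : r₀ ≠ 0 := by
    intro h0
    rw [h0] at hr₀spec
    exact hr₀spec (fun I hI => absurd hI (Nat.not_lt_zero _))
  obtain ⟨r, hr⟩ : ∃ r, r₀ = r + 1 := Nat.exists_eq_succ_of_ne_zero hr₀pos
  have hHr : HGe r F₀ := by
    have := Nat.find_min htop (m := r) (by omega)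
    exact not_not.mp this
  have hbr : b ≤ r := by
    by_contra hlt
    exact hr₀spec (hb.mono (by omega))
  rw [hr] at hr₀spec
  obtain ⟨I, hI, u, hu, hne2⟩ : ∃ I : Finset V, I.card < r + 1 ∧ ∃ u : Perm V → ℝ, DepOn I u ∧
      ∑ x, F₀ x * u x ≠ 0 := by
    by_contra hh
    push Not at hh
    exact hr₀spec (fun I hI u hu => hh I hI u hu)
  have hIr : I.card = r := by
    by_contra hh
    exact hne2 (hHr I (by omega) u hu)
  -- the pure function on `I`
  let f : (V → V) → ℝ := fun y => ∑ x : Perm V, if ∀ c ∈ I, x c = y c then F₀ x else 0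
  have hfp : IsPure I f := by
    refine { meas := ?_, supp := ?_, pure := ?_ }
    · intro y y' hyy
      simp only [f]
      apply Finset.sum_congr rfl
      intro x _
      have : (∀ c ∈ I, x c = y c) ↔ (∀ c ∈ I, x c = y' c) :=
        forall₂_congr (fun c hc => by rw [hyy c hc])
      simp only [this]
    · intro y hy
      simp only [f]
      apply Finset.sum_eq_zero
      intro x _
      rw [if_neg]
      intro hx
      apply hy
      intro c hc c' hc' hh
      have h1 := hx c (Finset.mem_coe.mp hc)
      have h2 := hx c' (Finset.mem_coe.mp hc')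
      exact x.injective (by rw [h1, h2, hh])
    · intro a₀ ha₀ y
      simp only [f]
      rw [Finset.sum_comm]
      have hcond : ∀ (x : Perm V) (v : V), (∀ c ∈ I, x c = Function.update y a₀ v c) ↔
          (x a₀ = v ∧ ∀ c ∈ I.erase a₀, x c = y c) := by
        intro x v
        constructor
        · intro hh
          refine ⟨by simpa using hh a₀ ha₀, ?_⟩
          intro c hc
          have hc1 := Finset.mem_erase.mp hc
          have := hh c hc1.2
          rwa [Function.update_of_ne hc1.1] at this
        · rintro ⟨h1, h2⟩ c hc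
          by_cases hca : c = a₀
          · subst hca
            simpa using h1
          · rw [Function.update_of_ne hca]
            exact h2 c (Finset.mem_erase.mpr ⟨hca, hc⟩)
      have h1 : ∀ x : Perm V, (∑ v, if ∀ c ∈ I, x c = Function.update y a₀ v c then F₀ x else 0)
          = F₀ x * (if ∀ c ∈ I.erase a₀, x c = y c then 1 else 0) := by
        intro x
        simp only [hcond]
        rw [Finset.sum_eq_single (x a₀)]
        · simp
        · intro v _ hv
          rw [if_neg]
          rintro ⟨h3, _⟩
          exact hv h3.symm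
        · simp
      simp only [h1]
      apply hHr (I.erase a₀)
      · rw [Finset.card_erase_of_mem ha₀]
        have : 0 < I.card := Finset.card_pos.mpr ⟨a₀, ha₀⟩
        omega
      · intro x x' hxx
        have : (∀ c ∈ I.erase a₀, x c = y c) ↔ (∀ c ∈ I.erase a₀, x' c = y c) :=
          forall₂_congr (fun c hc => by rw [hxx c hc])
        simp only [this]
  -- the eigen-equation
  have hact : ∀ x : Perm V, ∑ g, cf a g * F₀ (g * x) = l * F₀ x := by
    intro x
    have := congrFun he x
    simp only [act] at this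
    rw [← this, ← Equiv.sum_comp (Equiv.inv (Perm V))]
    apply Finset.sum_congr rfl
    intro g _
    have h1 : cf a g = cf a g⁻¹ := by
      conv_lhs => rw [← ha]
      rw [cf_rev]
    simp only [Equiv.inv_apply, inv_inv]
    rw [h1]
  have hop : opT a f = fun y => l * f y := by
    funext y
    simp only [opT, f]
    have h1 : ∀ g : Perm V, (∑ x : Perm V, if ∀ c ∈ I, x c = g (y c) then F₀ x else 0)
        = ∑ x : Perm V, if ∀ c ∈ I, x c = y c then F₀ (g * x) else 0 := by
      intro g
      rw [← Equiv.sum_comp (Equiv.mulLeft g)]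
      apply Finset.sum_congr rfl
      intro x _
      have : (∀ c ∈ I, (g * x) c = g (y c)) ↔ (∀ c ∈ I, x c = y c) := by
        apply forall₂_congr
        intro c hc
        simp only [Equiv.Perm.coe_mul, Function.comp_apply]
        exact g.injective.eq_iff
      simp only [Equiv.coe_mulLeft, this]
    simp only [h1, Finset.mul_sum]
    rw [Finset.sum_comm]
    apply Finset.sum_congr rfl
    intro x _
    by_cases hx : ∀ c ∈ I, x c = y c
    · simp only [if_pos hx]
      exact hact x
    · simp [if_neg hx]
  -- `f ≠ 0`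
  have hcount : ∀ x' : Perm V, (∑ x : Perm V, if ∀ c ∈ I, x' c = x c then (1 : ℝ) else 0)
      = ∑ s : Perm V, if ∀ c ∈ I, c = s c then (1 : ℝ) else 0 := by
    intro x'
    rw [← Equiv.sum_comp (Equiv.mulLeft x')]
    apply Finset.sum_congr rfl
    intro s _
    have : (∀ c ∈ I, x' c = (Equiv.mulLeft x' s) c) ↔ (∀ c ∈ I, c = s c) := by
      apply forall₂_congr
      intro c hc
      simp only [Equiv.coe_mulLeft, Equiv.Perm.coe_mul, Function.comp_apply]
      exact x'.injective.eq_iff
    simp only [this]
  set N : ℝ := ∑ s : Perm V, if ∀ c ∈ I, c = s c then (1 : ℝ) else 0 with hN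
  have hNpos : 0 < N := by
    apply Finset.sum_pos'
    · intro s _
      split_ifs <;> norm_num
    · exact ⟨1, mem_univ _, by simp⟩
  have hsum : ∑ x : Perm V, u x * f x = N * ∑ x, F₀ x * u x := by
    simp only [f, Finset.mul_sum]
    rw [Finset.sum_comm]
    apply Finset.sum_congr rfl
    intro x' _
    rw [← hcount x', Finset.sum_mul]
    apply Finset.sum_congr rfl
    intro x _
    by_cases hx : ∀ c ∈ I, x' c = x c
    · rw [if_pos hx, if_pos hx]
      have : u x = u x' := hu x x' (fun c hc => (hx c hc).symm)
      rw [this]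
      ring
    · rw [if_neg hx, if_neg hx]
      ring
  have hfne : ∃ y, f y ≠ 0 := by
    by_contra hh
    push Not at hh
    have : ∑ x : Perm V, u x * f x = 0 := Finset.sum_eq_zero (fun x _ => by rw [hh, mul_zero])
    rw [hsum] at this
    exact hne2 ((mul_eq_zero.mp this).resolve_left hNpos.ne')
  obtain ⟨y₀, hy₀⟩ := hfne
  have hnsq : 0 < nsq f := by
    apply Finset.sum_pos'
    · intro y _
      exact sq_nonneg _
    · exact ⟨y₀, mem_univ _, by positivity⟩
  have hmain := h r hbr V I f hIr hfp
  rw [hop] at hmain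
  have e1 : nsq (fun y => l * f y) = l ^ 2 * nsq f := by
    simp only [nsq, mul_pow, Finset.mul_sum]
  rw [e1] at hmain
  exact le_of_mul_le_mul_right hmain hnsq

/-- **Link 2**: norm bounds on all pure levels `≥ b` give the bound on the high-level space. -/
theorem GapBd_of_NormBd {a : RG (Perm V)} (ha : rev a = a) {b : ℕ} {θ : ℝ}
    (h : ∀ r, b ≤ r → NormBd a r θ) : GapBd a b θ := by
  classical
  let E := EuclideanSpace ℝ (Perm V)
  let S : Submodule ℝ E :=
    { carrier := {F | HGe b (WithLp.ofLp F : Perm V → ℝ)}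
      add_mem' := by
        intro F F' hF hF' I hI u hu
        have h1 := hF I hI u hu
        have h2 := hF' I hI u hu
        change ∑ x, (WithLp.ofLp F x + WithLp.ofLp F' x) * u x = 0
        simp only [add_mul, Finset.sum_add_distrib, h1, h2, add_zero]
      zero_mem' := by
        intro I hI u hu
        change ∑ x, (0 : ℝ) * u x = 0
        simp
      smul_mem' := by
        intro c F hF I hI u hu
        have h1 := hF I hI u hu
        change ∑ x, (c * WithLp.ofLp F x) * u x = 0
        simp only [mul_assoc, ← Finset.mul_sum, h1, mul_zero] }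
  let T : E →ₗ[ℝ] E := Matrix.toEuclideanLin (Reg a)
  have hsymm : T.IsSymmetric := by
    apply Matrix.isSymmetric_toEuclideanLin_iff.mpr
    rw [Matrix.IsHermitian, Matrix.conjTranspose_eq_transpose_of_trivial, ← Reg_rev, ha]
  have hcoe : ∀ F : E, WithLp.ofLp (T F) = act a (WithLp.ofLp F) := by
    intro F
    rw [act_eq_mulVec]
    exact Matrix.ofLp_toLpLin 2 2 _ _
  have hinv : ∀ F ∈ S, T F ∈ S := by
    intro F hF
    show HGe b _
    rw [hcoe]
    exact HGe.act hF a
  let T' := T.restrict hinv
  have hT' : T'.IsSymmetric := hsymm.restrict_invariant hinv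
  let B := hT'.eigenvectorBasis rfl
  have hB : ∀ i, (hT'.eigenvalues rfl i) ^ 2 ≤ θ ^ 2 := by
    intro i
    have h1 := hT'.apply_eigenvectorBasis rfl i
    have h2 : T ((B i : S) : E) = ((hT'.eigenvalues rfl i : ℝ) • ((B i : S) : E)) := by
      have := congrArg (Subtype.val) h1
      simpa [T', LinearMap.restrict_apply] using this
    apply eig_sq_le ha h (F₀ := WithLp.ofLp ((B i : S) : E)) _ (B i : S).2
    · rw [← hcoe, h2]
      rfl
    · intro h0
      have h3 : ((B i : S) : E) = 0 := by
        apply (WithLp.ofLp_injective 2)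
        exact h0
      have h4 : ‖B i‖ = 1 := B.orthonormal.1 i
      have h5 : ‖(B i : S)‖ = ‖((B i : S) : E)‖ := rfl
      rw [h3, norm_zero] at h5
      rw [h4] at h5
      norm_num at h5
  intro f hf
  let F : S := ⟨WithLp.toLp 2 f, hf⟩
  have h1 : ‖T' F‖ ^ 2 ≤ θ ^ 2 * ‖F‖ ^ 2 := by
    rw [← B.sum_sq_norm_inner_right (T' F), ← B.sum_sq_norm_inner_right F, Finset.mul_sum]
    apply Finset.sum_le_sum
    intro i _
    have h2 : inner ℝ (B i) (T' F) = (hT'.eigenvalues rfl i) * inner ℝ (B i) F := by
      rw [← hT' (B i) F, hT'.apply_eigenvectorBasis rfl i]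
      simp only [inner_smul_left, RCLike.conj_to_real]
      rfl
    rw [h2, Real.norm_eq_abs, Real.norm_eq_abs, sq_abs, sq_abs, mul_pow]
    exact mul_le_mul_of_nonneg_right (hB i) (sq_nonneg _)
  have h2 : ‖T' F‖ ^ 2 = nsqG (act a f) := by
    have e1 : ‖T' F‖ = ‖T (WithLp.toLp 2 f)‖ := rfl
    rw [e1, EuclideanSpace.norm_sq_eq]
    simp only [nsqG, Real.norm_eq_abs, sq_abs]
    apply Finset.sum_congr rfl
    intro x _
    have := congrFun (hcoe (WithLp.toLp 2 f)) x
    exact congrArg (· ^ 2) this
  have h3 : ‖F‖ ^ 2 = nsqG f := by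
    have e1 : ‖F‖ = ‖(WithLp.toLp 2 f : E)‖ := rfl
    rw [e1, EuclideanSpace.norm_sq_eq]
    simp only [nsqG, Real.norm_eq_abs, sq_abs]
  rw [h2, h3] at h1
  exact h1

end links

section tower

theorem rev_bA (k : ℕ) : rev (bA k) = bA k := by
  rw [bA_eq, rev_mul, rev_rev]

instance instNonemptyPos (k : ℕ) : Nonempty (Pos k) := by
  apply Fintype.card_pos_iff.mp
  rw [card_Pos]
  positivity

theorem GapBd_bA_iter {k b : ℕ} {θ : ℝ} (h : GapBd (bA k) b θ) (j : ℕ) :
    GapBd (bA (k + j)) (b + (2 ^ (k + j) - 2 ^ k)) (θ ^ (2 ^ j)) := by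
  induction j with
  | zero => simpa using h
  | succ j ih =>
    have h1 := GapBd_bA_succ ih
    have e1 : θ ^ (2 ^ (j + 1)) = (θ ^ (2 ^ j)) ^ 2 := by
      rw [← pow_mul, pow_succ]
    have e2 : b + (2 ^ (k + (j + 1)) - 2 ^ k) = b + (2 ^ (k + j) - 2 ^ k) + 2 ^ (k + j) := by
      have h2 : 2 ^ k ≤ 2 ^ (k + j) := Nat.pow_le_pow_right (by norm_num) (by omega)
      have h3 : 2 ^ (k + (j + 1)) = 2 * 2 ^ (k + j) := by
        rw [← add_assoc, pow_succ]; ring
      omega
    rw [e1, e2]
    exact h1

/-- **High levels from low scales**: if every pure level `≥ b` of the tower at depth `k` has norm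
at most `θ`, then every pure level `r ≥ b + 2 ^ (k + j) - 2 ^ k` at depth `k + j` has norm at most
`θ ^ (2 ^ j)`. -/
theorem NormBd_high {k b : ℕ} {θ : ℝ} (hb : ∀ r, b ≤ r → NormBd (bA k) r θ) (j r : ℕ)
    (hr : b + (2 ^ (k + j) - 2 ^ k) ≤ r) : NormBd (bA (k + j)) r (θ ^ (2 ^ j)) :=
  NormBd_of_GapBd (rev_bA _) ((GapBd_bA_iter (GapBd_of_NormBd (rev_bA k) hb) j).mono hr)

end tower

end Crest.Agent.Lib.Thorp
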