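import Mathlib
import Crest.Agent.Lib.Thorp.Tup
import Crest.Agent.Lib.Thorp.NegCorr

set_option autoImplicit false
set_option linter.unusedSectionVars false
set_option linter.unusedSimpArgs false
set_option linter.unusedVariables false

/-!
# Level one of the Benes law is killed (S0222)

After one pass every card is exactly uniform, hence `T f = 0` for every pure function of one card.
-/

namespace Crest.Agent.Lib.Thorp

open Finset Equiv

/-- `T` kills level one -/
theorem opT_eq_zero_of_unifPt {V : Type*} [Fintype V] [DecidableEq V] {a : RG (Perm V)}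
    (ha : UnifPt a) {ι : Type*} [Fintype ι] [DecidableEq ι] {J : Finset ι} (hJ : J.card = 1)
    {f : (ι → V) → ℝ} (hf : IsPure J f) : opT a f = fun _ => 0 := by
  obtain ⟨c, rfl⟩ := Finset.card_eq_one.mp hJ
  funext y
  simp only [opT]
  have h1 : ∀ g : Perm V, f (fun i => g (y i)) = f (Function.update y c (g (y c))) := by
    intro g
    apply hf.meas
    intro i hi
    rw [Finset.mem_singleton.mp hi]
    simp
  simp only [h1]
  have h2 : ∀ g : Perm V, cf a g * f (Function.update y c (g (y c)))
      = ∑ v, f (Function.update y c v) * (cf a g * if g (y c) = v then (1 : ℝ) else 0) := by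
    intro g
    rw [Finset.sum_eq_single (g (y c))]
    · simp [mul_comm]
    · intro v _ hv
      rw [if_neg (Ne.symm hv)]
      simp
    · simp
  simp only [h2]
  rw [Finset.sum_comm]
  have h3 : ∀ v, ∑ g, f (Function.update y c v) * (cf a g * if g (y c) = v then (1 : ℝ) else 0)
      = f (Function.update y c v) * (Fintype.card V : ℝ)⁻¹ := by
    intro v
    rw [← Finset.mul_sum, ← ha (y c) v]
    rfl
  simp only [h3]
  rw [← Finset.sum_mul, hf.pure c (Finset.mem_singleton_self c) y, zero_mul]

/-- level one of the Benes law is killed -/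
theorem NormBd_bA_one (k : ℕ) : NormBd (bA k) 1 0 := by
  intro ι _ _ J f hJ hf
  rw [opT_eq_zero_of_unifPt (unifPt_bA k) hJ hf]
  simp [nsq]

end Crest.Agent.Lib.Thorp
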