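import Mathlib
import Crest.Agent.Lib.Thorp.LevelFinal

set_option autoImplicit false
set_option linter.unusedSectionVars false
set_option linter.unusedVariables false

/-!
# The overlap (rank) lemma for pure functions (S0222)

`g : (R → V) → ℝ` pure on injective `R`-tuples. For injective `φ ψ : R → C`, the lifts
`x ↦ g (x ∘ φ)`, `x ↦ g (x ∘ ψ)` on injective `C`-tuples have a small overlap:
`|Σ_{x inj} g(x∘φ) g(x∘ψ)| ≤ i! (n-r-i)_{t-r-i} ‖g‖²`, where `i = #(ran ψ \ ran φ)`.
-/

namespace Crest.Agent.Lib.Thorp.Rank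

open Finset

section Fubini

variable {R C V : Type*} [Fintype R] [DecidableEq R] [Fintype C] [DecidableEq C]
  [Fintype V] [DecidableEq V]

/-- Fubini for one coordinate -/
theorem sum_sum_update (F : (C → V) → ℝ) (b : C) :
    ∑ x, ∑ w, F (Function.update x b w) = (Fintype.card V : ℝ) * ∑ x, F x := by
  classical
  let e := Equiv.funSplitAt b V
  have h1 : ∀ (x : C → V) (w : V), Function.update x b w = e.symm (w, (e x).2) := by
    intro x w
    funext j
    by_cases hj : j = b
    · subst hj
      simp [e, Equiv.funSplitAt, Equiv.piSplitAt]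
    · simp [e, Equiv.funSplitAt, Equiv.piSplitAt, hj]
  have h2 : ∑ x, ∑ w, F (Function.update x b w)
      = ∑ p : V × ({j // j ≠ b} → V), ∑ w, F (e.symm (w, p.2)) := by
    rw [← Equiv.sum_comp e]
    apply Fintype.sum_congr
    intro x
    apply Fintype.sum_congr
    intro w
    rw [h1]
  rw [h2, Fintype.sum_prod_type]
  simp only [Finset.sum_const, Finset.card_univ, nsmul_eq_mul]
  have h3 : ∑ x : C → V, F x = ∑ x' : {j // j ≠ b} → V, ∑ w, F (e.symm (w, x')) := by
    rw [← Equiv.sum_comp e.symm, Fintype.sum_prod_type, Finset.sum_comm]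
  rw [h3, Finset.mul_sum]

/-- pulling back along an injective map of coordinates -/
theorem sum_comp_inj (φ : R → C) (hφ : Function.Injective φ) (F : (R → V) → ℝ) :
    ∑ x : C → V, F (x ∘ φ)
      = (Fintype.card V : ℝ) ^ (Fintype.card C - Fintype.card R) * ∑ u, F u := by
  classical
  let P : C → Prop := fun c => c ∈ Set.range φ
  let e := Equiv.piEquivPiSubtypeProd P (fun _ => V)
  let e2 : {c // P c} ≃ R := (Equiv.ofInjective φ hφ).symm
  have h1 : ∑ x : C → V, F (x ∘ φ)
      = ∑ p : ({c // P c} → V) × ({c // ¬ P c} → V), F (fun ρ => p.1 (e2.symm ρ)) := by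
    rw [← Equiv.sum_comp e]
    apply Fintype.sum_congr
    intro x
    congr 1
  rw [h1, Fintype.sum_prod_type]
  simp only [Finset.sum_const, Finset.card_univ, nsmul_eq_mul]
  rw [← Finset.mul_sum]
  have h2 : ∑ p1 : {c // P c} → V, F (fun ρ => p1 (e2.symm ρ)) = ∑ u, F u :=
    Equiv.sum_comp (Equiv.arrowCongr e2 (Equiv.refl V)) F
  rw [h2]
  congr 1
  have h3 : Fintype.card {c // ¬ P c} = Fintype.card C - Fintype.card R := by
    rw [Fintype.card_subtype_compl]
    congr 1
    exact (Fintype.card_congr e2)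
  rw [Fintype.card_fun, h3]
  simp

end Fubini

section Overlap

variable {R C V : Type*} [Fintype R] [DecidableEq R] [Fintype C] [DecidableEq C]
  [Fintype V] [DecidableEq V]

/-- pure functions on injective `R`-tuples -/
structure PureG (g : (R → V) → ℝ) : Prop where
  supp : ∀ u : R → V, ¬ Function.Injective u → g u = 0
  pure : ∀ (ρ : R) (u : R → V), ∑ v, g (Function.update u ρ v) = 0

/-- range as a finset -/
def ran (φ : R → C) : Finset C := univ.image φ

omit [DecidableEq R] [Fintype V] [DecidableEq V] in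
theorem card_ran {φ : R → C} (hφ : Function.Injective φ) : (ran φ).card = Fintype.card R := by
  unfold ran
  rw [Finset.card_image_of_injective _ hφ, Finset.card_univ]

omit [Fintype V] [DecidableEq V] in
theorem ran_update {ψ : R → C} (hψ : Function.Injective ψ) (ρ : R) (c : C) :
    ran (Function.update ψ ρ c) = insert c ((ran ψ).erase (ψ ρ)) := by
  ext y
  simp only [ran, Finset.mem_image, Finset.mem_univ, true_and, Finset.mem_insert, Finset.mem_erase]
  constructor
  · rintro ⟨ρ', rfl⟩
    by_cases h : ρ' = ρ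
    · subst h; left; simp
    · right
      rw [Function.update_of_ne h]
      exact ⟨fun h' => h (hψ h'), ρ', rfl⟩
  · rintro (rfl | ⟨h1, ρ', rfl⟩)
    · exact ⟨ρ, by simp⟩
    · refine ⟨ρ', ?_⟩
      have : ρ' ≠ ρ := fun h => h1 (by rw [h])
      rw [Function.update_of_ne this]

omit [Fintype V] [DecidableEq V] in
theorem update_injective {ψ : R → C} (hψ : Function.Injective ψ) (ρ : R) {c : C}
    (hc : c ∉ ran ψ) : Function.Injective (Function.update ψ ρ c) := by
  intro a b hab
  by_cases ha : a = ρ <;> by_cases hb : b = ρ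
  · rw [ha, hb]
  · subst ha
    rw [Function.update_self, Function.update_of_ne hb] at hab
    exact absurd (hab ▸ Finset.mem_image_of_mem ψ (Finset.mem_univ b)) hc
  · subst hb
    rw [Function.update_self, Function.update_of_ne ha] at hab
    exact absurd (hab.symm ▸ Finset.mem_image_of_mem ψ (Finset.mem_univ a)) hc
  · rw [Function.update_of_ne ha, Function.update_of_ne hb] at hab
    exact hψ hab

/-- the overlap with injectivity only on the support coordinates -/
noncomputable def OO (g : (R → V) → ℝ) (φ ψ : R → C) : ℝ :=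
  ∑ x : C → V, if Set.InjOn x (↑(ran φ ∪ ran ψ) : Set C) then g (x ∘ φ) * g (x ∘ ψ) else 0

theorem OO_step {g : (R → V) → ℝ} (hg : PureG g) (φ ψ : R → C) (hψ : Function.Injective ψ) (ρ : R)
    (hb : ψ ρ ∉ ran φ) :
    (Fintype.card V : ℝ) * OO g φ ψ
      = - ∑ c ∈ ran φ \ ran ψ, OO g φ (Function.update ψ ρ c) := by
  classical
  set b := ψ ρ with hbdef
  have hbψ : b ∈ ran ψ := Finset.mem_image_of_mem ψ (Finset.mem_univ ρ)
  set D' := (ran φ ∪ ran ψ).erase b with hD'
  have hbD' : b ∉ D' := by simp [hD']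
  have hDcoe : (↑(ran φ ∪ ran ψ) : Set C) = insert b (↑D' : Set C) := by
    rw [hD', Finset.coe_erase, Set.insert_sdiff_singleton]
    ext y
    simp only [Finset.coe_union, Set.mem_insert_iff, Set.mem_union, Finset.mem_coe]
    constructor
    · intro h; exact Or.inr h
    · rintro (rfl | h)
      · exact Or.inr hbψ
      · exact h
  have hDc : ∀ c ∈ ran φ \ ran ψ, ran φ ∪ ran (Function.update ψ ρ c) = D' := by
    intro c hc
    rw [Finset.mem_sdiff] at hc
    rw [ran_update hψ, hD']
    ext y
    simp only [Finset.mem_union, Finset.mem_insert, Finset.mem_erase]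
    constructor
    · rintro (h | rfl | ⟨h1, h2⟩)
      · exact ⟨fun h' => hb (h' ▸ h), Or.inl h⟩
      · exact ⟨fun h' => hb (h' ▸ hc.1), Or.inl hc.1⟩
      · exact ⟨h1, Or.inr h2⟩
    · rintro ⟨h1, h2 | h2⟩
      · exact Or.inl h2
      · exact Or.inr (Or.inr ⟨h1, h2⟩)
  unfold OO
  rw [← sum_sum_update _ b]
  rw [Finset.sum_comm (s := ran φ \ ran ψ) (t := univ), ← Finset.sum_neg_distrib]
  apply Fintype.sum_congr
  intro x
  -- fix `x`
  have hcomp1 : ∀ w, (Function.update x b w) ∘ φ = x ∘ φ := by
    intro w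
    funext r
    have : φ r ≠ b := fun h => hb (h ▸ Finset.mem_image_of_mem φ (Finset.mem_univ r))
    simp [Function.update_of_ne this]
  have hcomp2 : ∀ w, (Function.update x b w) ∘ ψ = Function.update (x ∘ ψ) ρ w := by
    intro w
    rw [hbdef]
    exact Function.update_comp_eq_of_injective _ hψ _ _
  have hIff : ∀ w, Set.InjOn (Function.update x b w) (↑(ran φ ∪ ran ψ) : Set C)
      ↔ Set.InjOn x (↑D' : Set C) ∧ w ∉ x '' (↑D' : Set C) := by
    intro w
    rw [hDcoe, Set.injOn_insert (by simpa using hbD')]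
    have hEq : Set.EqOn (Function.update x b w) x (↑D' : Set C) := by
      intro y hy
      have : y ≠ b := fun h => hbD' (h ▸ hy)
      simp [Function.update_of_ne this]
    rw [hEq.injOn_iff, hEq.image_eq, Function.update_self]
  by_cases hx : Set.InjOn x (↑D' : Set C)
  · -- injective case
    have hcond : ∀ w, (if Set.InjOn (Function.update x b w) (↑(ran φ ∪ ran ψ) : Set C)
          then g ((Function.update x b w) ∘ φ) * g ((Function.update x b w) ∘ ψ) else 0)
        = if w ∈ D'.image x then 0 else g (x ∘ φ) * g (Function.update (x ∘ ψ) ρ w) := by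
      intro w
      have hm : w ∈ D'.image x ↔ w ∈ x '' (↑D' : Set C) := by simp
      by_cases hw : w ∈ D'.image x
      · rw [if_pos hw, if_neg]
        rw [hIff]
        exact fun h => h.2 (hm.1 hw)
      · rw [if_neg hw, if_pos ((hIff w).2 ⟨hx, fun h => hw (hm.2 h)⟩), hcomp1, hcomp2]
    simp only [hcond]
    set h : V → ℝ := fun w => g (Function.update (x ∘ ψ) ρ w) with hh
    have hsum : ∑ w, h w = 0 := hg.pure ρ (x ∘ ψ)
    have hsplit : ∑ w, (if w ∈ D'.image x then 0 else g (x ∘ φ) * h w)
        = - (g (x ∘ φ) * ∑ w ∈ D'.image x, h w) := by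
      have h1 : ∀ w, (if w ∈ D'.image x then 0 else g (x ∘ φ) * h w)
          = g (x ∘ φ) * h w - (if w ∈ D'.image x then g (x ∘ φ) * h w else 0) := by
        intro w
        by_cases hw : w ∈ D'.image x <;> simp [hw]
      simp only [h1]
      rw [Finset.sum_sub_distrib, Finset.sum_ite_mem, Finset.univ_inter, ← Finset.mul_sum,
        ← Finset.mul_sum, hsum, mul_zero, zero_sub]
    rw [hsplit, Finset.sum_image (fun a ha b hb hab => hx (by simpa using ha) (by simpa using hb) hab)]
    -- split `D'`
    have hdecomp : D' = (ran φ \ ran ψ) ∪ ((ran ψ).erase b) := by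
      rw [hD']
      ext y
      simp only [Finset.mem_erase, Finset.mem_union, Finset.mem_sdiff]
      constructor
      · rintro ⟨h1, h2 | h2⟩
        · by_cases h3 : y ∈ ran ψ
          · exact Or.inr ⟨h1, h3⟩
          · exact Or.inl ⟨h2, h3⟩
        · exact Or.inr ⟨h1, h2⟩
      · rintro (⟨h1, h2⟩ | ⟨h1, h2⟩)
        · exact ⟨fun h' => hb (h' ▸ h1), Or.inl h1⟩
        · exact ⟨h1, Or.inr h2⟩
    have hdisj : Disjoint (ran φ \ ran ψ) ((ran ψ).erase b) := by
      rw [Finset.disjoint_left]
      intro y hy hy'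
      rw [Finset.mem_sdiff] at hy
      exact hy.2 (Finset.mem_of_mem_erase hy')
    rw [hdecomp, Finset.sum_union hdisj]
    have hzero : ∑ c ∈ (ran ψ).erase b, h (x c) = 0 := by
      apply Finset.sum_eq_zero
      intro c hc
      rw [Finset.mem_erase] at hc
      obtain ⟨hc1, hc2⟩ := hc
      obtain ⟨ρ', -, rfl⟩ := Finset.mem_image.1 hc2
      have hne : ρ' ≠ ρ := fun h' => hc1 (by rw [h'])
      apply hg.supp
      intro hinj
      apply hne
      apply hinj
      rw [Function.update_of_ne hne, Function.update_self]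
      rfl
    rw [hzero, add_zero, Finset.mul_sum]
    congr 1
    apply Finset.sum_congr rfl
    intro c hc
    rw [hDc c hc, if_pos hx]
    congr 2
    rw [hh]
    simp only
    rw [← Function.comp_update]
  · -- not injective on `D'`
    have h1 : ∀ w, (if Set.InjOn (Function.update x b w) (↑(ran φ ∪ ran ψ) : Set C)
          then g ((Function.update x b w) ∘ φ) * g ((Function.update x b w) ∘ ψ) else 0) = 0 := by
      intro w
      rw [if_neg]
      rw [hIff]
      exact fun h => hx h.1
    simp only [h1, Finset.sum_const_zero]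
    rw [eq_comm, neg_eq_zero]
    apply Finset.sum_eq_zero
    intro c hc
    rw [hDc c hc, if_neg hx]


theorem abs_OO_base (g : (R → V) → ℝ) {φ ψ : R → C} (hφ : Function.Injective φ)
    (hψ : Function.Injective ψ) :
    |OO g φ ψ| ≤ (Fintype.card V : ℝ) ^ (Fintype.card C - Fintype.card R) * ∑ u, g u ^ 2 := by
  classical
  unfold OO
  have h1 : ∀ x : C → V, |if Set.InjOn x (↑(ran φ ∪ ran ψ) : Set C) then
      g (x ∘ φ) * g (x ∘ ψ) else 0| ≤ (g (x ∘ φ) ^ 2 + g (x ∘ ψ) ^ 2) / 2 := by
    intro x
    split_ifs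
    · rw [abs_le]
      constructor <;> nlinarith [sq_nonneg (g (x ∘ φ) - g (x ∘ ψ)), sq_nonneg (g (x ∘ φ) + g (x ∘ ψ))]
    · simp only [abs_zero]
      positivity
  calc _ ≤ ∑ x : C → V, |if Set.InjOn x (↑(ran φ ∪ ran ψ) : Set C) then
        g (x ∘ φ) * g (x ∘ ψ) else 0| := Finset.abs_sum_le_sum_abs _ _
    _ ≤ ∑ x : C → V, (g (x ∘ φ) ^ 2 + g (x ∘ ψ) ^ 2) / 2 := Finset.sum_le_sum (fun x _ => h1 x)
    _ = _ := by
      rw [← Finset.sum_div, Finset.sum_add_distrib, sum_comp_inj φ hφ (fun u => g u ^ 2),
        sum_comp_inj ψ hψ (fun u => g u ^ 2)]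
      ring

theorem OO_bound {g : (R → V) → ℝ} (hg : PureG g) {φ : R → C} (hφ : Function.Injective φ) :
    ∀ (i : ℕ) (ψ : R → C), Function.Injective ψ → (ran ψ \ ran φ).card = i →
      |OO g φ ψ| * (Fintype.card V : ℝ) ^ i
        ≤ (i.factorial : ℝ) * ((Fintype.card V : ℝ) ^ (Fintype.card C - Fintype.card R)
            * ∑ u, g u ^ 2) := by
  classical
  intro i
  induction i with
  | zero =>
    intro ψ hψ _
    simpa using abs_OO_base g hφ hψ
  | succ i ih =>
    intro ψ hψ hcard
    obtain ⟨b, hb⟩ : (ran ψ \ ran φ).Nonempty := Finset.card_pos.1 (by omega)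
    rw [Finset.mem_sdiff] at hb
    obtain ⟨ρ, -, rfl⟩ := Finset.mem_image.1 hb.1
    have hstep := OO_step hg φ ψ hψ ρ hb.2
    have hcard' : (ran φ \ ran ψ).card = i + 1 := by
      rw [← hcard]
      exact Finset.card_sdiff_comm (by rw [card_ran hφ, card_ran hψ])
    have hterm : ∀ c ∈ ran φ \ ran ψ, |OO g φ (Function.update ψ ρ c)| * (Fintype.card V : ℝ) ^ i
        ≤ (i.factorial : ℝ) * ((Fintype.card V : ℝ) ^ (Fintype.card C - Fintype.card R)
            * ∑ u, g u ^ 2) := by
      intro c hc
      rw [Finset.mem_sdiff] at hc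
      apply ih _ (update_injective hψ ρ hc.2)
      have h1 : ran (Function.update ψ ρ c) \ ran φ = (ran ψ \ ran φ).erase (ψ ρ) := by
        rw [ran_update hψ]
        ext y
        simp only [Finset.mem_sdiff, Finset.mem_insert, Finset.mem_erase]
        constructor
        · rintro ⟨rfl | ⟨h1, h2⟩, h3⟩
          · exact absurd hc.1 h3
          · exact ⟨h1, h2, h3⟩
        · rintro ⟨h1, h2, h3⟩
          exact ⟨Or.inr ⟨h1, h2⟩, h3⟩
      rw [h1, Finset.card_erase_of_mem (Finset.mem_sdiff.2 hb), hcard]
      rfl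
    have hn : (0 : ℝ) ≤ (Fintype.card V : ℝ) := by positivity
    have h2 : (Fintype.card V : ℝ) * |OO g φ ψ|
        ≤ ∑ c ∈ ran φ \ ran ψ, |OO g φ (Function.update ψ ρ c)| := by
      calc _ = |(Fintype.card V : ℝ) * OO g φ ψ| := by rw [abs_mul, abs_of_nonneg hn]
        _ = |∑ c ∈ ran φ \ ran ψ, OO g φ (Function.update ψ ρ c)| := by rw [hstep, abs_neg]
        _ ≤ _ := Finset.abs_sum_le_sum_abs _ _
    calc |OO g φ ψ| * (Fintype.card V : ℝ) ^ (i + 1)
        = ((Fintype.card V : ℝ) * |OO g φ ψ|) * (Fintype.card V : ℝ) ^ i := by ring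
      _ ≤ (∑ c ∈ ran φ \ ran ψ, |OO g φ (Function.update ψ ρ c)|) * (Fintype.card V : ℝ) ^ i :=
          mul_le_mul_of_nonneg_right h2 (by positivity)
      _ = ∑ c ∈ ran φ \ ran ψ, |OO g φ (Function.update ψ ρ c)| * (Fintype.card V : ℝ) ^ i :=
          Finset.sum_mul _ _ _
      _ ≤ ∑ c ∈ ran φ \ ran ψ, (i.factorial : ℝ) * ((Fintype.card V : ℝ) ^ (Fintype.card C - Fintype.card R)
            * ∑ u, g u ^ 2) := Finset.sum_le_sum hterm
      _ = _ := by
          rw [Finset.sum_const, hcard', nsmul_eq_mul, Nat.factorial_succ]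
          push_cast
          ring

/-- Extending an assignment by one free coordinate -/
theorem injOn_update_insert (x : C → V) (D : Finset C) {c : C} (hc : c ∉ D) (w : V) :
    Set.InjOn (Function.update x c w) (↑(insert c D) : Set C)
      ↔ Set.InjOn x (↑D : Set C) ∧ w ∉ x '' (↑D : Set C) := by
  rw [Finset.coe_insert, Set.injOn_insert (by simpa using hc)]
  have hEq : Set.EqOn (Function.update x c w) x (↑D : Set C) := by
    intro y hy
    have : y ≠ c := fun h => hc (h ▸ hy)
    simp [Function.update_of_ne this]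
  rw [hEq.injOn_iff, hEq.image_eq, Function.update_self]

theorem sum_ins (Φ : (C → V) → ℝ) (D : Finset C) {c : C} (hc : c ∉ D)
    (hΦ : ∀ (x : C → V) (w : V), Φ (Function.update x c w) = Φ x) :
    (Fintype.card V : ℝ) * ∑ x : C → V, (if Set.InjOn x (↑(insert c D) : Set C) then Φ x else 0)
      = ((Fintype.card V - D.card : ℕ) : ℝ)
          * ∑ x : C → V, (if Set.InjOn x (↑D : Set C) then Φ x else 0) := by
  classical
  rw [← sum_sum_update _ c, Finset.mul_sum]
  apply Fintype.sum_congr
  intro x
  by_cases hx : Set.InjOn x (↑D : Set C)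
  · rw [if_pos hx]
    have hm : ∀ w, w ∈ D.image x ↔ w ∈ x '' (↑D : Set C) := by intro w; simp
    have h1 : ∀ w, (if Set.InjOn (Function.update x c w) (↑(insert c D) : Set C)
          then Φ (Function.update x c w) else 0) = if w ∈ (D.image x)ᶜ then Φ x else 0 := by
      intro w
      by_cases hw : w ∈ D.image x
      · rw [if_neg, if_neg (by simpa using hw)]
        rw [injOn_update_insert x D hc]
        exact fun h => h.2 ((hm w).1 hw)
      · rw [if_pos, if_pos (by simpa using hw), hΦ]
        rw [injOn_update_insert x D hc]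
        exact ⟨hx, fun h => hw ((hm w).2 h)⟩
    simp only [h1]
    rw [Finset.sum_ite_mem, Finset.univ_inter, Finset.sum_const, nsmul_eq_mul, Finset.card_compl,
      Finset.card_image_of_injOn hx]
  · rw [if_neg hx, mul_zero]
    apply Finset.sum_eq_zero
    intro w _
    rw [if_neg]
    rw [injOn_update_insert x D hc]
    exact fun h => hx h.1

theorem sum_free (Φ : (C → V) → ℝ) (D W : Finset C) (hdisj : Disjoint D W)
    (hΦ : ∀ c ∈ W, ∀ (x : C → V) (w : V), Φ (Function.update x c w) = Φ x) :
    (Fintype.card V : ℝ) ^ W.card * ∑ x : C → V, (if Set.InjOn x (↑(D ∪ W) : Set C) then Φ x else 0)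
      = ((Fintype.card V - D.card).descFactorial W.card : ℝ)
          * ∑ x : C → V, (if Set.InjOn x (↑D : Set C) then Φ x else 0) := by
  classical
  induction W using Finset.induction_on with
  | empty => simp
  | insert c W' hc ih =>
    have hdisj' : Disjoint D W' := by
      rw [Finset.disjoint_insert_right] at hdisj
      exact hdisj.2
    have hcD : c ∉ D := by
      rw [Finset.disjoint_insert_right] at hdisj
      exact hdisj.1
    have hih := ih hdisj' (fun c' hc' => hΦ c' (Finset.mem_insert_of_mem hc'))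
    have hstep := sum_ins Φ (D ∪ W') (c := c) (by simp [hc, hcD])
      (hΦ c (Finset.mem_insert_self _ _))
    rw [Finset.union_insert, Finset.card_insert_of_notMem hc, pow_succ, mul_assoc, hstep,
      Nat.descFactorial_succ, Finset.card_union_of_disjoint hdisj', Nat.sub_sub, Nat.cast_mul,
      mul_left_comm, hih]
    ring

/-- the overlap on injective `C`-tuples -/
noncomputable def Ip (g : (R → V) → ℝ) (φ ψ : R → C) : ℝ :=
  ∑ x : C → V, if Function.Injective x then g (x ∘ φ) * g (x ∘ ψ) else 0

theorem comp_update_not_mem (x : C → V) (φ : R → C) {c : C} (hc : c ∉ ran φ) (w : V) :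
    (Function.update x c w) ∘ φ = x ∘ φ := by
  funext r
  have : φ r ≠ c := fun h => hc (h ▸ Finset.mem_image_of_mem φ (Finset.mem_univ r))
  simp [Function.update_of_ne this]

theorem Ip_eq (g : (R → V) → ℝ) (φ ψ : R → C) :
    (Fintype.card V : ℝ) ^ (Fintype.card C - (ran φ ∪ ran ψ).card) * Ip g φ ψ
      = ((Fintype.card V - (ran φ ∪ ran ψ).card).descFactorial
          (Fintype.card C - (ran φ ∪ ran ψ).card) : ℝ) * OO g φ ψ := by
  classical
  have h := sum_free (fun x : C → V => g (x ∘ φ) * g (x ∘ ψ)) (ran φ ∪ ran ψ) (ran φ ∪ ran ψ)ᶜ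
    disjoint_compl_right (by
      intro c hc x w
      rw [Finset.mem_compl, Finset.mem_union, not_or] at hc
      rw [comp_update_not_mem x φ hc.1, comp_update_not_mem x ψ hc.2])
  rw [Finset.card_compl, Finset.union_compl] at h
  simp only [Finset.coe_univ, Set.injOn_univ] at h
  exact h

theorem Ip_bound {g : (R → V) → ℝ} (hg : PureG g) {φ ψ : R → C} (hφ : Function.Injective φ)
    (hψ : Function.Injective ψ) (hV : 0 < Fintype.card V) :
    |Ip g φ ψ| ≤ ((ran ψ \ ran φ).card.factorial : ℝ)
      * ((Fintype.card V - (Fintype.card R + (ran ψ \ ran φ).card)).descFactorial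
          (Fintype.card C - (Fintype.card R + (ran ψ \ ran φ).card)) : ℝ) * ∑ u, g u ^ 2 := by
  classical
  set i := (ran ψ \ ran φ).card with hi
  have hU : (ran φ ∪ ran ψ).card = Fintype.card R + i := by
    rw [Finset.union_comm, ← Finset.card_sdiff_add_card, card_ran hφ, add_comm]
  have ht : Fintype.card R + i ≤ Fintype.card C := by
    rw [← hU]
    exact Finset.card_le_univ _
  have h1 := Ip_eq g φ ψ
  rw [hU] at h1
  have h2 := OO_bound hg hφ i ψ hψ rfl
  have hn : (0 : ℝ) < (Fintype.card V : ℝ) := by exact_mod_cast hV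
  set P : ℝ := (Fintype.card V : ℝ) ^ (Fintype.card C - (Fintype.card R + i)) with hP
  set Q : ℝ := (Fintype.card V : ℝ) ^ i with hQ
  set D : ℝ := ((Fintype.card V - (Fintype.card R + i)).descFactorial
      (Fintype.card C - (Fintype.card R + i)) : ℝ) with hD
  have hP0 : 0 < P := by positivity
  have hQ0 : 0 < Q := by positivity
  have hD0 : 0 ≤ D := by positivity
  have hPQ : (Fintype.card V : ℝ) ^ (Fintype.card C - Fintype.card R) = P * Q := by
    rw [hP, hQ, ← pow_add]
    congr 1
    omega
  rw [hPQ] at h2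
  have h3 : P * |Ip g φ ψ| = D * |OO g φ ψ| := by
    rw [← abs_of_pos hP0, ← abs_mul, h1, abs_mul, abs_of_nonneg hD0]
  refine le_of_mul_le_mul_left ?_ (mul_pos hP0 hQ0)
  calc (P * Q) * |Ip g φ ψ| = Q * (P * |Ip g φ ψ|) := by ring
    _ = D * (|OO g φ ψ| * Q) := by rw [h3]; ring
    _ ≤ D * ((i.factorial : ℝ) * ((P * Q) * ∑ u, g u ^ 2)) := mul_le_mul_of_nonneg_left h2 hD0
    _ = _ := by ring

theorem sum_inj_comp (φ : R → C) (hφ : Function.Injective φ) (hV : 0 < Fintype.card V)
    (F : (R → V) → ℝ) (hF : ∀ u, ¬ Function.Injective u → F u = 0) :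
    ∑ x : C → V, (if Function.Injective x then F (x ∘ φ) else 0)
      = ((Fintype.card V - Fintype.card R).descFactorial (Fintype.card C - Fintype.card R) : ℝ)
          * ∑ u, F u := by
  classical
  have h := sum_free (fun x : C → V => F (x ∘ φ)) (ran φ) (ran φ)ᶜ disjoint_compl_right (by
      intro c hc x w
      rw [Finset.mem_compl] at hc
      rw [comp_update_not_mem x φ hc])
  rw [Finset.card_compl, Finset.union_compl, card_ran hφ] at h
  simp only [Finset.coe_univ, Set.injOn_univ] at h
  have h2 : ∀ x : C → V, (if Set.InjOn x (↑(ran φ) : Set C) then F (x ∘ φ) else 0) = F (x ∘ φ) := by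
    intro x
    by_cases hx : Set.InjOn x (↑(ran φ) : Set C)
    · rw [if_pos hx]
    · rw [if_neg hx, hF]
      intro hinj
      apply hx
      intro a ha b hb hab
      obtain ⟨ρ, -, rfl⟩ := Finset.mem_image.1 (Finset.mem_coe.1 ha)
      obtain ⟨ρ', -, rfl⟩ := Finset.mem_image.1 (Finset.mem_coe.1 hb)
      rw [hinj (a₁ := ρ) (a₂ := ρ') hab]
  simp only [h2] at h
  rw [sum_comp_inj φ hφ F] at h
  have hn : (0 : ℝ) < (Fintype.card V : ℝ) := by exact_mod_cast hV
  have hP0 : (0 : ℝ) < (Fintype.card V : ℝ) ^ (Fintype.card C - Fintype.card R) := by positivity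
  refine mul_left_cancel₀ hP0.ne' ?_
  rw [h]
  ring

end Overlap


section Gram

variable {V : Type*} [Fintype V] [DecidableEq V] {t r : ℕ}

/-- `r`-subsets of `Fin t` -/
abbrev Sub (t r : ℕ) := {A : Finset (Fin t) // A.card = r}

/-- enumeration of an `r`-subset -/
noncomputable def enumA (A : Sub t r) : Fin r → Fin t := A.1.orderEmbOfFin A.2

theorem enumA_inj (A : Sub t r) : Function.Injective (enumA A) :=
  (A.1.orderEmbOfFin A.2).injective

theorem ran_enumA (A : Sub t r) : ran (enumA A) = A.1 := by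
  unfold ran enumA
  exact Finset.image_orderEmbOfFin_univ A.1 A.2

theorem count_overlap (A : Sub t r) (i : ℕ) (hi : i ≤ r) :
    ((univ : Finset (Sub t r)).filter (fun A' => (A'.1 \ A.1).card = i)).card
      = r.choose i * (t - r).choose i := by
  classical
  have htarget : ((Finset.powersetCard (r - i) A.1) ×ˢ (Finset.powersetCard i A.1ᶜ)).card
      = r.choose i * (t - r).choose i := by
    rw [Finset.card_product, Finset.card_powersetCard, Finset.card_powersetCard, A.2,
      Finset.card_compl, A.2, Fintype.card_fin, Nat.choose_symm hi]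
  rw [← htarget]
  apply Finset.card_bij (fun (A' : Sub t r) _ => (A'.1 ∩ A.1, A'.1 \ A.1))
  · intro A' hA'
    rw [Finset.mem_filter] at hA'
    have h1 := Finset.card_inter_add_card_sdiff A'.1 A.1
    rw [A'.2, hA'.2] at h1
    simp only [Finset.mem_product, Finset.mem_powersetCard]
    refine ⟨⟨Finset.inter_subset_right, by omega⟩, ?_, hA'.2⟩
    intro x hx
    rw [Finset.mem_sdiff] at hx
    exact Finset.mem_compl.2 hx.2
  · intro A₁ _ A₂ _ h
    rw [Prod.mk.injEq] at h
    apply Subtype.ext
    have key : ∀ B : Finset (Fin t), (B ∩ A.1) ∪ (B \ A.1) = B := by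
      intro B
      ext x
      simp only [Finset.mem_union, Finset.mem_inter, Finset.mem_sdiff]
      tauto
    rw [← key A₁.1, ← key A₂.1, h.1, h.2]
  · rintro ⟨P, Q⟩ hPQ
    simp only [Finset.mem_product, Finset.mem_powersetCard] at hPQ
    obtain ⟨⟨hP, hPc⟩, hQ, hQc⟩ := hPQ
    have hdisj : Disjoint P Q := by
      rw [Finset.disjoint_left]
      intro x hx hx'
      exact (Finset.mem_compl.1 (hQ hx')) (hP hx)
    have hcard : (P ∪ Q).card = r := by
      rw [Finset.card_union_of_disjoint hdisj, hPc, hQc]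
      omega
    have h1 : (P ∪ Q) ∩ A.1 = P := by
      ext x
      simp only [Finset.mem_inter, Finset.mem_union]
      constructor
      · rintro ⟨h | h, h'⟩
        · exact h
        · exact absurd h' (Finset.mem_compl.1 (hQ h))
      · intro h
        exact ⟨Or.inl h, hP h⟩
    have h2 : (P ∪ Q) \ A.1 = Q := by
      ext x
      simp only [Finset.mem_sdiff, Finset.mem_union]
      constructor
      · rintro ⟨h | h, h'⟩
        · exact absurd (hP h) h'
        · exact h
      · intro h
        exact ⟨Or.inr h, Finset.mem_compl.1 (hQ h)⟩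
    refine ⟨⟨P ∪ Q, hcard⟩, ?_, ?_⟩
    · rw [Finset.mem_filter]
      refine ⟨Finset.mem_univ _, ?_⟩
      simp only
      rw [h2, hQc]
    · simp only
      rw [h1, h2]

/-- the combinatorial denominator -/
noncomputable def Den (n t r : ℕ) : ℝ :=
  ∑ i ∈ Finset.range (r + 1), ((r.choose i : ℝ) * ((t - r).choose i : ℝ)) / ((n - r).choose i : ℝ) ^ 2

/-- the identity between falling factorials -/
theorem desc_identity {n : ℕ} {i : ℕ} (hi : r + i ≤ t) (htn : t ≤ n) :
    (n - r).descFactorial (t - r)
      = i.factorial * (n - r).choose i * (n - (r + i)).descFactorial (t - (r + i)) := by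
  have h := Nat.descFactorial_mul_descFactorial (k := i) (m := t - r) (n := n - r) (by omega)
  rw [← h, Nat.descFactorial_eq_factorial_mul_choose (n - r) i]
  have e1 : n - r - i = n - (r + i) := by omega
  have e2 : t - r - i = t - (r + i) := by omega
  rw [e1, e2]
  ring

theorem gram_bound {g : (Fin r → V) → ℝ} (hg : PureG g) (hV : 0 < Fintype.card V)
    (htn : t ≤ Fintype.card V) (A : Sub t r) :
    ∑ A' : Sub t r, (Ip g (enumA A) (enumA A')) ^ 2
      ≤ ((Fintype.card V - r).descFactorial (t - r) : ℝ) ^ 2 * (∑ u, g u ^ 2) ^ 2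
          * Den (Fintype.card V) t r := by
  classical
  set n := Fintype.card V with hn
  set N := ∑ u, g u ^ 2 with hN
  set c₀ : ℝ := ((n - r).descFactorial (t - r) : ℝ) with hc₀
  have hN0 : 0 ≤ N := Finset.sum_nonneg (fun u _ => sq_nonneg _)
  -- the bound for one `A'`
  have hone : ∀ A' : Sub t r, (Ip g (enumA A) (enumA A')) ^ 2
      ≤ c₀ ^ 2 * N ^ 2 / ((n - r).choose (A'.1 \ A.1).card : ℝ) ^ 2 := by
    intro A'
    set i := (A'.1 \ A.1).card with hi
    have hb := Ip_bound hg (enumA_inj A) (enumA_inj A') hV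
    rw [ran_enumA, ran_enumA, ← hi, Fintype.card_fin, Fintype.card_fin, ← hn] at hb
    have hri : r + i ≤ t := by
      have h1 := Finset.card_sdiff_add_card A'.1 A.1
      have h2 : (A'.1 ∪ A.1).card ≤ t := by
        have := Finset.card_le_univ (A'.1 ∪ A.1)
        rwa [Fintype.card_fin] at this
      rw [A.2, ← hi] at h1
      omega
    have hid := desc_identity (n := n) (t := t) (r := r) (i := i) hri htn
    have hch : (0 : ℝ) < ((n - r).choose i : ℝ) := by
      have : 0 < (n - r).choose i := Nat.choose_pos (by omega)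
      exact_mod_cast this
    have hcast : c₀ = (i.factorial : ℝ) * ((n - r).choose i : ℝ)
        * ((n - (r + i)).descFactorial (t - (r + i)) : ℝ) := by
      rw [hc₀, hid]
      push_cast
      ring
    have hb2 : |Ip g (enumA A) (enumA A')| * ((n - r).choose i : ℝ) ≤ c₀ * N := by
      calc _ ≤ ((i.factorial : ℝ) * ((n - (r + i)).descFactorial (t - (r + i)) : ℝ) * N)
            * ((n - r).choose i : ℝ) := mul_le_mul_of_nonneg_right hb hch.le
        _ = _ := by rw [hcast]; ring
    rw [le_div_iff₀ (by positivity)]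
    calc _ = (|Ip g (enumA A) (enumA A')| * ((n - r).choose i : ℝ)) ^ 2 := by
          rw [mul_pow, sq_abs]
      _ ≤ (c₀ * N) ^ 2 := by
          apply pow_le_pow_left₀ (by positivity) hb2
      _ = _ := by ring
  have hmaps : ∀ A' ∈ (univ : Finset (Sub t r)), (A'.1 \ A.1).card ∈ Finset.range (r + 1) := by
    intro A' _
    rw [Finset.mem_range]
    have := Finset.card_le_card (Finset.sdiff_subset (s := A'.1) (t := A.1))
    rw [A'.2] at this
    omega
  rw [← Finset.sum_fiberwise_of_maps_to hmaps]
  unfold Den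
  rw [Finset.mul_sum]
  apply Finset.sum_le_sum
  intro i hi
  have hi' : i ≤ r := Nat.lt_succ_iff.mp (Finset.mem_range.mp hi)
  calc _ ≤ ∑ A' ∈ (univ : Finset (Sub t r)).filter (fun A' => (A'.1 \ A.1).card = i),
        c₀ ^ 2 * N ^ 2 / ((n - r).choose i : ℝ) ^ 2 := by
        apply Finset.sum_le_sum
        intro A' hA'
        rw [Finset.mem_filter] at hA'
        have := hone A'
        rwa [hA'.2] at this
    _ = _ := by
        rw [Finset.sum_const, count_overlap A i hi', nsmul_eq_mul]
        push_cast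
        ring

end Gram

section HS

open Equiv

variable {V : Type} [Fintype V] [DecidableEq V] {C : Type*} [Fintype C] [DecidableEq C]

theorem card_inj_fixed (π : Perm V) :
    ((univ : Finset (C → V)).filter
        (fun y => Function.Injective y ∧ ∀ i, π (y i) = y i)).card
      = (fixCount π).descFactorial (Fintype.card C) := by
  classical
  have hF : fixCount π = Fintype.card {v // π v = v} := by
    unfold fixCount
    rw [Fintype.card_subtype]
  rw [hF, ← Fintype.card_embedding_eq, ← Fintype.card_subtype]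
  apply Fintype.card_congr
  exact
    { toFun := fun y => ⟨fun i => ⟨y.1 i, y.2.2 i⟩, fun a b hab => y.2.1 (by simpa using hab)⟩
      invFun := fun e => ⟨fun i => (e i).1, fun a b hab => e.injective (Subtype.ext hab), fun i => (e i).2⟩
      left_inv := fun y => by ext; rfl
      right_inv := fun e => by ext; rfl }

/-- transition kernel on injective tuples -/
noncomputable def Pt (b : RG (Perm V)) (y z : C → V) : ℝ :=
  if Function.Injective y then ∑ h : Perm V, cf b h * (if (fun i => h (y i)) = z then 1 else 0) else 0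

theorem sum_sq_Pt (b : RG (Perm V)) (y : C → V) :
    ∑ z, (Pt b y z) ^ 2 = if Function.Injective y then
      ∑ h : Perm V, ∑ k : Perm V, cf b k * cf b h * (if (fun i => h (y i)) = (fun i => k (y i)) then 1 else 0)
      else 0 := by
  classical
  unfold Pt
  by_cases hy : Function.Injective y
  · simp only [if_pos hy]
    have h1 : ∀ z : C → V, (∑ h : Perm V, cf b h * (if (fun i => h (y i)) = z then (1:ℝ) else 0)) ^ 2
        = ∑ h : Perm V, ∑ k : Perm V, (cf b k * cf b h) *
            ((if (fun i => k (y i)) = z then (1:ℝ) else 0) * (if (fun i => h (y i)) = z then 1 else 0)) := by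
      intro z
      rw [sq, Finset.sum_mul_sum, Finset.sum_comm]
      apply Finset.sum_congr rfl
      intro h _
      apply Finset.sum_congr rfl
      intro k _
      ring
    simp only [h1]
    rw [Finset.sum_comm]
    apply Finset.sum_congr rfl
    intro h _
    rw [Finset.sum_comm]
    apply Finset.sum_congr rfl
    intro k _
    rw [← Finset.mul_sum]
    congr 1
    rw [Finset.sum_eq_single (fun i => h (y i))]
    · by_cases hkh : (fun i => h (y i)) = (fun i => k (y i))
      · rw [if_pos hkh, if_pos rfl, if_pos hkh.symm, one_mul]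
      · rw [if_neg hkh, if_neg (fun h' => hkh h'.symm), zero_mul]
    · intro z _ hz
      rw [if_neg (Ne.symm hz), mul_zero]
    · intro h'
      exact absurd (Finset.mem_univ _) h'
  · simp [hy]

theorem sum_Pt_eq_fixDesc (b : RG (Perm V)) :
    ∑ y : C → V, ∑ z, (Pt b y z) ^ 2 = fixDesc (rev b * b) (Fintype.card C) := by
  classical
  simp only [sum_sq_Pt]
  -- move the sums over `y` inside
  have h1 : ∀ y : C → V, (if Function.Injective y then
      ∑ h : Perm V, ∑ k : Perm V, cf b k * cf b h * (if (fun i => h (y i)) = (fun i => k (y i)) then (1:ℝ) else 0)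
      else 0) = ∑ h : Perm V, ∑ k : Perm V, cf b k * cf b h *
        (if Function.Injective y ∧ ∀ i, (k⁻¹ * h) (y i) = y i then 1 else 0) := by
    intro y
    by_cases hy : Function.Injective y
    · rw [if_pos hy]
      apply Finset.sum_congr rfl
      intro h _
      apply Finset.sum_congr rfl
      intro k _
      congr 1
      have : ((fun i => h (y i)) = (fun i => k (y i))) ↔ (Function.Injective y ∧ ∀ i, (k⁻¹ * h) (y i) = y i) := by
        constructor
        · intro hh
          refine ⟨hy, fun i => ?_⟩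
          have := congrFun hh i
          simp only [Perm.mul_apply]
          rw [Perm.inv_eq_iff_eq]
          exact this
        · rintro ⟨-, hh⟩
          funext i
          have := hh i
          simp only [Perm.mul_apply] at this
          rw [Perm.inv_eq_iff_eq] at this
          exact this
      simp only [this]
    · rw [if_neg hy]
      symm
      apply Finset.sum_eq_zero
      intro h _
      apply Finset.sum_eq_zero
      intro k _
      rw [if_neg (fun h' => hy h'.1), mul_zero]
  simp only [h1]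
  rw [Finset.sum_comm]
  have h2 : ∀ h : Perm V, ∑ y : C → V, ∑ k : Perm V, cf b k * cf b h *
        (if Function.Injective y ∧ ∀ i, (k⁻¹ * h) (y i) = y i then (1:ℝ) else 0)
      = ∑ k : Perm V, cf b k * cf b h * ((fixCount (k⁻¹ * h)).descFactorial (Fintype.card C) : ℝ) := by
    intro h
    rw [Finset.sum_comm]
    apply Finset.sum_congr rfl
    intro k _
    rw [← Finset.mul_sum]
    congr 1
    rw [← card_inj_fixed (C := C) (k⁻¹ * h), Finset.natCast_card_filter]
  simp only [h2]
  unfold fixDesc
  simp only [cf_mul, cf_rev, Finset.sum_mul]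
  set D : Perm V → ℝ := fun π => ((fixCount π).descFactorial (Fintype.card C) : ℝ) with hD
  calc ∑ h : Perm V, ∑ k : Perm V, cf b k * cf b h * D (k⁻¹ * h)
      = ∑ k : Perm V, ∑ h : Perm V, cf b k * cf b h * D (k⁻¹ * h) := Finset.sum_comm
    _ = ∑ k : Perm V, ∑ π : Perm V, cf b k * cf b (k * π) * D π := by
        apply Finset.sum_congr rfl
        intro k _
        rw [← Equiv.sum_comp (Equiv.mulLeft k)]
        apply Finset.sum_congr rfl
        intro π _
        simp
    _ = ∑ k : Perm V, ∑ π : Perm V, cf b k⁻¹ * cf b (k⁻¹ * π) * D π :=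
        (Equiv.sum_comp (Equiv.inv (Perm V)) (fun k => ∑ π : Perm V, cf b k * cf b (k * π) * D π)).symm
    _ = _ := Finset.sum_comm

/-- **The Hilbert--Schmidt bound** -/
theorem hs_bound {Ξ : Type*} [Fintype Ξ] (b : RG (Perm V)) (F : Ξ → (C → V) → ℝ)
    (hF : ∀ A y, ¬ Function.Injective y → F A y = 0) :
    (∑ A, ip (F A) (opT b (F A))) ^ 2
      ≤ fixDesc (rev b * b) (Fintype.card C) * ∑ A, ∑ A', (ip (F A) (F A')) ^ 2 := by
  classical
  set B : (C → V) → (C → V) → ℝ := fun y z => ∑ A, F A y * F A z with hB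
  -- the main identity
  have h1 : ∑ A, ip (F A) (opT b (F A)) = ∑ y : C → V, ∑ z : C → V, Pt b y z * B y z := by
    have h2 : ∀ y : C → V, ∑ z : C → V, Pt b y z * B y z = ∑ A, F A y * opT b (F A) y := by
      intro y
      by_cases hy : Function.Injective y
      · unfold Pt
        simp only [if_pos hy]
        have h3 : ∀ z : C → V, (∑ h : Perm V, cf b h * (if (fun i => h (y i)) = z then (1:ℝ) else 0)) * B y z
            = ∑ h : Perm V, cf b h * (if (fun i => h (y i)) = z then B y z else 0) := by
          intro z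
          rw [Finset.sum_mul]
          apply Finset.sum_congr rfl
          intro h _
          by_cases hz : (fun i => h (y i)) = z <;> simp [hz]
        simp only [h3]
        rw [Finset.sum_comm]
        have h4 : ∀ h : Perm V, ∑ z : C → V, cf b h * (if (fun i => h (y i)) = z then B y z else 0)
            = cf b h * B y (fun i => h (y i)) := by
          intro h
          rw [← Finset.mul_sum, Finset.sum_ite_eq]
          simp
        simp only [h4]
        simp only [hB]
        unfold opT
        simp only [Finset.mul_sum]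
        rw [Finset.sum_comm]
        apply Finset.sum_congr rfl
        intro A _
        apply Finset.sum_congr rfl
        intro h _
        ring
      · unfold Pt
        simp [if_neg hy, hF _ y hy]
    simp only [h2]
    unfold ip
    rw [Finset.sum_comm]
  -- Cauchy--Schwarz
  have hCS : (∑ p : (C → V) × (C → V), Pt b p.1 p.2 * B p.1 p.2) ^ 2
      ≤ (∑ p : (C → V) × (C → V), (Pt b p.1 p.2) ^ 2) * ∑ p : (C → V) × (C → V), (B p.1 p.2) ^ 2 :=
    Finset.sum_mul_sq_le_sq_mul_sq _ _ _
  rw [Fintype.sum_prod_type, Fintype.sum_prod_type, Fintype.sum_prod_type] at hCS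
  rw [h1]
  refine hCS.trans (le_of_eq ?_)
  simp only
  rw [sum_Pt_eq_fixDesc]
  congr 1
  -- Frobenius norm of `B`
  have h5 : ∀ y z : C → V, (B y z) ^ 2 = ∑ A, ∑ A', (F A y * F A' y) * (F A z * F A' z) := by
    intro y z
    rw [hB, sq]
    simp only
    rw [Finset.sum_mul_sum]
    apply Finset.sum_congr rfl
    intro A _
    apply Finset.sum_congr rfl
    intro A' _
    ring
  have h6 : ∀ A A' : Ξ, (ip (F A) (F A')) ^ 2
      = ∑ y : C → V, ∑ z : C → V, (F A y * F A' y) * (F A z * F A' z) := by
    intro A A'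
    unfold ip
    rw [sq, Finset.sum_mul_sum]
  simp only [h5, h6]
  calc ∑ y : C → V, ∑ z : C → V, ∑ A, ∑ A', (F A y * F A' y) * (F A z * F A' z)
      = ∑ y : C → V, ∑ A, ∑ z : C → V, ∑ A', (F A y * F A' y) * (F A z * F A' z) := by
        apply Finset.sum_congr rfl
        intro y _
        exact Finset.sum_comm
    _ = ∑ A, ∑ y : C → V, ∑ z : C → V, ∑ A', (F A y * F A' y) * (F A z * F A' z) := Finset.sum_comm
    _ = ∑ A, ∑ y : C → V, ∑ A', ∑ z : C → V, (F A y * F A' y) * (F A z * F A' z) := by
        apply Finset.sum_congr rfl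
        intro A _
        apply Finset.sum_congr rfl
        intro y _
        exact Finset.sum_comm
    _ = _ := by
        apply Finset.sum_congr rfl
        intro A _
        exact Finset.sum_comm

theorem fixDesc_nonneg_rev_mul (b : RG (Perm V)) (t : ℕ) : 0 ≤ fixDesc (rev b * b) t := by
  have := sum_Pt_eq_fixDesc (C := Fin t) b
  rw [Fintype.card_fin] at this
  rw [← this]
  exact Finset.sum_nonneg (fun _ _ => Finset.sum_nonneg (fun _ _ => sq_nonneg _))

end HS

section Final

open Equiv

variable {V : Type} [Fintype V] [DecidableEq V] {t r : ℕ}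

/-- lift of a function of `r`-tuples to a function on injective `t`-tuples -/
noncomputable def lft (u : (Fin r → V) → ℝ) (A : Sub t r) : (Fin t → V) → ℝ :=
  fun y => if Function.Injective y then u (y ∘ enumA A) else 0

theorem opT_lft (b : RG (Perm V)) (u : (Fin r → V) → ℝ) (A : Sub t r) :
    opT b (lft u A) = lft (opT b u) A := by
  funext y
  unfold opT lft
  by_cases hy : Function.Injective y
  · rw [if_pos hy]
    apply Fintype.sum_congr
    intro h
    have hinj : Function.Injective (fun i => h (y i)) := h.injective.comp hy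
    rw [if_pos hinj]
    rfl
  · rw [if_neg hy]
    apply Finset.sum_eq_zero
    intro h _
    rw [if_neg, mul_zero]
    intro hinj
    apply hy
    intro a b hab
    apply hinj
    simp [hab]

theorem rank_bound {g : (Fin r → V) → ℝ} (hg : PureG g) (hV : 0 < Fintype.card V)
    (hrt : r ≤ t) (htn : t ≤ Fintype.card V) (b : RG (Perm V)) :
    (t.choose r : ℝ) * (ip g (opT b g)) ^ 2
      ≤ fixDesc (rev b * b) t * (nsq g) ^ 2 * Den (Fintype.card V) t r := by
  classical
  set n := Fintype.card V with hn
  set c₀ : ℝ := ((n - r).descFactorial (t - r) : ℝ) with hc₀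
  have hc₀pos : 0 < c₀ := by
    have : 0 < (n - r).descFactorial (t - r) := Nat.descFactorial_pos.2 (by omega)
    rw [hc₀]
    exact_mod_cast this
  have hcard : Fintype.card (Sub t r) = t.choose r := by
    rw [Fintype.card_finset_len, Fintype.card_fin]
  have hchoose : (0 : ℝ) < (t.choose r : ℝ) := by
    have : 0 < t.choose r := Nat.choose_pos hrt
    exact_mod_cast this
  have hs := hs_bound (C := Fin t) b (fun A : Sub t r => lft g A) (by
    intro A y hy
    show (if Function.Injective y then _ else _) = _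
    rw [if_neg hy])
  rw [Fintype.card_fin] at hs
  -- the diagonal
  have hdiag : ∀ A : Sub t r, ip (lft g A) (opT b (lft g A)) = c₀ * ip g (opT b g) := by
    intro A
    rw [opT_lft]
    unfold ip
    have := sum_inj_comp (C := Fin t) (V := V) (enumA A) (enumA_inj A) hV (fun u => g u * opT b g u)
      (fun u hu => by rw [hg.supp u hu, zero_mul])
    rw [Fintype.card_fin, Fintype.card_fin] at this
    rw [← this]
    apply Fintype.sum_congr
    intro y
    unfold lft
    by_cases hy : Function.Injective y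
    · simp only [if_pos hy]
    · simp only [if_neg hy, zero_mul]
  have hoff : ∀ A A' : Sub t r, ip (lft g A) (lft g A') = Ip g (enumA A) (enumA A') := by
    intro A A'
    unfold ip Ip lft
    apply Fintype.sum_congr
    intro y
    by_cases hy : Function.Injective y
    · simp only [if_pos hy]
    · simp only [if_neg hy, zero_mul]
  simp only [hdiag, hoff] at hs
  rw [Finset.sum_const, Finset.card_univ, hcard, nsmul_eq_mul] at hs
  have hgr : ∑ A : Sub t r, ∑ A' : Sub t r, (Ip g (enumA A) (enumA A')) ^ 2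
      ≤ (t.choose r : ℝ) * (c₀ ^ 2 * (nsq g) ^ 2 * Den n t r) := by
    calc _ ≤ ∑ A : Sub t r, c₀ ^ 2 * (nsq g) ^ 2 * Den n t r :=
          Finset.sum_le_sum (fun A _ => gram_bound hg hV htn A)
      _ = _ := by rw [Finset.sum_const, Finset.card_univ, hcard, nsmul_eq_mul]
  have hfix := fixDesc_nonneg_rev_mul b t
  have hmain : ((t.choose r : ℝ) * (c₀ * ip g (opT b g))) ^ 2
      ≤ fixDesc (rev b * b) t * ((t.choose r : ℝ) * (c₀ ^ 2 * (nsq g) ^ 2 * Den n t r)) :=
    hs.trans (mul_le_mul_of_nonneg_left hgr hfix)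
  have hpos : 0 < (t.choose r : ℝ) * c₀ ^ 2 := by positivity
  refine le_of_mul_le_mul_left ?_ hpos
  calc _ = ((t.choose r : ℝ) * (c₀ * ip g (opT b g))) ^ 2 := by ring
    _ ≤ _ := hmain
    _ = _ := by ring

/-- the composition rule -/
theorem opT_opT {ι : Type*} [Fintype ι] [DecidableEq ι] (x y : RG (Perm V)) (f : (ι → V) → ℝ) :
    opT x (opT y f) = opT (y * x) f := by
  funext w
  unfold opT
  simp only [cf_mul, Finset.sum_mul, Finset.mul_sum]
  calc ∑ g : Perm V, ∑ h : Perm V, cf x g * (cf y h * f (fun i => h (g (w i))))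
      = ∑ h : Perm V, ∑ g : Perm V, cf y h * cf x g * f (fun i => (h * g) (w i)) := by
        rw [Finset.sum_comm]
        apply Finset.sum_congr rfl
        intro h _
        apply Finset.sum_congr rfl
        intro g _
        simp only [Perm.mul_apply]
        ring
    _ = ∑ h : Perm V, ∑ k : Perm V, cf y h * cf x (h⁻¹ * k) * f (fun i => k (w i)) := by
        apply Finset.sum_congr rfl
        intro h _
        rw [← Equiv.sum_comp (Equiv.mulLeft h) (fun k => cf y h * cf x (h⁻¹ * k) * f (fun i => k (w i)))]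
        apply Finset.sum_congr rfl
        intro g _
        simp
    _ = _ := Finset.sum_comm

/-- the adjoint -/
theorem ip_opT {ι : Type*} [Fintype ι] [DecidableEq ι] (a : RG (Perm V)) (f h : (ι → V) → ℝ) :
    ip (opT a f) h = ip f (opT (rev a) h) := by
  unfold ip opT
  simp only [Finset.sum_mul, Finset.mul_sum]
  rw [Finset.sum_comm]
  calc ∑ g : Perm V, ∑ y : ι → V, cf a g * f (fun i => g (y i)) * h y
      = ∑ g : Perm V, ∑ z : ι → V, cf a g * f z * h (fun i => g⁻¹ (z i)) := by
        apply Finset.sum_congr rfl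
        intro g _
        rw [← Equiv.sum_comp (Equiv.arrowCongr (Equiv.refl ι) g)
          (fun z => cf a g * f z * h (fun i => g⁻¹ (z i)))]
        apply Finset.sum_congr rfl
        intro y _
        have : (fun i => g⁻¹ ((Equiv.arrowCongr (Equiv.refl ι) g) y i)) = y := by
          funext i
          simp [Equiv.arrowCongr]
        rw [this]
        rfl
    _ = ∑ k : Perm V, ∑ z : ι → V, cf a k⁻¹ * f z * h (fun i => k (z i)) := by
        rw [← Equiv.sum_comp (Equiv.inv (Perm V))
          (fun k => ∑ z : ι → V, cf a k⁻¹ * f z * h (fun i => k (z i)))]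
        apply Finset.sum_congr rfl
        intro g _
        apply Finset.sum_congr rfl
        intro z _
        simp
    _ = _ := by
        rw [Finset.sum_comm]
        apply Finset.sum_congr rfl
        intro z _
        apply Finset.sum_congr rfl
        intro k _
        rw [cf_rev]
        ring

theorem ip_sq_le {ι : Type*} [Fintype ι] [DecidableEq ι] (f h : (ι → V) → ℝ) :
    (ip f h) ^ 2 ≤ nsq f * nsq h :=
  Finset.sum_mul_sq_le_sq_mul_sq _ _ _

theorem rev_pow_of_rev {a : RG (Perm V)} (ha : rev a = a) (m : ℕ) : rev (a ^ m) = a ^ m := by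
  rw [rev_pow, ha]

theorem ip_succ {ι : Type*} [Fintype ι] [DecidableEq ι] {a : RG (Perm V)} (ha : rev a = a) (s : ℕ)
    (g : (ι → V) → ℝ) :
    ip g (opT (a ^ (2 ^ (s + 1))) g) = nsq (opT (a ^ (2 ^ s)) g) := by
  have h1 : a ^ (2 ^ (s + 1)) = a ^ (2 ^ s) * a ^ (2 ^ s) := by
    rw [← pow_add]
    congr 1
    ring
  rw [h1, ← opT_opT]
  have h2 := ip_opT (a ^ (2 ^ s)) g (opT (a ^ (2 ^ s)) g)
  rw [rev_pow_of_rev ha] at h2
  rw [← h2]
  unfold nsq ip
  apply Fintype.sum_congr
  intro x
  ring

theorem rayleigh {ι : Type*} [Fintype ι] [DecidableEq ι] {a : RG (Perm V)} (ha : rev a = a)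
    (g : (ι → V) → ℝ) (hN : 0 < nsq g) (s : ℕ) :
    (nsq (opT a g) / nsq g) ^ (2 ^ s) * nsq g ≤ ip g (opT (a ^ (2 ^ (s + 1))) g) := by
  have hν : 0 ≤ nsq (opT a g) / nsq g :=
    div_nonneg (Finset.sum_nonneg (fun _ _ => sq_nonneg _)) hN.le
  induction s with
  | zero =>
    rw [ip_succ ha]
    simp only [pow_zero, pow_one]
    field_simp
    exact le_refl _
  | succ s ih =>
    set ν := nsq (opT a g) / nsq g with hνdef
    have h0 : 0 ≤ ν ^ (2 ^ s) * nsq g := by positivity
    have h1 : (ν ^ (2 ^ s) * nsq g) ^ 2 ≤ (ip g (opT (a ^ (2 ^ (s + 1))) g)) ^ 2 :=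
      pow_le_pow_left₀ h0 ih 2
    have h2 := ip_sq_le g (opT (a ^ (2 ^ (s + 1))) g)
    have h3 := ip_succ ha (s + 1) g
    rw [← h3] at h2
    have h4 : (ν ^ (2 ^ s) * nsq g) ^ 2 = nsq g * (ν ^ (2 ^ (s + 1)) * nsq g) := by
      rw [pow_succ 2 s, pow_mul]
      ring
    rw [h4] at h1
    exact le_of_mul_le_mul_left (h1.trans h2) hN

theorem tuple_norm_le {a : RG (Perm V)} (ha : rev a = a) {g : (Fin r → V) → ℝ} (hg : PureG g)
    (hV : 0 < Fintype.card V) {s t : ℕ} (hrt : r ≤ t) (htn : t ≤ Fintype.card V) {θ : ℝ}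
    (hθ : 0 ≤ θ)
    (h : fixDesc (a ^ (2 ^ (s + 2))) t * Den (Fintype.card V) t r
      ≤ θ ^ (2 ^ (s + 2)) * (t.choose r : ℝ)) :
    nsq (opT a g) ≤ θ ^ 2 * nsq g := by
  classical
  have hN0 : 0 ≤ nsq g := Finset.sum_nonneg (fun _ _ => sq_nonneg _)
  have hT0 : 0 ≤ nsq (opT a g) := Finset.sum_nonneg (fun _ _ => sq_nonneg _)
  rcases hN0.eq_or_lt with hN | hN
  · -- `g = 0`
    have hg0 : ∀ u, g u = 0 := by
      intro u
      have := (Finset.sum_eq_zero_iff_of_nonneg (fun _ _ => sq_nonneg _)).1 hN.symm u (Finset.mem_univ u)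
      exact pow_eq_zero_iff (by norm_num) |>.1 this
    have hT : ∀ u, opT a g u = 0 := by
      intro u
      unfold opT
      simp [hg0]
    unfold nsq
    simp [hT, hg0]
  · set N := nsq g with hNdef
    set ν := nsq (opT a g) / N with hν
    have hν0 : 0 ≤ ν := div_nonneg hT0 hN.le
    set b := a ^ (2 ^ (s + 1)) with hb
    have hrevb : rev b = b := rev_pow_of_rev ha _
    have hbb : rev b * b = a ^ (2 ^ (s + 2)) := by
      rw [hrevb, hb, ← pow_add]
      congr 1
      ring
    have hrk := rank_bound hg hV hrt htn b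
    rw [hbb] at hrk
    have hray := rayleigh ha g hN s
    have h1 : (ν ^ (2 ^ s) * N) ^ 2 ≤ (ip g (opT b g)) ^ 2 :=
      pow_le_pow_left₀ (by positivity) hray 2
    have hchoose : (0 : ℝ) < (t.choose r : ℝ) := by
      have : 0 < t.choose r := Nat.choose_pos hrt
      exact_mod_cast this
    have h2 : ν ^ (2 ^ (s + 1)) * (t.choose r : ℝ) * N ^ 2
        ≤ fixDesc (a ^ (2 ^ (s + 2))) t * Den (Fintype.card V) t r * N ^ 2 := by
      calc _ = (t.choose r : ℝ) * (ν ^ (2 ^ s) * N) ^ 2 := by
            rw [pow_succ 2 s, pow_mul]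
            ring
        _ ≤ (t.choose r : ℝ) * (ip g (opT b g)) ^ 2 :=
            mul_le_mul_of_nonneg_left h1 hchoose.le
        _ ≤ _ := hrk.trans (le_of_eq (by ring))
    have h3 : ν ^ (2 ^ (s + 1)) * (t.choose r : ℝ)
        ≤ fixDesc (a ^ (2 ^ (s + 2))) t * Den (Fintype.card V) t r :=
      le_of_mul_le_mul_right h2 (by positivity)
    have h4 : ν ^ (2 ^ (s + 1)) ≤ (θ ^ 2) ^ (2 ^ (s + 1)) := by
      have h5 : (θ ^ 2) ^ (2 ^ (s + 1)) = θ ^ (2 ^ (s + 2)) := by
        rw [← pow_mul]
        congr 1
        ring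
      rw [h5]
      exact le_of_mul_le_mul_right (h3.trans h) hchoose
    have h5 : ν ≤ θ ^ 2 :=
      (pow_le_pow_iff_left₀ hν0 (by positivity) (by positivity)).1 h4
    calc nsq (opT a g) = ν * N := by
          rw [hν]
          field_simp
      _ ≤ θ ^ 2 * N := mul_le_mul_of_nonneg_right h5 hN.le

/-- **The overlap (multiplicity) bound for the level norm.** If `a` is symmetric then
`‖T_a‖` on pure functions of `r` cards is controlled by the trace on `t`-tuples. -/
theorem normBd_of_fixDesc [Nonempty V] {a : RG (Perm V)} (ha : rev a = a) {s t : ℕ}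
    (hrt : r ≤ t) (htn : t ≤ Fintype.card V) {θ : ℝ} (hθ : 0 ≤ θ)
    (h : fixDesc (a ^ (2 ^ (s + 2))) t * Den (Fintype.card V) t r
      ≤ θ ^ (2 ^ (s + 2)) * (t.choose r : ℝ)) :
    NormBd a r θ := by
  classical
  intro ι _ _ J f hJ hf
  have hV : 0 < Fintype.card V := Fintype.card_pos
  let e := J.equivFinOfCardEq hJ
  let j : Fin r → ι := fun i => (e.symm i : ι)
  have hjJ : ∀ i, j i ∈ J := fun i => (e.symm i).2
  have hj : Function.Injective j := fun a b hab => e.symm.injective (Subtype.ext hab)
  let v₀ : V := Classical.arbitrary V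
  let ex : (Fin r → V) → (ι → V) := fun u c => if hc : c ∈ J then u (e ⟨c, hc⟩) else v₀
  have hex : ∀ (u : Fin r → V) (i : Fin r), ex u (j i) = u i := by
    intro u i
    show (if hc : j i ∈ J then u (e ⟨j i, hc⟩) else v₀) = u i
    rw [dif_pos (hjJ i)]
    congr 1
    show e ⟨(e.symm i : ι), _⟩ = i
    simp
  have hex2 : ∀ (x : ι → V) (c : ι), c ∈ J → ex (x ∘ j) c = x c := by
    intro x c hc
    show (if hc : c ∈ J then (x ∘ j) (e ⟨c, hc⟩) else v₀) = x c
    rw [dif_pos hc]
    show x ((e.symm (e ⟨c, hc⟩) : ι)) = x c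
    simp
  let g : (Fin r → V) → ℝ := fun u => f (ex u)
  have hfg : ∀ x, f x = g (x ∘ j) := by
    intro x
    show f x = f (ex (x ∘ j))
    apply hf.meas
    intro c hc
    exact (hex2 x c hc).symm
  have hg : PureG g := by
    constructor
    · intro u hu
      apply hf.supp
      intro hinj
      apply hu
      intro p q hpq
      have h1 : ex u (j p) = ex u (j q) := by rw [hex, hex, hpq]
      exact hj (hinj (hjJ p) (hjJ q) h1)
    · intro ρ u
      have h1 := hf.pure (j ρ) (hjJ ρ) (ex u)
      rw [← h1]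
      apply Fintype.sum_congr
      intro v
      show f _ = f _
      apply hf.meas
      intro c hc
      obtain ⟨i, rfl⟩ : ∃ i, j i = c := ⟨e ⟨c, hc⟩, by
        show ((e.symm (e ⟨c, hc⟩) : ι)) = c
        simp⟩
      rw [hex]
      by_cases hi : i = ρ
      · subst hi
        simp
      · rw [Function.update_of_ne hi, Function.update_of_ne (fun h' => hi (hj h')), hex]
  have hmain := tuple_norm_le ha hg hV hrt htn hθ h
  have h1 : nsq f = (Fintype.card V : ℝ) ^ (Fintype.card ι - Fintype.card (Fin r)) * nsq g := by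
    unfold nsq
    rw [← sum_comp_inj j hj (fun u => g u ^ 2)]
    apply Fintype.sum_congr
    intro x
    rw [hfg]
  have h2 : ∀ y, opT a f y = opT a g (y ∘ j) := by
    intro y
    unfold opT
    apply Fintype.sum_congr
    intro σ
    rw [hfg]
    rfl
  have h3 : nsq (opT a f)
      = (Fintype.card V : ℝ) ^ (Fintype.card ι - Fintype.card (Fin r)) * nsq (opT a g) := by
    unfold nsq
    rw [← sum_comp_inj j hj (fun u => opT a g u ^ 2)]
    apply Fintype.sum_congr
    intro x
    rw [h2]
  rw [h1, h3]
  calc _ ≤ (Fintype.card V : ℝ) ^ (Fintype.card ι - Fintype.card (Fin r)) * (θ ^ 2 * nsq g) :=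
        mul_le_mul_of_nonneg_left hmain (by positivity)
    _ = _ := by ring

/-- `Den ≤ r + 1` below the middle. -/
theorem Den_le_of_two_mul_le {n t r : ℕ} (h2 : 2 * r ≤ n) (htn : t ≤ n) :
    Den n t r ≤ (r : ℝ) + 1 := by
  unfold Den
  have h1 : ∀ i ∈ Finset.range (r + 1),
      ((r.choose i : ℝ) * ((t - r).choose i : ℝ)) / ((n - r).choose i : ℝ) ^ 2 ≤ 1 := by
    intro i hi
    have hi' : i ≤ r := Nat.lt_succ_iff.mp (Finset.mem_range.mp hi)
    have hpos : (0 : ℝ) < ((n - r).choose i : ℝ) := by
      have : 0 < (n - r).choose i := Nat.choose_pos (by omega)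
      exact_mod_cast this
    rw [div_le_one (by positivity), sq]
    apply mul_le_mul
    · exact_mod_cast Nat.choose_le_choose i (by omega : r ≤ n - r)
    · exact_mod_cast Nat.choose_le_choose i (by omega : t - r ≤ n - r)
    · positivity
    · positivity
  calc _ ≤ ∑ _i ∈ Finset.range (r + 1), (1 : ℝ) := Finset.sum_le_sum h1
    _ = _ := by simp

/-- `Den ≤ (r + 1) C(r, n-r)` above the middle. -/
theorem Den_le_of_le_two_mul {n t r : ℕ} (h2 : n ≤ 2 * r) (hrn : r ≤ n) (htn : t ≤ n) :
    Den n t r ≤ ((r : ℝ) + 1) * (r.choose (n - r) : ℝ) := by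
  unfold Den
  have h1 : ∀ i ∈ Finset.range (r + 1),
      ((r.choose i : ℝ) * ((t - r).choose i : ℝ)) / ((n - r).choose i : ℝ) ^ 2
        ≤ (r.choose (n - r) : ℝ) := by
    intro i hi
    by_cases hin : i ≤ n - r
    · have hpos : (0 : ℝ) < ((n - r).choose i : ℝ) := by
        have : 0 < (n - r).choose i := Nat.choose_pos hin
        exact_mod_cast this
      have hmul : r.choose i ≤ r.choose (n - r) * (n - r).choose i := by
        rw [Nat.choose_mul hin]
        apply Nat.le_mul_of_pos_right
        exact Nat.choose_pos (by omega)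
      have hmul' : (r.choose i : ℝ) ≤ (r.choose (n - r) : ℝ) * ((n - r).choose i : ℝ) := by
        exact_mod_cast hmul
      have h3 : ((t - r).choose i : ℝ) ≤ ((n - r).choose i : ℝ) := by
        exact_mod_cast Nat.choose_le_choose i (by omega : t - r ≤ n - r)
      rw [div_le_iff₀ (by positivity)]
      calc _ ≤ ((r.choose (n - r) : ℝ) * ((n - r).choose i : ℝ)) * ((n - r).choose i : ℝ) :=
            mul_le_mul hmul' h3 (by positivity) (by positivity)
        _ = _ := by ring
    · have h0 : (t - r).choose i = 0 := Nat.choose_eq_zero_of_lt (by omega)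
      rw [h0]
      simp
  calc _ ≤ ∑ _i ∈ Finset.range (r + 1), (r.choose (n - r) : ℝ) := Finset.sum_le_sum h1
    _ = _ := by simp

end Final

end Crest.Agent.Lib.Thorp.Rank
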