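import Mathlib
import Crest.Agent.Lib.Thorp.TopLevel
import Crest.Agent.Lib.Thorp.Rank
import Crest.Agent.Lib.Thorp.HighLink
import Crest.Agent.Lib.Thorp.LevelOne
import Crest.Agent.Lib.Thorp.FinalSum

set_option autoImplicit false

/-!
# S0222 from the uniform gap and the sharp warm start

`sig k r` is the best constant in `NormBd (bA k) r`. The multiplicity bound, the halving and level
one give the abstract input `Hyp` of the final numerics, so S0222 reduces to: the uniform gap and the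
two bounds on `fixDesc (bA k ^ 128)`.
-/

namespace Crest.Agent.Lib.Thorp.FinalGlue

open Crest.Agent.Lib.Thorp Crest.Agent.Lib.Thorp.FinalSum

theorem isLaw_bA' : ∀ k, IsLaw (bA k)
  | 0 => by simpa [bA] using (isLaw_one : IsLaw (1 : RG (Equiv.Perm (Pos 0))))
  | d + 1 => isLaw_bA d

/-- the best constant -/
noncomputable def sig (k r : ℕ) : ℝ := sInf {θ : ℝ | 0 ≤ θ ∧ NormBd (bA k) r θ}

/-- the trace -/
noncomputable def trq (k t : ℕ) : ℝ := fixDesc ((bA k) ^ 128) t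

theorem NormBd.mono' {V : Type} [Fintype V] [DecidableEq V] {a : RG (Equiv.Perm V)} {r : ℕ} {θ θ' : ℝ}
    (h0 : 0 ≤ θ) (h : θ ≤ θ') (hb : NormBd a r θ) : NormBd a r θ' := by
  intro ι _ _ J f hJ hf
  have h1 := hb ι J f hJ hf
  have h2 : θ ^ 2 ≤ θ' ^ 2 := pow_le_pow_left₀ h0 h 2
  have h3 : 0 ≤ nsq f := Finset.sum_nonneg (fun _ _ => sq_nonneg _)
  nlinarith

theorem sig_set_nonempty (hgap : ∀ k r, 1 ≤ r → NormBd (bA k) r (3 / 5)) (k r : ℕ) :
    ({θ : ℝ | 0 ≤ θ ∧ NormBd (bA k) r θ}).Nonempty := by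
  rcases Nat.eq_zero_or_pos r with h | h
  · subst h
    refine ⟨1, by norm_num, ?_⟩
    exact normBd_zero (isLaw_bA' k)
  · exact ⟨3 / 5, by norm_num, hgap k r h⟩

theorem sig_nonneg (k r : ℕ) : 0 ≤ sig k r :=
  Real.sInf_nonneg (fun _ h => h.1)

theorem sig_le {k r : ℕ} {θ : ℝ} (h0 : 0 ≤ θ) (h : NormBd (bA k) r θ) : sig k r ≤ θ :=
  csInf_le ⟨0, fun _ hx => hx.1⟩ ⟨h0, h⟩

theorem normBd_sig (hgap : ∀ k r, 1 ≤ r → NormBd (bA k) r (3 / 5)) (k r : ℕ) :
    NormBd (bA k) r (sig k r) := by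
  intro ι _ _ J f hJ hf
  have hne := sig_set_nonempty hgap k r
  have h3 : 0 ≤ nsq f := Finset.sum_nonneg (fun _ _ => sq_nonneg _)
  have h4 : 0 ≤ nsq (opT (bA k) f) := Finset.sum_nonneg (fun _ _ => sq_nonneg _)
  rcases h3.eq_or_lt with h0 | hpos
  · obtain ⟨θ, hθ⟩ := hne
    have := hθ.2 ι J f hJ hf
    rw [← h0] at this ⊢
    simpa using this
  · have hlb : Real.sqrt (nsq (opT (bA k) f) / nsq f) ≤ sig k r := by
      apply le_csInf hne
      rintro θ ⟨hθ0, hθ⟩
      apply Real.sqrt_le_iff.mpr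
      refine ⟨hθ0, ?_⟩
      rw [div_le_iff₀ hpos]
      exact hθ ι J f hJ hf
    have h5 : nsq (opT (bA k) f) / nsq f ≤ sig k r ^ 2 := by
      have := Real.sqrt_le_left (sig_nonneg k r) |>.mp hlb
      exact this
    rw [div_le_iff₀ hpos] at h5
    exact h5

theorem sig_one (hgap : ∀ k r, 1 ≤ r → NormBd (bA k) r (3 / 5)) (k : ℕ) : sig k 1 = 0 := by
  have := sig_le (le_refl (0 : ℝ)) (NormBd_bA_one k)
  exact le_antisymm this (sig_nonneg k 1)

theorem trq_nonneg (k t : ℕ) : 0 ≤ trq k t := by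
  unfold trq fixDesc
  apply Finset.sum_nonneg
  intro g _
  exact mul_nonneg (((isLaw_bA' k).pow 128).nonneg g) (by positivity)

theorem rev_bA128 (k : ℕ) : rev (bA k) = bA k := Crest.Agent.Lib.Thorp.rev_bA k

/-- the multiplicity bound, in terms of `sig` -/
theorem sig_pow_mul_choose_le (k r t : ℕ) (hr : r ≤ t) (ht : t ≤ 2 ^ k) :
    sig k r ^ 128 * (t.choose r : ℝ) ≤ trq k t * Rank.Den (2 ^ k) t r := by
  have hC : (0 : ℝ) < (t.choose r : ℝ) := by
    exact_mod_cast Nat.choose_pos hr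
  have hDen : 0 ≤ Rank.Den (2 ^ k) t r := by
    unfold Rank.Den
    apply Finset.sum_nonneg
    intro i _
    positivity
  set v : ℝ := trq k t * Rank.Den (2 ^ k) t r / (t.choose r : ℝ) with hv
  have hv0 : 0 ≤ v := div_nonneg (mul_nonneg (trq_nonneg k t) hDen) hC.le
  set θ : ℝ := v ^ ((128 : ℕ) : ℝ)⁻¹ with hθ
  have hθ0 : 0 ≤ θ := Real.rpow_nonneg hv0 _
  have hθ128 : θ ^ 128 = v := by
    rw [hθ]
    exact Real.rpow_inv_natCast_pow hv0 (by norm_num)
  have hcard : Fintype.card (Pos k) = 2 ^ k := card_Pos k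
  have hN : NormBd (bA k) r θ := by
    apply Rank.normBd_of_fixDesc (s := 5) (t := t) (rev_bA128 k) hr (by rw [hcard]; exact ht) hθ0
    rw [hcard]
    have e : (2 : ℕ) ^ (5 + 2) = 128 := by norm_num
    rw [e, hθ128, hv]
    unfold trq
    rw [div_mul_cancel₀ _ hC.ne']
  have h1 : sig k r ^ 128 ≤ θ ^ 128 := pow_le_pow_left₀ (sig_nonneg k r) (sig_le hθ0 hN) _
  rw [hθ128] at h1
  calc sig k r ^ 128 * (t.choose r : ℝ) ≤ v * (t.choose r : ℝ) :=
        mul_le_mul_of_nonneg_right h1 hC.le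
    _ = _ := by rw [hv]; field_simp

/-- the input of the final numerics -/
theorem hyp (hgap : ∀ k r, 1 ≤ r → NormBd (bA k) r (3 / 5))
    (hsmall : ∀ k t, 11 ≤ k → t ≤ 2 ^ k →
      fixDesc ((bA k) ^ 128) t ≤ Real.exp (4 / 3 * (t : ℝ) ^ 2 / (2 : ℝ) ^ k + 1 / 2))
    (htop : ∀ k, 11 ≤ k → fixDesc ((bA k) ^ 128) (2 ^ k) ≤ Real.exp (9 / 20 * (2 : ℝ) ^ k)) :
    Hyp sig trq where
  sig_nonneg := sig_nonneg
  sig_gap k r hr := sig_le (by norm_num) (hgap k r hr)
  tr_nonneg := trq_nonneg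
  mult k r t _ hrt ht h2r := by
    have h1 := sig_pow_mul_choose_le k r t hrt ht
    have h2 := Rank.Den_le_of_two_mul_le (n := 2 ^ k) (t := t) (r := r) h2r ht
    calc _ ≤ _ := h1
      _ ≤ trq k t * ((r : ℝ) + 1) := mul_le_mul_of_nonneg_left h2 (trq_nonneg k t)
      _ = _ := by ring
  mult' k r h2r hrn := by
    have h1 := sig_pow_mul_choose_le k r (2 ^ k) hrn le_rfl
    have h2 := Rank.Den_le_of_le_two_mul (n := 2 ^ k) (t := 2 ^ k) (r := r) h2r.le hrn le_rfl
    have h3 : r.choose (2 ^ k - r) = r.choose (2 * r - 2 ^ k) := by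
      have : 2 * r - 2 ^ k = r - (2 ^ k - r) := by omega
      rw [this, Nat.choose_symm (by omega)]
    rw [h3] at h2
    have hcast : (((2 ^ k : ℕ)) : ℝ) + 1 ≥ (r : ℝ) + 1 := by
      have : (r : ℝ) ≤ ((2 ^ k : ℕ) : ℝ) := by exact_mod_cast hrn
      linarith
    have hT := trq_nonneg k (2 ^ k)
    have hc0 : (0 : ℝ) ≤ (r.choose (2 * r - 2 ^ k) : ℝ) := by positivity
    calc _ ≤ _ := h1
      _ ≤ trq k (2 ^ k) * (((r : ℝ) + 1) * (r.choose (2 * r - 2 ^ k) : ℝ)) :=
        mul_le_mul_of_nonneg_left h2 hT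
      _ ≤ trq k (2 ^ k) * ((((2 ^ k : ℕ) : ℝ) + 1) * (r.choose (2 * r - 2 ^ k) : ℝ)) := by
        apply mul_le_mul_of_nonneg_left _ hT
        exact mul_le_mul_of_nonneg_right hcast hc0
      _ = _ := by ring
  halve k r β hβ hr hr2 hall := by
    have hb : ∀ r', r - 2 ^ k ≤ r' → NormBd (bA k) r' β := by
      intro r' hr'
      by_cases hrk : r' ≤ 2 ^ k
      · have h1 := hall r' (by omega) (by omega) hrk
        exact NormBd.mono' (sig_nonneg k r') h1 (normBd_sig hgap k r')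
      · -- no injective `r'`-tuples
        intro ι _ _ J f hJ hf
        have hf0 : f = 0 := by
          funext x
          apply hf.supp x
          intro hinj
          have h1 := Finset.card_le_card_of_injOn x (fun _ _ => Finset.mem_univ _) hinj
          rw [Finset.card_univ, card_Pos, hJ] at h1
          omega
        subst hf0
        have h2 : opT (bA k) (0 : (ι → Pos k) → ℝ) = 0 := by
          funext y
          simp [opT]
        rw [h2]
        simp [nsq]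
    have h := NormBd_high hb 1 r (by
      have : 2 ^ (k + 1) - 2 ^ k = 2 ^ k := by
        rw [pow_succ]; omega
      omega)
    have e : β ^ (2 ^ 1) = β ^ 2 := by norm_num
    rw [e] at h
    exact sig_le (by positivity) h
  tr_small k t hk ht := hsmall k t hk ht
  tr_top k hk := htop k hk

/-- **S0222 from the gap and the warm start.** -/
theorem tendsto_of_inputs (hgap : ∀ k r, 1 ≤ r → NormBd (bA k) r (3 / 5))
    (hsmall : ∀ k t, 11 ≤ k → t ≤ 2 ^ k →
      fixDesc ((bA k) ^ 128) t ≤ Real.exp (4 / 3 * (t : ℝ) ^ 2 / (2 : ℝ) ^ k + 1 / 2))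
    (htop : ∀ k, 11 ≤ k → fixDesc ((bA k) ^ 128) (2 ^ k) ≤ Real.exp (9 / 20 * (2 : ℝ) ^ k)) :
    Filter.Tendsto (fun d : ℕ => Crest.ProbabilityR.Shuffle.tvFromUniform (2 ^ d) (1600 * (d + 1)))
      Filter.atTop (nhds 0) := by
  have H := hyp hgap hsmall htop
  have hlim := tendsto_sum_S H
  apply tendsto_tv_of_sum sig sig_nonneg (fun k r _ => normBd_sig hgap k r) 1472 6 (by norm_num)
  refine hlim.congr ?_
  intro k
  have hsplit : Finset.Icc 1 (2 ^ k) = insert 1 (Finset.Icc 2 (2 ^ k)) := by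
    have h1 : 1 ≤ 2 ^ k := Nat.one_le_two_pow
    ext r
    simp only [Finset.mem_Icc, Finset.mem_insert]
    omega
  rw [hsplit, Finset.sum_insert (by simp)]
  rw [sig_one hgap k]
  have e0 : (0 : ℝ) ^ 1472 = 0 := by norm_num
  rw [e0, zero_mul, zero_add]
  apply Finset.sum_congr rfl
  intro r _
  unfold S trq
  rw [min_comm]
  norm_num

end Crest.Agent.Lib.Thorp.FinalGlue
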