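import Mathlib
import Crest.Agent.Lib.Thorp.Tower

set_option autoImplicit false

/-!
# The left regular action of the group algebra on functions on the group (S0222)

`regL a h σ = Σ_g a(g) h (g σ)`.  All spectral statements of `Gap.lean`, `High.lean` are stated here:
no tuples, no subtypes.  `regL (a * b) = regL b ∘ regL a` (anti-homomorphism, matching `opT`).
-/

namespace Crest.Agent.Lib.Thorp

open Finset Equiv MonoidAlgebra

section basic

variable {G : Type*} [Group G] [Fintype G] [DecidableEq G]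

/-- the left regular action -/
noncomputable def regL (a : RG G) (h : G → ℝ) : G → ℝ := fun σ => ∑ g, cf a g * h (g * σ)

/-- plain inner product -/
def inn (f h : G → ℝ) : ℝ := ∑ σ, f σ * h σ

theorem regL_eq_Ev (a : RG G) (h : G → ℝ) (σ : G) :
    regL a h σ = Ev (fun g => h (g * σ)) a := rfl

theorem regL_mul_apply (a b : RG G) (h : G → ℝ) (σ : G) :
    regL (a * b) h σ = ∑ u, ∑ w, cf a u * cf b w * h (u * w * σ) := by
  unfold regL
  simp only [cf_mul]
  rw [Finset.sum_congr rfl (fun g _ => Finset.sum_mul _ _ _)]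
  rw [Finset.sum_comm]
  apply Finset.sum_congr rfl
  intro u _
  apply Fintype.sum_equiv (Equiv.mulLeft u⁻¹)
  intro g
  simp

theorem regL_mul (a b : RG G) (h : G → ℝ) : regL (a * b) h = regL b (regL a h) := by
  funext σ
  rw [regL_mul_apply]
  unfold regL
  simp only [Finset.mul_sum]
  rw [Finset.sum_comm]
  apply Finset.sum_congr rfl
  intro w _
  apply Finset.sum_congr rfl
  intro u _
  rw [mul_assoc u w σ]
  ring

theorem regL_add_fun (a : RG G) (f h : G → ℝ) : regL a (f + h) = regL a f + regL a h := by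
  funext σ
  simp [regL, mul_add, Finset.sum_add_distrib]

theorem regL_smul_fun (a : RG G) (r : ℝ) (h : G → ℝ) : regL a (r • h) = r • regL a h := by
  funext σ
  simp [regL, Finset.mul_sum, mul_left_comm]

theorem regL_sub_fun (a : RG G) (f h : G → ℝ) : regL a (f - h) = regL a f - regL a h := by
  funext σ
  simp [regL, mul_sub, Finset.sum_sub_distrib]

theorem inn_comm (f h : G → ℝ) : inn f h = inn h f := by
  unfold inn
  exact Finset.sum_congr rfl fun _ _ => mul_comm _ _

theorem inn_add_left (f f' h : G → ℝ) : inn (f + f') h = inn f h + inn f' h := by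
  simp [inn, add_mul, Finset.sum_add_distrib]

theorem inn_add_right (f h h' : G → ℝ) : inn f (h + h') = inn f h + inn f h' := by
  simp [inn, mul_add, Finset.sum_add_distrib]

theorem inn_sub_left (f f' h : G → ℝ) : inn (f - f') h = inn f h - inn f' h := by
  simp [inn, sub_mul, Finset.sum_sub_distrib]

theorem inn_sub_right (f h h' : G → ℝ) : inn f (h - h') = inn f h - inn f h' := by
  simp [inn, mul_sub, Finset.sum_sub_distrib]

theorem inn_smul_left (r : ℝ) (f h : G → ℝ) : inn (r • f) h = r * inn f h := by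
  simp [inn, Finset.mul_sum, mul_assoc]

theorem inn_smul_right (r : ℝ) (f h : G → ℝ) : inn f (r • h) = r * inn f h := by
  simp [inn, Finset.mul_sum, mul_left_comm]

theorem inn_self_nonneg (f : G → ℝ) : 0 ≤ inn f f :=
  Finset.sum_nonneg fun _ _ => mul_self_nonneg _

/-- adjoint -/
theorem inn_regL (a : RG G) (f h : G → ℝ) : inn f (regL a h) = inn (regL (rev a) f) h := by
  unfold inn regL
  simp only [Finset.mul_sum, Finset.sum_mul]
  rw [Finset.sum_comm]
  symm
  rw [Finset.sum_comm]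
  apply Fintype.sum_equiv (Equiv.inv G)
  intro g
  apply Fintype.sum_equiv (Equiv.mulLeft g)
  intro σ
  simp only [cf_rev, Equiv.inv_apply, Equiv.coe_mulLeft, inv_mul_cancel_left]
  ring

/-- Cauchy-Schwarz -/
theorem inn_sq_le (f h : G → ℝ) : inn f h ^ 2 ≤ inn f f * inn h h := by
  unfold inn
  have := Finset.sum_mul_sq_le_sq_mul_sq Finset.univ f h
  simpa [sq] using this

theorem inn_le_of_sq (f h : G → ℝ) : inn f h ≤ Real.sqrt (inn f f) * Real.sqrt (inn h h) := by
  rw [← Real.sqrt_mul (inn_self_nonneg f)]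
  exact Real.le_sqrt_of_sq_le (inn_sq_le f h)

theorem sum_regL (a : RG G) (h : G → ℝ) : ∑ σ, regL a h σ = (∑ g, cf a g) * ∑ σ, h σ := by
  unfold regL
  rw [Finset.sum_comm, Finset.sum_mul]
  apply Finset.sum_congr rfl
  intro g _
  rw [← Finset.mul_sum]
  congr 1
  exact Fintype.sum_equiv (Equiv.mulLeft g) _ _ (fun _ => rfl)

/-- Jensen: a law is a contraction on `ℓ²`. -/
theorem inn_regL_law_le {a : RG G} (ha : IsLaw a) (h : G → ℝ) :
    inn (regL a h) (regL a h) ≤ inn h h := by
  have h2 : ∀ σ, (regL a h σ) ^ 2 ≤ ∑ g, cf a g * (h (g * σ)) ^ 2 := by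
    intro σ
    unfold regL
    have := Finset.sum_mul_sq_le_sq_mul_sq Finset.univ (fun g => Real.sqrt (cf a g))
      (fun g => Real.sqrt (cf a g) * h (g * σ))
    have e1 : ∀ g, Real.sqrt (cf a g) * (Real.sqrt (cf a g) * h (g * σ))
        = cf a g * h (g * σ) := by
      intro g
      rw [← mul_assoc, Real.mul_self_sqrt (ha.nonneg g)]
    have e2 : ∀ g, (Real.sqrt (cf a g)) ^ 2 = cf a g := fun g => Real.sq_sqrt (ha.nonneg g)
    have e3 : ∀ g, (Real.sqrt (cf a g) * h (g * σ)) ^ 2 = cf a g * (h (g * σ)) ^ 2 := by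
      intro g; rw [mul_pow, e2]
    simp only [e1, e2, e3, ha.sum_one, one_mul] at this
    exact this
  unfold inn
  calc ∑ σ, regL a h σ * regL a h σ = ∑ σ, (regL a h σ) ^ 2 := by simp [sq]
    _ ≤ ∑ σ, ∑ g, cf a g * (h (g * σ)) ^ 2 := Finset.sum_le_sum fun σ _ => h2 σ
    _ = ∑ g, cf a g * ∑ σ, (h (g * σ)) ^ 2 := by
        rw [Finset.sum_comm]
        apply Finset.sum_congr rfl
        intro g _
        rw [Finset.mul_sum]
    _ = ∑ g, cf a g * ∑ σ, (h σ) ^ 2 := by
        apply Finset.sum_congr rfl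
        intro g _
        congr 1
        exact Fintype.sum_equiv (Equiv.mulLeft g) _ _ (fun _ => rfl)
    _ = ∑ σ, h σ * h σ := by
        rw [← Finset.sum_mul, ha.sum_one, one_mul]
        simp [sq]

theorem IsLaw.rg_rev {a : RG G} (ha : IsLaw a) : IsLaw (Crest.Agent.Lib.Thorp.rev a) := by
  constructor
  · intro g; rw [cf_rev]; exact ha.nonneg _
  · simp only [cf_rev]
    rw [← ha.sum_one]
    exact Fintype.sum_equiv (Equiv.inv G) _ _ (fun _ => rfl)

theorem rg_isLaw_avgS {Ω : Type*} [Fintype Ω] [Nonempty Ω] (F : Ω → G) : IsLaw (avgS F) := by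
  have hc : (0 : ℝ) < Fintype.card Ω := by exact_mod_cast Fintype.card_pos
  constructor
  · intro g
    rw [cf_avgS]
    positivity
  · simp only [cf_avgS, ← Finset.mul_sum]
    rw [Finset.sum_comm]
    have : ∀ ω : Ω, ∑ g : G, (if g = F ω then (1 : ℝ) else 0) = 1 := by
      intro ω; simp
    simp only [this]
    simp only [Finset.sum_const, Finset.card_univ, nsmul_eq_mul, mul_one]
    field_simp

end basic

section tower

variable {V : Type*} [Fintype V] [DecidableEq V]

theorem rg_isLaw_Ten {a : RG (Perm V)} (ha : IsLaw a) : IsLaw (Ten a) := by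
  constructor
  · intro g
    rw [Ten_eq_sum, cf_sum]
    refine Finset.sum_nonneg fun σ _ => ?_
    rw [cf_sum]
    refine Finset.sum_nonneg fun τ _ => ?_
    rw [cf_single]
    split_ifs
    · exact mul_nonneg (ha.nonneg _) (ha.nonneg _)
    · exact le_rfl
  · have h := Ev_Ten (fun _ => (1 : ℝ)) a
    have e : Ev (fun _ => (1 : ℝ)) (Ten a) = ∑ g, cf (Ten a) g := by simp [Ev]
    rw [← e, h]
    simp only [mul_one]
    simp_rw [← Finset.mul_sum, ha.sum_one, mul_one, ha.sum_one]

theorem rg_isLaw_GateA : IsLaw (GateA : RG (Perm (Bool × V))) := by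
  unfold GateA
  exact rg_isLaw_avgS _

theorem rg_isLaw_dbl {a : RG (Perm V)} (ha : IsLaw a) : IsLaw (dbl a) := by
  unfold dbl
  exact (rg_isLaw_GateA.mul (rg_isLaw_Ten ha)).mul rg_isLaw_GateA

theorem rg_isLaw_nu : ∀ k, IsLaw (nu k)
  | 0 => isLaw_one
  | k + 1 => (rg_isLaw_Ten (rg_isLaw_nu k)).mul rg_isLaw_GateA

theorem rg_isLaw_bA : ∀ k, IsLaw (bA k)
  | 0 => isLaw_one
  | k + 1 => rg_isLaw_dbl (rg_isLaw_bA k)

theorem regL_Ten (a : RG (Perm V)) (h : Perm (Bool × V) → ℝ) (ρ : Perm (Bool × V)) :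
    regL (Ten a) h ρ = ∑ σ, ∑ τ, cf a σ * cf a τ * h (two σ τ * ρ) := by
  rw [regL_eq_Ev, Ev_Ten]

theorem regL_GateA (h : Perm (Bool × V) → ℝ) (ρ : Perm (Bool × V)) :
    regL (GateA : RG (Perm (Bool × V))) h ρ
      = ((2 : ℝ) ^ Fintype.card V)⁻¹ * ∑ c : V → Bool, h (gate c * ρ) := by
  rw [regL_eq_Ev]
  unfold GateA
  rw [Ev_avgS]
  simp [Fintype.card_fun]

theorem regL_dbl (a : RG (Perm V)) (h : Perm (Bool × V) → ℝ) :
    regL (dbl a) h = regL GateA (regL (Ten a) (regL GateA h)) := by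
  unfold dbl
  rw [regL_mul, regL_mul]

end tower

end Crest.Agent.Lib.Thorp
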