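import Mathlib
import Crest.Agent.Lib.Thorp.Reg

set_option autoImplicit false

/-!
# The gap form and its two-variable version (S0222)
-/

namespace Crest.Agent.Lib.Thorp

open Finset Equiv MonoidAlgebra

section

variable {P : Type*} [Group P] [Fintype P] [DecidableEq P]

/-- the operator inequality `T ≤ (1-g) S + g` in the regular representation -/
def GapForm (T : RG P) (g : ℝ) : Prop :=
  ∀ h : P → ℝ, inn h (regL T h) ≤ (1 - g) * (∑ σ, h σ) ^ 2 / Fintype.card P + g * inn h h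

/-- Cauchy-Schwarz for the positive form of `rev ν * ν` -/
theorem inn_regL_psd (ν : RG P) (u v : P → ℝ) :
    inn u (regL (rev ν * ν) v) ^ 2 ≤ inn u (regL (rev ν * ν) u) * inn v (regL (rev ν * ν) v) := by
  have e : ∀ x y : P → ℝ, inn x (regL (rev ν * ν) y)
      = inn (regL (rev ν) x) (regL (rev ν) y) := by
    intro x y
    rw [regL_mul, inn_regL]
  rw [e, e, e]
  exact inn_sq_le _ _

theorem inn_regL_psd_nonneg (ν : RG P) (u : P → ℝ) : 0 ≤ inn u (regL (rev ν * ν) u) := by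
  have e : ∀ x y : P → ℝ, inn x (regL (rev ν * ν) y)
      = inn (regL (rev ν) x) (regL (rev ν) y) := by
    intro x y
    rw [regL_mul, inn_regL]
  rw [e]
  exact inn_self_nonneg _

/-- a mean-zero function contracts by `g` -/
theorem GapForm.norm_of_sum_zero {ν : RG P} (hν : IsLaw ν) {g : ℝ} (hg : 0 ≤ g)
    (hgap : GapForm (rev ν * ν) g) {h : P → ℝ} (hh : ∑ σ, h σ = 0) :
    inn (regL (rev ν * ν) h) (regL (rev ν * ν) h) ≤ g ^ 2 * inn h h := by
  set T := rev ν * ν with hT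
  have hlaw : IsLaw T := hν.rg_rev.mul hν
  set w := regL T h with hw
  have hw0 : ∑ σ, w σ = 0 := by
    rw [hw, sum_regL, hh, mul_zero]
  have h1 := inn_regL_psd ν w h
  rw [← hT, ← hw] at h1
  have h2 := hgap w
  have h3 := hgap h
  rw [hw0] at h2
  rw [hh] at h3
  simp only [ne_eq, OfNat.ofNat_ne_zero, not_false_eq_true, zero_pow, mul_zero, zero_div, zero_add] at h2 h3
  have n1 := inn_self_nonneg w
  have n2 := inn_self_nonneg h
  have p1 : 0 ≤ inn w (regL T w) := inn_regL_psd_nonneg ν w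
  have p2 : 0 ≤ inn h (regL T h) := inn_regL_psd_nonneg ν h
  have h4 : inn w w ^ 2 ≤ (g * inn w w) * (g * inn h h) :=
    h1.trans (mul_le_mul h2 h3 p2 (mul_nonneg hg n1))
  rcases n1.eq_or_lt with h0 | hpos
  · rw [← h0]; exact mul_nonneg (sq_nonneg _) n2
  · have : inn w w * inn w w ≤ inn w w * (g ^ 2 * inn h h) := by
      calc inn w w * inn w w = inn w w ^ 2 := (sq _).symm
        _ ≤ _ := h4
        _ = _ := by ring
    exact le_of_mul_le_mul_left this hpos

/-- double-sum Cauchy-Schwarz -/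
theorem double_cs (A B : P → P → ℝ) :
    (∑ p, ∑ q, A p q * B p q) ^ 2 ≤ (∑ p, ∑ q, A p q ^ 2) * (∑ p, ∑ q, B p q ^ 2) := by
  have := Finset.sum_mul_sq_le_sq_mul_sq (Finset.univ : Finset (P × P))
    (fun x => A x.1 x.2) (fun x => B x.1 x.2)
  simpa [Fintype.sum_prod_type] using this

/-- the product action -/
noncomputable def LL (T : RG P) (Φ : P → P → ℝ) (p q : P) : ℝ :=
  ∑ u, ∑ v, cf T u * cf T v * Φ (u * p) (v * q)

theorem two_var {ν : RG P} (hν : IsLaw ν) {g : ℝ} (hg : 0 ≤ g)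
    (hgap : GapForm (rev ν * ν) g) (Φ : P → P → ℝ) :
    ∑ p, ∑ q, Φ p q * LL (rev ν * ν) Φ p q
      ≤ (1 - g) * (∑ p, ∑ q, Φ p q) ^ 2 / (Fintype.card P : ℝ) ^ 2 + g * ∑ p, ∑ q, Φ p q ^ 2 := by
  set T := rev ν * ν with hT
  have hlaw : IsLaw T := hν.rg_rev.mul hν
  have hn : (0 : ℝ) < (Fintype.card P : ℝ) := by exact_mod_cast Fintype.card_pos
  set n : ℝ := (Fintype.card P : ℝ) with hndef
  set a : P → ℝ := fun q => (∑ p, Φ p q) / n with ha
  set Ψ : P → P → ℝ := fun p q => Φ p q - a q with hΨ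
  have hΨ0 : ∀ q, ∑ p, Ψ p q = 0 := by
    intro q
    simp only [hΨ, Finset.sum_sub_distrib, Finset.sum_const, Finset.card_univ, nsmul_eq_mul, ha]
    rw [← hndef]
    field_simp
    ring
  have hshift : ∀ (F : P → ℝ) (u : P), ∑ p, F (u * p) = ∑ p, F p := fun F u =>
    Fintype.sum_equiv (Equiv.mulLeft u) _ _ (fun _ => rfl)
  -- the action on `a ⊗ 1`
  have hLLsplit : ∀ p q, LL T Φ p q = regL T a q + LL T Ψ p q := by
    intro p q
    unfold LL regL
    have : ∀ u v, cf T u * cf T v * Φ (u * p) (v * q)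
        = cf T u * (cf T v * a (v * q)) + cf T u * cf T v * Ψ (u * p) (v * q) := by
      intro u v
      simp only [hΨ]
      ring
    simp only [this, Finset.sum_add_distrib]
    congr 1
    simp_rw [← Finset.mul_sum]
    rw [← Finset.sum_mul, hlaw.sum_one, one_mul]
  have hLLΨ0 : ∀ q, ∑ p, LL T Ψ p q = 0 := by
    intro q
    unfold LL
    rw [Finset.sum_comm]
    apply Finset.sum_eq_zero
    intro u _
    rw [Finset.sum_comm]
    apply Finset.sum_eq_zero
    intro v _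
    rw [← Finset.mul_sum, hshift (fun p => Ψ p (v * q)) u, hΨ0, mul_zero]
  -- expansion of the form
  have hexp : ∑ p, ∑ q, Φ p q * LL T Φ p q
      = n * inn a (regL T a) + ∑ p, ∑ q, Ψ p q * LL T Ψ p q := by
    have e1 : ∀ p q, Φ p q * LL T Φ p q = a q * regL T a q + a q * LL T Ψ p q
        + Ψ p q * regL T a q + Ψ p q * LL T Ψ p q := by
      intro p q
      rw [hLLsplit]
      simp only [hΨ]
      ring
    simp only [e1, Finset.sum_add_distrib]
    have e2 : ∑ _p : P, ∑ q, a q * regL T a q = n * inn a (regL T a) := by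
      simp [inn, hndef]
    have e3 : ∑ p, ∑ q, a q * LL T Ψ p q = 0 := by
      rw [Finset.sum_comm]
      apply Finset.sum_eq_zero
      intro q _
      rw [← Finset.mul_sum, hLLΨ0, mul_zero]
    have e4 : ∑ p, ∑ q, Ψ p q * regL T a q = 0 := by
      rw [Finset.sum_comm]
      apply Finset.sum_eq_zero
      intro q _
      rw [← Finset.sum_mul, hΨ0, zero_mul]
    rw [e2, e3, e4]
    ring
  -- the mean-zero part
  set Y : P → P → ℝ := fun p q => regL T (Ψ p) q with hY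
  have hY0 : ∀ q, ∑ p, Y p q = 0 := by
    intro q
    simp only [hY, regL]
    rw [Finset.sum_comm]
    apply Finset.sum_eq_zero
    intro v _
    rw [← Finset.mul_sum, hΨ0, mul_zero]
  have hLLY : ∀ p q, LL T Ψ p q = regL T (fun p' => Y p' q) p := by
    intro p q
    simp only [LL, regL, hY, Finset.mul_sum, mul_assoc]
  have hYbd : ∑ p, ∑ q, Y p q ^ 2 ≤ ∑ p, ∑ q, Ψ p q ^ 2 := by
    apply Finset.sum_le_sum
    intro p _
    have := inn_regL_law_le hlaw (Ψ p)
    simpa [inn, sq] using this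
  have hLLbd : ∑ p, ∑ q, LL T Ψ p q ^ 2 ≤ g ^ 2 * ∑ p, ∑ q, Ψ p q ^ 2 := by
    have h1 : ∑ p, ∑ q, LL T Ψ p q ^ 2 ≤ g ^ 2 * ∑ p, ∑ q, Y p q ^ 2 := by
      have e0 : ∑ p, ∑ q, Y p q ^ 2 = ∑ q, ∑ p, Y p q ^ 2 := Finset.sum_comm
      rw [Finset.sum_comm, e0, Finset.mul_sum]
      apply Finset.sum_le_sum
      intro q _
      have := GapForm.norm_of_sum_zero hν hg hgap (h := fun p' => Y p' q) (hY0 q)
      rw [← hT] at this
      simp only [hLLY]
      simpa [inn, sq] using this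
    exact h1.trans (mul_le_mul_of_nonneg_left hYbd (sq_nonneg _))
  have hΨform : ∑ p, ∑ q, Ψ p q * LL T Ψ p q ≤ g * ∑ p, ∑ q, Ψ p q ^ 2 := by
    have hcs := double_cs Ψ (LL T Ψ)
    have hA : 0 ≤ ∑ p, ∑ q, Ψ p q ^ 2 :=
      Finset.sum_nonneg fun _ _ => Finset.sum_nonneg fun _ _ => sq_nonneg _
    have : (∑ p, ∑ q, Ψ p q * LL T Ψ p q) ^ 2 ≤ (g * ∑ p, ∑ q, Ψ p q ^ 2) ^ 2 := by
      calc _ ≤ _ := hcs
        _ ≤ (∑ p, ∑ q, Ψ p q ^ 2) * (g ^ 2 * ∑ p, ∑ q, Ψ p q ^ 2) :=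
            mul_le_mul_of_nonneg_left hLLbd hA
        _ = _ := by ring
    exact le_trans (le_abs_self _) (abs_le_of_sq_le_sq this (mul_nonneg hg hA))
  -- the `a` part
  have hagap := hgap a
  rw [← hndef] at hagap
  have hsuma : ∑ q, a q = (∑ p, ∑ q, Φ p q) / n := by
    simp only [ha]
    rw [← Finset.sum_div, Finset.sum_comm]
  -- orthogonal decomposition of the norm
  have hnorm : ∑ p, ∑ q, Φ p q ^ 2 = n * inn a a + ∑ p, ∑ q, Ψ p q ^ 2 := by
    have e1 : ∀ p q, Φ p q ^ 2 = a q * a q + 2 * (a q * Ψ p q) + Ψ p q ^ 2 := by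
      intro p q
      simp only [hΨ]
      ring
    simp only [e1, Finset.sum_add_distrib]
    have e2 : ∑ _p : P, ∑ q, a q * a q = n * inn a a := by simp [inn, hndef]
    have e3 : ∑ p, ∑ q, 2 * (a q * Ψ p q) = 0 := by
      rw [Finset.sum_comm]
      apply Finset.sum_eq_zero
      intro q _
      simp_rw [← Finset.mul_sum]
      rw [hΨ0]; simp
    rw [e2, e3]
    ring
  rw [hexp, hnorm]
  have : n * inn a (regL T a) ≤ n * ((1 - g) * (∑ q, a q) ^ 2 / n + g * inn a a) :=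
    mul_le_mul_of_nonneg_left hagap hn.le
  have e5 : n * ((1 - g) * (∑ q, a q) ^ 2 / n + g * inn a a)
      = (1 - g) * (∑ p, ∑ q, Φ p q) ^ 2 / n ^ 2 + g * (n * inn a a) := by
    rw [hsuma]
    field_simp
  rw [e5] at this
  linarith

end

end Crest.Agent.Lib.Thorp
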