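import Mathlib
import Crest.Agent.Lib.Thorp.Reg
import Crest.Agent.Lib.Thorp.Dixon

set_option autoImplicit false

/-!
# The Johnson walk of one doubling step (S0222)

`xS S ρ = 1[all cards of S in row 0]`, `avgH` = average over row permutations.
Main formula: `avgH (regL GateA (xS S)) ρ = psiJ s |S| |S ∩ B(ρ)|`.
-/

namespace Crest.Agent.Lib.Thorp

open Finset Equiv MonoidAlgebra fwdDiff

section quad

variable {G : Type*} [Fintype G] [DecidableEq G]

/-- plain inner product on functions (no group needed) -/
theorem quad_le_of_eigen (M : (G → ℝ) →ₗ[ℝ] (G → ℝ))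
    (hsym : ∀ f h : G → ℝ, ∑ σ, f σ * M h σ = ∑ σ, M f σ * h σ) (κ : ℝ)
    (hκ : ∀ (μ : ℝ) (v : G → ℝ), v ≠ 0 → M v = μ • v → μ ≤ κ) (w : G → ℝ) :
    ∑ σ, w σ * M w σ ≤ κ * ∑ σ, w σ * w σ := by
  classical
  set A : Matrix G G ℝ := LinearMap.toMatrix' M with hA
  have hAv : ∀ x, A.mulVec x = M x := fun x => LinearMap.toMatrix'_mulVec M x
  have hAsymm : A.IsSymm := by
    ext i j
    have := hsym (Pi.single j 1) (Pi.single i 1)
    simp only [Pi.single_apply, ite_mul, one_mul, zero_mul, mul_ite, mul_one, mul_zero,
      Finset.sum_ite_eq', Finset.mem_univ, if_true] at this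
    simp only [Matrix.transpose_apply]
    rw [hA, LinearMap.toMatrix'_apply, LinearMap.toMatrix'_apply]
    exact this
  set B : Matrix G G ℝ := κ • (1 : Matrix G G ℝ) - A with hB
  have hBH : B.IsHermitian := by
    rw [Matrix.IsHermitian, hB]
    ext i j
    simp only [Matrix.conjTranspose_apply, Matrix.sub_apply, Matrix.smul_apply, Matrix.one_apply, star_trivial]
    have : A j i = A i j := congrFun (congrFun hAsymm i) j
    rw [this]
    by_cases hij : i = j
    · subst hij; simp
    · have hji : ¬ j = i := fun h => hij h.symm
      simp [hij, hji]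
  have hBpsd : B.PosSemidef := by
    rw [hBH.posSemidef_iff_eigenvalues_nonneg]
    intro i
    have hev := hBH.mulVec_eigenvectorBasis i
    set v : G → ℝ := ⇑(hBH.eigenvectorBasis i) with hv
    have hv0 : v ≠ 0 := by
      intro h0
      have hn := hBH.eigenvectorBasis.orthonormal.ne_zero i
      apply hn
      ext x
      have := congrFun h0 x
      simpa [hv] using this
    have hMv : M v = (κ - hBH.eigenvalues i) • v := by
      rw [← hAv]
      have : B.mulVec v = κ • v - A.mulVec v := by
        rw [hB, Matrix.sub_mulVec, Matrix.smul_mulVec, Matrix.one_mulVec]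
      rw [this] at hev
      have h2 : A.mulVec v = κ • v - hBH.eigenvalues i • v := by
        rw [← hev]; abel
      rw [h2, sub_smul]
    have := hκ _ v hv0 hMv
    simp only [Pi.zero_apply]
    linarith
  have h := hBpsd.dotProduct_mulVec_nonneg w
  have e : star w ⬝ᵥ B.mulVec w = κ * ∑ σ, w σ * w σ - ∑ σ, w σ * M w σ := by
    rw [hB, Matrix.sub_mulVec, Matrix.smul_mulVec, Matrix.one_mulVec, hAv]
    simp only [star_trivial, dotProduct, Pi.sub_apply, Pi.smul_apply, smul_eq_mul, mul_sub,
      Finset.sum_sub_distrib, Finset.mul_sum]
    congr 1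
    apply Finset.sum_congr rfl
    intro x _
    ring
  rw [e] at h
  linarith

end quad

section coins

variable {V : Type*} [Fintype V] [DecidableEq V]

theorem coin_count {α : Type*} [DecidableEq α] (col : α → V) (r : α → Bool) (S : Finset α)
    (hinj : Set.InjOn col (S : Set α)) :
    ((2 : ℝ) ^ Fintype.card V)⁻¹ * ∑ c : V → Bool, (if ∀ a ∈ S, c (col a) = r a then (1 : ℝ) else 0)
      = ((2 : ℝ) ^ S.card)⁻¹ := by
  induction S using Finset.induction_on with
  | empty =>
    simp [Fintype.card_fun]
  | insert a S ha ih =>
    have hinjS : Set.InjOn col (S : Set α) := hinj.mono (by simp)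
    have ih' := ih hinjS
    have hw : ∀ b ∈ S, col b ≠ col a := by
      intro b hb h
      have := hinj (by simp [hb]) (by simp) h
      exact ha (this ▸ hb)
    -- the flip
    let e : (V → Bool) ≃ (V → Bool) :=
      { toFun := fun c => Function.update c (col a) (!c (col a))
        invFun := fun c => Function.update c (col a) (!c (col a))
        left_inv := by
          intro c
          funext x
          by_cases hx : x = col a
          · subst hx; simp
          · simp [Function.update_of_ne hx]
        right_inv := by
          intro c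
          funext x
          by_cases hx : x = col a
          · subst hx; simp
          · simp [Function.update_of_ne hx] }
    have hflip : ∑ c : V → Bool, (if (∀ b ∈ S, c (col b) = r b) ∧ c (col a) = r a then (1 : ℝ) else 0)
        = ∑ c : V → Bool, (if (∀ b ∈ S, c (col b) = r b) ∧ c (col a) ≠ r a then (1 : ℝ) else 0) := by
      apply Fintype.sum_equiv e
      intro c
      have h1 : (∀ b ∈ S, (e c) (col b) = r b) ↔ (∀ b ∈ S, c (col b) = r b) := by
        constructor
        · intro h b hb
          have := h b hb
          simpa [e, Function.update_of_ne (hw b hb)] using this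
        · intro h b hb
          have := h b hb
          simpa [e, Function.update_of_ne (hw b hb)] using this
      have h2 : (e c) (col a) ≠ r a ↔ c (col a) = r a := by
        simp only [e, Equiv.coe_fn_mk, Function.update_self]
        cases c (col a) <;> cases r a <;> simp
      simp only [h1, h2]
    have hsplit : ∑ c : V → Bool, (if ∀ b ∈ S, c (col b) = r b then (1 : ℝ) else 0)
        = 2 * ∑ c : V → Bool, (if (∀ b ∈ S, c (col b) = r b) ∧ c (col a) = r a then (1 : ℝ) else 0) := by
      rw [_root_.two_mul]
      nth_rewrite 2 [hflip]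
      rw [← Finset.sum_add_distrib]
      apply Finset.sum_congr rfl
      intro c _
      by_cases h1 : ∀ b ∈ S, c (col b) = r b <;> by_cases h2 : c (col a) = r a <;> simp [h1, h2]
    have hins : ∀ c : V → Bool, (∀ b ∈ insert a S, c (col b) = r b)
        ↔ (∀ b ∈ S, c (col b) = r b) ∧ c (col a) = r a := by
      intro c
      simp only [Finset.mem_insert, forall_eq_or_imp]
      tauto
    simp only [hins]
    rw [Finset.card_insert_of_notMem ha, pow_succ, mul_inv, ← ih', hsplit]
    ring

end coins

section johnson

variable {V : Type*} [Fintype V] [DecidableEq V]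

/-- monomial: all cards of `S` in row `false` -/
noncomputable def xS (S : Finset (Bool × V)) (ρ : Perm (Bool × V)) : ℝ :=
  if ∀ a ∈ S, (ρ a).1 = false then 1 else 0

/-- the average over row permutations -/
noncomputable def avgH (w : Perm (Bool × V) → ℝ) (ρ : Perm (Bool × V)) : ℝ :=
  ((Fintype.card (Perm V) : ℝ) ^ 2)⁻¹ * ∑ u : Perm V, ∑ v : Perm V, w (two u v * ρ)

theorem regL_GateA_xS (S : Finset (Bool × V)) (τ : Perm (Bool × V)) :
    regL (GateA : RG (Perm (Bool × V))) (xS S) τ
      = if Set.InjOn (fun a => (τ a).2) (S : Set (Bool × V)) then ((2 : ℝ) ^ S.card)⁻¹ else 0 := by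
  rw [regL_GateA]
  have e : ∀ c : V → Bool, xS S (gate c * τ)
      = if ∀ a ∈ S, c ((τ a).2) = (τ a).1 then (1 : ℝ) else 0 := by
    intro c
    unfold xS
    have : ∀ a, ((gate c * τ) a).1 = false ↔ c ((τ a).2) = (τ a).1 := by
      intro a
      rcases hτ : τ a with ⟨r, w⟩
      simp only [Perm.mul_apply, hτ, gate_apply]
      cases r <;> cases c w <;> simp
    simp only [this]
  simp only [e]
  split_ifs with h
  · convert coin_count (fun a => (τ a).2) (fun a => (τ a).1) S h
  · apply mul_eq_zero_of_right
    apply Finset.sum_eq_zero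
    intro c _
    rw [if_neg]
    intro hc
    apply h
    intro a ha b hb hab
    simp only at hab
    have h1 := hc a ha
    have h2 := hc b hb
    rw [hab, h2] at h1
    have : τ a = τ b := Prod.ext h1.symm hab
    exact τ.injective this

theorem card_image_eq_const (Z T T' : Finset V) (hT : T.card = Z.card) (hT' : T'.card = Z.card) :
    (Finset.univ.filter fun v : Perm V => Z.image v = T).card
      = (Finset.univ.filter fun v : Perm V => Z.image v = T').card := by
  classical
  let e : {x // x ∈ T} ≃ {x // x ∈ T'} := Finset.equivOfCardEq (hT.trans hT'.symm)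
  let π : Perm V := Equiv.extendSubtype e
  have hπ : T.image π = T' := by
    apply Finset.eq_of_subset_of_card_le
    · intro y hy
      obtain ⟨x, hx, rfl⟩ := Finset.mem_image.mp hy
      exact Equiv.extendSubtype_mem e x hx
    · rw [Finset.card_image_of_injective _ π.injective, hT, hT']
  apply Finset.card_equiv (Equiv.mulLeft π)
  intro v
  simp only [Finset.mem_filter, Finset.mem_univ, true_and, Equiv.coe_mulLeft]
  have e1 : Z.image (π * v) = (Z.image v).image π := by
    rw [Finset.image_image]
    rfl
  rw [e1, ← hπ]
  constructor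
  · intro h; rw [h]
  · intro h; exact Finset.image_injective π.injective h

theorem perm_count (Z A : Finset V) :
    ((Fintype.card (Perm V) : ℝ))⁻¹ * ∑ v : Perm V, (if Z.image v ⊆ A then (1 : ℝ) else 0)
      = (A.card.choose Z.card : ℝ) / ((Fintype.card V).choose Z.card : ℝ) := by
  classical
  set q := Z.card with hq
  set N : Finset V → ℕ := fun T => (Finset.univ.filter fun v : Perm V => Z.image v = T).card with hN
  have hconst : ∀ T : Finset V, T.card = q → N T = N Z := by
    intro T hT
    exact card_image_eq_const Z T Z hT rfl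
  have hcardimg : ∀ v : Perm V, (Z.image v).card = q := fun v =>
    Finset.card_image_of_injective _ v.injective
  have hfib : ∀ U : Finset (Finset V), (∀ T ∈ U, T.card = q) →
      (Finset.univ.filter fun v : Perm V => Z.image v ∈ U).card = U.card * N Z := by
    intro U hU
    have h1 := Finset.card_eq_sum_card_fiberwise
      (s := Finset.univ.filter fun v : Perm V => Z.image v ∈ U) (t := U) (f := fun v : Perm V => Z.image v)
      (by intro v hv; simpa using hv)
    rw [h1, Finset.sum_congr rfl (g := fun _ => N Z), Finset.sum_const, smul_eq_mul]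
    intro T hT
    rw [← hconst T (hU T hT)]
    simp only [hN]
    congr 1
    ext v
    simp only [Finset.mem_filter, Finset.mem_univ, true_and]
    constructor
    · rintro ⟨_, h⟩; exact h
    · intro h; exact ⟨h ▸ hT, h⟩
  have htot := hfib (Finset.powersetCard q Finset.univ) (fun T hT => (Finset.mem_powersetCard.mp hT).2)
  have htot' : (Finset.univ.filter fun v : Perm V => Z.image v ∈ Finset.powersetCard q Finset.univ).card
      = Fintype.card (Perm V) := by
    rw [Finset.filter_true_of_mem, Finset.card_univ]
    intro v _
    rw [Finset.mem_powersetCard]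
    exact ⟨Finset.subset_univ _, hcardimg v⟩
  rw [htot', Finset.card_powersetCard, Finset.card_univ] at htot
  have hsub := hfib (Finset.powersetCard q A) (fun T hT => (Finset.mem_powersetCard.mp hT).2)
  rw [Finset.card_powersetCard] at hsub
  have hsum : ∑ v : Perm V, (if Z.image v ⊆ A then (1 : ℝ) else 0)
      = ((Finset.univ.filter fun v : Perm V => Z.image v ∈ Finset.powersetCard q A).card : ℝ) := by
    rw [Finset.card_filter]
    push_cast
    apply Finset.sum_congr rfl
    intro v _
    have : Z.image v ∈ Finset.powersetCard q A ↔ Z.image v ⊆ A := by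
      rw [Finset.mem_powersetCard]
      exact ⟨fun h => h.1, fun h => ⟨h, hcardimg v⟩⟩
    simp only [this]
  rw [hsum, hsub]
  have hpos : (0 : ℝ) < (Fintype.card (Perm V) : ℝ) := by exact_mod_cast Fintype.card_pos
  have hNne : (N Z : ℝ) ≠ 0 := by
    intro h0
    have : (Fintype.card (Perm V) : ℝ) = ((Fintype.card V).choose q : ℝ) * (N Z : ℝ) := by
      rw [htot]; push_cast; ring
    rw [h0, mul_zero] at this
    exact hpos.ne' this
  have hcne : ((Fintype.card V).choose q : ℝ) ≠ 0 := by
    intro h0
    have : (Fintype.card (Perm V) : ℝ) = ((Fintype.card V).choose q : ℝ) * (N Z : ℝ) := by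
      rw [htot]; push_cast; ring
    rw [h0, zero_mul] at this
    exact hpos.ne' this
  have htot2 : (Fintype.card (Perm V) : ℝ) = ((Fintype.card V).choose q : ℝ) * (N Z : ℝ) := by
    rw [htot]; push_cast; ring
  rw [htot2]
  push_cast
  field_simp

/-- the main formula -/
theorem avgH_G_xS (S : Finset (Bool × V)) (ρ : Perm (Bool × V)) :
    avgH (regL (GateA : RG (Perm (Bool × V))) (xS S)) ρ
      = psiJ (Fintype.card V) S.card (S.filter fun a => (ρ a).1 = false).card := by
  classical
  set S0 := S.filter fun a => (ρ a).1 = false with hS0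
  set S1 := S.filter fun a => ¬ (ρ a).1 = false with hS1
  set Z0 := S0.image fun a => (ρ a).2 with hZ0
  set Z1 := S1.image fun a => (ρ a).2 with hZ1
  have hp : Z0.card = S0.card := by
    apply Finset.card_image_of_injOn
    intro a ha b hb hab
    have ha' := (Finset.mem_filter.mp ha).2
    have hb' := (Finset.mem_filter.mp hb).2
    exact ρ.injective (Prod.ext (ha'.trans hb'.symm) hab)
  have hq : Z1.card = S1.card := by
    apply Finset.card_image_of_injOn
    intro a ha b hb hab
    have ha' := (Finset.mem_filter.mp ha).2
    have hb' := (Finset.mem_filter.mp hb).2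
    have : (ρ a).1 = (ρ b).1 := by
      cases h1 : (ρ a).1 <;> cases h2 : (ρ b).1 <;> simp_all
    exact ρ.injective (Prod.ext this hab)
  have hpq : S0.card + S1.card = S.card := Finset.card_filter_add_card_filter_not _
  have hinj : ∀ u v : Perm V, Set.InjOn (fun a => ((two u v * ρ) a).2) (S : Set (Bool × V))
      ↔ Z1.image v ⊆ (Z0.image u)ᶜ := by
    intro u v
    constructor
    · intro h y hy
      rw [Finset.mem_compl]
      intro hy0
      obtain ⟨z1, hz1, rfl⟩ := Finset.mem_image.mp hy
      obtain ⟨b, hb, rfl⟩ := Finset.mem_image.mp hz1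
      obtain ⟨z0, hz0, hzz⟩ := Finset.mem_image.mp hy0
      obtain ⟨a, ha, rfl⟩ := Finset.mem_image.mp hz0
      have ha1 := Finset.mem_filter.mp ha
      have hb1 := Finset.mem_filter.mp hb
      have hbt : (ρ b).1 = true := by simpa using hb1.2
      have hcol : (fun a => ((two u v * ρ) a).2) a = (fun a => ((two u v * ρ) a).2) b := by
        simp only [Perm.mul_apply, two_apply, ha1.2, hbt]
        simpa using hzz
      have := h ha1.1 hb1.1 hcol
      rw [this] at ha1
      rw [ha1.2] at hbt
      exact absurd hbt (by simp)
    · intro h a ha b hb hab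
      simp only [Perm.mul_apply, two_apply] at hab
      by_cases hra : (ρ a).1 = false <;> by_cases hrb : (ρ b).1 = false
      · simp only [hra, hrb, Bool.false_eq_true, if_false] at hab
        exact ρ.injective (Prod.ext (hra.trans hrb.symm) (u.injective hab))
      · exfalso
        have hrb' : (ρ b).1 = true := by simpa using hrb
        simp only [hra, hrb', Bool.false_eq_true, if_false, if_true] at hab
        have h1 : v (ρ b).2 ∈ Z1.image v :=
          Finset.mem_image_of_mem _ (Finset.mem_image_of_mem _ (Finset.mem_filter.mpr ⟨hb, hrb⟩))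
        have h2 := h h1
        rw [Finset.mem_compl] at h2
        apply h2
        rw [← hab]
        exact Finset.mem_image_of_mem _ (Finset.mem_image_of_mem _ (Finset.mem_filter.mpr ⟨ha, hra⟩))
      · exfalso
        have hra' : (ρ a).1 = true := by simpa using hra
        simp only [hra', hrb, Bool.false_eq_true, if_false, if_true] at hab
        have h1 : v (ρ a).2 ∈ Z1.image v :=
          Finset.mem_image_of_mem _ (Finset.mem_image_of_mem _ (Finset.mem_filter.mpr ⟨ha, hra⟩))
        have h2 := h h1
        rw [Finset.mem_compl] at h2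
        apply h2
        rw [hab]
        exact Finset.mem_image_of_mem _ (Finset.mem_image_of_mem _ (Finset.mem_filter.mpr ⟨hb, hrb⟩))
      · have hra' : (ρ a).1 = true := by simpa using hra
        have hrb' : (ρ b).1 = true := by simpa using hrb
        simp only [hra', hrb', if_true] at hab
        exact ρ.injective (Prod.ext (hra'.trans hrb'.symm) (v.injective hab))
  unfold avgH
  simp only [regL_GateA_xS, hinj]
  have hcard : ∀ u : Perm V, ((Z0.image u)ᶜ).card = Fintype.card V - S0.card := by
    intro u
    rw [Finset.card_compl, Finset.card_image_of_injective _ u.injective, hp]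
  have hinner : ∀ u : Perm V, ∑ v : Perm V, (if Z1.image v ⊆ (Z0.image u)ᶜ then ((2 : ℝ) ^ S.card)⁻¹ else 0)
      = (Fintype.card (Perm V) : ℝ) * (((2 : ℝ) ^ S.card)⁻¹ *
        (((Fintype.card V - S0.card).choose S1.card : ℝ) / ((Fintype.card V).choose S1.card : ℝ))) := by
    intro u
    have h := perm_count Z1 ((Z0.image u)ᶜ)
    rw [hcard, hq] at h
    rw [← h]
    have hpos : (Fintype.card (Perm V) : ℝ) ≠ 0 := by
      have : 0 < Fintype.card (Perm V) := Fintype.card_pos
      positivity
    field_simp
    rw [Finset.mul_sum]
    apply Finset.sum_congr rfl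
    intro v _
    split_ifs <;> simp
  simp only [hinner]
  simp only [Finset.sum_const, Finset.card_univ, nsmul_eq_mul]
  have hpos : (Fintype.card (Perm V) : ℝ) ≠ 0 := by
    have : 0 < Fintype.card (Perm V) := Fintype.card_pos
    positivity
  have hj : S.card - S0.card = S1.card := by omega
  unfold psiJ
  rw [hj]
  field_simp

end johnson

end Crest.Agent.Lib.Thorp
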