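import Mathlib
import Crest.Agent.Lib.Thorp.Johnson

set_option autoImplicit false

/-!
# Spectrum of the Johnson walk, by triangularity in the degree (S0222)
-/

namespace Crest.Agent.Lib.Thorp

open Finset Equiv MonoidAlgebra fwdDiff

section

variable {V : Type*} [Fintype V] [DecidableEq V]

local notation "WW" => Perm (Bool × V)

/-- Newton coefficients of `psiJ` -/
noncomputable def cJ (s j t : ℕ) : ℝ := (fwdDiff (1 : ℕ))^[t] (psiJ s j) 0

theorem cJ_top (s j : ℕ) : cJ s j j = kapJ s j := rfl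

theorem psiJ_newton (s j p : ℕ) :
    psiJ s j p = ∑ t ∈ Finset.range (p + 1), (p.choose t : ℝ) * cJ s j t := by
  have h := shift_eq_sum_fwdDiff_iter (1 : ℕ) (psiJ s j) p 0
  simp only [smul_eq_mul, mul_one, zero_add, nsmul_eq_mul] at h
  exact h

theorem xS_apply (S : Finset (Bool × V)) (ρ : WW) :
    xS S ρ = if ∀ a ∈ S, (ρ a).1 = false then 1 else 0 := rfl

theorem avgH_G_xS_expand (S : Finset (Bool × V)) (ρ : WW) :
    avgH (regL (GateA : RG WW) (xS S)) ρ
      = ∑ T ∈ S.powerset, cJ (Fintype.card V) S.card T.card * xS T ρ := by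
  classical
  rw [avgH_G_xS]
  set S0 := S.filter fun a => (ρ a).1 = false with hS0
  have hsub : S0 ⊆ S := Finset.filter_subset _ _
  have e1 : ∀ T ∈ S.powerset, cJ (Fintype.card V) S.card T.card * xS T ρ
      = if T ∈ S0.powerset then cJ (Fintype.card V) S.card T.card else 0 := by
    intro T hT
    have hTS := Finset.mem_powerset.mp hT
    have : (∀ a ∈ T, (ρ a).1 = false) ↔ T ∈ S0.powerset := by
      rw [Finset.mem_powerset]
      constructor
      · intro h a ha
        exact Finset.mem_filter.mpr ⟨hTS ha, h a ha⟩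
      · intro h a ha
        exact (Finset.mem_filter.mp (h ha)).2
    rw [xS_apply]
    simp only [this]
    split_ifs <;> simp
  rw [Finset.sum_congr rfl e1, Finset.sum_ite_mem]
  have e2 : S.powerset ∩ S0.powerset = S0.powerset :=
    Finset.inter_eq_right.mpr (Finset.powerset_mono.mpr hsub)
  rw [e2, Finset.sum_powerset_apply_card]
  rw [psiJ_newton]
  apply Finset.sum_congr rfl
  intro t _
  rw [nsmul_eq_mul]

/-! ### basic API of `avgH` -/

theorem two_mul_two (u v a b : Perm V) : two u v * two a b = two (u * a) (v * b) := two_mul _ _ _ _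

theorem avgH_invariant (w : WW → ℝ) (a b : Perm V) (ρ : WW) :
    avgH w (two a b * ρ) = avgH w ρ := by
  unfold avgH
  congr 1
  apply Fintype.sum_equiv (Equiv.mulRight a)
  intro u
  apply Fintype.sum_equiv (Equiv.mulRight b)
  intro v
  simp only [Equiv.coe_mulRight]
  rw [← mul_assoc, two_mul_two]

theorem avgH_of_invariant {w : WW → ℝ} (hw : ∀ u v ρ, w (two u v * ρ) = w ρ) : avgH w = w := by
  funext ρ
  unfold avgH
  simp only [hw, Finset.sum_const, Finset.card_univ, nsmul_eq_mul]
  have hpos : (Fintype.card (Perm V) : ℝ) ≠ 0 := by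
    have : 0 < Fintype.card (Perm V) := Fintype.card_pos
    positivity
  field_simp

theorem avgH_avgH (w : WW → ℝ) : avgH (avgH w) = avgH w :=
  avgH_of_invariant (avgH_invariant w)

theorem avgH_add (f h : WW → ℝ) : avgH (f + h) = avgH f + avgH h := by
  funext ρ
  simp [avgH, mul_add, Finset.sum_add_distrib]

theorem avgH_smul (r : ℝ) (h : WW → ℝ) : avgH (r • h) = r • avgH h := by
  funext ρ
  simp [avgH, Finset.mul_sum, mul_left_comm]

theorem avgH_sub (f h : WW → ℝ) : avgH (f - h) = avgH f - avgH h := by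
  funext ρ
  simp [avgH, mul_sub, Finset.sum_sub_distrib]

theorem xS_invariant (S : Finset (Bool × V)) (u v : Perm V) (ρ : WW) :
    xS S (two u v * ρ) = xS S ρ := by
  unfold xS
  have h : ∀ a, ((two u v * ρ) a).1 = (ρ a).1 := fun a => rfl
  by_cases hS : ∀ a ∈ S, (ρ a).1 = false
  · rw [if_pos hS, if_pos]
    intro a ha
    rw [h]; exact hS a ha
  · rw [if_neg hS, if_neg]
    intro h2
    apply hS
    intro a ha
    rw [← h]; exact h2 a ha

theorem avgH_xS (S : Finset (Bool × V)) : avgH (xS S) = xS S :=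
  avgH_of_invariant (xS_invariant S)

theorem sum3_comm (F : Perm V → Perm V → WW → ℝ) :
    ∑ u : Perm V, ∑ v : Perm V, ∑ ρ, F u v ρ = ∑ ρ, ∑ u : Perm V, ∑ v : Perm V, F u v ρ := by
  calc _ = ∑ u : Perm V, ∑ ρ, ∑ v : Perm V, F u v ρ :=
        Finset.sum_congr rfl (fun u _ => Finset.sum_comm)
    _ = _ := Finset.sum_comm

theorem inn_avgH (f h : WW → ℝ) : inn f (avgH h) = inn (avgH f) h := by
  set C : ℝ := ((Fintype.card (Perm V) : ℝ) ^ 2)⁻¹ with hC
  have l : inn f (avgH h) = C * ∑ u : Perm V, ∑ v : Perm V, ∑ ρ, f ρ * h (two u v * ρ) := by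
    rw [sum3_comm, Finset.mul_sum]
    unfold inn avgH
    rw [← hC]
    apply Finset.sum_congr rfl
    intro ρ _
    simp only [Finset.mul_sum]
    apply Finset.sum_congr rfl
    intro u _
    apply Finset.sum_congr rfl
    intro v _
    ring
  have r : inn (avgH f) h = C * ∑ u : Perm V, ∑ v : Perm V, ∑ ρ, f (two u v * ρ) * h ρ := by
    rw [sum3_comm, Finset.mul_sum]
    unfold inn avgH
    rw [← hC]
    apply Finset.sum_congr rfl
    intro ρ _
    simp only [Finset.mul_sum, Finset.sum_mul]
    apply Finset.sum_congr rfl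
    intro u _
    apply Finset.sum_congr rfl
    intro v _
    ring
  rw [l, r]
  congr 1
  apply Fintype.sum_equiv (Equiv.inv (Perm V))
  intro u
  apply Fintype.sum_equiv (Equiv.inv (Perm V))
  intro v
  apply Fintype.sum_equiv (Equiv.mulLeft (two u v))
  intro ρ
  simp only [Equiv.coe_mulLeft, Equiv.inv_apply, ← mul_assoc, two_mul_two, inv_mul_cancel]
  have : two (1 : Perm V) 1 = 1 := two_one
  simp only [this, one_mul]

theorem sum_avgH (w : WW → ℝ) : ∑ ρ, avgH w ρ = ∑ ρ, w ρ := by
  unfold avgH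
  rw [← Finset.mul_sum, Finset.sum_comm]
  have h1 : ∀ u : Perm V, ∑ ρ, ∑ v : Perm V, w (two u v * ρ) = (Fintype.card (Perm V) : ℝ) * ∑ ρ, w ρ := by
    intro u
    rw [Finset.sum_comm]
    have h2 : ∀ v : Perm V, ∑ ρ, w (two u v * ρ) = ∑ ρ, w ρ := fun v =>
      Fintype.sum_equiv (Equiv.mulLeft (two u v)) _ _ (fun _ => rfl)
    simp only [h2, Finset.sum_const, Finset.card_univ, nsmul_eq_mul]
  simp only [h1, Finset.sum_const, Finset.card_univ, nsmul_eq_mul]
  have hpos : (Fintype.card (Perm V) : ℝ) ≠ 0 := by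
    have : 0 < Fintype.card (Perm V) := Fintype.card_pos
    positivity
  field_simp

theorem inn_GateA (f h : WW → ℝ) :
    inn f (regL (GateA : RG WW) h) = inn (regL (GateA : RG WW) f) h := by
  rw [inn_regL, rev_GateA]

theorem rg_gate_mul_gate (c c' : V → Bool) :
    gate c * gate c' = gate (fun v => xor (c v) (c' v)) := by
  ext1 x
  rcases x with ⟨r, v⟩
  simp only [Perm.mul_apply, gate_apply, Prod.mk.injEq, and_true]
  cases r <;> cases c v <;> cases c' v <;> rfl

theorem regL_GateA_idem (h : WW → ℝ) :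
    regL (GateA : RG WW) (regL (GateA : RG WW) h) = regL (GateA : RG WW) h := by
  funext ρ
  rw [regL_GateA]
  simp only [regL_GateA, ← mul_assoc, rg_gate_mul_gate]
  have hc : ∀ c : V → Bool, ∑ c' : V → Bool, h (gate (fun v => xor (c' v) (c v)) * ρ)
      = ∑ c' : V → Bool, h (gate c' * ρ) := by
    intro c
    let e : (V → Bool) ≃ (V → Bool) :=
      { toFun := fun c' v => xor (c' v) (c v)
        invFun := fun c' v => xor (c' v) (c v)
        left_inv := by intro c'; funext v; simp
        right_inv := by intro c'; funext v; simp }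
    exact Fintype.sum_equiv e _ _ (fun _ => rfl)
  simp only [hc, Finset.sum_const, Finset.card_univ, nsmul_eq_mul, Fintype.card_fun, Fintype.card_bool]
  have : ((2 : ℝ) ^ Fintype.card V) ≠ 0 := by positivity
  push_cast
  field_simp

theorem sum_regL_GateA (h : WW → ℝ) : ∑ ρ, regL (GateA : RG WW) h ρ = ∑ ρ, h ρ := by
  rw [sum_regL, (rg_isLaw_GateA (V := V)).sum_one, one_mul]


/-! ### the operator `MJ` -/

/-- the Johnson operator minus its constant part -/
noncomputable def MJ : (WW → ℝ) →ₗ[ℝ] (WW → ℝ) where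
  toFun y := avgH (regL (GateA : RG WW) (avgH y))
    - ((∑ ρ, y ρ) / (Fintype.card WW : ℝ)) • (fun _ => (1 : ℝ))
  map_add' f h := by
    rw [avgH_add, regL_add_fun, avgH_add]
    simp only [Pi.add_apply, Finset.sum_add_distrib, add_div, add_smul]
    abel
  map_smul' r h := by
    rw [avgH_smul, regL_smul_fun, avgH_smul]
    simp only [Pi.smul_apply, smul_eq_mul, RingHom.id_apply, ← Finset.mul_sum, mul_div_assoc,
      mul_smul, smul_sub]

theorem MJ_apply (y : WW → ℝ) : MJ y = avgH (regL (GateA : RG WW) (avgH y))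
    - ((∑ ρ, y ρ) / (Fintype.card WW : ℝ)) • (fun _ => (1 : ℝ)) := rfl

theorem sum_mul_one (f : WW → ℝ) (c : ℝ) :
    ∑ σ, f σ * (c • (fun _ : WW => (1 : ℝ))) σ = c * ∑ σ, f σ := by
  simp [Finset.mul_sum, mul_comm]

theorem MJ_symm (f h : WW → ℝ) : ∑ σ, f σ * MJ h σ = ∑ σ, MJ f σ * h σ := by
  have e1 : ∀ f h : WW → ℝ, ∑ σ, f σ * MJ h σ
      = inn f (avgH (regL (GateA : RG WW) (avgH h)))
        - ((∑ ρ, h ρ) / (Fintype.card WW : ℝ)) * ∑ σ, f σ := by
    intro f h
    rw [MJ_apply]
    simp only [Pi.sub_apply, mul_sub, Finset.sum_sub_distrib]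
    rw [sum_mul_one]
    rfl
  rw [e1]
  have e2 : ∑ σ, MJ f σ * h σ = ∑ σ, h σ * MJ f σ :=
    Finset.sum_congr rfl fun _ _ => mul_comm _ _
  rw [e2, e1]
  have e3 : inn f (avgH (regL (GateA : RG WW) (avgH h)))
      = inn h (avgH (regL (GateA : RG WW) (avgH f))) := by
    rw [inn_avgH, inn_GateA, inn_avgH, inn_comm]
  rw [e3]
  ring

variable (V) in
/-- the degree filtration -/
def degSpan (j : ℕ) : Submodule ℝ (WW → ℝ) :=
  Submodule.span ℝ {f | ∃ S : Finset (Bool × V), S.card ≤ j ∧ f = xS S}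

theorem degSpan_mono {i j : ℕ} (h : i ≤ j) : degSpan V i ≤ degSpan V j := by
  apply Submodule.span_mono
  rintro f ⟨S, hS, rfl⟩
  exact ⟨S, hS.trans h, rfl⟩

theorem xS_mem_degSpan (S : Finset (Bool × V)) {j : ℕ} (h : S.card ≤ j) : xS S ∈ degSpan V j :=
  Submodule.subset_span ⟨S, h, rfl⟩

theorem xS_empty : xS (∅ : Finset (Bool × V)) = fun _ => (1 : ℝ) := by
  funext ρ
  simp [xS]

theorem MJ_xS (S : Finset (Bool × V)) :
    MJ (xS S) = ∑ T ∈ S.powerset, cJ (Fintype.card V) S.card T.card • xS T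
      - ((∑ ρ, xS S ρ) / (Fintype.card WW : ℝ)) • xS (∅ : Finset (Bool × V)) := by
  rw [MJ_apply, avgH_xS, xS_empty]
  congr 1
  funext ρ
  rw [avgH_G_xS_expand, Finset.sum_apply]
  rfl

theorem MJ_xS_mem (S : Finset (Bool × V)) : MJ (xS S) ∈ degSpan V S.card := by
  rw [MJ_xS]
  apply Submodule.sub_mem
  · apply Submodule.sum_mem
    intro T hT
    apply Submodule.smul_mem
    exact xS_mem_degSpan T (Finset.card_le_card (Finset.mem_powerset.mp hT))
  · apply Submodule.smul_mem
    exact xS_mem_degSpan _ (by simp)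

theorem MJ_xS_sub (S : Finset (Bool × V)) (hS : 1 ≤ S.card) :
    MJ (xS S) - kapJ (Fintype.card V) S.card • xS S ∈ degSpan V (S.card - 1) := by
  rw [MJ_xS]
  have h1 : ∑ T ∈ S.powerset, cJ (Fintype.card V) S.card T.card • xS T
      = kapJ (Fintype.card V) S.card • xS S
        + ∑ T ∈ S.powerset.erase S, cJ (Fintype.card V) S.card T.card • xS T := by
    rw [Finset.add_sum_erase _ _ (Finset.mem_powerset_self S) |>.symm]
    rfl
  rw [h1]
  have e : kapJ (Fintype.card V) S.card • xS S
        + ∑ T ∈ S.powerset.erase S, cJ (Fintype.card V) S.card T.card • xS T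
        - ((∑ ρ, xS S ρ) / (Fintype.card WW : ℝ)) • xS (∅ : Finset (Bool × V))
        - kapJ (Fintype.card V) S.card • xS S
      = ∑ T ∈ S.powerset.erase S, cJ (Fintype.card V) S.card T.card • xS T
        - ((∑ ρ, xS S ρ) / (Fintype.card WW : ℝ)) • xS (∅ : Finset (Bool × V)) := by
    abel
  rw [e]
  apply Submodule.sub_mem
  · apply Submodule.sum_mem
    intro T hT
    apply Submodule.smul_mem
    apply xS_mem_degSpan
    have hT' := Finset.mem_erase.mp hT
    have hlt : T.card < S.card :=
      Finset.card_lt_card (Finset.ssubset_iff_subset_ne.mpr ⟨Finset.mem_powerset.mp hT'.2, hT'.1⟩)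
    omega
  · apply Submodule.smul_mem
    exact xS_mem_degSpan _ (by simp)

/-- triangularity of `MJ` in the degree -/
theorem MJ_step (j : ℕ) (hj : 1 ≤ j) (y : WW → ℝ) (hy : y ∈ degSpan V j) :
    MJ y - kapJ (Fintype.card V) j • y ∈ degSpan V (j - 1) := by
  unfold degSpan at hy
  induction hy using Submodule.span_induction with
  | mem f hf =>
    obtain ⟨S, hS, rfl⟩ := hf
    rcases hS.eq_or_lt with h | h
    · subst h
      exact MJ_xS_sub S hj
    · apply Submodule.sub_mem
      · exact degSpan_mono (by omega) (MJ_xS_mem S)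
      · apply Submodule.smul_mem
        exact xS_mem_degSpan S (by omega)
  | zero => simp
  | add x y _ _ hx hy =>
    have : MJ (x + y) - kapJ (Fintype.card V) j • (x + y)
        = (MJ x - kapJ (Fintype.card V) j • x) + (MJ y - kapJ (Fintype.card V) j • y) := by
      rw [map_add, smul_add]; abel
    rw [this]
    exact Submodule.add_mem _ hx hy
  | smul a x _ hx =>
    have : MJ (a • x) - kapJ (Fintype.card V) j • (a • x)
        = a • (MJ x - kapJ (Fintype.card V) j • x) := by
      rw [map_smul, smul_sub, smul_comm]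
    rw [this]
    exact Submodule.smul_mem _ _ hx

theorem MJ_zero (y : WW → ℝ) (hy : y ∈ degSpan V 0) : MJ y = 0 := by
  unfold degSpan at hy
  induction hy using Submodule.span_induction with
  | mem f hf =>
    obtain ⟨S, hS, rfl⟩ := hf
    have hS0 : S = ∅ := Finset.card_eq_zero.mp (by omega)
    subst hS0
    rw [MJ_apply, avgH_xS, xS_empty]
    funext ρ
    have e1 : avgH (regL (GateA : RG WW) (fun _ => (1 : ℝ))) ρ = 1 := by
      unfold avgH
      have : ∀ τ : WW, regL (GateA : RG WW) (fun _ => (1 : ℝ)) τ = 1 := by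
        intro τ
        simp only [regL, mul_one]
        exact (rg_isLaw_GateA (V := V)).sum_one
      simp only [this]
      simp only [Finset.sum_const, Finset.card_univ, nsmul_eq_mul, mul_one]
      have hpos : (Fintype.card (Perm V) : ℝ) ≠ 0 := by
        have : 0 < Fintype.card (Perm V) := Fintype.card_pos
        positivity
      field_simp
    simp only [Pi.sub_apply, e1, Pi.smul_apply, smul_eq_mul, mul_one, Pi.zero_apply]
    simp only [Finset.sum_const, Finset.card_univ, nsmul_eq_mul, mul_one]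
    have hpos : (Fintype.card WW : ℝ) ≠ 0 := by
      have : 0 < Fintype.card WW := Fintype.card_pos
      positivity
    field_simp
    norm_num
  | zero => simp
  | add x y _ _ hx hy => rw [map_add, hx, hy, add_zero]
  | smul a x _ hx => rw [map_smul, hx, smul_zero]

/-! ### invariant functions have finite degree -/

/-- the set of cards in row `false` -/
def rowB (ρ : WW) : Finset (Bool × V) := Finset.univ.filter fun a => (ρ a).1 = false

theorem card_rowB (ρ : WW) : (rowB ρ).card = Fintype.card V := by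
  have h1 : (rowB ρ).card = (Finset.univ.filter fun x : Bool × V => x.1 = false).card := by
    apply Finset.card_equiv ρ
    intro a
    simp [rowB]
  rw [h1]
  have h2 : (Finset.univ.filter fun x : Bool × V => x.1 = false)
      = (Finset.univ : Finset V).image (fun v => (false, v)) := by
    ext ⟨r, v⟩
    simp
  rw [h2, Finset.card_image_of_injective, Finset.card_univ]
  intro a b h
  exact (Prod.mk.inj h).2

/-- row-preserving permutations are `two u v` -/
theorem exists_two (π : WW) (h : ∀ x, (π x).1 = x.1) : ∃ u v : Perm V, π = two u v := by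
  have h' : ∀ x, (π⁻¹ x).1 = x.1 := by
    intro x
    have := h (π⁻¹ x)
    have e : π (π⁻¹ x) = x := by simp
    rw [e] at this
    exact this.symm
  have mk : ∀ r : Bool, ∃ u : Perm V, ∀ w, π (r, w) = (r, u w) := by
    intro r
    refine ⟨{ toFun := fun w => (π (r, w)).2
              invFun := fun w => (π⁻¹ (r, w)).2
              left_inv := ?_
              right_inv := ?_ }, ?_⟩
    · intro w
      have e : (r, (π (r, w)).2) = π (r, w) := Prod.ext (h (r, w)).symm rfl
      simp only [e]
      have e2 : π⁻¹ (π (r, w)) = (r, w) := by simp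
      rw [e2]
    · intro w
      have e : (r, (π⁻¹ (r, w)).2) = π⁻¹ (r, w) := Prod.ext (h' (r, w)).symm rfl
      simp only [e]
      have e2 : π (π⁻¹ (r, w)) = (r, w) := by simp
      rw [e2]
    · intro w
      exact Prod.ext (h (r, w)) rfl
  obtain ⟨u, hu⟩ := mk false
  obtain ⟨v, hv⟩ := mk true
  refine ⟨u, v, ?_⟩
  ext1 x
  rcases x with ⟨r, w⟩
  cases r
  · rw [hu]; rfl
  · rw [hv]; rfl

theorem rows_eq_of_subset {ρ ρ' : WW} (h : rowB ρ' ⊆ rowB ρ) : ∀ a, (ρ' a).1 = (ρ a).1 := by
  have heq : rowB ρ' = rowB ρ :=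
    Finset.eq_of_subset_of_card_le h (by rw [card_rowB, card_rowB])
  intro a
  have : a ∈ rowB ρ' ↔ a ∈ rowB ρ := by rw [heq]
  simp only [rowB, Finset.mem_filter, Finset.mem_univ, true_and] at this
  cases h1 : (ρ' a).1 <;> cases h2 : (ρ a).1 <;> simp_all

theorem exists_two_of_rowB {ρ ρ' : WW} (h : rowB ρ' = rowB ρ) :
    ∃ u v : Perm V, ρ' = two u v * ρ := by
  have hr := rows_eq_of_subset (ρ := ρ) (ρ' := ρ') h.subset
  obtain ⟨u, v, huv⟩ := exists_two (ρ' * ρ⁻¹) (by
    intro x
    have := hr (ρ⁻¹ x)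
    simpa using this)
  refine ⟨u, v, ?_⟩
  rw [← huv]
  simp

theorem invariant_mem_degSpan {v : WW → ℝ} (hv : ∀ a b ρ, v (two a b * ρ) = v ρ) :
    v ∈ degSpan V (Fintype.card V) := by
  classical
  let Ω : Finset (Finset (Bool × V)) := Finset.univ.image rowB
  let φ : Finset (Bool × V) → ℝ := fun B => if h : ∃ ρ, rowB ρ = B then v h.choose else 0
  have hφ : ∀ ρ : WW, φ (rowB ρ) = v ρ := by
    intro ρ
    have hex : ∃ ρ', rowB ρ' = rowB ρ := ⟨ρ, rfl⟩
    simp only [φ, dif_pos hex]
    obtain ⟨u, w, huw⟩ := exists_two_of_rowB hex.choose_spec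
    rw [huw, hv]
  have hrep : v = ∑ B ∈ Ω, φ B • xS B := by
    funext ρ
    rw [Finset.sum_apply, Finset.sum_eq_single (rowB ρ)]
    · simp only [Pi.smul_apply, smul_eq_mul, hφ]
      have : xS (rowB ρ) ρ = 1 := by
        unfold xS
        rw [if_pos]
        intro a ha
        simpa [rowB] using ha
      rw [this, mul_one]
    · intro B hB hne
      obtain ⟨ρ', _, rfl⟩ := Finset.mem_image.mp hB
      have : xS (rowB ρ') ρ = 0 := by
        unfold xS
        rw [if_neg]
        intro h
        apply hne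
        apply Finset.eq_of_subset_of_card_le
        · intro a ha
          simp only [rowB, Finset.mem_filter, Finset.mem_univ, true_and]
          exact h a ha
        · rw [card_rowB, card_rowB]
      simp [this]
    · intro h
      exact absurd (Finset.mem_image_of_mem _ (Finset.mem_univ ρ)) h
  rw [hrep]
  apply Submodule.sum_mem
  intro B hB
  apply Submodule.smul_mem
  obtain ⟨ρ', _, rfl⟩ := Finset.mem_image.mp hB
  exact xS_mem_degSpan _ (card_rowB ρ').le

theorem MJ_invariant (y : WW → ℝ) (a b : Perm V) (ρ : WW) : MJ y (two a b * ρ) = MJ y ρ := by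
  rw [MJ_apply]
  simp only [Pi.sub_apply, Pi.smul_apply]
  rw [avgH_invariant]

/-- every eigenvalue of `MJ` is `≤ κ` -/
theorem MJ_eigen_le {κ : ℝ} (hκ0 : 0 ≤ κ)
    (hκ : ∀ j, 1 ≤ j → j ≤ Fintype.card V → kapJ (Fintype.card V) j ≤ κ)
    (μ : ℝ) (v : WW → ℝ) (hv : v ≠ 0) (hM : MJ v = μ • v) : μ ≤ κ := by
  classical
  by_contra hlt
  rw [not_le] at hlt
  have hμ : 0 < μ := lt_of_le_of_lt hκ0 hlt
  have hvinv : ∀ a b ρ, v (two a b * ρ) = v ρ := by
    intro a b ρ
    have e : v = μ⁻¹ • MJ v := by rw [hM, smul_smul, inv_mul_cancel₀ hμ.ne', one_smul]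
    rw [e]
    simp only [Pi.smul_apply]
    rw [MJ_invariant]
  have hmem := invariant_mem_degSpan hvinv
  have hex : ∃ j, v ∈ degSpan V j := ⟨_, hmem⟩
  set j := Nat.find hex with hj
  have hjmem : v ∈ degSpan V j := Nat.find_spec hex
  have hjle : j ≤ Fintype.card V := Nat.find_min' hex hmem
  rcases Nat.eq_zero_or_pos j with h0 | hpos
  · rw [h0] at hjmem
    have := MJ_zero v hjmem
    rw [hM] at this
    rcases smul_eq_zero.mp this with h | h
    · exact hμ.ne' h
    · exact hv h
  · have hstep := MJ_step j hpos v hjmem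
    rw [hM, ← sub_smul] at hstep
    have hne : μ - kapJ (Fintype.card V) j ≠ 0 := by
      have := hκ j hpos hjle
      intro h
      linarith
    have : v ∈ degSpan V (j - 1) := by
      have e : v = (μ - kapJ (Fintype.card V) j)⁻¹ • ((μ - kapJ (Fintype.card V) j) • v) := by
        rw [smul_smul, inv_mul_cancel₀ hne, one_smul]
      rw [e]
      exact Submodule.smul_mem _ _ hstep
    exact Nat.find_min hex (show j - 1 < j by omega) this

/-- the spectral bound for the Johnson walk -/
theorem johnson_gap (w : WW → ℝ) :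
    inn w (avgH (regL (GateA : RG WW) (avgH w)))
      ≤ (∑ ρ, w ρ) ^ 2 / (Fintype.card WW : ℝ) + kapS (Fintype.card V) * inn w w := by
  have h := quad_le_of_eigen (G := WW) MJ MJ_symm (kapS (Fintype.card V))
    (MJ_eigen_le (kapS_nonneg _) (fun j h1 h2 => kapJ_le _ j h1 h2)) w
  have e : ∑ σ, w σ * MJ w σ = inn w (avgH (regL (GateA : RG WW) (avgH w)))
      - (∑ ρ, w ρ) ^ 2 / (Fintype.card WW : ℝ) := by
    rw [MJ_apply]
    simp only [Pi.sub_apply, mul_sub, Finset.sum_sub_distrib]
    rw [sum_mul_one]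
    have : ∑ x, w x * avgH (regL (GateA : RG WW) (avgH w)) x = inn w (avgH (regL (GateA : RG WW) (avgH w))) := rfl
    rw [this]
    ring
  rw [e] at h
  have h2 : ∑ σ, w σ * w σ = inn w w := rfl
  rw [h2] at h
  linarith

end

end Crest.Agent.Lib.Thorp
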