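import Mathlib
import Crest.Agent.Lib.Thorp.GapTwo
import Crest.Agent.Lib.Thorp.JohnsonSpec

set_option autoImplicit false

/-!
# The uniform gap of the Benes law (S0222)

`GapForm (bA k) (gK k)`, `gK k ≤ 0.4225`, for all `k`: on mean-zero functions on the group, `T_k` has
norm at most `0.4225`.
-/

namespace Crest.Agent.Lib.Thorp

open Finset Equiv MonoidAlgebra

section

variable {V : Type*} [Fintype V] [DecidableEq V]

local notation "WW" => Perm (Bool × V)

/-- fibre decomposition of a sum -/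
theorem sum_fibre (φ : WW → ℝ) :
    ∑ ρ, φ ρ = ((Fintype.card (Perm V) : ℝ) ^ 2)⁻¹ * ∑ ρ, ∑ u : Perm V, ∑ v : Perm V, φ (two u v * ρ) := by
  have := sum_avgH φ
  unfold avgH at this
  rw [← this, Finset.mul_sum]

/-- the Ten step -/
theorem ten_le {ν : RG (Perm V)} (hν : IsLaw ν) {g : ℝ} (hg : 0 ≤ g)
    (hgap : GapForm (rev ν * ν) g) (F : WW → ℝ) :
    inn F (regL (Ten (rev ν * ν)) F) ≤ (1 - g) * inn (avgH F) (avgH F) + g * inn F F := by
  set T := rev ν * ν with hT
  set n : ℝ := (Fintype.card (Perm V) : ℝ) with hn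
  have hn0 : n ≠ 0 := by
    have : 0 < Fintype.card (Perm V) := Fintype.card_pos
    rw [hn]
    positivity
  have e1 : inn F (regL (Ten T) F) = (n ^ 2)⁻¹ * ∑ ρ, ∑ u : Perm V, ∑ v : Perm V,
      F (two u v * ρ) * LL T (fun p q => F (two p q * ρ)) u v := by
    unfold inn
    rw [sum_fibre]
    congr 1
    apply Finset.sum_congr rfl
    intro ρ _
    apply Finset.sum_congr rfl
    intro u _
    apply Finset.sum_congr rfl
    intro v _
    congr 1
    rw [regL_Ten]
    unfold LL
    apply Finset.sum_congr rfl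
    intro σ _
    apply Finset.sum_congr rfl
    intro τ _
    rw [← mul_assoc, two_mul_two]
  have e2 : inn F F = (n ^ 2)⁻¹ * ∑ ρ, ∑ u : Perm V, ∑ v : Perm V, F (two u v * ρ) ^ 2 := by
    unfold inn
    rw [sum_fibre]
    congr 1
    apply Finset.sum_congr rfl
    intro ρ _
    apply Finset.sum_congr rfl
    intro u _
    apply Finset.sum_congr rfl
    intro v _
    rw [sq]
  have e3 : inn (avgH F) (avgH F)
      = (n ^ 2)⁻¹ * ∑ ρ, (∑ u : Perm V, ∑ v : Perm V, F (two u v * ρ)) ^ 2 / n ^ 2 := by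
    unfold inn avgH
    rw [Finset.mul_sum]
    apply Finset.sum_congr rfl
    intro ρ _
    rw [← hn]
    field_simp
  rw [e1, e2, e3]
  have hpt : ∀ ρ : WW, ∑ u : Perm V, ∑ v : Perm V, F (two u v * ρ) * LL T (fun p q => F (two p q * ρ)) u v
      ≤ (1 - g) * (∑ u : Perm V, ∑ v : Perm V, F (two u v * ρ)) ^ 2 / n ^ 2
        + g * ∑ u : Perm V, ∑ v : Perm V, F (two u v * ρ) ^ 2 := by
    intro ρ
    exact two_var hν hg hgap (fun p q => F (two p q * ρ))
  have hsum := Finset.sum_le_sum (fun ρ (_ : ρ ∈ Finset.univ) => hpt ρ)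
  have hC : (0 : ℝ) ≤ (n ^ 2)⁻¹ := by positivity
  have := mul_le_mul_of_nonneg_left hsum hC
  refine this.trans (le_of_eq ?_)
  rw [Finset.sum_add_distrib, mul_add]
  congr 1
  · rw [Finset.mul_sum, Finset.mul_sum, Finset.mul_sum]
    apply Finset.sum_congr rfl
    intro ρ _
    ring
  · rw [← Finset.mul_sum]
    ring

/-- the Johnson step on the whole regular representation -/
theorem johnson_norm (h : WW → ℝ) :
    inn (avgH (regL (GateA : RG WW) h)) (avgH (regL (GateA : RG WW) h))
      ≤ (1 - kapS (Fintype.card V)) * (∑ ρ, h ρ) ^ 2 / (Fintype.card WW : ℝ)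
        + kapS (Fintype.card V) * inn h h := by
  set κ := kapS (Fintype.card V) with hκ
  have hκ0 : 0 ≤ κ := kapS_nonneg _
  set N : ℝ := (Fintype.card WW : ℝ) with hN
  have hN0 : 0 < N := by
    have : 0 < Fintype.card WW := Fintype.card_pos
    rw [hN]
    positivity
  set G := regL (GateA : RG WW) with hG
  set c : ℝ := (∑ ρ, h ρ) / N with hc
  set one : WW → ℝ := fun _ => 1 with hone
  set h0 : WW → ℝ := h - c • one with hh0
  have hsum1 : ∑ ρ : WW, one ρ = N := by simp [hone, hN]
  have hh0sum : ∑ ρ, h0 ρ = 0 := by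
    simp only [hh0, Pi.sub_apply, Pi.smul_apply, smul_eq_mul, Finset.sum_sub_distrib, ← Finset.mul_sum]
    rw [hsum1, hc]
    field_simp
    ring
  have hGone : G one = one := by
    funext ρ
    rw [hG, regL]
    simp only [hone, mul_one]
    exact (rg_isLaw_GateA (V := V)).sum_one
  have hHone : avgH one = one := avgH_of_invariant (fun _ _ _ => rfl)
  set w := avgH (G h0) with hw
  have hwinv : avgH w = w := avgH_avgH _
  have hwsum : ∑ ρ, w ρ = 0 := by
    rw [hw, sum_avgH, hG, sum_regL_GateA, hh0sum]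
  have hRh : avgH (G h) = c • one + w := by
    have : h = h0 + c • one := by rw [hh0]; abel
    conv_lhs => rw [this]
    rw [hG, regL_add_fun, regL_smul_fun, avgH_add, avgH_smul, ← hG, hGone, hHone, ← hw, add_comm]
  -- the norm of `w`
  have h1 : inn w w = inn (G w) h0 := by
    calc inn w w = inn w (avgH (G h0)) := by rw [← hw]
      _ = inn (avgH w) (G h0) := inn_avgH _ _
      _ = inn w (G h0) := by rw [hwinv]
      _ = inn (G w) h0 := inn_GateA _ _
  have h2 : inn (G w) (G w) ≤ κ * inn w w := by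
    have hj := johnson_gap w
    rw [hwinv, hwsum] at hj
    have e : inn (G w) (G w) = inn w (avgH (G w)) := by
      calc inn (G w) (G w) = inn w (G (G w)) := (inn_GateA _ _).symm
        _ = inn w (G w) := by rw [hG, regL_GateA_idem]
        _ = inn (avgH w) (G w) := by rw [hwinv]
        _ = inn w (avgH (G w)) := (inn_avgH _ _).symm
    rw [e]
    simpa using hj
  have h3 : inn w w ≤ κ * inn h0 h0 := by
    have hcs := inn_sq_le (G w) h0
    rw [← h1] at hcs
    have n1 := inn_self_nonneg w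
    have n2 := inn_self_nonneg h0
    have h4 : inn w w ^ 2 ≤ (κ * inn w w) * inn h0 h0 :=
      hcs.trans (mul_le_mul_of_nonneg_right h2 n2)
    rcases n1.eq_or_lt with h0' | hpos
    · rw [← h0']; exact mul_nonneg hκ0 n2
    · have : inn w w * inn w w ≤ inn w w * (κ * inn h0 h0) := by
        calc inn w w * inn w w = inn w w ^ 2 := (sq _).symm
          _ ≤ _ := h4
          _ = _ := by ring
      exact le_of_mul_le_mul_left this hpos
  -- assemble
  have hinnone : ∀ f : WW → ℝ, inn one f = ∑ ρ, f ρ := by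
    intro f; simp [inn, hone]
  have i1 : inn one one = N := by rw [hinnone]; exact hsum1
  have i2 : inn one w = 0 := by rw [hinnone]; exact hwsum
  have i3 : inn w one = 0 := by rw [inn_comm]; exact i2
  have i4 : inn one h = ∑ ρ, h ρ := hinnone h
  have i5 : inn h one = ∑ ρ, h ρ := by rw [inn_comm]; exact i4
  have h5 : inn (c • one + w) (c • one + w) = c ^ 2 * N + inn w w := by
    simp only [inn_add_left, inn_add_right, inn_smul_left, inn_smul_right]
    rw [i1, i2, i3]
    ring
  have h6 : inn h0 h0 = inn h h - c ^ 2 * N := by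
    have e : ∑ ρ, h ρ = c * N := by
      rw [hc]; field_simp
    rw [hh0]
    simp only [inn_sub_left, inn_sub_right, inn_smul_left, inn_smul_right]
    rw [i1, i4, i5, e]
    ring
  rw [hRh, h5]
  have e7 : (∑ ρ, h ρ) ^ 2 / N = c ^ 2 * N := by
    rw [hc]; field_simp
  rw [mul_div_assoc, e7]
  rw [h6] at h3
  nlinarith

/-- one doubling step -/
theorem gap_step {ν : RG (Perm V)} (hν : IsLaw ν) {g : ℝ} (hg : 0 ≤ g) (hg1 : g ≤ 1)
    (hgap : GapForm (rev ν * ν) g) :
    GapForm (dbl (rev ν * ν)) (g + (1 - g) * kapS (Fintype.card V)) := by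
  intro h
  set T := rev ν * ν with hT
  set G := regL (GateA : RG WW) with hG
  set F := G h with hF
  have e1 : inn h (regL (dbl T) h) = inn F (regL (Ten T) F) := by
    rw [regL_dbl, ← hG, ← hF]
    exact inn_GateA _ _
  have h1 := ten_le hν hg hgap F
  have h2 : inn F F ≤ inn h h := inn_regL_law_le rg_isLaw_GateA h
  have h3 := johnson_norm h
  rw [← hG, ← hF] at h3
  rw [e1]
  set κ := kapS (Fintype.card V) with hκ
  have hκ0 : 0 ≤ κ := kapS_nonneg _
  have h4 : (1 - g) * inn (avgH F) (avgH F)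
      ≤ (1 - g) * ((1 - κ) * (∑ ρ, h ρ) ^ 2 / (Fintype.card WW : ℝ) + κ * inn h h) :=
    mul_le_mul_of_nonneg_left h3 (by linarith)
  have h5 : g * inn F F ≤ g * inn h h := mul_le_mul_of_nonneg_left h2 hg
  calc _ ≤ (1 - g) * inn (avgH F) (avgH F) + g * inn F F := h1
    _ ≤ _ := add_le_add h4 h5
    _ = _ := by ring

end

/-! ### the tower -/

/-- the gap sequence -/
noncomputable def gK : ℕ → ℝ
  | 0 => 0
  | k + 1 => gK k + (1 - gK k) * kapS (2 ^ k)

theorem kapS_le_half (s : ℕ) : kapS s ≤ 1 / 2 := by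
  unfold kapS
  split_ifs with h
  · norm_num
  · have hs : (1 : ℝ) ≤ s := by
      have : 1 ≤ s := by omega
      exact_mod_cast this
    rw [div_le_div_iff₀ (by positivity) (by norm_num)]
    linarith

theorem gK_nonneg_le : ∀ k, 0 ≤ gK k ∧ gK k ≤ 1
  | 0 => by simp [gK]
  | k + 1 => by
    obtain ⟨h0, h1⟩ := gK_nonneg_le k
    simp only [gK]
    have h2 := kapS_nonneg (2 ^ k)
    have h3 := kapS_le_half (2 ^ k)
    constructor
    · have : 0 ≤ (1 - gK k) * kapS (2 ^ k) := mul_nonneg (by linarith) h2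
      linarith
    · nlinarith

theorem gap_zero : GapForm (bA 0) (gK 0) := by
  intro h
  have hone : bA 0 = 1 := rfl
  rw [hone]
  have hu : ∀ σ : Perm (Pos 0), σ = 1 := by
    intro σ
    ext1 x
    exact Subsingleton.elim (α := Unit) _ _
  have huniv : (Finset.univ : Finset (Perm (Pos 0))) = {1} := by
    ext σ
    simp [hu σ]
  have hcard : Fintype.card (Perm (Pos 0)) = 1 := by
    rw [← Finset.card_univ, huniv, Finset.card_singleton]
  have hr : regL (1 : RG (Perm (Pos 0))) h = h := by
    funext σ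
    unfold regL
    rw [huniv, Finset.sum_singleton, cf_one, if_pos rfl, one_mul, one_mul]
  rw [hr, hcard]
  simp only [inn, huniv, Finset.sum_singleton, gK]
  simp [sq]

/-- the gap for the whole tower -/
theorem gap_tower : ∀ k, GapForm (bA k) (gK k)
  | 0 => gap_zero
  | k + 1 => by
    have ih := gap_tower k
    rw [bA_eq k] at ih
    obtain ⟨h0, h1⟩ := gK_nonneg_le k
    have := gap_step (rg_isLaw_nu k) h0 h1 ih
    rw [← bA_eq k, card_Pos] at this
    exact this

/-- the product form -/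
theorem one_sub_gK_succ (k : ℕ) :
    1 - gK (k + 1) = (1 - gK k) * (1 - kapS (2 ^ k)) := by
  simp only [gK]
  ring

theorem kapS_pow (k : ℕ) : kapS (2 ^ (k + 1)) = (1 / 2 : ℝ) ^ (k + 2) := by
  unfold kapS
  have : ¬ (2 ^ (k + 1) ≤ 1) := by
    have : 2 ≤ 2 ^ (k + 1) := by
      calc 2 = 2 ^ 1 := by norm_num
        _ ≤ 2 ^ (k + 1) := Nat.pow_le_pow_right (by norm_num) (by omega)
    omega
  rw [if_neg this, one_div_pow]
  congr 1
  push_cast
  ring

theorem kapS_one : kapS 1 = 0 := by simp [kapS]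

/-- the explicit uniform bound -/
theorem gK_le (k : ℕ) : gK k ≤ 0.4225 := by
  set a : ℕ → ℝ := fun k => 1 - gK k with ha
  have a0 : a 0 = 1 := by simp [ha, gK]
  have a1 : a 1 = 1 := by
    simp only [ha]
    rw [one_sub_gK_succ]
    simp [gK, kapS_one]
  have astep : ∀ k, a (k + 2) = a (k + 1) * (1 - (1 / 2 : ℝ) ^ (k + 2)) := by
    intro k
    simp only [ha]
    rw [one_sub_gK_succ, kapS_pow]
  have anti : ∀ k, 0 ≤ a k := fun k => by
    have := (gK_nonneg_le k).2
    simp only [ha]; linarith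
  have a8 : (0.5775 : ℝ) ≤ a 8 * (1 - (1 / 2 : ℝ) ^ 8) := by
    have e2 := astep 0
    have e3 := astep 1
    have e4 := astep 2
    have e5 := astep 3
    have e6 := astep 4
    have e7 := astep 5
    have e8 := astep 6
    simp only [zero_add, Nat.reduceAdd] at e2 e3 e4 e5 e6 e7 e8
    rw [e8, e7, e6, e5, e4, e3, e2, a1]
    norm_num
  have astep' : ∀ k, 1 ≤ k → a (k + 1) = a k * (1 - (1 / 2 : ℝ) ^ (k + 1)) := by
    intro k hk
    obtain ⟨m, rfl⟩ := Nat.exists_eq_add_of_le hk
    have := astep m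
    rw [show 1 + m + 1 = m + 2 by omega, show 1 + m = m + 1 by omega]
    exact this
  -- monotonicity of `a k (1 - 2^-k)`
  have hmono : ∀ k, 8 ≤ k → (0.5775 : ℝ) ≤ a k * (1 - (1 / 2 : ℝ) ^ k) := by
    intro k hk
    induction k, hk using Nat.le_induction with
    | base => exact a8
    | succ k hk ih =>
      have e := astep' k (by omega)
      have hx : (0 : ℝ) ≤ (1 / 2 : ℝ) ^ (k + 1) := by positivity
      have hk2 : (1 / 2 : ℝ) ^ k = 2 * (1 / 2 : ℝ) ^ (k + 1) := by
        rw [pow_succ]; ring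
      rw [e]
      set x := (1 / 2 : ℝ) ^ (k + 1) with hxdef
      rw [hk2] at ih
      have hax := anti k
      have hkey : (1 - 2 * x) ≤ (1 - x) * (1 - x) := by nlinarith
      calc (0.5775 : ℝ) ≤ a k * (1 - 2 * x) := ih
        _ ≤ a k * ((1 - x) * (1 - x)) := mul_le_mul_of_nonneg_left hkey hax
        _ = _ := by ring
  have hlow : ∀ k, (0.5775 : ℝ) ≤ a k := by
    intro k
    -- `a` is antitone
    have hanti : ∀ k, a (k + 1) ≤ a k := by
      intro k
      simp only [ha]
      rw [one_sub_gK_succ]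
      have h1 := kapS_nonneg (2 ^ k)
      have h2 := (gK_nonneg_le k).2
      nlinarith
    have hanti' : ∀ i j, i ≤ j → a j ≤ a i := by
      intro i j hij
      induction j, hij using Nat.le_induction with
      | base => exact le_rfl
      | succ j _ ih => exact (hanti j).trans ih
    have hle : ∀ k, 8 ≤ k → (0.5775 : ℝ) ≤ a k := by
      intro k hk
      have h1 := hmono k hk
      have hp : (0 : ℝ) ≤ (1 / 2 : ℝ) ^ k := by positivity
      have ha' := anti k
      nlinarith
    by_cases hk : 8 ≤ k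
    · exact hle k hk
    · exact (hle 8 le_rfl).trans (hanti' k 8 (by omega))
  have := hlow k
  simp only [ha] at this
  linarith

/-- the norm form: on mean-zero functions, `T_k` contracts by `gK k` -/
theorem gap_norm (k : ℕ) {h : Perm (Pos k) → ℝ} (hh : ∑ σ, h σ = 0) :
    inn (regL (bA k) h) (regL (bA k) h) ≤ gK k ^ 2 * inn h h := by
  have ih := gap_tower k
  rw [bA_eq k] at ih ⊢
  exact GapForm.norm_of_sum_zero (rg_isLaw_nu k) (gK_nonneg_le k).1 ih hh

end Crest.Agent.Lib.Thorp
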