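import Mathlib
import Crest.Agent.Lib.Thorp.Gap
import Crest.Agent.Lib.Thorp.HighLink

set_option autoImplicit false

/-!
# The uniform gap on the carriers of `HighLevel` and `Tup` (S0222)
-/

namespace Crest.Agent.Lib.Thorp

open Finset Equiv

theorem act_eq_regL_rev {G : Type*} [Group G] [Fintype G] [DecidableEq G] (a : RG G) (f : G → ℝ) :
    act a f = regL (rev a) f := by
  funext u
  unfold act regL
  apply Fintype.sum_equiv (Equiv.inv G)
  intro g
  simp [cf_rev]

/-- the uniform gap, `HGe 1` form -/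
theorem GapBd_bA_gK (k : ℕ) : GapBd (bA k) 1 (gK k) := by
  intro f hf
  have hs : ∑ x, f x = 0 := by
    have := hf ∅ (by simp) (fun _ => 1) (by intro _ _ _; rfl)
    simpa using this
  rw [act_eq_regL_rev, rev_bA]
  have := gap_norm k hs
  simpa [inn, nsqG, sq] using this

/-- the uniform gap with the explicit constant -/
theorem GapBd_bA_gap (k : ℕ) : GapBd (bA k) 1 (0.4225 : ℝ) := by
  intro f hf
  have h := GapBd_bA_gK k f hf
  have h0 := (gK_nonneg_le k).1
  have h1 := gK_le k
  have hn : 0 ≤ nsqG f := Finset.sum_nonneg fun _ _ => sq_nonneg _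
  refine h.trans (mul_le_mul_of_nonneg_right ?_ hn)
  exact pow_le_pow_left₀ h0 h1 2

/-- **The uniform gap on all pure tuple functions of level at least one.** -/
theorem NormBd_bA_gap (k r : ℕ) (hr : 1 ≤ r) : NormBd (bA k) r (0.4225 : ℝ) :=
  NormBd_of_GapBd (rev_bA k) ((GapBd_bA_gap k).mono hr)

/-- the uniform gap with halving: levels above `2^(k+j) - 2^k` at scale `k + j` decay doubly
exponentially in `j`. -/
theorem NormBd_bA_gap_high (k j r : ℕ) (hr : 1 + (2 ^ (k + j) - 2 ^ k) ≤ r) :
    NormBd (bA (k + j)) r ((0.4225 : ℝ) ^ (2 ^ j)) :=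
  NormBd_high (fun r hr' => NormBd_bA_gap k r hr') j r hr

end Crest.Agent.Lib.Thorp
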